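import Vale.Agent.P080.TPL

open Metric Set Filter Topology
open scoped RealInnerProductSpace

namespace Vale.Agent.P080

variable {E : Type*} [NormedAddCommGroup E] [InnerProductSpace ℝ E]

theorem numeric_excl {Z τ c X K ξ : ℝ} (hZ : 0 < Z) (hZ2 : Z ≤ 2) (hτ : 0 < τ) (hτ1 : τ ≤ 1)
    (hc : 0 < c) (hc1 : c ≤ Z / 24) (hX0 : 0 ≤ X) (hX : X ≤ 6 / Z) (hK0 : 0 ≤ K) (hK : K ≤ 2)
    (hξ0 : 0 ≤ ξ) (hξ : ξ ≤ 1 + 2 * τ * c * (Z ^ 2 / 16) * X) :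
    2 * (2 * τ * c * (Z ^ 2 / 16)) ^ 2 * X ^ 2 / τ + 2 * (2 * τ * c * (Z ^ 2 / 16)) * ξ ^ 2
      < (2 * τ * c) / 2 * (Z + 2 * τ * c - 2 * (2 * τ * c) * K) ^ 2 := by
  have hXZ : X * Z ≤ 6 := by rwa [le_div_iff₀ hZ] at hX
  have hcτ : τ * c ≤ Z / 24 := by nlinarith
  have h1 : 3 / 4 * Z ≤ Z + 2 * τ * c - 2 * (2 * τ * c) * K := by
    have : τ * c * K ≤ Z / 24 * 2 := by
      apply mul_le_mul hcτ hK hK0 (by linarith)
    have : 0 < τ * c := by positivity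
    nlinarith
  have h2 : (3 / 4 * Z) ^ 2 ≤ (Z + 2 * τ * c - 2 * (2 * τ * c) * K) ^ 2 :=
    pow_le_pow_left₀ (by positivity) h1 2
  have h3 : ξ ≤ 19 / 16 := by
    refine hξ.trans ?_
    have e : 2 * τ * c * (Z ^ 2 / 16) * X = (τ * c) * Z * (X * Z) / 8 := by ring
    rw [e]
    have h4 : (τ * c) * Z ≤ 1 / 12 * 2 := by
      apply mul_le_mul (by linarith) hZ2 hZ.le (by norm_num)
    have h5 : (τ * c) * Z * (X * Z) ≤ 1 / 12 * 2 * 6 := by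
      apply mul_le_mul h4 hXZ (by positivity) (by norm_num)
    linarith
  have h4 : ξ ^ 2 ≤ (19 / 16) ^ 2 := pow_le_pow_left₀ hξ0 h3 2
  have h5 : 2 * (2 * τ * c * (Z ^ 2 / 16)) ^ 2 * X ^ 2 / τ
      = τ * c * (c * Z ^ 2 * (X * Z) ^ 2 / 32) := by
    field_simp
    ring
  rw [h5]
  have h6 : (X * Z) ^ 2 ≤ 6 ^ 2 := pow_le_pow_left₀ (by positivity) hXZ 2
  have h7 : c * Z ^ 2 * (X * Z) ^ 2 ≤ 1 / 12 * Z ^ 2 * 6 ^ 2 := by
    have : c ≤ 1 / 12 := by linarith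
    have : c * Z ^ 2 ≤ 1 / 12 * Z ^ 2 := by
      apply mul_le_mul_of_nonneg_right this (by positivity)
    exact mul_le_mul this h6 (by positivity) (by positivity)
  have h8 : (0 : ℝ) < τ * c := by positivity
  have hZZ : 0 < Z ^ 2 := by positivity
  have h9 : c * Z ^ 2 * (X * Z) ^ 2 / 32 + Z ^ 2 / 4 * ξ ^ 2
      < (Z + 2 * τ * c - 2 * (2 * τ * c) * K) ^ 2 := by
    have : Z ^ 2 / 4 * ξ ^ 2 ≤ Z ^ 2 / 4 * (19 / 16) ^ 2 := by
      apply mul_le_mul_of_nonneg_left h4 (by positivity)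
    nlinarith
  have h10 := mul_lt_mul_of_pos_left h9 h8
  nlinarith


theorem doubling_step [FiniteDimensional ℝ E] {u : E → ℝ} (hu : Cls u) {Z w τ c : ℝ} (hZ : 0 < Z)
    (hZ2 : Z ≤ 2) (hτ : 0 < τ) (hτ1 : τ ≤ 1) (hc : 0 < c) (hc1 : c ≤ Z / 24) {h : E}
    (hh : ‖h‖ = 1) (hext : u h + u (-h) - 2 * u 0 = Z)
    (hw : infc τ u 0 ≤ u 0 - τ * w) :
    ∃ x κ : E, 1 / 2 ≤ ‖κ‖ ∧ ‖κ‖ ≤ 2 ∧ ‖x‖ ≤ 6 / Z ∧
      (‖κ‖ = 1 / 2 ∨ ‖κ‖ = 2 ∨ ‖x‖ = 6 / Z) ∧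
      Z * ‖κ‖ + 2 * τ * (w + c * (‖κ‖ * (1 - ‖κ‖) + Z ^ 2 / 16 * ‖x‖ ^ 2))
        ≤ u (x + κ) + u (x - κ) - 2 * infc τ u x + 2 * τ ^ 2 := by
  set ε := τ ^ 2 with hε
  have hε0 : 0 < ε := by positivity
  set f := supc ε u with hf
  set k := infc ε u with hk
  have hfl : Lip1 f := hu.lip.lip_supc hε0
  have hkl : Lip1 k := hu.lip.lip_infc hε0
  have hkl2 : Lip1 (infc τ k) := hkl.lip_infc hτ
  have hul2 : Lip1 (infc τ u) := hu.lip.lip_infc hτ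
  have hfu : ∀ x, u x ≤ f x := fun x => hu.lip.self_le_supc hε0 x
  have hfu2 : ∀ x, f x ≤ u x + ε / 2 := fun x => hu.lip.supc_le hε0 x
  have hku : ∀ x, k x ≤ u x := fun x => hu.lip.infc_le_self hε0 x
  have hku2 : ∀ x, u x - ε / 2 ≤ k x := fun x => hu.lip.le_infc hε0 x
  have hi1 : ∀ x, infc τ k x ≤ infc τ u x := by
    intro x
    obtain ⟨ξ, -, hξ⟩ := hu.lip.exists_infc hτ x
    have := hkl.infc_le hτ x (x - ξ)
    rw [sub_sub_cancel_left, norm_neg] at this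
    linarith [hku (x - ξ)]
  have hi2 : ∀ x, infc τ u x - ε / 2 ≤ infc τ k x := by
    intro x
    obtain ⟨ξ, -, hξ⟩ := hkl.exists_infc hτ x
    have := hu.lip.infc_le hτ x (x - ξ)
    rw [sub_sub_cancel_left, norm_neg] at this
    linarith [hku2 (x - ξ)]
  set φ : E × E → ℝ := fun p =>
    Z * ‖p.2‖ + 2 * τ * (w + c * (‖p.2‖ * (1 - ‖p.2‖) + Z ^ 2 / 16 * ‖p.1‖ ^ 2)) with hφ
  set G : E × E → ℝ := fun p => f (p.1 + p.2) + f (p.1 - p.2) - 2 * infc τ k p.1 - φ p with hG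
  have hGc : Continuous G := by
    have h1 := hfl.continuous
    have h2 := hkl2.continuous
    simp only [hG, hφ]
    fun_prop
  set K : Set (E × E) := (closedBall 0 (6 / Z)) ×ˢ (closedBall 0 2 ∩ {κ | 1 / 2 ≤ ‖κ‖}) with hK
  have hKc : IsCompact K := by
    refine (isCompact_closedBall _ _).prod ((isCompact_closedBall _ _).inter_right ?_)
    exact isClosed_le continuous_const continuous_norm
  have hmem : ((0 : E), h) ∈ K := by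
    refine ⟨?_, ?_, ?_⟩
    · simp only [mem_closedBall, dist_self]; positivity
    · simp [hh]
    · simp [hh]; norm_num
  obtain ⟨⟨x, κ⟩, ⟨hx, hκ2, hκ1⟩, hmax⟩ := hKc.exists_isMaxOn ⟨_, hmem⟩ hGc.continuousOn
  simp only [mem_closedBall, dist_zero_right, mem_ofPred_eq] at hx hκ1 hκ2
  have hG0 : 0 ≤ G (x, κ) := by
    have h1 : G (0, h) ≤ G (x, κ) := hmax hmem
    refine le_trans ?_ h1
    simp only [hG, hφ, hh, norm_zero, zero_add, zero_sub]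
    have := hi1 0
    have := hfu h
    have := hfu (-h)
    nlinarith
  refine ⟨x, κ, hκ1, hκ2, hx, ?_, ?_⟩
  · by_contra hcon
    push Not at hcon
    obtain ⟨hn1, hn2, hn3⟩ := hcon
    have hx' : ‖x‖ < 6 / Z := lt_of_le_of_ne hx hn3
    have hκ1' : 1 / 2 < ‖κ‖ := lt_of_le_of_ne hκ1 (Ne.symm hn1)
    have hκ2' : ‖κ‖ < 2 := lt_of_le_of_ne hκ2 hn2
    obtain ⟨ξ, hξτ, hξ⟩ := hkl.exists_infc hτ x
    have hκ0 : κ ≠ 0 := by
      rintro rfl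
      simp at hκ1'
      linarith
    have htpl := tpl (f := f) (k := k) hfl hkl hε0
      (fun s hs hse y => hu.two_supc_le hs hse y) (fun s hs hse y => hu.le_two_infc hs hse y)
      (τ := τ) (α := Z + 2 * τ * c) (β := 2 * τ * c) (γ := 2 * τ * c * (Z ^ 2 / 16)) hτ
      (by positivity) (m := x) (κ := κ) (ξ := ξ) hκ0
      (ρ := min (6 / Z - ‖x‖) (min (‖κ‖ - 1 / 2) (2 - ‖κ‖)))
      (by
        simp only [lt_min_iff]
        exact ⟨by linarith, by linarith, by linarith⟩) ?_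
    · have hnum := numeric_excl hZ hZ2 hτ hτ1 hc hc1 (norm_nonneg x) hx (norm_nonneg κ) hκ2
        (norm_nonneg ((1 / τ) • ξ + (2 * τ * c * (Z ^ 2 / 16)) • x)) ?_
      · linarith
      · refine (norm_add_le _ _).trans ?_
        rw [norm_smul, norm_smul, Real.norm_of_nonneg (by positivity),
          Real.norm_of_nonneg (by positivity)]
        have : 1 / τ * ‖ξ‖ ≤ 1 := by
          rw [div_mul_eq_mul_div, one_mul, div_le_one hτ]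
          exact hξτ
        linarith
    · intro x' κ' ξ' hx1 hκ1 hξ1
      have hxx : ‖x'‖ ≤ 6 / Z := by
        have h1 : ‖x' - x‖ < 6 / Z - ‖x‖ := hx1.trans_le (min_le_left _ _)
        have h2 := norm_sub_norm_le x' x
        linarith
      have hκκ : ‖κ'‖ ≤ 2 := by
        have h1 : ‖κ' - κ‖ < 2 - ‖κ‖ := hκ1.trans_le ((min_le_right _ _).trans (min_le_right _ _))
        have h2 := norm_sub_norm_le κ' κ
        linarith
      have hκκ' : 1 / 2 ≤ ‖κ'‖ := by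
        have h1 : ‖κ' - κ‖ < ‖κ‖ - 1 / 2 :=
          hκ1.trans_le ((min_le_right _ _).trans (min_le_left _ _))
        have h2 := norm_sub_norm_le κ κ'
        rw [norm_sub_rev] at h1
        linarith
      have hm : G (x', κ') ≤ G (x, κ) := by
        refine hmax (⟨?_, ?_, ?_⟩ : (x', κ') ∈ K)
        · simpa using hxx
        · simpa using hκκ
        · exact hκκ'
      simp only [hG, hφ] at hm
      have h3 := hkl.infc_le hτ x' (x' - ξ')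
      rw [sub_sub_cancel_left, norm_neg] at h3
      have e1 : ‖ξ'‖ ^ 2 / (2 * τ) = ‖ξ'‖ ^ 2 / τ / 2 := by field_simp
      have e2 : ‖ξ‖ ^ 2 / (2 * τ) = ‖ξ‖ ^ 2 / τ / 2 := by field_simp
      rw [e1] at h3
      rw [e2] at hξ
      nlinarith
  · simp only [hG, hφ] at hG0
    have := hi2 x
    have := hfu2 (x + κ)
    have := hfu2 (x - κ)
    linarith


theorem limit_theta {u : E → ℝ} (hu : Cls u) {Z : ℝ} {x κ : ℕ → E} {τ : ℕ → ℝ} {x' κ' : E}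
    (hτ0 : ∀ n, 0 < τ n) (hτ : Tendsto τ atTop (𝓝 0)) (hx : Tendsto x atTop (𝓝 x'))
    (hκ : Tendsto κ atTop (𝓝 κ')) {η : ℕ → ℝ} {η' : ℝ} (hη : Tendsto η atTop (𝓝 η'))
    (h5 : ∀ n, Z * ‖κ n‖ + 2 * τ n * η n
        ≤ u (x n + κ n) + u (x n - κ n) - 2 * infc (τ n) u (x n) + 2 * τ n ^ 2) :
    Z * ‖κ'‖ ≤ u (x' + κ') + u (x' - κ') - 2 * u x' := by
  have huc := hu.lip.continuous
  have hl1 := (huc.tendsto _).comp (hx.add hκ)
  have hl2 := (huc.tendsto _).comp (hx.sub hκ)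
  have hl3 := (huc.tendsto _).comp hx
  have hr := (hl1.add hl2).sub (hl3.const_mul 2)
  have hl := (((hκ.norm.const_mul Z).add ((hτ.const_mul 2).mul hη)).sub
        ((hτ.pow 2).const_mul 2)).sub hτ
  have := le_of_tendsto_of_tendsto' hl hr (fun n => ?_)
  · simpa using this
  · have a1 := h5 n
    have a2 := hu.lip.le_infc (hτ0 n) (x n)
    simp only [Function.comp]
    linarith

theorem limit_W [FiniteDimensional ℝ E] {u : E → ℝ} (hu : Cls u) {Z : ℝ}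
    (hZmax : ∀ x h : E, u (x + h) + u (x - h) - 2 * u x ≤ Z * ‖h‖)
    {x κ : ℕ → E} {τ : ℕ → ℝ} {x' : E}
    (hτ0 : ∀ n, 0 < τ n) (hτ : Tendsto τ atTop (𝓝 0)) (hx : Tendsto x atTop (𝓝 x'))
    {η : ℕ → ℝ} {η' : ℝ} (hη : Tendsto η atTop (𝓝 η'))
    (h5 : ∀ n, Z * ‖κ n‖ + 2 * τ n * η n
        ≤ u (x n + κ n) + u (x n - κ n) - 2 * infc (τ n) u (x n) + 2 * τ n ^ 2)
    {T : ℝ} (hT : 0 < T) : η' ≤ (u x' - infc T u x') / T := by
  have huc := hu.lip.continuous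
  have hcT := (hu.lip.lip_infc hT).continuous
  have g : Continuous fun y : E => (u y - infc T u y) / T := by fun_prop
  have hr := (g.tendsto x').comp hx
  have hl := hη.sub hτ
  rw [sub_zero] at hl
  refine le_of_tendsto_of_tendsto hl hr ?_
  have hev : ∀ᶠ n in atTop, τ n < T := hτ.eventually_lt_const hT
  filter_upwards [hev] with n hn
  have a1 := h5 n
  have a2 := hZmax (x n) (κ n)
  have a3 := hu.quot_infc_mono (hτ0 n) hn.le (x n)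
  refine le_trans ?_ a3
  rw [le_div_iff₀ (hτ0 n)]
  nlinarith [hτ0 n]

theorem isCompact_region [FiniteDimensional ℝ E] (X : ℝ) :
    IsCompact (((closedBall (0 : E) X) ×ˢ (closedBall (0 : E) 2 ∩ {κ | 1 / 2 ≤ ‖κ‖})) ∩
    {p : E × E | ‖p.2‖ = 1 / 2 ∨ ‖p.2‖ = 2 ∨ ‖p.1‖ = X}) := by
  refine ((isCompact_closedBall _ _).prod ((isCompact_closedBall _ _).inter_right ?_)).inter_right ?_
  · exact isClosed_le continuous_const continuous_norm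
  · have e : {p : E × E | ‖p.2‖ = 1 / 2 ∨ ‖p.2‖ = 2 ∨ ‖p.1‖ = X}
        = {p | ‖p.2‖ = 1 / 2} ∪ ({p | ‖p.2‖ = 2} ∪ {p | ‖p.1‖ = X}) := by
      ext p; simp
    rw [e]
    exact (isClosed_eq (by fun_prop) (by fun_prop)).union
      ((isClosed_eq (by fun_prop) (by fun_prop)).union
        (isClosed_eq (by fun_prop) (by fun_prop)))

theorem region_excl {Z X K c : ℝ} (hZ : 0 < Z) (hc : 0 < c) (hK : 1 / 2 ≤ K) (hK2 : K ≤ 2)
    (hb : K = 1 / 2 ∨ K = 2 ∨ X = 6 / Z) {w : ℝ}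
    (hη : w + c * (K * (1 - K) + Z ^ 2 / 16 * X ^ 2) ≤ w) : K = 2 := by
  have hη' : K * (1 - K) + Z ^ 2 / 16 * X ^ 2 ≤ 0 := by
    by_contra hcon
    push Not at hcon
    have := mul_pos hc hcon
    linarith
  rcases hb with hb | hb | hb
  · rw [hb] at hη'
    have : 0 ≤ Z ^ 2 / 16 * X ^ 2 := by positivity
    linarith
  · exact hb
  · rw [hb] at hη'
    have e : Z ^ 2 / 16 * (6 / Z) ^ 2 = 9 / 4 := by field_simp; norm_num
    rw [e] at hη'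
    nlinarith

theorem doubling_c [FiniteDimensional ℝ E] {u : E → ℝ} (hu : Cls u) {Z w c : ℝ} (hZ : 0 < Z)
    (hZ2 : Z ≤ 2)
    (hZmax : ∀ x h : E, u (x + h) + u (x - h) - 2 * u x ≤ Z * ‖h‖)
    (hw : ∀ x h : E, h ≠ 0 → u (x + h) + u (x - h) - 2 * u x = Z * ‖h‖ →
      ∀ w' : ℝ, (∀ τ : ℝ, 0 < τ → w' ≤ (u x - infc τ u x) / τ) → w' ≤ w)
    (hc : 0 < c) (hc1 : c ≤ Z / 24) {h : E}
    (hh : ‖h‖ = 1) (hext : u h + u (-h) - 2 * u 0 = Z)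
    (hw0 : ∀ τ : ℝ, 0 < τ → w ≤ (u 0 - infc τ u 0) / τ) :
    ∃ x κ : E, ‖κ‖ = 2 ∧ ‖x‖ ≤ 6 / Z ∧ u (x + κ) + u (x - κ) - 2 * u x = Z * ‖κ‖ ∧
      ∀ τ : ℝ, 0 < τ → w - 2 * c ≤ (u x - infc τ u x) / τ := by
  have hstep : ∀ n : ℕ, ∃ x κ : E, 1 / 2 ≤ ‖κ‖ ∧ ‖κ‖ ≤ 2 ∧ ‖x‖ ≤ 6 / Z ∧
      (‖κ‖ = 1 / 2 ∨ ‖κ‖ = 2 ∨ ‖x‖ = 6 / Z) ∧
      Z * ‖κ‖ + 2 * (1 / ((n : ℝ) + 1)) *
          (w + c * (‖κ‖ * (1 - ‖κ‖) + Z ^ 2 / 16 * ‖x‖ ^ 2))
        ≤ u (x + κ) + u (x - κ) - 2 * infc (1 / ((n : ℝ) + 1)) u x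
          + 2 * (1 / ((n : ℝ) + 1)) ^ 2 := by
    intro n
    have hn : (0 : ℝ) < 1 / ((n : ℝ) + 1) := by positivity
    refine doubling_step hu hZ hZ2 hn ?_ hc hc1 hh hext ?_
    · rw [div_le_one (by positivity)]
      linarith [Nat.cast_nonneg (α := ℝ) n]
    · have := hw0 _ hn
      rw [le_div_iff₀ hn] at this
      linarith
  choose x κ h1 h2 h3 h4 h5 using hstep
  obtain ⟨⟨x', κ'⟩, hK', φ, hφ, hlim⟩ := (isCompact_region (E := E) (6 / Z)).tendsto_subseq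
    (x := fun n => (x n, κ n)) (fun n => ⟨⟨by simpa using h3 n, by simpa using h2 n, h1 n⟩, h4 n⟩)
  have hlx : Tendsto (fun n => x (φ n)) atTop (𝓝 x') :=
    (continuous_fst.tendsto (x', κ')).comp hlim
  have hlκ : Tendsto (fun n => κ (φ n)) atTop (𝓝 κ') :=
    (continuous_snd.tendsto (x', κ')).comp hlim
  have hτ : Tendsto (fun n => 1 / ((φ n : ℝ) + 1)) atTop (𝓝 0) :=
    (tendsto_one_div_add_atTop_nhds_zero_nat (𝕜 := ℝ)).comp hφ.tendsto_atTop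
  obtain ⟨⟨hx', hκ', hκ'1⟩, hb⟩ := hK'
  simp only [mem_closedBall, dist_zero_right, mem_ofPred_eq] at hx' hκ' hκ'1 hb
  have hlη : Tendsto (fun n => w + c * (‖κ (φ n)‖ * (1 - ‖κ (φ n)‖) + Z ^ 2 / 16 * ‖x (φ n)‖ ^ 2))
      atTop (𝓝 (w + c * (‖κ'‖ * (1 - ‖κ'‖) + Z ^ 2 / 16 * ‖x'‖ ^ 2))) :=
    (((hlκ.norm.mul (hlκ.norm.const_sub 1)).add ((hlx.norm.pow 2).const_mul _)).const_mul c).const_add w
  have hn0 : ∀ n, (0 : ℝ) < 1 / ((φ n : ℝ) + 1) := fun n => by positivity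
  have hΘ : u (x' + κ') + u (x' - κ') - 2 * u x' = Z * ‖κ'‖ :=
    le_antisymm (hZmax x' κ') (limit_theta hu hn0 hτ hlx hlκ hlη fun n => h5 (φ n))
  have hW : ∀ T : ℝ, 0 < T → w + c * (‖κ'‖ * (1 - ‖κ'‖) + Z ^ 2 / 16 * ‖x'‖ ^ 2)
      ≤ (u x' - infc T u x') / T := fun T hT =>
    limit_W hu hZmax hn0 hτ hlx hlη (fun n => h5 (φ n)) hT
  have hκ0 : κ' ≠ 0 := by
    rintro rfl
    simp at hκ'1
    linarith
  have hκeq : ‖κ'‖ = 2 := region_excl hZ hc hκ'1 hκ' hb (hw x' κ' hκ0 hΘ _ hW)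
  refine ⟨x', κ', hκeq, hx', hΘ, ?_⟩
  intro τ hτ
  refine le_trans ?_ (hW τ hτ)
  rw [hκeq]
  have : 0 ≤ c * (Z ^ 2 / 16 * ‖x'‖ ^ 2) := by positivity
  linarith

theorem doubling_unit [FiniteDimensional ℝ E] {u : E → ℝ} (hu : Cls u) {Z w : ℝ} (hZ : 0 < Z)
    (hZ2 : Z ≤ 2)
    (hZmax : ∀ x h : E, u (x + h) + u (x - h) - 2 * u x ≤ Z * ‖h‖)
    (hw : ∀ x h : E, h ≠ 0 → u (x + h) + u (x - h) - 2 * u x = Z * ‖h‖ →
      ∀ w' : ℝ, (∀ τ : ℝ, 0 < τ → w' ≤ (u x - infc τ u x) / τ) → w' ≤ w) {h : E}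
    (hh : ‖h‖ = 1) (hext : u h + u (-h) - 2 * u 0 = Z)
    (hw0 : ∀ τ : ℝ, 0 < τ → w ≤ (u 0 - infc τ u 0) / τ) :
    ∃ x κ : E, ‖κ‖ = 2 ∧ ‖x‖ ≤ 6 / Z ∧ u (x + κ) + u (x - κ) - 2 * u x = Z * ‖κ‖ ∧
      ∀ τ : ℝ, 0 < τ → w ≤ (u x - infc τ u x) / τ := by
  have hstep : ∀ n : ℕ, ∃ x κ : E, ‖κ‖ = 2 ∧ ‖x‖ ≤ 6 / Z ∧
      u (x + κ) + u (x - κ) - 2 * u x = Z * ‖κ‖ ∧
      ∀ τ : ℝ, 0 < τ → w - 2 * (Z / 24 * (1 / ((n : ℝ) + 1))) ≤ (u x - infc τ u x) / τ := by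
    intro n
    refine doubling_c hu hZ hZ2 hZmax hw (by positivity) ?_ hh hext hw0
    have : 1 / ((n : ℝ) + 1) ≤ 1 := by
      rw [div_le_one (by positivity)]
      linarith [Nat.cast_nonneg (α := ℝ) n]
    nlinarith
  choose x κ h1 h2 h3 h4 using hstep
  have hKc : IsCompact ((closedBall (0 : E) (6 / Z)) ×ˢ (sphere (0 : E) 2)) :=
    (isCompact_closedBall _ _).prod (isCompact_sphere _ _)
  have hmem : ∀ n, (x n, κ n) ∈ (closedBall (0 : E) (6 / Z)) ×ˢ (sphere (0 : E) 2) := by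
    intro n
    exact ⟨by simpa using h2 n, by simpa using h1 n⟩
  obtain ⟨⟨x', κ'⟩, hK', φ, hφ, hlim⟩ := hKc.tendsto_subseq hmem
  have hlx : Tendsto (fun n => x (φ n)) atTop (𝓝 x') :=
    (continuous_fst.tendsto (x', κ')).comp hlim
  have hlκ : Tendsto (fun n => κ (φ n)) atTop (𝓝 κ') :=
    (continuous_snd.tendsto (x', κ')).comp hlim
  have hτ : Tendsto (fun n => 1 / ((φ n : ℝ) + 1)) atTop (𝓝 0) :=
    (tendsto_one_div_add_atTop_nhds_zero_nat (𝕜 := ℝ)).comp hφ.tendsto_atTop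
  have huc := hu.lip.continuous
  obtain ⟨hx', hκ'⟩ := hK'
  simp only [mem_closedBall, mem_sphere, dist_zero_right] at hx' hκ'
  refine ⟨x', κ', hκ', hx', ?_, ?_⟩
  · have hl1 := (huc.tendsto _).comp (hlx.add hlκ)
    have hl2 := (huc.tendsto _).comp (hlx.sub hlκ)
    have hl3 := (huc.tendsto _).comp hlx
    have hr := (hl1.add hl2).sub (hl3.const_mul 2)
    exact tendsto_nhds_unique hr ((hlκ.norm.const_mul Z).congr fun n => (h3 (φ n)).symm)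
  · intro τ hτ0
    have hcT := (hu.lip.lip_infc hτ0).continuous
    have hr : Tendsto (fun n => (u (x (φ n)) - infc τ u (x (φ n))) / τ) atTop
        (𝓝 ((u x' - infc τ u x') / τ)) := by
      have g : Continuous fun y : E => (u y - infc τ u y) / τ := by fun_prop
      exact (g.tendsto x').comp hlx
    have hl := ((hτ.const_mul (Z / 24)).const_mul 2).const_sub w
    rw [mul_zero, mul_zero, sub_zero] at hl
    exact le_of_tendsto_of_tendsto' hl hr fun n => h4 (φ n) τ hτ0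

end Vale.Agent.P080
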