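import Vale.Agent.P080.Blowdown
import Vale.Agent.P080.Doubling

open Metric Set Filter Topology
open scoped RealInnerProductSpace

namespace Vale.Agent.P080

variable {E : Type*} [NormedAddCommGroup E] [InnerProductSpace ℝ E]

theorem infc_scale [FiniteDimensional ℝ E] {u : E → ℝ} (hu : Cls u) {r s : ℝ} (hr : 0 < r)
    (hs : 0 < s) (a x : E) :
    infc s (fun y => r⁻¹ * (u (a + r • y) - u a)) x
      = r⁻¹ * (infc (r * s) u (a + r • x) - u a) := by
  have hV := (hu.scale a hr).lip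
  have hrs : 0 < r * s := by positivity
  have hrr : r⁻¹ * r = 1 := inv_mul_cancel₀ hr.ne'
  apply le_antisymm
  · obtain ⟨ζ, -, hζ⟩ := hu.lip.exists_infc hrs (a + r • x)
    have h1 := hV.infc_le hs x (x - r⁻¹ • ζ)
    rw [sub_sub_cancel_left, norm_neg, norm_smul, norm_inv, Real.norm_of_nonneg hr.le] at h1
    have e1 : a + r • (x - r⁻¹ • ζ) = a + r • x - ζ := by
      rw [smul_sub, smul_smul, mul_inv_cancel₀ hr.ne', one_smul]; abel
    rw [e1] at h1
    rw [hζ]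
    refine h1.trans_eq ?_
    field_simp
    ring
  · obtain ⟨ζ, -, hζ⟩ := hV.exists_infc hs x
    have h1 := hu.lip.infc_le hrs (a + r • x) (a + r • (x - ζ))
    have e1 : a + r • (x - ζ) - (a + r • x) = -(r • ζ) := by module
    rw [e1, norm_neg, norm_smul, Real.norm_of_nonneg hr.le] at h1
    rw [hζ]
    have h2 : r⁻¹ * (infc (r * s) u (a + r • x) - u a)
        ≤ r⁻¹ * (u (a + r • (x - ζ)) + (r * ‖ζ‖) ^ 2 / (2 * (r * s)) - u a) :=
      mul_le_mul_of_nonneg_left (by linarith) (by positivity)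
    refine h2.trans_eq ?_
    field_simp
    ring

theorem doubling [FiniteDimensional ℝ E] {Z w : ℝ} (hZ : 0 < Z) (hZ2 : Z ≤ 2)
    (hZmax : ∀ u : E → ℝ, Cls u → ∀ x h : E, u (x + h) + u (x - h) - 2 * u x ≤ Z * ‖h‖)
    (hw : ∀ u : E → ℝ, Cls u → ∀ x h : E, h ≠ 0 → u (x + h) + u (x - h) - 2 * u x = Z * ‖h‖ →
      ∀ w' : ℝ, (∀ τ : ℝ, 0 < τ → w' ≤ (u x - infc τ u x) / τ) → w' ≤ w)
    {u : E → ℝ} (hu : Cls u) {x h : E} (hh : h ≠ 0)
    (hext : u (x + h) + u (x - h) - 2 * u x = Z * ‖h‖)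
    (hwx : ∀ τ : ℝ, 0 < τ → w ≤ (u x - infc τ u x) / τ) :
    ∃ x' h' : E, ‖h'‖ = 2 * ‖h‖ ∧ ‖x' - x‖ ≤ 6 / Z * ‖h‖ ∧
      u (x' + h') + u (x' - h') - 2 * u x' = Z * ‖h'‖ ∧
      ∀ τ : ℝ, 0 < τ → w ≤ (u x' - infc τ u x') / τ := by
  set r := ‖h‖ with hr
  have hr0 : 0 < r := norm_pos_iff.2 hh
  have hv := hu.scale x hr0
  have hrr : r * r⁻¹ = 1 := mul_inv_cancel₀ hr0.ne'
  have hdu := doubling_unit hv hZ hZ2 (hZmax _ hv) (hw _ hv) (w := w) (h := r⁻¹ • h) ?_ ?_ ?_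
  · obtain ⟨x', κ', h1, h2, h3, h4⟩ := hdu
    refine ⟨x + r • x', r • κ', ?_, ?_, ?_, ?_⟩
    · rw [norm_smul, Real.norm_of_nonneg hr0.le, h1]; ring
    · rw [add_sub_cancel_left, norm_smul, Real.norm_of_nonneg hr0.le]
      have := mul_le_mul_of_nonneg_left h2 hr0.le
      linarith
    · rw [norm_smul, Real.norm_of_nonneg hr0.le]
      have e1 : x + r • x' + r • κ' = x + r • (x' + κ') := by module
      have e2 : x + r • x' - r • κ' = x + r • (x' - κ') := by module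
      rw [e1, e2]
      have h5 := congrArg (fun t => r * t) h3
      simp only [mul_sub, mul_add] at h5
      have e3 : ∀ t : ℝ, r * (r⁻¹ * t) = t := fun t => by rw [← mul_assoc, hrr, one_mul]
      have e4 : ∀ t : ℝ, r * (2 * (r⁻¹ * t)) = 2 * t := fun t => by
        rw [mul_left_comm, e3]
      simp only [e3, e4] at h5
      linarith
    · intro τ hτ
      have h5 := h4 (τ / r) (by positivity)
      rw [infc_scale hu hr0 (by positivity)] at h5
      have e1 : r * (τ / r) = τ := by field_simp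
      rw [e1] at h5
      refine h5.trans_eq ?_
      field_simp
      ring
  · rw [norm_smul, norm_inv, Real.norm_of_nonneg hr0.le]
    exact inv_mul_cancel₀ hr0.ne'
  · have e1 : r • (r⁻¹ • h) = h := by rw [smul_smul, hrr, one_smul]
    simp only [smul_neg, e1, smul_zero, add_zero, sub_self, mul_zero, sub_zero]
    rw [← sub_eq_add_neg]
    have : u (x + h) - u x + (u (x - h) - u x) = Z * r := by linarith
    rw [← mul_add, this, mul_comm Z, ← mul_assoc, inv_mul_cancel₀ hr0.ne', one_mul]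
  · intro τ hτ
    have h5 := hwx (r * τ) (by positivity)
    rw [infc_scale hu hr0 hτ]
    simp only [smul_zero, add_zero, sub_self, mul_zero, zero_sub]
    refine h5.trans_eq ?_
    field_simp
    ring

theorem exists_limit_pair [FiniteDimensional ℝ E] {u : ℕ → E → ℝ} (hu : ∀ n, Cls (u n))
    (h0 : ∀ n, u n 0 = 0) {h : ℕ → E} (hh : ∀ n, ‖h n‖ = 1) :
    ∃ (v : E → ℝ) (h' : E), Cls v ∧ v 0 = 0 ∧ ‖h'‖ = 1 ∧
      Tendsto (fun n => u n (h n) + u n (-h n)) (hyperfilter ℕ) (𝓝 (v h' + v (-h'))) ∧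
      ∀ τ : ℝ, 0 < τ → Tendsto (fun n => infc τ (u n) 0) (hyperfilter ℕ) (𝓝 (infc τ v 0)) := by
  set l : Ultrafilter ℕ := hyperfilter ℕ with hl
  have hloc := locLip_of_lip l fun n => (hu n).lip
  obtain ⟨v, hv⟩ := exists_ultralimit l (Eventually.of_forall h0) hloc
  have hvc : Cls v := Cls.ultralimit_cls l hv hu
  obtain ⟨h', -, hh'⟩ := exists_tendsto_of_bdd l (a := h) (R := 1)
    (Eventually.of_forall fun n => (hh n).le)
  refine ⟨v, h', hvc, ?_, ?_, ?_, ?_⟩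
  · exact tendsto_nhds_unique (hv 0) (by simp [h0])
  · exact tendsto_nhds_unique hh'.norm (by simp [hh])
  · exact (tendsto_eval_of_locLip l hv hloc hh').add (tendsto_eval_of_locLip l hv hloc hh'.neg)
  · intro τ hτ
    exact tendsto_infc l hv (fun n => (hu n).lip) hvc.lip hτ tendsto_const_nhds

theorem exists_extremal [FiniteDimensional ℝ E] (hE : ∃ (u : E → ℝ) (x h : E), Cls u ∧
    0 < u (x + h) + u (x - h) - 2 * u x) :
    ∃ Z : ℝ, 0 < Z ∧ Z ≤ 2 ∧
      (∀ u : E → ℝ, Cls u → ∀ x h : E, u (x + h) + u (x - h) - 2 * u x ≤ Z * ‖h‖) ∧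
      ∃ (v : E → ℝ) (h : E), Cls v ∧ v 0 = 0 ∧ ‖h‖ = 1 ∧ v h + v (-h) = Z := by
  set S : Set ℝ := {z | ∃ (u : E → ℝ) (h : E), Cls u ∧ u 0 = 0 ∧ ‖h‖ = 1 ∧ z = u h + u (-h)}
    with hS
  have hmem : ∀ u : E → ℝ, Cls u → ∀ x h : E, h ≠ 0 →
      (u (x + h) + u (x - h) - 2 * u x) / ‖h‖ ∈ S := by
    intro u hu x h hh
    have hr0 : 0 < ‖h‖ := norm_pos_iff.2 hh
    refine ⟨_, ‖h‖⁻¹ • h, hu.scale x hr0, by simp, ?_, ?_⟩
    · rw [norm_smul, norm_inv, norm_norm]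
      exact inv_mul_cancel₀ hr0.ne'
    · have e1 : ‖h‖ • (‖h‖⁻¹ • h) = h := by
        rw [smul_smul, mul_inv_cancel₀ hr0.ne', one_smul]
      simp only [smul_neg, e1]
      rw [← sub_eq_add_neg]
      field_simp
      ring
  have hbd : BddAbove S := by
    refine ⟨2, ?_⟩
    rintro _ ⟨u, h, hu, h0, hh, rfl⟩
    have a1 := hu.lip h 0
    have a2 := hu.lip (-h) 0
    rw [sub_zero, h0, sub_zero] at a1
    rw [sub_zero, h0, sub_zero, norm_neg] at a2
    linarith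
  obtain ⟨u, x, h, hu, hpos⟩ := hE
  have hh : h ≠ 0 := by
    rintro rfl
    simp at hpos
    linarith
  have hr0 : 0 < ‖h‖ := norm_pos_iff.2 hh
  have hne : S.Nonempty := ⟨_, hmem u hu x h hh⟩
  refine ⟨sSup S, ?_, ?_, ?_, ?_⟩
  · exact lt_of_lt_of_le (div_pos hpos hr0) (le_csSup hbd (hmem u hu x h hh))
  · apply csSup_le hne
    rintro _ ⟨u, h, hu, h0, hh, rfl⟩
    have a1 := hu.lip h 0
    have a2 := hu.lip (-h) 0
    rw [sub_zero, h0, sub_zero] at a1
    rw [sub_zero, h0, sub_zero, norm_neg] at a2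
    linarith
  · intro u hu x h
    by_cases hh : h = 0
    · subst hh
      simp
      linarith
    · have hr0 : 0 < ‖h‖ := norm_pos_iff.2 hh
      have := le_csSup hbd (hmem u hu x h hh)
      rwa [div_le_iff₀ hr0] at this
  · obtain ⟨z, -, hz, hzS⟩ := exists_seq_tendsto_sSup hne hbd
    choose u h hu h0 hh hzu using hzS
    obtain ⟨v, h', hv, hv0, hh', hlim, -⟩ := exists_limit_pair hu h0 hh
    refine ⟨v, h', hv, hv0, hh', ?_⟩
    have h1 : Tendsto z (hyperfilter ℕ) (𝓝 (sSup S)) :=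
      hz.mono_left (Nat.hyperfilter_le_atTop)
    exact tendsto_nhds_unique (hlim.congr fun n => (hzu n).symm) h1

theorem exists_extremal_W [FiniteDimensional ℝ E] {Z : ℝ}
    (hex : ∃ (v : E → ℝ) (h : E), Cls v ∧ v 0 = 0 ∧ ‖h‖ = 1 ∧ v h + v (-h) = Z) :
    ∃ w : ℝ, (∀ u : E → ℝ, Cls u → ∀ x h : E, h ≠ 0 →
      u (x + h) + u (x - h) - 2 * u x = Z * ‖h‖ →
      ∀ w' : ℝ, (∀ τ : ℝ, 0 < τ → w' ≤ (u x - infc τ u x) / τ) → w' ≤ w) ∧
      ∃ (v : E → ℝ) (h : E), Cls v ∧ v 0 = 0 ∧ ‖h‖ = 1 ∧ v h + v (-h) = Z ∧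
        ∀ τ : ℝ, 0 < τ → w ≤ (v 0 - infc τ v 0) / τ := by
  set S : Set ℝ := {w | ∃ (v : E → ℝ) (h : E), Cls v ∧ v 0 = 0 ∧ ‖h‖ = 1 ∧ v h + v (-h) = Z ∧
        ∀ τ : ℝ, 0 < τ → w ≤ (v 0 - infc τ v 0) / τ} with hS
  have hle : ∀ w ∈ S, w ≤ 1 / 2 := by
    rintro w ⟨v, h, hv, h0, hh, -, hw⟩
    have h1 := hw 1 one_pos
    have h2 := hv.lip.le_infc one_pos 0
    linarith
  have hbd : BddAbove S := ⟨1 / 2, hle⟩
  have hne : S.Nonempty := by
    obtain ⟨v, h, hv, h0, hh, hZ⟩ := hex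
    refine ⟨0, v, h, hv, h0, hh, hZ, fun τ hτ => ?_⟩
    have := hv.lip.infc_le_self hτ 0
    apply div_nonneg (by linarith) hτ.le
  refine ⟨sSup S, ?_, ?_⟩
  · intro u hu x h hh hext w' hw'
    apply le_csSup hbd
    have hr0 : 0 < ‖h‖ := norm_pos_iff.2 hh
    refine ⟨_, ‖h‖⁻¹ • h, hu.scale x hr0, by simp, ?_, ?_, ?_⟩
    · rw [norm_smul, norm_inv, norm_norm]
      exact inv_mul_cancel₀ hr0.ne'
    · have e1 : ‖h‖ • (‖h‖⁻¹ • h) = h := by
        rw [smul_smul, mul_inv_cancel₀ hr0.ne', one_smul]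
      simp only [smul_neg, e1]
      rw [← sub_eq_add_neg, ← mul_add]
      have : u (x + h) - u x + (u (x - h) - u x) = Z * ‖h‖ := by linarith
      rw [this]
      field_simp
    · intro τ hτ
      have h5 := hw' (‖h‖ * τ) (by positivity)
      rw [infc_scale hu hr0 hτ]
      simp only [smul_zero, add_zero, sub_self, mul_zero, zero_sub]
      refine h5.trans_eq ?_
      field_simp
      ring
  · obtain ⟨w, -, hw, hwS⟩ := exists_seq_tendsto_sSup hne hbd
    choose u h hu h0 hh hZ hwu using hwS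
    obtain ⟨v, h', hv, hv0, hh', hlim, hlimW⟩ := exists_limit_pair hu h0 hh
    refine ⟨v, h', hv, hv0, hh', ?_, ?_⟩
    · exact tendsto_nhds_unique hlim (by simp [hZ])
    · intro τ hτ
      have h1 : Tendsto w (hyperfilter ℕ) (𝓝 (sSup S)) :=
        hw.mono_left (Nat.hyperfilter_le_atTop)
      have h2 : Tendsto (fun n => (u n 0 - infc τ (u n) 0) / τ) (hyperfilter ℕ)
          (𝓝 ((v 0 - infc τ v 0) / τ)) := by
        refine Tendsto.div_const (Tendsto.sub ?_ (hlimW τ hτ)) τ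
        simp [h0, hv0]
      exact le_of_tendsto_of_tendsto' h1 h2 fun n => hwu n τ hτ

theorem theta_nonpos [FiniteDimensional ℝ E] {u : E → ℝ} (hu : Cls u) (x h : E) :
    u (x + h) + u (x - h) - 2 * u x ≤ 0 := by
  by_contra hcon
  push Not at hcon
  obtain ⟨Z, hZ, hZ2, hZmax, hex⟩ := exists_extremal ⟨u, x, h, hu, hcon⟩
  obtain ⟨w, hw, v, h, hv, hv0, hh, hext, hwv⟩ := exists_extremal_W hex
  have hiter : ∀ j : ℕ, ∃ x h : E, ‖h‖ = 2 ^ j ∧ ‖x‖ ≤ 6 / Z * 2 ^ j ∧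
      v (x + h) + v (x - h) - 2 * v x = Z * ‖h‖ ∧
      ∀ τ : ℝ, 0 < τ → w ≤ (v x - infc τ v x) / τ := by
    intro j
    induction j with
    | zero =>
      refine ⟨0, h, by simpa using hh, ?_, ?_, hwv⟩
      · rw [norm_zero]; positivity
      · rw [zero_add, zero_sub, hh, hv0]; linarith
    | succ j ih =>
      obtain ⟨x, h, h1, h2, h3, h4⟩ := ih
      have hne : h ≠ 0 := by
        rintro rfl
        rw [norm_zero] at h1
        have : (0 : ℝ) < 2 ^ j := by positivity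
        linarith
      obtain ⟨x', h', g1, g2, g3, g4⟩ := doubling hZ hZ2 hZmax hw hv hne h3 h4
      refine ⟨x', h', ?_, ?_, g3, g4⟩
      · rw [g1, h1, pow_succ]; ring
      · rw [h1] at g2
        have g5 := norm_sub_norm_le x' x
        rw [pow_succ]
        linarith
  choose x h h1 h2 h3 h4 using hiter
  set l : Ultrafilter ℕ := hyperfilter ℕ with hl
  have hr0 : ∀ n : ℕ, (0 : ℝ) < 2 ^ n := fun n => by positivity
  have hcl : ∀ n : ℕ, Cls (fun y : E => ((2 : ℝ) ^ n)⁻¹ * v ((2 : ℝ) ^ n • y)) := by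
    intro n
    have := hv.scale 0 (hr0 n)
    simpa [hv0] using this
  have hloc := locLip_of_lip l fun n => (hcl n).lip
  obtain ⟨V, hV⟩ := exists_ultralimit l (Eventually.of_forall fun n => by simp [hv0]) hloc
  obtain ⟨p, hp⟩ := hv.blowdown_linear l (Nat.hyperfilter_le_atTop) hv0 hr0
    (tendsto_pow_atTop_atTop_of_one_lt (by norm_num)) hV
  obtain ⟨x', -, hx'⟩ := exists_tendsto_of_bdd l (a := fun n => ((2 : ℝ) ^ n)⁻¹ • x n) (R := 6 / Z)
    (Eventually.of_forall fun n => by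
      rw [norm_smul, norm_inv, Real.norm_of_nonneg (hr0 n).le, inv_mul_le_iff₀ (hr0 n)]
      linarith [h2 n])
  obtain ⟨h', -, hh'⟩ := exists_tendsto_of_bdd l (a := fun n => ((2 : ℝ) ^ n)⁻¹ • h n) (R := 1)
    (Eventually.of_forall fun n => by
      rw [norm_smul, norm_inv, Real.norm_of_nonneg (hr0 n).le, inv_mul_le_iff₀ (hr0 n)]
      linarith [h1 n])
  have hlim := ((tendsto_eval_of_locLip l hV hloc (hx'.add hh')).add
    (tendsto_eval_of_locLip l hV hloc (hx'.sub hh'))).sub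
    ((tendsto_eval_of_locLip l hV hloc hx').const_mul 2)
  have hval : V (x' + h') + V (x' - h') - 2 * V x' = Z := by
    refine tendsto_nhds_unique hlim ?_
    refine tendsto_const_nhds.congr fun n => ?_
    have e1 : (2 : ℝ) ^ n • (((2 : ℝ) ^ n)⁻¹ • x n + ((2 : ℝ) ^ n)⁻¹ • h n) = x n + h n := by
      rw [← smul_add, smul_smul, mul_inv_cancel₀ (hr0 n).ne', one_smul]
    have e2 : (2 : ℝ) ^ n • (((2 : ℝ) ^ n)⁻¹ • x n - ((2 : ℝ) ^ n)⁻¹ • h n) = x n - h n := by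
      rw [← smul_sub, smul_smul, mul_inv_cancel₀ (hr0 n).ne', one_smul]
    have e3 : (2 : ℝ) ^ n • (((2 : ℝ) ^ n)⁻¹ • x n) = x n := by
      rw [smul_smul, mul_inv_cancel₀ (hr0 n).ne', one_smul]
    rw [e1, e2, e3]
    have h5 := h3 n
    rw [h1 n] at h5
    have h6 : ((2 : ℝ) ^ n)⁻¹ * (v (x n + h n) + v (x n - h n) - 2 * v (x n)) = Z := by
      rw [h5, mul_comm Z, ← mul_assoc, inv_mul_cancel₀ (hr0 n).ne', one_mul]
    linarith
  rw [hp, hp, hp, inner_add_right, inner_sub_right] at hval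
  linarith

theorem Cls.affine [FiniteDimensional ℝ E] {u : E → ℝ} (hu : Cls u) :
    ∃ (p : E) (c : ℝ), ∀ x, u x = ⟪p, x⟫ + c := by
  have hmid : ∀ x h : E, u (x + h) + u (x - h) = 2 * u x := by
    intro x h
    have h1 := theta_nonpos hu x h
    have h2 := theta_nonpos hu.neg x h
    linarith
  have hab : ∀ a b : E, u a + u b = 2 * u ((1 / 2 : ℝ) • (a + b)) := by
    intro a b
    rw [← hmid ((1 / 2 : ℝ) • (a + b)) ((1 / 2 : ℝ) • (a - b))]
    congr 2 <;> module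
  have hadd : ∀ a b : E, u (a + b) - u 0 = (u a - u 0) + (u b - u 0) := by
    intro a b
    have h1 := hab a b
    have h2 := hab (a + b) 0
    rw [add_zero] at h2
    linarith
  let g : E →+ ℝ := AddMonoidHom.mk' (fun x => u x - u 0) hadd
  have hgc : Continuous g := by
    have := hu.lip.continuous
    show Continuous fun x => u x - u 0
    fun_prop
  let G : E →L[ℝ] ℝ := g.toRealLinearMap hgc
  refine ⟨(InnerProductSpace.toDual ℝ E).symm G, u 0, fun x => ?_⟩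
  rw [InnerProductSpace.toDual_symm_apply]
  show u x = (u x - u 0) + u 0
  ring

end Vale.Agent.P080
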