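import Vale.Agent.P080.Flat

open Metric Set Filter Topology
open scoped RealInnerProductSpace

namespace Vale.Agent.P080

variable {d : ℕ}

theorem dir_lemma {u : Eu d → ℝ} {x e ν : Eu d} {S ε r ρ : ℝ} (hS : 0 < S) (he : ‖e‖ ≤ 1)
    (hν : ‖ν‖ = 1) (hr : 0 < r) (hrρ : r < 2 * ρ)
    (hflat : ∀ w, ‖w‖ ≤ r → |u (x + w) - u x - S * ⟪e, w⟫| ≤ ε * S * r)
    (hb : ∀ w, ‖w‖ ≤ r → ‖w‖ ^ 2 + 2 * ρ * ⟪ν, w⟫ < 0 → u (x + w) ≤ u x) :
    ‖e‖ ^ 2 - 2 * ε ≤ ⟪e, ν⟫ := by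
  have hSr : 0 < S * r := by positivity
  have hε : 0 ≤ ε := by
    have h1 := (abs_nonneg _).trans (hflat 0 (by simpa using hr.le))
    by_contra h
    push Not at h
    nlinarith
  have he2 : ‖e‖ ^ 2 ≤ 1 := by nlinarith [norm_nonneg e]
  set c := ⟪e, ν⟫ with hc
  rcases lt_or_ge c 1 with hc1 | hc1
  · set w : Eu d := (r / 2) • (e - ν) with hw
    have hr2 : 0 < r / 2 := by linarith
    have hen : ‖e - ν‖ ≤ 2 := by
      have := norm_sub_le e ν
      linarith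
    have hwn : ‖w‖ ≤ r := by
      rw [hw, norm_smul, Real.norm_of_nonneg hr2.le]
      nlinarith
    have hen2 : ‖e - ν‖ ^ 2 = ‖e‖ ^ 2 - 2 * c + 1 := by
      rw [norm_sub_sq_real, hν]; ring
    have hwn2 : ‖w‖ ^ 2 = (r / 2) ^ 2 * (‖e‖ ^ 2 - 2 * c + 1) := by
      rw [hw, norm_smul, Real.norm_of_nonneg hr2.le, mul_pow, hen2]
    have hνw : ⟪ν, w⟫ = r / 2 * (c - 1) := by
      rw [hw, inner_smul_right, inner_sub_right, real_inner_self_eq_norm_sq, hν,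
        real_inner_comm, ← hc]
      ring
    have hew : ⟪e, w⟫ = r / 2 * (‖e‖ ^ 2 - c) := by
      rw [hw, inner_smul_right, inner_sub_right, real_inner_self_eq_norm_sq, ← hc]
    have hin : ‖w‖ ^ 2 + 2 * ρ * ⟪ν, w⟫ < 0 := by
      rw [hwn2, hνw]
      have h1 : 0 < (1 - c) * r := mul_pos (by linarith) hr
      have h2 : (r / 2) ^ 2 * (‖e‖ ^ 2 - 2 * c + 1) ≤ (r / 2) ^ 2 * (2 - 2 * c) :=
        mul_le_mul_of_nonneg_left (by linarith) (sq_nonneg _)
      have h3 : 0 < (1 - c) * r * (ρ - r / 2) := mul_pos h1 (by linarith)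
      nlinarith
    have h1 := hb w hwn hin
    have h2 := (abs_le.1 (hflat w hwn)).1
    rw [hew] at h2
    have h3 : (‖e‖ ^ 2 - c) * (S * r) ≤ (2 * ε) * (S * r) := by linarith
    have h4 := le_of_mul_le_mul_right h3 hSr
    linarith
  · linarith

theorem norm_sub_le_sqrt {e ν : Eu d} {ε : ℝ} (hε : 0 ≤ ε) (he : ‖e‖ ≤ 1) (he' : 1 - ε ≤ ‖e‖)
    (hν : ‖ν‖ = 1) (h : ‖e‖ ^ 2 - 2 * ε ≤ ⟪e, ν⟫) : ‖e - ν‖ ≤ √(6 * ε) := by
  apply Real.le_sqrt_of_sq_le
  rw [norm_sub_sq_real, hν]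
  have h1 : (1 - ‖e‖) * (1 + ‖e‖) ≤ ε * 2 :=
    mul_le_mul (by linarith) (by linarith) (by linarith [norm_nonneg e]) hε
  linarith

theorem barrier {u : Eu d → ℝ} {Ω : Set (Eu d)} (hu : IsInfinityHarmonicOn u Ω)
    {x ν : Eu d} {S δ r ρ : ℝ} (hS : 0 < S) (hν : ‖ν‖ = 1) (hδ : 0 < δ) (hδ' : δ ≤ 1 / 20)
    (hr : 0 < r) (hrΩ : closedBall x r ⊆ Ω) (hrρ : r ≤ 4 * δ * ρ)
    (hup : ∀ w, ‖w‖ ≤ r → u (x + w) ≤ u x + S * (⟪ν, w⟫ + δ * r))
    (hb : ∀ w, ‖w‖ ≤ r → ‖w‖ ^ 2 + 2 * ρ * ⟪ν, w⟫ < 0 → u (x + w) ≤ u x) :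
    ∀ τ : ℝ, 0 ≤ τ → τ ≤ r / 2 → u (x - τ • ν) ≤ u x - (1 - 5 / 2 * δ) * S * τ := by
  have hρ : 0 < ρ := by
    by_contra h
    push Not at h
    nlinarith
  have hρr : 5 * r ≤ ρ := by nlinarith
  set β := S * δ / r with hβdef
  have hβr : β * r = S * δ := by rw [hβdef]; field_simp
  have hβ : 0 < β := by positivity
  set α := 1 - 5 / 2 * δ with hα
  have hα1 : 7 / 8 ≤ α := by rw [hα]; linarith
  set K : Set (Eu d) := {z | (‖z - x‖ ^ 2 - ⟪ν, z - x⟫ ^ 2 ≤ r ^ 2 / 4 ∧ -(r / 2) ≤ ⟪ν, z - x⟫) ∧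
    ‖z - x‖ ^ 2 + ρ * ⟪ν, z - x⟫ ≤ 0} with hK
  set G : Set (Eu d) := {z | (‖z - x‖ ^ 2 - ⟪ν, z - x⟫ ^ 2 < r ^ 2 / 4 ∧ -(r / 2) < ⟪ν, z - x⟫) ∧
    ‖z - x‖ ^ 2 + ρ * ⟪ν, z - x⟫ < 0} with hG
  have hc1 : Continuous fun z : Eu d => ‖z - x‖ ^ 2 - ⟪ν, z - x⟫ ^ 2 := by fun_prop
  have hc2 : Continuous fun z : Eu d => ⟪ν, z - x⟫ := by fun_prop
  have hc3 : Continuous fun z : Eu d => ‖z - x‖ ^ 2 + ρ * ⟪ν, z - x⟫ := by fun_prop
  have hKcl : IsClosed K :=
    ((isClosed_le hc1 continuous_const).inter (isClosed_le continuous_const hc2)).inter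
      (isClosed_le hc3 continuous_const)
  have hGo : IsOpen G :=
    ((isOpen_lt hc1 continuous_const).inter (isOpen_lt continuous_const hc2)).inter
      (isOpen_lt hc3 continuous_const)
  have hGK : G ⊆ K := fun z hz => ⟨⟨hz.1.1.le, hz.1.2.le⟩, hz.2.le⟩
  have hs : ∀ z ∈ K, ⟪ν, z - x⟫ ≤ 0 := by
    rintro z ⟨-, hz⟩
    by_contra h
    push Not at h
    have := mul_pos hρ h
    nlinarith [sq_nonneg ‖z - x‖]
  have hnorm : ∀ z ∈ K, ‖z - x‖ ≤ r := by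
    intro z hz
    have h1 := hs z hz
    obtain ⟨⟨h2, h3⟩, -⟩ := hz
    have h4 : ⟪ν, z - x⟫ ^ 2 ≤ r ^ 2 / 4 := by nlinarith
    have h5 : ‖z - x‖ ^ 2 ≤ r ^ 2 := by nlinarith
    exact (pow_le_pow_iff_left₀ (norm_nonneg _) hr.le two_ne_zero).1 h5
  have hKball : K ⊆ closedBall x r := by
    intro z hz
    rw [mem_closedBall, dist_eq_norm]
    exact hnorm z hz
  have hKc : IsCompact K := (isCompact_closedBall x r).of_isClosed_subset hKcl hKball
  have hmain := comparison_upper (φ := quad (u x) (S * α) β (4 * β) ν x) hu hKc hGo hGK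
    (hKball.trans hrΩ) ?_ (fun z _ => quad_contDiffAt _ _ _ _ _ _ _) ?_ ?_
  · intro τ hτ hτr
    have hw1 : ⟪ν, x - τ • ν - x⟫ = -τ := by
      rw [sub_sub_cancel_left, inner_neg_right, inner_smul_right, real_inner_self_eq_norm_sq, hν]
      ring
    have hw2 : ‖x - τ • ν - x‖ ^ 2 = τ ^ 2 := by
      rw [sub_sub_cancel_left, norm_neg, norm_smul, hν, mul_one, Real.norm_eq_abs, sq_abs]
    have hmem : x - τ • ν ∈ K := by
      simp only [hK, mem_ofPred_eq, hw1, hw2]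
      refine ⟨⟨by nlinarith, by linarith⟩, by nlinarith⟩
    have := hmain _ hmem
    unfold quad at this
    rw [hw1, hw2] at this
    nlinarith [mul_nonneg hβ.le (sq_nonneg τ)]
  · apply Continuous.continuousOn
    unfold quad
    fun_prop
  · intro z hz
    rw [quad_infLaplacian _ _ _ _ _ _ _ hν]
    have h1 := hs z (hGK hz)
    obtain ⟨⟨h2, h3⟩, -⟩ := hz
    set s := ⟪ν, z - x⟫ with hsdef
    set q := ‖z - x‖ ^ 2 - s ^ 2 with hq
    have h4 : (S * α) ^ 2 ≤ (S * α - 2 * β * s) ^ 2 := by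
      apply pow_le_pow_left₀ (by positivity)
      have := mul_nonneg hβ.le (neg_nonneg.2 h1)
      linarith
    have h5 : 8 * (4 * β) ^ 3 * q ≤ 128 * β * (S * δ) ^ 2 := by
      have h6 : 8 * (4 * β) ^ 3 * q ≤ 8 * (4 * β) ^ 3 * (r ^ 2 / 4) :=
        mul_le_mul_of_nonneg_left h2.le (by positivity)
      have h7 : 8 * (4 * β) ^ 3 * (r ^ 2 / 4) = 128 * β * (β * r) ^ 2 := by ring
      rw [h7, hβr] at h6
      exact h6
    have h6 : 2 * β * (S * α) ^ 2 ≤ 2 * β * (S * α - 2 * β * s) ^ 2 :=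
      mul_le_mul_of_nonneg_left h4 (by positivity)
    have h7 : 64 * δ ^ 2 < α ^ 2 := by nlinarith
    have h8 : 2 * β * S ^ 2 * (64 * δ ^ 2) < 2 * β * S ^ 2 * α ^ 2 :=
      mul_lt_mul_of_pos_left h7 (by positivity)
    nlinarith
  · intro z hz hzG
    have h1 := hs z hz
    have hn := hnorm z hz
    have hz1 := hz.1.1
    have hz2 := hz.1.2
    have hz3 := hz.2
    have hub := hup (z - x) hn
    have hbb := hb (z - x) hn
    rw [add_sub_cancel] at hub hbb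
    unfold quad
    set s := ⟪ν, z - x⟫ with hsdef
    set q := ‖z - x‖ ^ 2 - s ^ 2 with hq
    have hq0 : 0 ≤ q := by
      have h2 := abs_real_inner_le_norm ν (z - x)
      rw [hν, one_mul] at h2
      have h3 : |s| ^ 2 ≤ ‖z - x‖ ^ 2 := pow_le_pow_left₀ (abs_nonneg _) h2 2
      rw [sq_abs] at h3
      linarith
    have hβs : 0 ≤ β * (-s) := mul_nonneg hβ.le (neg_nonneg.2 h1)
    have hβs2 : β * (-s) ≤ S * δ / 2 := by
      have := mul_le_mul_of_nonneg_left (show -s ≤ r / 2 by linarith) hβ.le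
      linarith
    have hprod : 0 ≤ (-s) * (S * δ / 2 - β * (-s)) :=
      mul_nonneg (neg_nonneg.2 h1) (by linarith)
    have hSδs : 0 ≤ S * δ * (-s) := by
      have := neg_nonneg.2 h1
      positivity
    by_cases ha : 0 ≤ ‖z - x‖ ^ 2 + ρ * s
    · have heq : ‖z - x‖ ^ 2 + ρ * s = 0 := le_antisymm hz3 ha
      have hle : u z ≤ u x := by
        by_cases hzx : z = x
        · rw [hzx]
        · apply hbb
          have : 0 < ‖z - x‖ ^ 2 := by
            have := norm_pos_iff.2 (sub_ne_zero.2 hzx)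
            positivity
          linarith
      have h4 : q = -(ρ * s) - s ^ 2 := by rw [hq]; linarith
      have h5 : S ≤ 4 * β * ρ := by
        have h6 : S * r ≤ 4 * β * ρ * r := by
          have h7 : 4 * β * ρ * r = S * (4 * δ * ρ) := by
            have : 4 * β * ρ * r = 4 * ρ * (β * r) := by ring
            rw [this, hβr]; ring
          rw [h7]
          exact mul_le_mul_of_nonneg_left hrρ hS.le
        exact le_of_mul_le_mul_right h6 hr
      have h6 : 0 ≤ (-s) * (4 * β * ρ - S) := mul_nonneg (neg_nonneg.2 h1) (by linarith)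
      rw [h4]
      rw [hα]
      nlinarith
    · by_cases hbq : r ^ 2 / 4 ≤ q
      · have h4 : q = r ^ 2 / 4 := le_antisymm hz1 hbq
        rw [h4]
        have h5 : 4 * β * (r ^ 2 / 4) = S * δ * r := by
          have : 4 * β * (r ^ 2 / 4) = (β * r) * r := by ring
          rw [this, hβr]
        rw [h5, hα]
        nlinarith
      · have h4 : s = -(r / 2) := by
          by_contra hne
          apply hzG
          refine ⟨⟨not_le.1 hbq, lt_of_le_of_ne hz2 (Ne.symm hne)⟩, not_le.1 ha⟩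
        have h5 : 0 ≤ 4 * β * q := by positivity
        have h6 : β * s ^ 2 = S * δ * r / 4 := by
          rw [h4]
          have : β * (-(r / 2)) ^ 2 = (β * r) * r / 4 := by ring
          rw [this, hβr]
        rw [h6]
        rw [h4] at hub ⊢
        rw [hα]
        nlinarith

end Vale.Agent.P080
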