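import Vale.Agent.P080.Defs

open Metric Set Filter Topology
open scoped RealInnerProductSpace

namespace Vale.Agent.P080

abbrev Eu (d : ℕ) := EuclideanSpace ℝ (Fin d)

variable {d : ℕ}

theorem gradient_eq_of_hasFDerivAt {φ : Eu d → ℝ} {z p : Eu d}
    (h : HasFDerivAt φ (innerSL ℝ p) z) : gradient φ z = p := by
  have : HasGradientAt φ p z := by
    rw [hasGradientAt_iff_hasFDerivAt]
    exact h
  exact this.gradient

theorem infLaplacian_eq {φ : Eu d → ℝ} {z : Eu d} {p : Eu d → Eu d} {H : Eu d →L[ℝ] Eu d}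
    (h1 : ∀ᶠ x in 𝓝 z, HasFDerivAt φ (innerSL ℝ (p x)) x) (h2 : HasFDerivAt p H z) :
    infLaplacian φ z = ⟪H (p z), p z⟫ := by
  have hg : gradient φ z = p z := gradient_eq_of_hasFDerivAt h1.self_of_nhds
  have he : fderiv ℝ φ =ᶠ[𝓝 z] fun x => innerSL ℝ (p x) := by
    filter_upwards [h1] with x hx using hx.fderiv
  have hd : HasFDerivAt (fun x => innerSL ℝ (p x)) ((innerSL ℝ (E := Eu d)).comp H) z :=
    (innerSL ℝ (E := Eu d)).hasFDerivAt.comp z h2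
  unfold infLaplacian
  rw [he.fderiv_eq, hd.fderiv, hg]
  simp

theorem contDiffAt_two_of {φ : Eu d → ℝ} {z : Eu d} {p : Eu d → Eu d}
    (h1 : ∀ᶠ x in 𝓝 z, HasFDerivAt φ (innerSL ℝ (p x)) x) (h2 : ContDiffAt ℝ 1 p z) :
    ContDiffAt ℝ 2 φ z := by
  have h : ContDiffAt ℝ (((1 : ℕ) : WithTop ℕ∞) + 1) φ z := by
    rw [contDiffAt_succ_iff_hasFDerivAt]
    refine ⟨fun x => innerSL ℝ (p x), Filter.Eventually.exists_mem h1, ?_⟩
    exact (innerSL ℝ (E := Eu d)).contDiff.contDiffAt.comp z h2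
  have e : (((1 : ℕ) : WithTop ℕ∞) + 1) = 2 := by norm_num
  rwa [e] at h

/-! quadratic test functions -/

noncomputable def quad (c α β γ : ℝ) (ν x₀ : Eu d) (x : Eu d) : ℝ :=
  c + α * ⟪ν, x - x₀⟫ - β * ⟪ν, x - x₀⟫ ^ 2 + γ * (‖x - x₀‖ ^ 2 - ⟪ν, x - x₀⟫ ^ 2)

noncomputable def quadGrad (α β γ : ℝ) (ν x₀ : Eu d) (x : Eu d) : Eu d :=
  (α - 2 * (β + γ) * ⟪ν, x - x₀⟫) • ν + (2 * γ) • (x - x₀)

theorem hasFDerivAt_inner_sub (ν x₀ x : Eu d) :
    HasFDerivAt (fun x => ⟪ν, x - x₀⟫) (innerSL ℝ ν) x := by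
  have h := (innerSL ℝ ν).hasFDerivAt.comp x ((hasFDerivAt_id x).sub_const x₀)
  have h' := h.congr_fderiv (g' := innerSL ℝ ν) (by ext v; simp)
  exact h'

theorem quad_hasFDerivAt (c α β γ : ℝ) (ν x₀ x : Eu d) :
    HasFDerivAt (quad c α β γ ν x₀) (innerSL ℝ (quadGrad α β γ ν x₀ x)) x := by
  have h1 := hasFDerivAt_inner_sub ν x₀ x
  have h2 : HasFDerivAt (fun x => ‖x - x₀‖ ^ 2) (2 • (innerSL ℝ (x - x₀))) x := by
    have := ((hasFDerivAt_id x).sub_const x₀).norm_sq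
    simpa using this
  have h3 : HasFDerivAt (fun x => ⟪ν, x - x₀⟫ ^ 2) ((2 * ⟪ν, x - x₀⟫) • innerSL ℝ ν) x := by
    have := h1.pow 2
    simpa using this
  have h := (((h1.const_mul α).const_add c).sub (h3.const_mul β)).add ((h2.sub h3).const_mul γ)
  refine (h.congr_fderiv ?_)
  ext v
  simp [quadGrad, inner_add_left, inner_smul_left]
  ring

theorem quadGrad_hasFDerivAt (α β γ : ℝ) (ν x₀ x : Eu d) :
    HasFDerivAt (quadGrad α β γ ν x₀)
      ((-(2 * (β + γ))) • (innerSL ℝ ν).smulRight ν + (2 * γ) • ContinuousLinearMap.id ℝ (Eu d)) x := by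
  have h1 := hasFDerivAt_inner_sub ν x₀ x
  have h2 : HasFDerivAt (fun x : Eu d => x - x₀) (ContinuousLinearMap.id ℝ (Eu d)) x :=
    (hasFDerivAt_id x).sub_const x₀
  have h := (((h1.const_mul (2 * (β + γ))).const_sub α).smul_const ν).add (h2.const_smul (2 * γ))
  refine (h.congr_fderiv ?_)
  ext v
  simp
  ring

theorem quad_infLaplacian (c α β γ : ℝ) (ν x₀ x : Eu d) (hν : ‖ν‖ = 1) :
    infLaplacian (quad c α β γ ν x₀) x
      = -2 * β * (α - 2 * β * ⟪ν, x - x₀⟫) ^ 2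
        + 8 * γ ^ 3 * (‖x - x₀‖ ^ 2 - ⟪ν, x - x₀⟫ ^ 2) := by
  rw [infLaplacian_eq (p := quadGrad α β γ ν x₀)
    (Filter.Eventually.of_forall fun y => quad_hasFDerivAt c α β γ ν x₀ y)
    (quadGrad_hasFDerivAt α β γ ν x₀ x)]
  have hνν : ⟪ν, ν⟫ = (1 : ℝ) := by rw [real_inner_self_eq_norm_sq, hν]; norm_num
  set w := x - x₀ with hw
  have hww : ⟪w, w⟫ = ‖w‖ ^ 2 := real_inner_self_eq_norm_sq w
  have hc : ⟪w, ν⟫ = ⟪ν, w⟫ := real_inner_comm _ _
  set s := ⟪ν, w⟫ with hs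
  simp only [quadGrad, ← hw, _root_.add_apply, _root_.smul_apply,
    ContinuousLinearMap.smulRight_apply, innerSL_apply_apply, ContinuousLinearMap.id_apply, inner_add_left,
    inner_add_right, inner_smul_left, inner_smul_right, hνν, hww, hc, ← hs]
  simp
  ring

theorem quad_contDiffAt (c α β γ : ℝ) (ν x₀ x : Eu d) :
    ContDiffAt ℝ 2 (quad c α β γ ν x₀) x := by
  apply ContDiff.contDiffAt
  unfold quad
  have h1 : ContDiff ℝ 2 (fun x : Eu d => x - x₀) := contDiff_id.sub contDiff_const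
  have h2 : ContDiff ℝ 2 (fun x : Eu d => ⟪ν, x - x₀⟫) := contDiff_const.inner ℝ h1
  have h3 : ContDiff ℝ 2 (fun x : Eu d => ‖x - x₀‖ ^ 2) := h1.norm_sq ℝ
  exact ((contDiff_const.add (contDiff_const.mul h2)).sub (contDiff_const.mul (h2.pow 2))).add
    (contDiff_const.mul (h3.sub (h2.pow 2)))

/-! cone test functions -/

noncomputable def cone (a b c : ℝ) (y : Eu d) (x : Eu d) : ℝ :=
  a + b * ‖x - y‖ - c * ‖x - y‖ ^ 2

theorem hasFDerivAt_norm_sub (y x : Eu d) (hx : x ≠ y) :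
    HasFDerivAt (fun x => ‖x - y‖) (‖x - y‖⁻¹ • innerSL ℝ (x - y)) x := by
  have h2 : HasFDerivAt (fun x => ‖x - y‖ ^ 2) (2 • (innerSL ℝ (x - y))) x := by
    have := ((hasFDerivAt_id x).sub_const y).norm_sq
    simpa using this
  have hne : ‖x - y‖ ≠ 0 := norm_ne_zero_iff.2 (sub_ne_zero.2 hx)
  have h3 := h2.sqrt (pow_ne_zero 2 hne)
  have e : (fun x => √(‖x - y‖ ^ 2)) = fun x : Eu d => ‖x - y‖ := by
    funext x; exact Real.sqrt_sq (norm_nonneg _)
  rw [e] at h3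
  refine h3.congr_fderiv ?_
  ext v
  simp [Real.sqrt_sq (norm_nonneg _)]
  field_simp

theorem cone_contDiffAt (a b c : ℝ) (y x : Eu d) (hx : x ≠ y) :
    ContDiffAt ℝ 2 (cone a b c y) x := by
  unfold cone
  have h1 : ContDiffAt ℝ 2 (fun x : Eu d => x - y) x := contDiffAt_id.sub contDiffAt_const
  have h2 : ContDiffAt ℝ 2 (fun x : Eu d => ‖x - y‖) x := h1.norm ℝ (sub_ne_zero.2 hx)
  exact (contDiffAt_const.add (contDiffAt_const.mul h2)).sub (contDiffAt_const.mul (h2.pow 2))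

noncomputable def coneGrad (b c : ℝ) (y : Eu d) (x : Eu d) : Eu d :=
  (b * ‖x - y‖⁻¹ - 2 * c) • (x - y)

theorem cone_hasFDerivAt (a b c : ℝ) (y x : Eu d) (hx : x ≠ y) :
    HasFDerivAt (cone a b c y) (innerSL ℝ (coneGrad b c y x)) x := by
  have h1 := hasFDerivAt_norm_sub y x hx
  have h2 : HasFDerivAt (fun x => ‖x - y‖ ^ 2) (2 • (innerSL ℝ (x - y))) x := by
    have := ((hasFDerivAt_id x).sub_const y).norm_sq
    simpa using this
  have h := ((h1.const_mul b).const_add a).sub (h2.const_mul c)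
  refine h.congr_fderiv ?_
  ext v
  simp [coneGrad, inner_smul_left]
  ring

theorem coneGrad_hasFDerivAt (b c : ℝ) (y x : Eu d) (hx : x ≠ y) :
    HasFDerivAt (coneGrad b c y)
      ((b * ‖x - y‖⁻¹ - 2 * c) • ContinuousLinearMap.id ℝ (Eu d)
        + (-(b * (‖x - y‖⁻¹) ^ 3)) • (innerSL ℝ (x - y)).smulRight (x - y)) x := by
  have hne : ‖x - y‖ ≠ 0 := norm_ne_zero_iff.2 (sub_ne_zero.2 hx)
  have h1 : HasFDerivAt (fun x => ‖x - y‖⁻¹)
      ((-(‖x - y‖ ^ 2)⁻¹) • (‖x - y‖⁻¹ • innerSL ℝ (x - y))) x :=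
    (hasDerivAt_inv hne).comp_hasFDerivAt x (hasFDerivAt_norm_sub y x hx)
  have h2 : HasFDerivAt (fun x : Eu d => x - y) (ContinuousLinearMap.id ℝ (Eu d)) x :=
    (hasFDerivAt_id x).sub_const y
  have h := ((h1.const_mul b).sub_const (2 * c)).smul h2
  refine h.congr_fderiv ?_
  ext v
  simp
  field_simp

theorem cone_infLaplacian (a b c : ℝ) (y x : Eu d) (hx : x ≠ y) :
    infLaplacian (cone a b c y) x = -2 * c * (b - 2 * c * ‖x - y‖) ^ 2 := by
  have hne : ‖x - y‖ ≠ 0 := norm_ne_zero_iff.2 (sub_ne_zero.2 hx)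
  have hev : ∀ᶠ z in 𝓝 x, HasFDerivAt (cone a b c y) (innerSL ℝ (coneGrad b c y z)) z := by
    filter_upwards [isOpen_ne.mem_nhds hx] with z hz using cone_hasFDerivAt a b c y z hz
  rw [infLaplacian_eq hev (coneGrad_hasFDerivAt b c y x hx)]
  set w := x - y with hw
  have hww : ⟪w, w⟫ = ‖w‖ ^ 2 := real_inner_self_eq_norm_sq w
  simp only [coneGrad, ← hw, _root_.add_apply, _root_.smul_apply,
    ContinuousLinearMap.smulRight_apply, innerSL_apply_apply, ContinuousLinearMap.id_apply, inner_add_left,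
    inner_smul_left, inner_smul_right, hww]
  simp
  field_simp
  ring

end Vale.Agent.P080
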