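import Vale.Agent.P080.OpsLemmas

open Metric Set Filter Topology
open scoped RealInnerProductSpace

namespace Vale.Agent.P080

variable {E : Type*} [NormedAddCommGroup E] [InnerProductSpace ℝ E]

theorem norm_add_le_quad {κ δ : E} (hκ : κ ≠ 0) :
    ‖κ + δ‖ ≤ ‖κ‖ + ⟪κ, δ⟫ / ‖κ‖ + ‖δ‖ ^ 2 / (2 * ‖κ‖) := by
  have hn : 0 < ‖κ‖ := norm_pos_iff.2 hκ
  have h1 : ‖κ + δ‖ ^ 2 = ‖κ‖ ^ 2 + 2 * ⟪κ, δ⟫ + ‖δ‖ ^ 2 := norm_add_sq_real κ δ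
  have h2 : 0 ≤ (‖κ + δ‖ - ‖κ‖) ^ 2 := sq_nonneg _
  have h3 : 2 * ‖κ‖ * ‖κ + δ‖ ≤ 2 * ‖κ‖ ^ 2 + 2 * ⟪κ, δ⟫ + ‖δ‖ ^ 2 := by nlinarith
  have h4 : ‖κ‖ + ⟪κ, δ⟫ / ‖κ‖ + ‖δ‖ ^ 2 / (2 * ‖κ‖)
      = (2 * ‖κ‖ ^ 2 + 2 * ⟪κ, δ⟫ + ‖δ‖ ^ 2) / (2 * ‖κ‖) := by
    field_simp
  rw [h4, le_div_iff₀ (by positivity)]
  linarith

theorem norm_add_norm_sub_le {κ e : E} {l : ℝ} (hκ : κ ≠ 0) (hl : |l| ≤ 1 / 2) :
    ‖κ + (l • κ + e)‖ + ‖κ - (l • κ + e)‖ ≤ 2 * ‖κ‖ + 2 * ‖e‖ ^ 2 / ‖κ‖ := by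
  have hn : 0 < ‖κ‖ := norm_pos_iff.2 hκ
  obtain ⟨hl1, hl2⟩ := abs_le.1 hl
  have key : ∀ (l : ℝ) (e : E), -(1 / 2) ≤ l →
      ‖κ + (l • κ + e)‖ ≤ (1 + l) * ‖κ‖ + ⟪κ, e⟫ / ‖κ‖ + ‖e‖ ^ 2 / ‖κ‖ := by
    intro l e hl
    have hl' : 0 < 1 + l := by linarith
    have hne : (1 + l) • κ ≠ 0 := smul_ne_zero hl'.ne' hκ
    have h := norm_add_le_quad (δ := e) hne
    have e1 : κ + (l • κ + e) = (1 + l) • κ + e := by module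
    rw [e1]
    rw [norm_smul, Real.norm_of_nonneg hl'.le, real_inner_smul_left] at h
    have e2 : (1 + l) * ⟪κ, e⟫ / ((1 + l) * ‖κ‖) = ⟪κ, e⟫ / ‖κ‖ := by
      field_simp
    rw [e2] at h
    have e3 : ‖e‖ ^ 2 / (2 * ((1 + l) * ‖κ‖)) ≤ ‖e‖ ^ 2 / ‖κ‖ := by
      apply div_le_div_of_nonneg_left (by positivity) hn
      nlinarith
    linarith
  have h1 := key l e hl1
  have h2 := key (-l) (-e) (by linarith)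
  have e1 : κ + (-l • κ + -e) = κ - (l • κ + e) := by module
  rw [e1, inner_neg_right, norm_neg, neg_div] at h2
  have e2 : 2 * ‖e‖ ^ 2 / ‖κ‖ = ‖e‖ ^ 2 / ‖κ‖ + ‖e‖ ^ 2 / ‖κ‖ := by ring
  rw [e2]
  linarith

noncomputable def penal (τ α β γ : ℝ) (m κ ξ : E) : ℝ :=
  ‖ξ‖ ^ 2 / τ + (α * ‖κ‖ - β * ‖κ‖ ^ 2 + γ * ‖m‖ ^ 2)

theorem tpl_raw1 {f k : E → ℝ} (hf : Lip1 f) (hk : Lip1 k) {s : ℝ} (hs : 0 < s)
    {τ α β γ : ℝ} {m κ ξ : E}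
    (hfa : 2 * f (m + κ) ≤ supc s f (m + κ) + infc s f (m + κ))
    (hfb : 2 * f (m - κ) ≤ supc s f (m - κ) + infc s f (m - κ))
    (hkc : supc s k (m - ξ) + infc s k (m - ξ) ≤ 2 * k (m - ξ))
    {X Y C : E}
    (hA : supc s f (m + κ) = f (m + κ + (X + Y)) - ‖X + Y‖ ^ 2 / (2 * s))
    (hB : supc s f (m - κ) = f (m - κ + (X - Y)) - ‖X - Y‖ ^ 2 / (2 * s))
    (hC : infc s k (m - ξ) = k (m - ξ - C) + ‖C‖ ^ 2 / (2 * s))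
    {N P H : E}
    (h1 : f ((m + X) + (κ + Y)) + f ((m + X) - (κ + Y)) - 2 * k ((m + X) - (ξ + X - H))
        - penal τ α β γ (m + X) (κ + Y) (ξ + X - H)
      ≤ f (m + κ) + f (m - κ) - 2 * k (m - ξ) - penal τ α β γ m κ ξ)
    (h2 : f ((m - N) + (κ - P)) + f ((m - N) - (κ - P)) - 2 * k ((m - N) - (ξ - N + C))
        - penal τ α β γ (m - N) (κ - P) (ξ - N + C)
      ≤ f (m + κ) + f (m - κ) - 2 * k (m - ξ) - penal τ α β γ m κ ξ) :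
    (‖X‖ ^ 2 + ‖Y‖ ^ 2 + ‖C‖ ^ 2) / s ≤
      penal τ α β γ (m + X) (κ + Y) (ξ + X - H) + penal τ α β γ (m - N) (κ - P) (ξ - N + C)
        - 2 * penal τ α β γ m κ ξ + (‖N‖ ^ 2 + ‖P‖ ^ 2 + ‖H‖ ^ 2) / s := by
  have e1 : m + κ + (X + Y) = (m + X) + (κ + Y) := by abel
  have e2 : m - κ + (X - Y) = (m + X) - (κ + Y) := by abel
  have e3 : m - ξ - C = (m - N) - (ξ - N + C) := by abel
  have i1 := hf.infc_le hs (m + κ) ((m - N) + (κ - P))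
  have i2 := hf.infc_le hs (m - κ) ((m - N) - (κ - P))
  have i3 := hk.le_supc hs (m - ξ) ((m + X) - (ξ + X - H))
  have e4 : (m - N) + (κ - P) - (m + κ) = -(N + P) := by abel
  have e5 : (m - N) - (κ - P) - (m - κ) = -(N - P) := by abel
  have e6 : (m + X) - (ξ + X - H) - (m - ξ) = H := by abel
  rw [e4, norm_neg] at i1
  rw [e5, norm_neg] at i2
  rw [e6] at i3
  rw [e1] at hA
  rw [e2] at hB
  rw [e3] at hC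
  have p1 : ‖X + Y‖ ^ 2 + ‖X - Y‖ ^ 2 = 2 * (‖X‖ ^ 2 + ‖Y‖ ^ 2) := by
    have := parallelogram_law_with_norm ℝ X Y
    nlinarith
  have p2 : ‖N + P‖ ^ 2 + ‖N - P‖ ^ 2 = 2 * (‖N‖ ^ 2 + ‖P‖ ^ 2) := by
    have := parallelogram_law_with_norm ℝ N P
    nlinarith
  have q1 : ‖X + Y‖ ^ 2 / (2 * s) + ‖X - Y‖ ^ 2 / (2 * s) = (‖X‖ ^ 2 + ‖Y‖ ^ 2) / s := by
    rw [← add_div, p1]; field_simp
  have q2 : ‖N + P‖ ^ 2 / (2 * s) + ‖N - P‖ ^ 2 / (2 * s) = (‖N‖ ^ 2 + ‖P‖ ^ 2) / s := by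
    rw [← add_div, p2]; field_simp
  have q3 : ‖C‖ ^ 2 / (2 * s) = ‖C‖ ^ 2 / s / 2 := by field_simp
  have q4 : ‖H‖ ^ 2 / (2 * s) = ‖H‖ ^ 2 / s / 2 := by field_simp
  rw [add_div (‖X‖ ^ 2 + ‖Y‖ ^ 2), add_div (‖N‖ ^ 2 + ‖P‖ ^ 2)]
  linarith

theorem tpl_raw2 {f k : E → ℝ} (hf : Lip1 f) (hk : Lip1 k) {s : ℝ} (hs : 0 < s)
    {τ α β γ : ℝ} {m κ ξ : E}
    (hfa : 2 * f (m + κ) ≤ supc s f (m + κ) + infc s f (m + κ))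
    (hfb : 2 * f (m - κ) ≤ supc s f (m - κ) + infc s f (m - κ))
    (hkc : supc s k (m - ξ) + infc s k (m - ξ) ≤ 2 * k (m - ξ))
    {X Y C : E}
    (hA : supc s f (m + κ) = f (m + κ + (X + Y)) - ‖X + Y‖ ^ 2 / (2 * s))
    (hB : supc s f (m - κ) = f (m - κ + (X - Y)) - ‖X - Y‖ ^ 2 / (2 * s))
    (hC : infc s k (m - ξ) = k (m - ξ - C) + ‖C‖ ^ 2 / (2 * s))
    (h1 : f ((m + X) + (κ + Y)) + f ((m + X) - (κ + Y)) - 2 * k ((m + X) - (ξ + X - C))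
        - penal τ α β γ (m + X) (κ + Y) (ξ + X - C)
      ≤ f (m + κ) + f (m - κ) - 2 * k (m - ξ) - penal τ α β γ m κ ξ)
    (h2 : f ((m - X) + (κ - Y)) + f ((m - X) - (κ - Y)) - 2 * k ((m - X) - (ξ - X + C))
        - penal τ α β γ (m - X) (κ - Y) (ξ - X + C)
      ≤ f (m + κ) + f (m - κ) - 2 * k (m - ξ) - penal τ α β γ m κ ξ) :
    0 ≤ penal τ α β γ (m + X) (κ + Y) (ξ + X - C) + penal τ α β γ (m - X) (κ - Y) (ξ - X + C)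
        - 2 * penal τ α β γ m κ ξ := by
  have := tpl_raw1 (N := X) (P := Y) (H := C) hf hk hs hfa hfb hkc hA hB hC h1 h2
  linarith

theorem alg_aux {s t i α β γ M n m2 x2 y2 c2 nn p hh A1 A2 A3 B1 B2 K1 K2 a1 a2 d1 d2 q : ℝ}
    (hs : 0 < s) (hq : q = α * i - 2 * β)
    (hnn : nn = s ^ 2 * (t * A3 + γ * B2)) (hp : p = (s / 2) ^ 2 * (q * K2))
    (hhh : hh = (s * t) ^ 2 * n)
    (ha1 : α * a1 ≤ α * (M + K1 * i + y2 * i / 2))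
    (ha2 : α * a2 ≤ α * (M - (s / 2 * K2) * i + p * i / 2))
    (h : (x2 + y2 + c2) / s ≤
      ((n + 2 * (A1 - s * t * n) + d1) * t + (α * a1 - β * (M ^ 2 + 2 * K1 + y2)
          + γ * (m2 + 2 * B1 + x2)))
        + ((n + 2 * (A2 - s * A3) + d2) * t + (α * a2 - β * (M ^ 2 - 2 * (s / 2 * K2) + p)
          + γ * (m2 - 2 * (s * B2) + nn)))
        - 2 * (n * t + (α * M - β * M ^ 2 + γ * m2)) + (nn + p + hh) / s) :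
    (x2 - 2 * (s * (t * A1 + γ * B1)) + nn) + (y2 - s * (q * K1) + p)
      + (c2 - 2 * (s * t * A2) + hh)
      ≤ s * ((d1 + d2) * t + γ * (x2 + nn) + (α * i / 2 - β) * (y2 + p)) := by
  have h' : x2 + y2 + c2 ≤ s * (((n + 2 * (A1 - s * t * n) + d1) * t
      + (α * a1 - β * (M ^ 2 + 2 * K1 + y2) + γ * (m2 + 2 * B1 + x2)))
        + ((n + 2 * (A2 - s * A3) + d2) * t + (α * a2 - β * (M ^ 2 - 2 * (s / 2 * K2) + p)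
          + γ * (m2 - 2 * (s * B2) + nn)))
        - 2 * (n * t + (α * M - β * M ^ 2 + γ * m2))) + (nn + p + hh) := by
    have e : x2 + y2 + c2 = s * ((x2 + y2 + c2) / s) := by field_simp
    rw [e]
    have e2 : nn + p + hh = s * ((nn + p + hh) / s) := by field_simp
    rw [e2, ← mul_add]
    exact mul_le_mul_of_nonneg_left h hs.le
  have g1 := mul_le_mul_of_nonneg_left ha1 hs.le
  have g2 := mul_le_mul_of_nonneg_left ha2 hs.le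
  have e3 : α * (M + K1 * i + y2 * i / 2) = α * M + (q + 2 * β) * K1 + α * i / 2 * y2 := by
    rw [hq]; ring
  have e4 : α * (M - (s / 2 * K2) * i + p * i / 2)
      = α * M - (q + 2 * β) * (s / 2 * K2) + α * i / 2 * p := by
    rw [hq]; ring
  rw [e3] at g1
  rw [e4] at g2
  have e5 : 2 * nn = 2 * (s ^ 2 * (t * A3 + γ * B2)) := by rw [hnn]
  have e6 : 2 * p = 2 * ((s / 2) ^ 2 * (q * K2)) := by rw [hp]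
  have e7 : 2 * hh = 2 * ((s * t) ^ 2 * n) := by rw [hhh]
  nlinarith [h', g1, g2, e5, e6, e7]

theorem penal_sum_le {τ α β γ : ℝ} (hτ : 0 < τ) (hα : 0 ≤ α) {m κ ξ : E} (hκ : κ ≠ 0)
    {s : ℝ} (hs : 0 < s) {X Y C : E}
    (h : (‖X‖ ^ 2 + ‖Y‖ ^ 2 + ‖C‖ ^ 2) / s ≤
      penal τ α β γ (m + X) (κ + Y) (ξ + X - (s / τ) • ξ)
        + penal τ α β γ (m - s • ((1 / τ) • ξ + γ • m))
          (κ - (s / 2) • (((α - 2 * β * ‖κ‖) / ‖κ‖) • κ))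
          (ξ - s • ((1 / τ) • ξ + γ • m) + C)
        - 2 * penal τ α β γ m κ ξ
        + (‖s • ((1 / τ) • ξ + γ • m)‖ ^ 2
          + ‖(s / 2) • (((α - 2 * β * ‖κ‖) / ‖κ‖) • κ)‖ ^ 2 + ‖(s / τ) • ξ‖ ^ 2) / s) :
    ‖X - s • ((1 / τ) • ξ + γ • m)‖ ^ 2
      + ‖Y - (s / 2) • (((α - 2 * β * ‖κ‖) / ‖κ‖) • κ)‖ ^ 2 + ‖C - (s / τ) • ξ‖ ^ 2
      ≤ s * ((‖X - (s / τ) • ξ‖ ^ 2 + ‖C - s • ((1 / τ) • ξ + γ • m)‖ ^ 2) / τ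
        + γ * (‖X‖ ^ 2 + ‖s • ((1 / τ) • ξ + γ • m)‖ ^ 2)
        + (α / (2 * ‖κ‖) - β) * (‖Y‖ ^ 2
            + ‖(s / 2) • (((α - 2 * β * ‖κ‖) / ‖κ‖) • κ)‖ ^ 2)) := by
  have hn : 0 < ‖κ‖ := norm_pos_iff.2 hκ
  set μ := (1 / τ) • ξ + γ • m with hμ
  set q := (α - 2 * β * ‖κ‖) / ‖κ‖ with hq
  set g := q • κ with hg
  have hA := norm_add_le_quad (δ := Y) hκ
  have hB := norm_add_le_quad (δ := -((s / 2) • g)) hκ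
  rw [inner_neg_right, norm_neg, ← sub_eq_add_neg] at hB
  have hA' := mul_le_mul_of_nonneg_left hA hα
  have hB' := mul_le_mul_of_nonneg_left hB hα
  unfold penal at h
  have x1 : ‖ξ + X - (s / τ) • ξ‖ ^ 2 = ‖ξ‖ ^ 2 + 2 * ⟪ξ, X - (s / τ) • ξ⟫
      + ‖X - (s / τ) • ξ‖ ^ 2 := by rw [add_sub_assoc, norm_add_sq_real]
  have x2 : ‖ξ - s • μ + C‖ ^ 2 = ‖ξ‖ ^ 2 + 2 * ⟪ξ, C - s • μ⟫ + ‖C - s • μ‖ ^ 2 := by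
    have : ξ - s • μ + C = ξ + (C - s • μ) := by abel
    rw [this, norm_add_sq_real]
  have x3 : ‖κ + Y‖ ^ 2 = ‖κ‖ ^ 2 + 2 * ⟪κ, Y⟫ + ‖Y‖ ^ 2 := norm_add_sq_real κ Y
  have x4 : ‖κ - (s / 2) • g‖ ^ 2 = ‖κ‖ ^ 2 - 2 * ⟪κ, (s / 2) • g⟫ + ‖(s / 2) • g‖ ^ 2 :=
    norm_sub_sq_real _ _
  have x5 : ‖m + X‖ ^ 2 = ‖m‖ ^ 2 + 2 * ⟪m, X⟫ + ‖X‖ ^ 2 := norm_add_sq_real m X
  have x6 : ‖m - s • μ‖ ^ 2 = ‖m‖ ^ 2 - 2 * ⟪m, s • μ⟫ + ‖s • μ‖ ^ 2 := norm_sub_sq_real _ _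
  have y1 : ‖X - s • μ‖ ^ 2 = ‖X‖ ^ 2 - 2 * (s * ⟪μ, X⟫) + ‖s • μ‖ ^ 2 := by
    rw [norm_sub_sq_real, real_inner_smul_right, real_inner_comm]
  have y2 : ‖Y - (s / 2) • g‖ ^ 2 = ‖Y‖ ^ 2 - s * ⟪g, Y⟫ + ‖(s / 2) • g‖ ^ 2 := by
    rw [norm_sub_sq_real, real_inner_smul_right, real_inner_comm]
    ring
  have y3 : ‖C - (s / τ) • ξ‖ ^ 2 = ‖C‖ ^ 2 - 2 * (s / τ * ⟪ξ, C⟫) + ‖(s / τ) • ξ‖ ^ 2 := by
    rw [norm_sub_sq_real, real_inner_smul_right, real_inner_comm]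
  have z1 : ⟪μ, X⟫ = 1 / τ * ⟪ξ, X⟫ + γ * ⟪m, X⟫ := by
    rw [hμ, inner_add_left, real_inner_smul_left, real_inner_smul_left]
  have z2 : ⟪g, Y⟫ = q * ⟪κ, Y⟫ := by rw [hg, real_inner_smul_left]
  have z3 : ‖s • μ‖ ^ 2 = s ^ 2 * ⟪μ, μ⟫ := by
    rw [norm_smul, Real.norm_of_nonneg hs.le, mul_pow, real_inner_self_eq_norm_sq]
  have z4 : ⟪μ, μ⟫ = 1 / τ * ⟪ξ, μ⟫ + γ * ⟪m, μ⟫ := by
    conv_lhs => rw [hμ]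
    rw [inner_add_left, real_inner_smul_left, real_inner_smul_left, ← hμ]
  have z5 : ‖(s / 2) • g‖ ^ 2 = (s / 2) ^ 2 * ⟪g, g⟫ := by
    rw [norm_smul, Real.norm_of_nonneg (by positivity), mul_pow, real_inner_self_eq_norm_sq]
  have z6 : ⟪g, g⟫ = q * ⟪κ, g⟫ := by
    conv_lhs => rw [hg]
    rw [real_inner_smul_left]
  have z7 : ‖(s / τ) • ξ‖ ^ 2 = (s / τ) ^ 2 * ‖ξ‖ ^ 2 := by
    rw [norm_smul, Real.norm_of_nonneg (by positivity), mul_pow]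
  have w1 : ⟪ξ, X - (s / τ) • ξ⟫ = ⟪ξ, X⟫ - s / τ * ‖ξ‖ ^ 2 := by
    rw [inner_sub_right, real_inner_smul_right, real_inner_self_eq_norm_sq]
  have w2 : ⟪ξ, C - s • μ⟫ = ⟪ξ, C⟫ - s * ⟪ξ, μ⟫ := by
    rw [inner_sub_right, real_inner_smul_right]
  have w3 : ⟪m, s • μ⟫ = s * ⟪m, μ⟫ := real_inner_smul_right _ _ _
  have w4 : ⟪κ, (s / 2) • g⟫ = s / 2 * ⟪κ, g⟫ := real_inner_smul_right _ _ _
  have hqe : q * ‖κ‖ = α - 2 * β * ‖κ‖ := by rw [hq]; field_simp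
  rw [x1, x2, x3, x4, x5, x6, w1, w2, w3, w4] at h
  rw [w4] at hB'
  rw [y1, y2, y3, z1, z2]
  have hal := alg_aux (s := s) (t := τ⁻¹) (i := ‖κ‖⁻¹) (α := α) (β := β) (γ := γ) (M := ‖κ‖)
    (n := ‖ξ‖ ^ 2) (m2 := ‖m‖ ^ 2) (x2 := ‖X‖ ^ 2) (y2 := ‖Y‖ ^ 2) (c2 := ‖C‖ ^ 2)
    (nn := ‖s • μ‖ ^ 2) (p := ‖(s / 2) • g‖ ^ 2) (hh := ‖(s / τ) • ξ‖ ^ 2)
    (A1 := ⟪ξ, X⟫) (A2 := ⟪ξ, C⟫) (A3 := ⟪ξ, μ⟫) (B1 := ⟪m, X⟫) (B2 := ⟪m, μ⟫)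
    (K1 := ⟪κ, Y⟫) (K2 := ⟪κ, g⟫) (a1 := ‖κ + Y‖) (a2 := ‖κ - (s / 2) • g‖)
    (d1 := ‖X - (s / τ) • ξ‖ ^ 2) (d2 := ‖C - s • μ‖ ^ 2) (q := q)
    hs (by rw [hq]; field_simp) (by rw [z3, z4]; ring)
    (by rw [z5, z6]) (by rw [z7]; ring) (hA'.trans_eq (by ring))
    (hB'.trans_eq (by ring)) (by convert h using 1; ring)
  convert hal using 1 <;> ring

theorem penal_second {τ α β γ : ℝ} {m κ ξ X Y C : E} :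
    penal τ α β γ (m + X) (κ + Y) (ξ + X - C) + penal τ α β γ (m - X) (κ - Y) (ξ - X + C)
        - 2 * penal τ α β γ m κ ξ
      = 2 * ‖X - C‖ ^ 2 / τ + α * (‖κ + Y‖ + ‖κ - Y‖ - 2 * ‖κ‖) - 2 * β * ‖Y‖ ^ 2
        + 2 * γ * ‖X‖ ^ 2 := by
  have p1 : ‖ξ + (X - C)‖ ^ 2 + ‖ξ - (X - C)‖ ^ 2 = 2 * (‖ξ‖ ^ 2 + ‖X - C‖ ^ 2) := by
    have := parallelogram_law_with_norm ℝ ξ (X - C)
    nlinarith
  have p2 : ‖κ + Y‖ ^ 2 + ‖κ - Y‖ ^ 2 = 2 * (‖κ‖ ^ 2 + ‖Y‖ ^ 2) := by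
    have := parallelogram_law_with_norm ℝ κ Y
    nlinarith
  have p3 : ‖m + X‖ ^ 2 + ‖m - X‖ ^ 2 = 2 * (‖m‖ ^ 2 + ‖X‖ ^ 2) := by
    have := parallelogram_law_with_norm ℝ m X
    nlinarith
  have e1 : ξ + X - C = ξ + (X - C) := by abel
  have e2 : ξ - X + C = ξ - (X - C) := by abel
  unfold penal
  rw [e1, e2]
  have a1 : ‖ξ + (X - C)‖ ^ 2 = 2 * (‖ξ‖ ^ 2 + ‖X - C‖ ^ 2) - ‖ξ - (X - C)‖ ^ 2 := by linarith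
  have a2 : ‖κ + Y‖ ^ 2 = 2 * (‖κ‖ ^ 2 + ‖Y‖ ^ 2) - ‖κ - Y‖ ^ 2 := by linarith
  have a3 : ‖m + X‖ ^ 2 = 2 * (‖m‖ ^ 2 + ‖X‖ ^ 2) - ‖m - X‖ ^ 2 := by linarith
  rw [a1, a2, a3]
  ring

theorem tpl_step [FiniteDimensional ℝ E] {f k : E → ℝ} (hf : Lip1 f) (hk : Lip1 k) {ε : ℝ}
    (hf2 : ∀ s, 0 < s → s < ε → ∀ x, 2 * f x ≤ supc s f x + infc s f x)
    (hk2 : ∀ s, 0 < s → s < ε → ∀ x, supc s k x + infc s k x ≤ 2 * k x)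
    {τ α β γ : ℝ} (hτ : 0 < τ) (hα : 0 ≤ α) {m κ ξ : E} (hκ : κ ≠ 0) {ρ : ℝ}
    (hmax : ∀ m' κ' ξ' : E, ‖m' - m‖ < ρ → ‖κ' - κ‖ < ρ → ‖ξ' - ξ‖ < ρ →
      f (m' + κ') + f (m' - κ') - 2 * k (m' - ξ') - penal τ α β γ m' κ' ξ'
        ≤ f (m + κ) + f (m - κ) - 2 * k (m - ξ) - penal τ α β γ m κ ξ)
    {s : ℝ} (hs : 0 < s) (hsε : s < ε)
    (hsρ : s * (2 + ‖ξ‖ / τ + ‖(1 / τ) • ξ + γ • m‖
      + ‖((α - 2 * β * ‖κ‖) / ‖κ‖) • κ‖) < ρ) :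
    ∃ X Y C : E,
      ‖X - s • ((1 / τ) • ξ + γ • m)‖ ^ 2
      + ‖Y - (s / 2) • (((α - 2 * β * ‖κ‖) / ‖κ‖) • κ)‖ ^ 2 + ‖C - (s / τ) • ξ‖ ^ 2
      ≤ s ^ 3 * (((1 + ‖ξ‖ / τ) ^ 2 + (1 + ‖(1 / τ) • ξ + γ • m‖) ^ 2) / τ
        + |γ| * (1 + ‖(1 / τ) • ξ + γ • m‖ ^ 2)
        + (α / (2 * ‖κ‖) + |β|) * (1 + ‖((α - 2 * β * ‖κ‖) / ‖κ‖) • κ‖ ^ 2)) ∧
      0 ≤ 2 * ‖X - C‖ ^ 2 / τ + α * (‖κ + Y‖ + ‖κ - Y‖ - 2 * ‖κ‖) - 2 * β * ‖Y‖ ^ 2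
        + 2 * γ * ‖X‖ ^ 2 := by
  have hn : 0 < ‖κ‖ := norm_pos_iff.2 hκ
  set μ := (1 / τ) • ξ + γ • m with hμ
  set g := ((α - 2 * β * ‖κ‖) / ‖κ‖) • κ with hg
  obtain ⟨ξa, hξa, hA⟩ := hf.exists_supc hs (m + κ)
  obtain ⟨ξb, hξb, hB⟩ := hf.exists_supc hs (m - κ)
  obtain ⟨C, hCs, hC⟩ := hk.exists_infc hs (m - ξ)
  set X := (1 / 2 : ℝ) • (ξa + ξb) with hX
  set Y := (1 / 2 : ℝ) • (ξa - ξb) with hY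
  have hXY : X + Y = ξa := by rw [hX, hY]; module
  have hXY' : X - Y = ξb := by rw [hX, hY]; module
  have hXs : ‖X‖ ≤ s := by
    rw [hX, norm_smul, Real.norm_of_nonneg (by norm_num)]
    have := norm_add_le ξa ξb
    linarith
  have hYs : ‖Y‖ ≤ s := by
    rw [hY, norm_smul, Real.norm_of_nonneg (by norm_num)]
    have := norm_sub_le ξa ξb
    linarith
  rw [← hXY] at hA
  rw [← hXY'] at hB
  have nN : ‖s • μ‖ = s * ‖μ‖ := by rw [norm_smul, Real.norm_of_nonneg hs.le]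
  have nP : ‖(s / 2) • g‖ = s / 2 * ‖g‖ := by
    rw [norm_smul, Real.norm_of_nonneg (by positivity)]
  have nH : ‖(s / τ) • ξ‖ = s * (‖ξ‖ / τ) := by
    rw [norm_smul, Real.norm_of_nonneg (by positivity)]
    ring
  have k1 : 0 ≤ s * (‖ξ‖ / τ) := by positivity
  have k2 : 0 ≤ s * ‖μ‖ := by positivity
  have k3 : 0 ≤ s * ‖g‖ := by positivity
  have hXH : ‖X - (s / τ) • ξ‖ ≤ s * (1 + ‖ξ‖ / τ) := by
    have := norm_sub_le X ((s / τ) • ξ)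
    linarith
  have hCN : ‖C - s • μ‖ ≤ s * (1 + ‖μ‖) := by
    have := norm_sub_le C (s • μ)
    linarith
  have hXC : ‖X - C‖ ≤ 2 * s := by
    have := norm_sub_le X C
    linarith
  have M1 := hmax (m + X) (κ + Y) (ξ + X - (s / τ) • ξ)
    (by rw [add_sub_cancel_left]; linarith) (by rw [add_sub_cancel_left]; linarith)
    (by rw [add_sub_assoc, add_sub_cancel_left]; linarith)
  have M2 := hmax (m - s • μ) (κ - (s / 2) • g) (ξ - s • μ + C)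
    (by rw [sub_sub_cancel_left, norm_neg]; linarith)
    (by rw [sub_sub_cancel_left, norm_neg]; linarith)
    (by
      have : ξ - s • μ + C - ξ = C - s • μ := by abel
      rw [this]; linarith)
  have M3 := hmax (m + X) (κ + Y) (ξ + X - C)
    (by rw [add_sub_cancel_left]; linarith) (by rw [add_sub_cancel_left]; linarith)
    (by rw [add_sub_assoc, add_sub_cancel_left]; linarith)
  have M4 := hmax (m - X) (κ - Y) (ξ - X + C)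
    (by rw [sub_sub_cancel_left, norm_neg]; linarith)
    (by rw [sub_sub_cancel_left, norm_neg]; linarith)
    (by
      have : ξ - X + C - ξ = -(X - C) := by abel
      rw [this, norm_neg]; linarith)
  have hfa := hf2 s hs hsε (m + κ)
  have hfb := hf2 s hs hsε (m - κ)
  have hkc := hk2 s hs hsε (m - ξ)
  refine ⟨X, Y, C, ?_, ?_⟩
  · have h1 := tpl_raw1 hf hk hs hfa hfb hkc hA hB hC M1 M2
    have h2 := penal_sum_le hτ hα hκ hs h1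
    refine h2.trans ?_
    have e : s ^ 3 * (((1 + ‖ξ‖ / τ) ^ 2 + (1 + ‖μ‖) ^ 2) / τ
        + |γ| * (1 + ‖μ‖ ^ 2) + (α / (2 * ‖κ‖) + |β|) * (1 + ‖g‖ ^ 2))
        = s * (((s * (1 + ‖ξ‖ / τ)) ^ 2 + (s * (1 + ‖μ‖)) ^ 2) / τ
        + |γ| * (s ^ 2 + (s * ‖μ‖) ^ 2)
        + (α / (2 * ‖κ‖) + |β|) * (s ^ 2 + (s * ‖g‖) ^ 2)) := by ring
    rw [e]
    apply mul_le_mul_of_nonneg_left _ hs.le
    rw [nN, nP]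
    have c1 : ‖X - (s / τ) • ξ‖ ^ 2 ≤ (s * (1 + ‖ξ‖ / τ)) ^ 2 :=
      pow_le_pow_left₀ (norm_nonneg _) hXH 2
    have c2 : ‖C - s • μ‖ ^ 2 ≤ (s * (1 + ‖μ‖)) ^ 2 :=
      pow_le_pow_left₀ (norm_nonneg _) hCN 2
    have c3 : ‖X‖ ^ 2 ≤ s ^ 2 := pow_le_pow_left₀ (norm_nonneg _) hXs 2
    have c4 : ‖Y‖ ^ 2 ≤ s ^ 2 := pow_le_pow_left₀ (norm_nonneg _) hYs 2
    have c5 : (s / 2 * ‖g‖) ^ 2 ≤ (s * ‖g‖) ^ 2 := by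
      apply pow_le_pow_left₀ (by positivity)
      linarith
    have d1 : (‖X - (s / τ) • ξ‖ ^ 2 + ‖C - s • μ‖ ^ 2) / τ
        ≤ ((s * (1 + ‖ξ‖ / τ)) ^ 2 + (s * (1 + ‖μ‖)) ^ 2) / τ :=
      div_le_div_of_nonneg_right (by linarith) hτ.le
    have d2 : γ * (‖X‖ ^ 2 + (s * ‖μ‖) ^ 2) ≤ |γ| * (s ^ 2 + (s * ‖μ‖) ^ 2) := by
      apply mul_le_mul (le_abs_self γ) (by linarith) (by positivity) (abs_nonneg γ)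
    have d3 : (α / (2 * ‖κ‖) - β) * (‖Y‖ ^ 2 + (s / 2 * ‖g‖) ^ 2)
        ≤ (α / (2 * ‖κ‖) + |β|) * (s ^ 2 + (s * ‖g‖) ^ 2) := by
      have : 0 ≤ α / (2 * ‖κ‖) := by positivity
      apply mul_le_mul (by linarith [neg_le_abs β]) (by linarith) (by positivity)
        (by linarith [abs_nonneg β])
    linarith
  · have h3 := tpl_raw2 hf hk hs hfa hfb hkc hA hB hC M3 M4
    rwa [penal_second] at h3

theorem tpl_scaled [FiniteDimensional ℝ E] {f k : E → ℝ} (hf : Lip1 f) (hk : Lip1 k) {ε : ℝ}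
    (hf2 : ∀ s, 0 < s → s < ε → ∀ x, 2 * f x ≤ supc s f x + infc s f x)
    (hk2 : ∀ s, 0 < s → s < ε → ∀ x, supc s k x + infc s k x ≤ 2 * k x)
    {τ α β γ : ℝ} (hτ : 0 < τ) (hα : 0 ≤ α) {m κ ξ : E} (hκ : κ ≠ 0) {ρ : ℝ}
    (hmax : ∀ m' κ' ξ' : E, ‖m' - m‖ < ρ → ‖κ' - κ‖ < ρ → ‖ξ' - ξ‖ < ρ →
      f (m' + κ') + f (m' - κ') - 2 * k (m' - ξ') - penal τ α β γ m' κ' ξ'
        ≤ f (m + κ) + f (m - κ) - 2 * k (m - ξ) - penal τ α β γ m κ ξ)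
    {s : ℝ} (hs : 0 < s) (hsε : s < ε)
    (hsρ : s * (2 + ‖ξ‖ / τ + ‖(1 / τ) • ξ + γ • m‖
      + ‖((α - 2 * β * ‖κ‖) / ‖κ‖) • κ‖) < ρ)
    (hsq : s * |(α - 2 * β * ‖κ‖) / ‖κ‖| ≤ 1) :
    ∃ X Y C : E,
      ‖X - ((1 / τ) • ξ + γ • m)‖ ^ 2
      + ‖Y - (1 / 2 : ℝ) • (((α - 2 * β * ‖κ‖) / ‖κ‖) • κ)‖ ^ 2 + ‖C - (1 / τ) • ξ‖ ^ 2
      ≤ s * (((1 + ‖ξ‖ / τ) ^ 2 + (1 + ‖(1 / τ) • ξ + γ • m‖) ^ 2) / τ
        + |γ| * (1 + ‖(1 / τ) • ξ + γ • m‖ ^ 2)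
        + (α / (2 * ‖κ‖) + |β|) * (1 + ‖((α - 2 * β * ‖κ‖) / ‖κ‖) • κ‖ ^ 2)) ∧
      0 ≤ 2 * ‖X - C‖ ^ 2 / τ + α * (2 * ‖Y - (1 / 2 : ℝ) • (((α - 2 * β * ‖κ‖) / ‖κ‖) • κ)‖ ^ 2
          / ‖κ‖) - 2 * β * ‖Y‖ ^ 2 + 2 * γ * ‖X‖ ^ 2 := by
  have hn : 0 < ‖κ‖ := norm_pos_iff.2 hκ
  obtain ⟨X, Y, C, h1, h2⟩ := tpl_step hf hk hf2 hk2 hτ hα hκ hmax hs hsε hsρ
  set μ := (1 / τ) • ξ + γ • m with hμ
  set q := (α - 2 * β * ‖κ‖) / ‖κ‖ with hq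
  set K := ((1 + ‖ξ‖ / τ) ^ 2 + (1 + ‖μ‖) ^ 2) / τ + |γ| * (1 + ‖μ‖ ^ 2)
        + (α / (2 * ‖κ‖) + |β|) * (1 + ‖q • κ‖ ^ 2) with hK
  have sc : ∀ v : E, ‖s⁻¹ • v‖ ^ 2 = (s⁻¹) ^ 2 * ‖v‖ ^ 2 := by
    intro v
    rw [norm_smul, Real.norm_of_nonneg (by positivity), mul_pow]
  have hss : (s⁻¹) ^ 2 * s ^ 3 = s := by field_simp
  have e1 : s⁻¹ • X - μ = s⁻¹ • (X - s • μ) := by
    rw [smul_sub, smul_smul, inv_mul_cancel₀ hs.ne', one_smul]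
  have e2 : s⁻¹ • Y - (1 / 2 : ℝ) • (q • κ) = s⁻¹ • (Y - (s / 2) • (q • κ)) := by
    rw [smul_sub, smul_smul s⁻¹]
    congr 2
    field_simp
  have e3 : s⁻¹ • C - (1 / τ) • ξ = s⁻¹ • (C - (s / τ) • ξ) := by
    rw [smul_sub, smul_smul s⁻¹]
    congr 2
    field_simp
  refine ⟨s⁻¹ • X, s⁻¹ • Y, s⁻¹ • C, ?_, ?_⟩
  · rw [e1, e2, e3, sc, sc, sc, ← mul_add, ← mul_add]
    calc (s⁻¹) ^ 2 * _ ≤ (s⁻¹) ^ 2 * (s ^ 3 * K) :=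
          mul_le_mul_of_nonneg_left h1 (by positivity)
      _ = s * K := by rw [← mul_assoc, hss]
  · rw [e2, ← smul_sub, sc, sc, sc, sc]
    have hl : |s / 2 * q| ≤ 1 / 2 := by
      rw [abs_mul, abs_of_nonneg (by positivity)]
      linarith
    have h3 := norm_add_norm_sub_le (κ := κ) (e := Y - (s / 2) • (q • κ)) hκ hl
    have e4 : (s / 2 * q) • κ + (Y - (s / 2) • (q • κ)) = Y := by
      rw [smul_smul]; abel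
    rw [e4] at h3
    have h4 : α * (‖κ + Y‖ + ‖κ - Y‖ - 2 * ‖κ‖)
        ≤ α * (2 * ‖Y - (s / 2) • (q • κ)‖ ^ 2 / ‖κ‖) :=
      mul_le_mul_of_nonneg_left (by linarith) hα
    have h5 : 0 ≤ 2 * ‖X - C‖ ^ 2 / τ + α * (2 * ‖Y - (s / 2) • (q • κ)‖ ^ 2 / ‖κ‖)
        - 2 * β * ‖Y‖ ^ 2 + 2 * γ * ‖X‖ ^ 2 := by linarith
    have h6 := mul_le_mul_of_nonneg_left h5 (show 0 ≤ (s⁻¹) ^ 2 by positivity)
    rw [mul_zero] at h6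
    refine h6.trans_eq ?_
    ring

theorem tpl [FiniteDimensional ℝ E] {f k : E → ℝ} (hf : Lip1 f) (hk : Lip1 k) {ε : ℝ}
    (hε : 0 < ε)
    (hf2 : ∀ s, 0 < s → s < ε → ∀ x, 2 * f x ≤ supc s f x + infc s f x)
    (hk2 : ∀ s, 0 < s → s < ε → ∀ x, supc s k x + infc s k x ≤ 2 * k x)
    {τ α β γ : ℝ} (hτ : 0 < τ) (hα : 0 ≤ α) {m κ ξ : E} (hκ : κ ≠ 0) {ρ : ℝ} (hρ : 0 < ρ)
    (hmax : ∀ m' κ' ξ' : E, ‖m' - m‖ < ρ → ‖κ' - κ‖ < ρ → ‖ξ' - ξ‖ < ρ →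
      f (m' + κ') + f (m' - κ') - 2 * k (m' - ξ') - ‖ξ'‖ ^ 2 / τ
          - (α * ‖κ'‖ - β * ‖κ'‖ ^ 2 + γ * ‖m'‖ ^ 2)
        ≤ f (m + κ) + f (m - κ) - 2 * k (m - ξ) - ‖ξ‖ ^ 2 / τ
          - (α * ‖κ‖ - β * ‖κ‖ ^ 2 + γ * ‖m‖ ^ 2)) :
    β / 2 * (α - 2 * β * ‖κ‖) ^ 2
      ≤ 2 * γ ^ 2 * ‖m‖ ^ 2 / τ + 2 * γ * ‖(1 / τ) • ξ + γ • m‖ ^ 2 := by
  have hn : 0 < ‖κ‖ := norm_pos_iff.2 hκ
  have hmax' : ∀ m' κ' ξ' : E, ‖m' - m‖ < ρ → ‖κ' - κ‖ < ρ → ‖ξ' - ξ‖ < ρ →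
      f (m' + κ') + f (m' - κ') - 2 * k (m' - ξ') - penal τ α β γ m' κ' ξ'
        ≤ f (m + κ) + f (m - κ) - 2 * k (m - ξ) - penal τ α β γ m κ ξ := by
    intro m' κ' ξ' a1 a2 a3
    have := hmax m' κ' ξ' a1 a2 a3
    unfold penal
    linarith
  set μ := (1 / τ) • ξ + γ • m with hμ
  set q := (α - 2 * β * ‖κ‖) / ‖κ‖ with hq
  set K := ((1 + ‖ξ‖ / τ) ^ 2 + (1 + ‖μ‖) ^ 2) / τ + |γ| * (1 + ‖μ‖ ^ 2)
        + (α / (2 * ‖κ‖) + |β|) * (1 + ‖q • κ‖ ^ 2) with hK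
  set S := 2 + ‖ξ‖ / τ + ‖μ‖ + ‖q • κ‖ + |q| with hS
  have hS0 : 0 < S := by positivity
  set s₀ := min (ε / 2) (min (ρ / (2 * S)) (1 / S)) with hs₀
  have hs₀pos : 0 < s₀ := by
    simp only [hs₀, lt_min_iff]
    refine ⟨by positivity, by positivity, by positivity⟩
  have key : ∀ n : ℕ, ∃ X Y C : E,
      ‖X - μ‖ ^ 2 + ‖Y - (1 / 2 : ℝ) • (q • κ)‖ ^ 2 + ‖C - (1 / τ) • ξ‖ ^ 2
      ≤ s₀ * (1 / ((n : ℝ) + 1)) * K ∧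
      0 ≤ 2 * ‖X - C‖ ^ 2 / τ + α * (2 * ‖Y - (1 / 2 : ℝ) • (q • κ)‖ ^ 2
          / ‖κ‖) - 2 * β * ‖Y‖ ^ 2 + 2 * γ * ‖X‖ ^ 2 := by
    intro n
    have hn1 : 1 / ((n : ℝ) + 1) ≤ 1 := by
      rw [div_le_one (by positivity)]
      linarith [Nat.cast_nonneg (α := ℝ) n]
    have hn0 : 0 < 1 / ((n : ℝ) + 1) := by positivity
    have hs : 0 < s₀ * (1 / ((n : ℝ) + 1)) := by positivity
    have hs1 : s₀ * (1 / ((n : ℝ) + 1)) ≤ s₀ := by nlinarith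
    have b1 : s₀ ≤ ε / 2 := min_le_left _ _
    have b2 : s₀ ≤ ρ / (2 * S) := (min_le_right _ _).trans (min_le_left _ _)
    have b3 : s₀ ≤ 1 / S := (min_le_right _ _).trans (min_le_right _ _)
    rw [le_div_iff₀ (by positivity)] at b2 b3
    have b4 : s₀ * (1 / ((n : ℝ) + 1)) * S ≤ s₀ * S :=
      mul_le_mul_of_nonneg_right hs1 hS0.le
    refine tpl_scaled hf hk hf2 hk2 hτ hα hκ hmax' hs (by linarith) ?_ ?_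
    · refine lt_of_le_of_lt ?_ (show s₀ * S < ρ by linarith)
      refine le_trans ?_ b4
      apply mul_le_mul_of_nonneg_left _ hs.le
      rw [hS]
      linarith [abs_nonneg q]
    · refine le_trans ?_ (b4.trans b3)
      apply mul_le_mul_of_nonneg_left _ hs.le
      rw [hS]
      have : 0 ≤ ‖ξ‖ / τ := by positivity
      linarith [norm_nonneg μ, norm_nonneg (q • κ)]
  choose X Y C h1 h2 using key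
  have hlim0 : Tendsto (fun n : ℕ => s₀ * (1 / ((n : ℝ) + 1)) * K) atTop (𝓝 0) := by
    have := ((tendsto_one_div_add_atTop_nhds_zero_nat (𝕜 := ℝ)).const_mul s₀).mul_const K
    simpa using this
  have sqz : ∀ (V : ℕ → E) (v : E), (∀ n, ‖V n - v‖ ^ 2 ≤ s₀ * (1 / ((n : ℝ) + 1)) * K) →
      Tendsto V atTop (𝓝 v) := by
    intro V v hV
    rw [tendsto_iff_norm_sub_tendsto_zero]
    have h3 : Tendsto (fun n => ‖V n - v‖ ^ 2) atTop (𝓝 0) :=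
      squeeze_zero (fun n => by positivity) hV hlim0
    have h4 := h3.sqrt
    simpa [Real.sqrt_sq (norm_nonneg _)] using h4
  have lX : Tendsto X atTop (𝓝 μ) := sqz X μ fun n => by
    have := h1 n
    nlinarith [sq_nonneg ‖Y n - (1 / 2 : ℝ) • (q • κ)‖, sq_nonneg ‖C n - (1 / τ) • ξ‖]
  have lY : Tendsto Y atTop (𝓝 ((1 / 2 : ℝ) • (q • κ))) := sqz Y _ fun n => by
    have := h1 n
    nlinarith [sq_nonneg ‖X n - μ‖, sq_nonneg ‖C n - (1 / τ) • ξ‖]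
  have lC : Tendsto C atTop (𝓝 ((1 / τ) • ξ)) := sqz C _ fun n => by
    have := h1 n
    nlinarith [sq_nonneg ‖Y n - (1 / 2 : ℝ) • (q • κ)‖, sq_nonneg ‖X n - μ‖]
  have L := (((((lX.sub lC).norm.pow 2).const_mul 2).div_const τ).add
    ((((((lY.sub_const ((1 / 2 : ℝ) • (q • κ))).norm.pow 2).const_mul 2).div_const ‖κ‖).const_mul α))).sub
      ((lY.norm.pow 2).const_mul (2 * β))|>.add ((lX.norm.pow 2).const_mul (2 * γ))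
  have L0 := ge_of_tendsto' L h2
  have e1 : μ - (1 / τ) • ξ = γ • m := by rw [hμ]; abel
  have e2 : ‖(1 / 2 : ℝ) • (q • κ)‖ ^ 2 = (1 / 4) * (α - 2 * β * ‖κ‖) ^ 2 := by
    rw [norm_smul, norm_smul, Real.norm_of_nonneg (by norm_num), Real.norm_eq_abs, mul_pow,
      mul_pow, sq_abs, hq, div_pow]
    field_simp
    norm_num
    ring
  rw [e1, e2, sub_self, norm_zero, norm_smul, mul_pow, Real.norm_eq_abs, sq_abs] at L0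
  have e3 : 2 * (γ ^ 2 * ‖m‖ ^ 2) / τ = 2 * γ ^ 2 * ‖m‖ ^ 2 / τ := by ring
  rw [e3] at L0
  simp only [ne_eq, OfNat.ofNat_ne_zero, not_false_eq_true, zero_pow, mul_zero, zero_div,
    add_zero] at L0
  linarith

end Vale.Agent.P080
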