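import Vale.Agent.P080.Compact
import Vale.Agent.P080.TPL

open Metric Set Filter Topology
open scoped RealInnerProductSpace

namespace Vale.Agent.P080

variable {E : Type*} [NormedAddCommGroup E] [InnerProductSpace ℝ E]

omit [InnerProductSpace ℝ E] in
theorem infc_neg (s : ℝ) (V : E → ℝ) (x : E) : infc s (fun y => -V y) x = -supc s V x := by
  simp [infc]

theorem Cls.quot_supc_mono [FiniteDimensional ℝ E] {u : E → ℝ} (hu : Cls u) {s t : ℝ}
    (hs : 0 < s) (hst : s ≤ t) (x : E) :
    (supc s u x - u x) / s ≤ (supc t u x - u x) / t := by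
  have := hu.neg.quot_infc_mono hs hst x
  rw [infc_neg, infc_neg] at this
  have e1 : -u x - -supc s u x = supc s u x - u x := by ring
  have e2 : -u x - -supc t u x = supc t u x - u x := by ring
  rwa [e1, e2] at this

theorem tendsto_supc [FiniteDimensional ℝ E] (l : Ultrafilter ℕ) {u : ℕ → E → ℝ} {v : E → ℝ}
    (hlim : ∀ x, Tendsto (fun n => u n x) l (𝓝 (v x))) (hu : ∀ n, Lip1 (u n)) (hv : Lip1 v)
    {s : ℝ} (hs : 0 < s) {x : ℕ → E} {y : E} (hx : Tendsto x l (𝓝 y)) :
    Tendsto (fun n => supc s (u n) (x n)) l (𝓝 (supc s v y)) := by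
  have := tendsto_infc l (u := fun n y => -u n y) (v := fun y => -v y)
    (fun x => (hlim x).neg) (fun n => (hu n).neg) hv.neg hs hx
  simp only [infc_neg] at this
  simpa using this.neg

theorem supc_scale {u : E → ℝ} {r s : ℝ} (hr : 0 < r) (x : E) :
    supc s (fun y => r⁻¹ * u (r • y)) x = r⁻¹ * supc (r * s) u (r • x) := by
  unfold supc
  rw [Real.mul_iSup_of_nonneg (by positivity)]
  refine Equiv.iSup_congr ((Homeomorph.smulOfNeZero (α := E) r hr.ne').toEquiv) fun y => ?_
  simp only [Homeomorph.coe_toEquiv, Homeomorph.smulOfNeZero_apply]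
  rw [← smul_sub, norm_smul, Real.norm_of_nonneg hr.le]
  field_simp

theorem half_linear [FiniteDimensional ℝ E] {v : E → ℝ} (hv : Cls v) (h0 : v 0 = 0) {q : ℝ}
    (hq : ∀ L : ℝ, 0 < L → supc L v 0 = L * q) : ∃ p : E, ∀ x, ⟪p, x⟫ ≤ v x := by
  have hq0 : 0 ≤ q := by
    have := hv.lip.self_le_supc one_pos (0 : E)
    rw [hq 1 one_pos, h0] at this
    linarith
  have hle : ∀ (L : ℝ), 0 < L → ∀ y, supc L v y - v y ≤ L * q := by
    intro L hL y
    have h1 : ∀ n : ℕ, (supc L v y - v y) / L ≤ q + (‖y‖ - v y) / (L + n) := by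
      intro n
      have hn : (0 : ℝ) ≤ n := Nat.cast_nonneg n
      have hLn : 0 < L + n := by positivity
      refine (hv.quot_supc_mono hL (show L ≤ L + n by linarith) y).trans ?_
      have h2 := hv.lip.lip_supc hLn y 0
      rw [hq _ hLn, sub_zero] at h2
      rw [div_le_iff₀ hLn]
      have : (q + (‖y‖ - v y) / (L + n)) * (L + n) = (L + n) * q + (‖y‖ - v y) := by
        field_simp
      rw [this]
      linarith
    have h2 : Tendsto (fun n : ℕ => q + (‖y‖ - v y) / (L + n)) atTop (𝓝 (q + 0)) := by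
      refine tendsto_const_nhds.add ?_
      exact Tendsto.div_atTop tendsto_const_nhds
        (tendsto_atTop_add_const_left _ _ tendsto_natCast_atTop_atTop)
    have h3 := ge_of_tendsto' h2 h1
    rw [div_le_iff₀ hL] at h3
    linarith
  have hle2 : ∀ y z : E, ∀ L : ℝ, 0 < L → v z - v y ≤ ‖z - y‖ ^ 2 / (2 * L) + L * q := by
    intro y z L hL
    have h1 := hv.lip.le_supc hL y z
    linarith [hle L hL y]
  rcases hq0.eq_or_lt with hq0 | hq0
  · refine ⟨0, fun x => ?_⟩
    rw [inner_zero_left]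
    have h1 : ∀ n : ℕ, -v x ≤ ‖x‖ ^ 2 / 2 / ((n : ℝ) + 1) := by
      intro n
      have := hle2 x 0 ((n : ℝ) + 1) (by positivity)
      rw [h0, ← hq0, zero_sub, zero_sub, norm_neg, mul_zero, add_zero] at this
      refine this.trans_eq ?_
      field_simp
    have h2 : Tendsto (fun n : ℕ => ‖x‖ ^ 2 / 2 / ((n : ℝ) + 1)) atTop (𝓝 0) :=
      Tendsto.div_atTop tendsto_const_nhds
        (tendsto_atTop_add_const_right _ _ tendsto_natCast_atTop_atTop)
    have := ge_of_tendsto' h2 h1
    linarith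
  · set P := √(2 * q) with hP
    have hP0 : 0 < P := Real.sqrt_pos.2 (by positivity)
    have hPq : P ^ 2 = 2 * q := Real.sq_sqrt (by positivity)
    have hlipP : ∀ y z : E, v z - v y ≤ P * ‖z - y‖ := by
      intro y z
      by_cases hzy : z = y
      · subst hzy; simp
      · have hn : 0 < ‖z - y‖ := norm_pos_iff.2 (sub_ne_zero.2 hzy)
        have := hle2 y z (‖z - y‖ / P) (by positivity)
        refine this.trans_eq ?_
        have : q = P ^ 2 / 2 := by linarith
        rw [this]
        field_simp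
        norm_num
    have hpt : ∀ n : ℕ, ∃ e : E, ‖e‖ = 1 ∧ ∀ x,
        P * ⟪e, x⟫ - P * ‖x‖ ^ 2 / (2 * ((n : ℝ) + 1)) ≤ v x := by
      intro n
      set R := (n : ℝ) + 1 with hR
      have hR0 : 0 < R := by positivity
      set L := R / P with hL
      have hL0 : 0 < L := by positivity
      have hLP : L * P = R := by rw [hL]; field_simp
      obtain ⟨ξ, -, hξ⟩ := hv.lip.exists_supc hL0 (0 : E)
      rw [hq L hL0, zero_add] at hξ
      have h1 := hlipP 0 ξ
      rw [h0, sub_zero, sub_zero] at h1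
      have h2 : ‖ξ‖ = R := by
        have h3 : (‖ξ‖ - L * P) ^ 2 ≤ 0 := by
          have h4 : L * q ≤ P * ‖ξ‖ - ‖ξ‖ ^ 2 / (2 * L) := by linarith
          have h5 : 2 * L * (L * q) ≤ 2 * L * (P * ‖ξ‖ - ‖ξ‖ ^ 2 / (2 * L)) :=
            mul_le_mul_of_nonneg_left h4 (by positivity)
          have h6 : 2 * L * (P * ‖ξ‖ - ‖ξ‖ ^ 2 / (2 * L)) = 2 * L * P * ‖ξ‖ - ‖ξ‖ ^ 2 := by
            field_simp
          rw [h6] at h5
          have h7 : 2 * L * (L * q) = (L * P) ^ 2 := by
            rw [mul_pow, hPq]; ring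
          rw [h7] at h5
          nlinarith
        have h4 : ‖ξ‖ - L * P = 0 := by
          have := le_antisymm h3 (sq_nonneg _)
          exact pow_eq_zero_iff two_ne_zero |>.1 this
        linarith
      have h3 : P * R ≤ v ξ := by
        have : v ξ = L * q + ‖ξ‖ ^ 2 / (2 * L) := by linarith
        rw [this, h2, ← hLP]
        have : q = P ^ 2 / 2 := by linarith
        rw [this]
        field_simp
        norm_num
      refine ⟨R⁻¹ • ξ, ?_, fun x => ?_⟩
      · rw [norm_smul, norm_inv, Real.norm_of_nonneg hR0.le, h2]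
        field_simp
      · have h4 := hlipP x ξ
        have hξ0 : ξ ≠ 0 := by
          rintro rfl
          simp at h2
          linarith
        have h5 := norm_add_le_quad (δ := -x) hξ0
        rw [← sub_eq_add_neg, inner_neg_right, norm_neg, h2] at h5
        rw [real_inner_smul_left]
        have h6 := mul_le_mul_of_nonneg_left h5 hP0.le
        have e1 : P * (R + -⟪ξ, x⟫ / R + ‖x‖ ^ 2 / (2 * R))
            = P * R - P * (R⁻¹ * ⟪ξ, x⟫) + P * ‖x‖ ^ 2 / (2 * R) := by
          field_simp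
          ring
        rw [e1] at h6
        linarith
    choose e he1 he2 using hpt
    obtain ⟨e', he', φ, hφ, hlim⟩ := (isCompact_sphere (0 : E) 1).tendsto_subseq
      (x := e) (fun n => by simpa using he1 n)
    refine ⟨P • e', fun x => ?_⟩
    rw [real_inner_smul_left]
    have h1 : Tendsto (fun n => P * ⟪e (φ n), x⟫ - P * ‖x‖ ^ 2 / (2 * ((φ n : ℝ) + 1)))
        atTop (𝓝 (P * ⟪e', x⟫ - 0)) := by
      refine Tendsto.sub ((hlim.inner tendsto_const_nhds).const_mul P) ?_
      refine Tendsto.div_atTop tendsto_const_nhds ?_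
      refine Tendsto.const_mul_atTop (by norm_num) ?_
      exact tendsto_atTop_add_const_right _ _ (tendsto_natCast_atTop_atTop.comp hφ.tendsto_atTop)
    have h2 := le_of_tendsto' h1 fun n => he2 (φ n) x
    linarith

theorem Cls.scale {u : E → ℝ} (hu : Cls u) (a : E) {r : ℝ} (hr : 0 < r) :
    Cls (fun y => r⁻¹ * (u (a + r • y) - u a)) := by
  have e0 : ∀ y z : E, a + r • y - (a + r • z) = r • (y - z) := by
    intro y z; module
  refine ⟨?_, ?_, ?_⟩
  · intro x y
    have := hu.lip (a + r • x) (a + r • y)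
    rw [e0, norm_smul, Real.norm_of_nonneg hr.le] at this
    have h2 : r⁻¹ * (u (a + r • x) - u (a + r • y)) ≤ r⁻¹ * (r * ‖x - y‖) :=
      mul_le_mul_of_nonneg_left this (by positivity)
    rw [← mul_assoc, inv_mul_cancel₀ hr.ne', one_mul] at h2
    linarith
  · intro y z t ht ht1
    obtain ⟨w, h1, h2⟩ := hu.up (a + r • y) (a + r • z) t ht ht1
    refine ⟨r⁻¹ • (w - a), ?_, ?_⟩
    · have e1 : r⁻¹ • (w - a) - y = r⁻¹ • (w - (a + r • y)) := by
        rw [← sub_sub, smul_sub _ (w - a), smul_smul, inv_mul_cancel₀ hr.ne', one_smul]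
      rw [e0, norm_smul, Real.norm_of_nonneg hr.le] at h1
      rw [e1, norm_smul, norm_inv, Real.norm_of_nonneg hr.le]
      have h2 : r⁻¹ * (t * ‖w - (a + r • y)‖) ≤ r⁻¹ * (r * ‖z - y‖) :=
        mul_le_mul_of_nonneg_left h1 (by positivity)
      rw [← mul_assoc r⁻¹ r, inv_mul_cancel₀ hr.ne', one_mul] at h2
      linarith
    · have e1 : a + r • (r⁻¹ • (w - a)) = w := by
        rw [smul_smul, mul_inv_cancel₀ hr.ne', one_smul]; abel
      rw [e1]
      have h3 : r⁻¹ * (u (a + r • z) - u a)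
          ≤ r⁻¹ * ((1 - t) * u (a + r • y) + t * u w - u a) :=
        mul_le_mul_of_nonneg_left (by linarith) (by positivity)
      linarith
  · intro y z t ht ht1
    obtain ⟨w, h1, h2⟩ := hu.dn (a + r • y) (a + r • z) t ht ht1
    refine ⟨r⁻¹ • (w - a), ?_, ?_⟩
    · have e1 : r⁻¹ • (w - a) - y = r⁻¹ • (w - (a + r • y)) := by
        rw [← sub_sub, smul_sub _ (w - a), smul_smul, inv_mul_cancel₀ hr.ne', one_smul]
      rw [e0, norm_smul, Real.norm_of_nonneg hr.le] at h1
      rw [e1, norm_smul, norm_inv, Real.norm_of_nonneg hr.le]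
      have h2 : r⁻¹ * (t * ‖w - (a + r • y)‖) ≤ r⁻¹ * (r * ‖z - y‖) :=
        mul_le_mul_of_nonneg_left h1 (by positivity)
      rw [← mul_assoc r⁻¹ r, inv_mul_cancel₀ hr.ne', one_mul] at h2
      linarith
    · have e1 : a + r • (r⁻¹ • (w - a)) = w := by
        rw [smul_smul, mul_inv_cancel₀ hr.ne', one_smul]; abel
      rw [e1]
      have h3 : r⁻¹ * ((1 - t) * u (a + r • y) + t * u w - u a)
          ≤ r⁻¹ * (u (a + r • z) - u a) :=
        mul_le_mul_of_nonneg_left (by linarith) (by positivity)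
      linarith

theorem Cls.blowdown_half [FiniteDimensional ℝ E] (l : Ultrafilter ℕ) (hl : (l : Filter ℕ) ≤ atTop)
    {u : E → ℝ} (hu : Cls u) (h0 : u 0 = 0) {r : ℕ → ℝ} (hr0 : ∀ n, 0 < r n)
    (hr : Tendsto r atTop atTop) {v : E → ℝ}
    (hlim : ∀ x, Tendsto (fun n => (r n)⁻¹ * u (r n • x)) l (𝓝 (v x))) :
    ∃ p : E, ∀ x, ⟪p, x⟫ ≤ v x := by
  have hcl : ∀ n, Cls (fun y => (r n)⁻¹ * u (r n • y)) := by
    intro n
    have := hu.scale 0 (hr0 n)
    simpa [h0] using this
  have hv : Cls v := Cls.ultralimit_cls l hlim hcl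
  have hv0 : v 0 = 0 := by
    have h1 : Tendsto (fun n => (r n)⁻¹ * u (r n • (0 : E))) l (𝓝 0) := by
      simp [h0]
    exact tendsto_nhds_unique (hlim 0) h1
  have hmono : ∀ s t : ℝ, 0 < s → s ≤ t → supc s u 0 / s ≤ supc t u 0 / t := by
    intro s t hs hst
    have := hu.quot_supc_mono hs hst 0
    rwa [h0, sub_zero, sub_zero] at this
  obtain ⟨q, hq⟩ : ∃ q : ℝ, Tendsto (fun L : ℝ => supc L u 0 / L) atTop (𝓝 q) := by
    set g : ℝ → ℝ := fun L => supc (max L 1) u 0 / max L 1 with hg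
    have hgm : Monotone g := by
      intro a b hab
      exact hmono _ _ (by positivity) (max_le_max_right 1 hab)
    have hgb : BddAbove (range g) := by
      refine ⟨1 / 2, ?_⟩
      rintro _ ⟨L, rfl⟩
      have hL : 0 < max L 1 := by positivity
      have := hu.lip.supc_le hL 0
      rw [h0, zero_add] at this
      simp only [hg]
      rw [div_le_iff₀ hL]
      linarith
    refine ⟨_, (tendsto_atTop_ciSup hgm hgb).congr' ?_⟩
    filter_upwards [eventually_ge_atTop (1 : ℝ)] with L hL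
    simp only [hg]
    rw [max_eq_left hL]
  refine half_linear hv hv0 (q := q) fun L hL => ?_
  have h1 := tendsto_supc l hlim (fun n => (hcl n).lip) hv.lip hL
    (x := fun _ => (0 : E)) tendsto_const_nhds
  have h2 : Tendsto (fun n => L * (supc (r n * L) u 0 / (r n * L))) l (𝓝 (L * q)) := by
    refine Tendsto.const_mul L ?_
    refine hq.comp ?_
    exact (hr.atTop_mul_const hL).mono_left hl
  refine tendsto_nhds_unique h1 (h2.congr fun n => ?_)
  rw [supc_scale (hr0 n), smul_zero]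
  have := (hr0 n).ne'
  field_simp

theorem Cls.blowdown_linear [FiniteDimensional ℝ E] (l : Ultrafilter ℕ)
    (hl : (l : Filter ℕ) ≤ atTop)
    {u : E → ℝ} (hu : Cls u) (h0 : u 0 = 0) {r : ℕ → ℝ} (hr0 : ∀ n, 0 < r n)
    (hr : Tendsto r atTop atTop) {v : E → ℝ}
    (hlim : ∀ x, Tendsto (fun n => (r n)⁻¹ * u (r n • x)) l (𝓝 (v x))) :
    ∃ p : E, ∀ x, v x = ⟪p, x⟫ := by
  obtain ⟨p, hp⟩ := hu.blowdown_half l hl h0 hr0 hr hlim
  obtain ⟨p', hp'⟩ := hu.neg.blowdown_half l hl (by simp [h0]) hr0 hr (v := fun x => -v x)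
    (fun x => by
      have := (hlim x).neg
      refine this.congr fun n => ?_
      ring)
  have h1 : p + p' = 0 := by
    have a1 := hp (p + p')
    have a2 := hp' (p + p')
    have a3 : ⟪p + p', p + p'⟫ ≤ 0 := by
      rw [inner_add_left]
      linarith
    exact real_inner_self_nonpos.1 a3
  refine ⟨p, fun x => le_antisymm ?_ (hp x)⟩
  have a2 := hp' x
  have : p' = -p := by
    rw [eq_neg_iff_add_eq_zero, add_comm]; exact h1
  rw [this, inner_neg_left] at a2
  linarith

end Vale.Agent.P080
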