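import Vale.Agent.P080.Liouville

open Metric Set Filter Topology
open scoped RealInnerProductSpace

namespace Vale.Agent.P080

variable {d : ℕ}

theorem scaled_up {u : Eu d → ℝ} {Ω : Set (Eu d)} (hu : IsInfinityHarmonicOn u Ω)
    {a : Eu d} {r c : ℝ} (hr : 0 < r) (hc : 0 < c) {y z : Eu d} {t : ℝ} (ht : 0 < t) (ht1 : t ≤ 1)
    (hsub : closedBall (a + r • y) (r * (‖z - y‖ / t)) ⊆ Ω) :
    ∃ w, t * ‖w - y‖ ≤ ‖z - y‖ ∧
      c * (u (a + r • z) - u a) ≤ (1 - t) * (c * (u (a + r • y) - u a))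
        + t * (c * (u (a + r • w) - u a)) := by
  have e0 : a + r • z - (a + r • y) = r • (z - y) := by module
  have hn : ‖a + r • z - (a + r • y)‖ = r * ‖z - y‖ := by
    rw [e0, norm_smul, Real.norm_of_nonneg hr.le]
  obtain ⟨w, h1, h2⟩ := up_of_harm hu (y := a + r • y) (z := a + r • z) ht ht1
    (by rwa [hn, mul_div_assoc])
  refine ⟨r⁻¹ • (w - a), ?_, ?_⟩
  · have e1 : r⁻¹ • (w - a) - y = r⁻¹ • (w - (a + r • y)) := by
      rw [← sub_sub, smul_sub _ (w - a), smul_smul, inv_mul_cancel₀ hr.ne', one_smul]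
    rw [hn] at h1
    rw [e1, norm_smul, norm_inv, Real.norm_of_nonneg hr.le]
    have h3 : r⁻¹ * (t * ‖w - (a + r • y)‖) ≤ r⁻¹ * (r * ‖z - y‖) :=
      mul_le_mul_of_nonneg_left h1 (by positivity)
    rw [← mul_assoc r⁻¹ r, inv_mul_cancel₀ hr.ne', one_mul] at h3
    linarith
  · have e1 : a + r • (r⁻¹ • (w - a)) = w := by
      rw [smul_smul, mul_inv_cancel₀ hr.ne', one_smul]; abel
    rw [e1]
    have h3 : c * (u (a + r • z) - u a)
        ≤ c * ((1 - t) * u (a + r • y) + t * u w - u a) :=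
      mul_le_mul_of_nonneg_left (by linarith) hc.le
    linarith

theorem scaled_dn {u : Eu d → ℝ} {Ω : Set (Eu d)} (hu : IsInfinityHarmonicOn u Ω)
    {a : Eu d} {r c : ℝ} (hr : 0 < r) (hc : 0 < c) {y z : Eu d} {t : ℝ} (ht : 0 < t) (ht1 : t ≤ 1)
    (hsub : closedBall (a + r • y) (r * (‖z - y‖ / t)) ⊆ Ω) :
    ∃ w, t * ‖w - y‖ ≤ ‖z - y‖ ∧
      (1 - t) * (c * (u (a + r • y) - u a)) + t * (c * (u (a + r • w) - u a))
        ≤ c * (u (a + r • z) - u a) := by
  obtain ⟨w, h1, h2⟩ := scaled_up hu.neg hr hc ht ht1 hsub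
  exact ⟨w, h1, by linarith⟩

theorem lip_of_osc {u : Eu d → ℝ} {Ω : Set (Eu d)} (hu : IsInfinityHarmonicOn u Ω) {x : Eu d}
    {ρ M : ℝ} (hρ : 0 < ρ) (hsub : closedBall x ρ ⊆ Ω)
    (hM : ∀ y ∈ closedBall x ρ, ∀ z ∈ closedBall x ρ, u y - u z ≤ M) {y z : Eu d}
    (hy : ‖y - x‖ ≤ ρ / 2) (hz : ‖z - x‖ ≤ ρ / 2) : u y - u z ≤ 2 * M / ρ * ‖y - z‖ := by
  have hxm : x ∈ closedBall x ρ := mem_closedBall_self hρ.le
  have hM0 : 0 ≤ M := by simpa using hM x hxm x hxm
  have hym : y ∈ closedBall x ρ := by rw [mem_closedBall, dist_eq_norm]; linarith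
  have hzm : z ∈ closedBall x ρ := by rw [mem_closedBall, dist_eq_norm]; linarith
  by_cases hyz : ‖y - z‖ ≤ ρ / 2
  · have hs : closedBall z (ρ / 2) ⊆ closedBall x ρ := by
      apply closedBall_subset_closedBall'
      rw [dist_eq_norm]
      linarith
    have := cone_upper (M := u z + M) hu (half_pos hρ) (hs.trans hsub)
      (fun w hw => by linarith [hM w (hs hw) z hzm]) y (by rwa [mem_closedBall, dist_eq_norm])
    have e : (u z + M - u z) / (ρ / 2) * ‖y - z‖ = 2 * M / ρ * ‖y - z‖ := by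
      field_simp
      ring
    rw [e] at this
    linarith
  · push Not at hyz
    refine (hM y hym z hzm).trans ?_
    have : M = 2 * M / ρ * (ρ / 2) := by field_simp
    calc M = 2 * M / ρ * (ρ / 2) := this
      _ ≤ 2 * M / ρ * ‖y - z‖ := mul_le_mul_of_nonneg_left hyz.le (by positivity)

theorem radius_aux {R ρ r s t : ℝ} {n : ℕ} (hρ : 0 < ρ) (hr : 0 < r) (hR : 0 ≤ R)
    (hrn : r ≤ 1 / ((n : ℝ) + 1) * ρ) (hn : R + 2 * R * R ≤ n) (hs0 : 0 ≤ s) (hs : s ≤ 2 * R)
    (ht : 0 < t) (hRt : 1 / R ≤ t) : r * R + r * (s / t) ≤ ρ := by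
  have h1 : s / t ≤ 2 * R * R := by
    rcases hR.eq_or_lt with hR0 | hR0
    · have : s = 0 := le_antisymm (by rw [← hR0] at hs; linarith) hs0
      rw [this, zero_div]
      positivity
    · rw [div_le_iff₀ ht]
      rw [div_le_iff₀ hR0] at hRt
      have : 2 * R * R * t = 2 * R * (t * R) := by ring
      rw [this]
      nlinarith
  have h2 : r * (R + s / t) ≤ 1 / ((n : ℝ) + 1) * ρ * (R + s / t) :=
    mul_le_mul_of_nonneg_right hrn (by positivity)
  have h3 : 1 / ((n : ℝ) + 1) * ρ * (R + s / t) ≤ 1 / ((n : ℝ) + 1) * ρ * ((n : ℝ) + 1) :=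
    mul_le_mul_of_nonneg_left (by linarith) (by positivity)
  have h4 : 1 / ((n : ℝ) + 1) * ρ * ((n : ℝ) + 1) = ρ := by field_simp
  linarith

theorem flatness (d : ℕ) {ε : ℝ} (hε : 0 < ε) :
    ∃ δ : ℝ, 0 < δ ∧ ∀ (u : Eu d → ℝ) (Ω : Set (Eu d)), IsInfinityHarmonicOn u Ω →
      ∀ (x : Eu d) (ρ M : ℝ), 0 < ρ → closedBall x ρ ⊆ Ω →
        (∀ y ∈ closedBall x ρ, ∀ z ∈ closedBall x ρ, u y - u z ≤ M) →
        ∀ r : ℝ, 0 < r → r ≤ δ * ρ →
          ∃ p : Eu d, ∀ y ∈ closedBall x r, |u y - u x - ⟪p, y - x⟫| ≤ ε * (M / ρ) * r := by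
  by_contra hcon
  push Not at hcon
  have hcon' := fun n : ℕ => hcon (1 / ((n : ℝ) + 1)) (by positivity)
  choose u Ω hu x ρ M hρ hsub hM r hr hrρ hfail using hcon'
  have hMpos : ∀ n, 0 < M n := by
    intro n
    have hxm : x n ∈ closedBall (x n) (ρ n) := mem_closedBall_self (hρ n).le
    have hM0 : 0 ≤ M n := by simpa using hM n _ hxm _ hxm
    rcases hM0.eq_or_lt with h | h
    · exfalso
      obtain ⟨y, hy, hy2⟩ := hfail n 0
      rw [← h, zero_div, mul_zero, zero_mul, inner_zero_left, sub_zero] at hy2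
      have hrn : r n ≤ ρ n := by
        refine (hrρ n).trans ?_
        have : 1 / ((n : ℝ) + 1) ≤ 1 := by
          rw [div_le_one (by positivity)]
          linarith [Nat.cast_nonneg (α := ℝ) n]
        nlinarith [hρ n]
      have hym : y ∈ closedBall (x n) (ρ n) := closedBall_subset_closedBall hrn hy
      have a1 := hM n y hym _ hxm
      have a2 := hM n _ hxm y hym
      rw [← h] at a1 a2
      have : u n y - u n (x n) = 0 := by linarith
      rw [this, abs_zero] at hy2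
      exact lt_irrefl _ hy2
    · exact h
  set L : ℕ → ℝ := fun n => 2 * M n / ρ n with hL
  have hLpos : ∀ n, 0 < L n := fun n => by
    have := hMpos n
    have := hρ n
    simp only [hL]
    positivity
  set v : ℕ → Eu d → ℝ := fun n y => (L n * r n)⁻¹ * (u n (x n + r n • y) - u n (x n)) with hv
  set l : Ultrafilter ℕ := hyperfilter ℕ with hl
  have hev : ∀ R : ℝ, ∀ᶠ n : ℕ in l, R ≤ n := fun R =>
    (Nat.hyperfilter_le_atTop) (tendsto_natCast_atTop_atTop.eventually_ge_atTop R)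
  have hloc : LocLip l v := by
    intro R
    filter_upwards [hev (2 * R)] with n hn y z hy hz
    have hrp := hr n
    have hρn := hρ n
    have hn1 : (0 : ℝ) < (n : ℝ) + 1 := by positivity
    have hb : r n * R ≤ ρ n / 2 := by
      rcases le_or_gt R 0 with hR | hR
      · nlinarith
      · have h1 : r n * R ≤ 1 / ((n : ℝ) + 1) * ρ n * R :=
          mul_le_mul_of_nonneg_right (hrρ n) hR.le
        have h2 : 1 / ((n : ℝ) + 1) * ρ n * R = ρ n * (R / ((n : ℝ) + 1)) := by ring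
        have h3 : R / ((n : ℝ) + 1) ≤ 1 / 2 := by
          rw [div_le_iff₀ hn1]; linarith
        nlinarith
    have b1 : ‖x n + r n • y - x n‖ ≤ ρ n / 2 := by
      rw [add_sub_cancel_left, norm_smul, Real.norm_of_nonneg hrp.le]
      nlinarith
    have b2 : ‖x n + r n • z - x n‖ ≤ ρ n / 2 := by
      rw [add_sub_cancel_left, norm_smul, Real.norm_of_nonneg hrp.le]
      nlinarith
    have h4 := lip_of_osc (hu n) hρn (hsub n) (hM n) b1 b2
    have e1 : x n + r n • y - (x n + r n • z) = r n • (y - z) := by module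
    rw [e1, norm_smul, Real.norm_of_nonneg hrp.le] at h4
    have hLr : 0 < L n * r n := mul_pos (hLpos n) hrp
    have h5 : (L n * r n)⁻¹ * (u n (x n + r n • y) - u n (x n + r n • z))
        ≤ (L n * r n)⁻¹ * (L n * (r n * ‖y - z‖)) :=
      mul_le_mul_of_nonneg_left h4 (by positivity)
    have e2 : (L n * r n)⁻¹ * (L n * (r n * ‖y - z‖)) = ‖y - z‖ := by
      rw [← mul_assoc (L n), ← mul_assoc, inv_mul_cancel₀ hLr.ne', one_mul]
    rw [e2] at h5
    simp only [hv]
    linarith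
  have hball : ∀ R : ℝ, ∀ᶠ n in l, ∀ y z : Eu d, ‖y‖ ≤ R → ‖z‖ ≤ R → ∀ t : ℝ, 0 < t → 1 / R ≤ t →
      closedBall (x n + r n • y) (r n * (‖z - y‖ / t)) ⊆ Ω n := by
    intro R
    filter_upwards [hev (R + 2 * R * R)] with n hn y z hy hz t ht hRt
    have hR0 : 0 ≤ R := (norm_nonneg y).trans hy
    refine Subset.trans ?_ (hsub n)
    apply closedBall_subset_closedBall'
    rw [dist_eq_norm, add_sub_cancel_left, norm_smul, Real.norm_of_nonneg (hr n).le]
    have h1 := radius_aux (s := ‖z - y‖) (hρ n) (hr n) hR0 (hrρ n) hn (norm_nonneg _)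
      (by have := norm_sub_le z y; linarith) ht hRt
    have h2 : r n * ‖y‖ ≤ r n * R := mul_le_mul_of_nonneg_left hy (hr n).le
    linarith
  obtain ⟨V, hV⟩ := exists_ultralimit l (Eventually.of_forall fun n => by simp [hv]) hloc
  have hVc : Cls V := by
    refine Cls.ultralimit l hV hloc ?_ ?_
    · intro R
      filter_upwards [hball R] with n hn y z hy hz t ht hRt ht1
      exact scaled_up (hu n) (hr n) (inv_pos.2 (mul_pos (hLpos n) (hr n))) ht ht1
        (hn y z hy hz t ht hRt)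
    · intro R
      filter_upwards [hball R] with n hn y z hy hz t ht hRt ht1
      exact scaled_dn (hu n) (hr n) (inv_pos.2 (mul_pos (hLpos n) (hr n))) ht ht1
        (hn y z hy hz t ht hRt)
  obtain ⟨p, c, hp⟩ := hVc.affine
  have hV0 : V 0 = 0 := tendsto_nhds_unique (hV 0) (by simp [hv])
  have hc : c = 0 := by
    have := hp 0
    rw [hV0, inner_zero_right] at this
    linarith
  have hf := fun n => hfail n (L n • p)
  choose y hy hy2 using hf
  have hyb : ∀ n, ‖(r n)⁻¹ • (y n - x n)‖ ≤ 1 := by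
    intro n
    have := hy n
    rw [mem_closedBall, dist_eq_norm] at this
    rw [norm_smul, norm_inv, Real.norm_of_nonneg (hr n).le, inv_mul_le_iff₀ (hr n)]
    linarith
  obtain ⟨y', -, hy'⟩ := exists_tendsto_of_bdd l (a := fun n => (r n)⁻¹ • (y n - x n)) (R := 1)
    (Eventually.of_forall hyb)
  have hlim := (tendsto_eval_of_locLip l hV hloc hy').sub
    ((tendsto_const_nhds (x := p)).inner hy')
  rw [hp, hc, add_zero, sub_self] at hlim
  have hlow : ∀ n, ε / 2 ≤ |v n ((r n)⁻¹ • (y n - x n)) - ⟪p, (r n)⁻¹ • (y n - x n)⟫| := by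
    intro n
    have hLr : 0 < L n * r n := mul_pos (hLpos n) (hr n)
    have e1 : x n + r n • ((r n)⁻¹ • (y n - x n)) = y n := by
      rw [smul_smul, mul_inv_cancel₀ (hr n).ne', one_smul, add_sub_cancel]
    have e2 : v n ((r n)⁻¹ • (y n - x n)) - ⟪p, (r n)⁻¹ • (y n - x n)⟫
        = (L n * r n)⁻¹ * (u n (y n) - u n (x n) - ⟪L n • p, y n - x n⟫) := by
      simp only [hv]
      rw [e1, real_inner_smul_right, real_inner_smul_left]
      have := (hLpos n).ne'
      have := (hr n).ne'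
      field_simp
    rw [e2, abs_mul, abs_of_pos (inv_pos.2 hLr)]
    have h1 := (hy2 n).le
    have e3 : ε * (M n / ρ n) * r n = (L n * r n) * (ε / 2) := by
      simp only [hL]; ring
    rw [e3] at h1
    have h2 := mul_le_mul_of_nonneg_left h1 (inv_pos.2 hLr).le
    rw [← mul_assoc, inv_mul_cancel₀ hLr.ne', one_mul] at h2
    exact h2
  have := ge_of_tendsto' hlim.abs hlow
  rw [abs_zero] at this
  linarith

end Vale.Agent.P080
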