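import Vale.Agent.P080.Main

open Metric Set Filter Topology
open scoped RealInnerProductSpace

namespace Vale.Agent.P080

variable {d : ℕ}

theorem TouchedByBall.mono {u : Eu d → ℝ} {U V : Set (Eu d)} {x : Eu d} {ρ ρ' : ℝ}
    (h : TouchedByBall u U x ρ) (hρ : 0 < ρ) (hρ' : 0 ≤ ρ') (hle : ρ' ≤ ρ) (hV : V ⊆ U) :
    TouchedByBall u V x ρ' := by
  obtain ⟨c, hc, h⟩ := h
  rw [dist_eq_norm] at hc
  have hcc : ‖c - x‖ = ρ := by rw [norm_sub_rev]; exact hc
  have hsub : ball (x + (ρ' / ρ) • (c - x)) ρ' ⊆ ball c ρ := by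
    apply ball_subset_ball'
    rw [dist_eq_norm]
    have h1 : x + (ρ' / ρ) • (c - x) - c = (ρ' / ρ - 1) • (c - x) := by
      rw [sub_smul, one_smul]
      abel
    have h2 : |ρ' / ρ - 1| = 1 - ρ' / ρ := by
      rw [abs_sub_comm, abs_of_nonneg]
      have : ρ' / ρ ≤ 1 := (div_le_one hρ).2 hle
      linarith
    rw [h1, norm_smul, hcc, Real.norm_eq_abs, h2]
    have h3 : (1 - ρ' / ρ) * ρ = ρ - ρ' := by field_simp
    rw [h3]
    linarith
  refine ⟨x + (ρ' / ρ) • (c - x), ?_, ?_⟩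
  · rw [dist_eq_norm, sub_add_cancel_left, norm_neg, norm_smul, hcc,
      Real.norm_of_nonneg (by positivity)]
    field_simp
  · rcases h with h | h
    · left
      rintro y ⟨hy1, hy2⟩
      exact h y ⟨hsub hy1, hV hy2⟩
    · right
      rintro y ⟨hy1, hy2⟩
      exact h y ⟨hsub hy1, hV hy2⟩

theorem contDiffOn_of_pointwise {u : Eu d → ℝ} {Ω : Set (Eu d)} (hΩ : IsOpen Ω)
    (h : ∀ x ∈ Ω, DifferentiableAt ℝ u x ∧ ContinuousAt (fderiv ℝ u) x) :
    ContDiffOn ℝ 1 u Ω := by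
  have h1 : ContDiffOn ℝ (((0 : ℕ) : WithTop ℕ∞) + 1) u Ω := by
    rw [contDiffOn_succ_iff_fderiv_of_isOpen hΩ]
    refine ⟨fun x hx => (h x hx).1.differentiableWithinAt, by simp, ?_⟩
    exact contDiffOn_zero.2 fun x hx => (h x hx).2.continuousWithinAt
  have e : (((0 : ℕ) : WithTop ℕ∞) + 1) = 1 := by norm_num
  rwa [e] at h1

theorem global_of_ball {u : Eu d → ℝ} {Ω : Set (Eu d)} (hu : IsInfinityHarmonicOn u Ω)
    (hΩ : IsOpen Ω)
    (h : ∀ x₀ ∈ Ω, ∃ r : ℝ, 0 < r ∧ ∃ ρ : ℝ, 0 < ρ ∧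
      ∀ x ∈ ball x₀ r, TouchedByBall u (ball x₀ r) x ρ) : ContDiffOn ℝ 1 u Ω := by
  apply contDiffOn_of_pointwise hΩ
  intro x₀ hx₀
  obtain ⟨r, hr, ρ, hρ, ht⟩ := h x₀ hx₀
  obtain ⟨p, hp⟩ := touched_diff hu hΩ hx₀ hρ (ball_mem_nhds x₀ hr) (ht x₀ (mem_ball_self hr))
  refine ⟨hp.differentiableAt, pointwise_criterion hu hΩ hx₀ hp.differentiableAt ?_⟩
  intro C hC
  refine ⟨min r (ρ / C), by positivity, ?_⟩
  intro x hx
  have hx1 : dist x x₀ < r := hx.trans_le (min_le_left _ _)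
  have hx2 : dist x x₀ < ρ / C := hx.trans_le (min_le_right _ _)
  have hx3 : C * dist x x₀ ≤ ρ := by
    rw [lt_div_iff₀ hC] at hx2
    linarith
  exact (ht x hx1).mono hρ (by positivity) hx3 (ball_subset_ball (min_le_left _ _))

theorem touched_of_quasiconcave {u : Eu d → ℝ} {x₀ x : Eu d} {r ρ : ℝ} (hd : 0 < d)
    (hc : ContinuousOn u (ball x₀ r)) (hq : QuasiconcaveOn ℝ (ball x₀ r) u)
    (hρ : 0 < ρ) : TouchedByBall u (ball x₀ r) x ρ := by
  set A : Set (Eu d) := {y ∈ ball x₀ r | u x < u y} with hA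
  have hAconv : Convex ℝ A := hq.convex_gt (u x)
  have hAopen : IsOpen A := hc.isOpen_inter_preimage isOpen_ball isOpen_Ioi
  have hxA : x ∉ A := by
    intro h
    exact lt_irrefl _ h.2
  obtain ⟨f, hf⟩ := geometric_hahn_banach_point_open hAconv hAopen hxA
  obtain ⟨p, hp⟩ := exists_innerSL_eq f
  by_cases hp0 : p = 0
  · have hAe : ∀ y ∈ ball x₀ r, u y ≤ u x := by
      intro y hy
      by_contra hlt
      push Not at hlt
      have := hf y ⟨hy, hlt⟩
      rw [← hp, hp0] at this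
      simp at this
    refine ⟨x + ρ • EuclideanSpace.single ⟨0, hd⟩ (1 : ℝ), ?_, ?_⟩
    · rw [dist_eq_norm, sub_add_cancel_left, norm_neg, norm_smul,
        Real.norm_of_nonneg hρ.le]
      simp
    · left
      rintro y ⟨-, hy⟩
      exact hAe y hy
  · have hpn : 0 < ‖p‖ := norm_pos_iff.2 hp0
    refine ⟨x - (ρ / ‖p‖) • p, ?_, ?_⟩
    · rw [dist_eq_norm, sub_sub_cancel, norm_smul, Real.norm_of_nonneg (by positivity)]
      field_simp
    · left
      rintro y ⟨hy1, hy2⟩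
      by_contra hlt
      push Not at hlt
      have h1 := hf y ⟨hy2, hlt⟩
      rw [← hp, innerSL_apply_apply, innerSL_apply_apply] at h1
      rw [mem_ball, dist_eq_norm] at hy1
      have h2 : y - (x - (ρ / ‖p‖) • p) = (y - x) + (ρ / ‖p‖) • p := by abel
      rw [← pow_lt_pow_iff_left₀ (norm_nonneg _) hρ.le two_ne_zero, h2, norm_add_sq_real,
        norm_smul, Real.norm_of_nonneg (by positivity), div_mul_cancel₀ _ hpn.ne',
        inner_smul_right, real_inner_comm, inner_sub_right] at hy1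
      have h3 : 0 < 2 * (ρ / ‖p‖ * (⟪p, y⟫ - ⟪p, x⟫)) := by
        have : 0 < ⟪p, y⟫ - ⟪p, x⟫ := by linarith
        positivity
      nlinarith [sq_nonneg ‖y - x‖]

theorem TouchedByBall.neg {u : Eu d → ℝ} {U : Set (Eu d)} {x : Eu d} {ρ : ℝ}
    (h : TouchedByBall (fun y => -u y) U x ρ) : TouchedByBall u U x ρ := by
  obtain ⟨c, hc, h | h⟩ := h
  · exact ⟨c, hc, Or.inr fun y hy => by linarith [h y hy]⟩
  · exact ⟨c, hc, Or.inl fun y hy => by linarith [h y hy]⟩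

theorem touched_of_quasiconvex {u : Eu d → ℝ} {x₀ x : Eu d} {r ρ : ℝ} (hd : 0 < d)
    (hc : ContinuousOn u (ball x₀ r)) (hq : QuasiconvexOn ℝ (ball x₀ r) u)
    (hρ : 0 < ρ) : TouchedByBall u (ball x₀ r) x ρ := by
  have hq' : QuasiconcaveOn ℝ (ball x₀ r) (fun y => -u y) := by
    intro t
    have h := hq (-t)
    have e : {y | y ∈ ball x₀ r ∧ t ≤ -u y} = {y | y ∈ ball x₀ r ∧ u y ≤ -t} := by
      ext y
      constructor
      · rintro ⟨h1, h2⟩
        exact ⟨h1, by linarith⟩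
      · rintro ⟨h1, h2⟩
        exact ⟨h1, by linarith⟩
    rw [e]
    exact h
  exact (touched_of_quasiconcave hd hc.neg hq' hρ).neg

theorem global_of_quasi {u : Eu d → ℝ} {Ω : Set (Eu d)} (hu : IsInfinityHarmonicOn u Ω)
    (hΩ : IsOpen Ω)
    (h : ∀ x₀ ∈ Ω, ∃ r : ℝ, 0 < r ∧
      (QuasiconcaveOn ℝ (ball x₀ r) u ∨ QuasiconvexOn ℝ (ball x₀ r) u)) :
    ContDiffOn ℝ 1 u Ω := by
  rcases Nat.eq_zero_or_pos d with hd | hd
  · subst hd
    have e : u = fun _ => u 0 := by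
      funext y
      rw [Subsingleton.elim y 0]
    rw [e]
    exact contDiffOn_const
  · apply global_of_ball hu hΩ
    intro x₀ hx₀
    obtain ⟨r, hr, hq⟩ := h x₀ hx₀
    obtain ⟨r', hr', hr'Ω⟩ := Metric.isOpen_iff.1 hΩ x₀ hx₀
    have hmin : 0 < min r r' := by positivity
    have hcont : ContinuousOn u (ball x₀ (min r r')) :=
      hu.1.mono ((ball_subset_ball (min_le_right _ _)).trans hr'Ω)
    have hsub : ball x₀ (min r r') ⊆ ball x₀ r := ball_subset_ball (min_le_left _ _)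
    refine ⟨min r r', hmin, 1, one_pos, ?_⟩
    intro x hx
    rcases hq with hq | hq
    · refine touched_of_quasiconcave hd hcont ?_ one_pos
      intro t
      have h1 := (hq t).inter (convex_ball x₀ (min r r'))
      convert h1 using 1
      ext y
      constructor
      · rintro ⟨h2, h3⟩
        exact ⟨⟨hsub h2, h3⟩, h2⟩
      · rintro ⟨⟨h2, h3⟩, h4⟩
        exact ⟨h4, h3⟩
    · refine touched_of_quasiconvex hd hcont ?_ one_pos
      intro t
      have h1 := (hq t).inter (convex_ball x₀ (min r r'))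
      convert h1 using 1
      ext y
      constructor
      · rintro ⟨h2, h3⟩
        exact ⟨⟨hsub h2, h3⟩, h2⟩
      · rintro ⟨⟨h2, h3⟩, h4⟩
        exact ⟨h4, h3⟩

end Vale.Agent.P080
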