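import Vale.Agent.P080.MFinal
import Vale.Agent.P080M.C_Main

open Metric Set Filter Topology
open scoped RealInnerProductSpace

namespace Vale.Agent.P080

theorem affineThm (E : Type*) [NormedAddCommGroup E] [InnerProductSpace ℝ E]
    [FiniteDimensional ℝ E] : AffineThm E :=
  fun _ hK _ h => MCls.affine hK h

theorem norm_gradient_sub {d : ℕ} (u : EuclideanSpace ℝ (Fin d) → ℝ)
    (x y : EuclideanSpace ℝ (Fin d)) :
    ‖gradient u x - gradient u y‖ = ‖fderiv ℝ u x - fderiv ℝ u y‖ := by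
  unfold gradient
  rw [← map_sub, LinearIsometryEquiv.norm_map]

theorem le_osc {d : ℕ} {u : EuclideanSpace ℝ (Fin d) → ℝ} {Ω : Set (EuclideanSpace ℝ (Fin d))}
    (hu : ContinuousOn u Ω) {x₀ : EuclideanSpace ℝ (Fin d)} {ρ : ℝ}
    (hsub : closedBall x₀ ρ ⊆ Ω) :
    ∀ y ∈ closedBall x₀ ρ, ∀ z ∈ closedBall x₀ ρ,
      u y - u z ≤ sSup (u '' closedBall x₀ ρ) - sInf (u '' closedBall x₀ ρ) := by
  intro y hy z hz
  have hc := (isCompact_closedBall x₀ ρ).image_of_continuousOn (hu.mono hsub)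
  have h1 := le_csSup hc.bddAbove (mem_image_of_mem u hy)
  have h2 := csInf_le hc.bddBelow (mem_image_of_mem u hz)
  linarith

theorem gradient_estimate (d : ℕ) : ∃ α C : ℝ, 0 < α ∧ 0 < C ∧
    ∀ (Ω : Set (EuclideanSpace ℝ (Fin d))) (u : EuclideanSpace ℝ (Fin d) → ℝ),
      IsInfinityHarmonicOn u Ω →
      ∀ (x₀ : EuclideanSpace ℝ (Fin d)) (ρ : ℝ), 0 < ρ → closedBall x₀ ρ ⊆ Ω →
      ∀ x ∈ closedBall x₀ (ρ / 2), ∀ y ∈ closedBall x₀ (ρ / 2),
        ‖gradient u x - gradient u y‖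
          ≤ C * ((sSup (u '' closedBall x₀ ρ) - sInf (u '' closedBall x₀ ρ)) / ρ)
            * (‖x - y‖ / ρ) ^ α := by
  obtain ⟨α, C, hα, hC, h⟩ := c1alpha d (affineThm _)
  refine ⟨α, C, hα, hC, ?_⟩
  intro Ω u hu x₀ ρ hρ hsub x hx y hy
  rw [norm_gradient_sub]
  exact (h u Ω hu x₀ ρ _ hρ hsub (le_osc hu.1 hsub)).2 x hx y hy

theorem gradient_estimate' (d : ℕ) : ∃ α C : ℝ, 0 < α ∧ 0 < C ∧
    ∀ (Ω : Set (EuclideanSpace ℝ (Fin d))) (u : EuclideanSpace ℝ (Fin d) → ℝ),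
      IsOpen Ω → IsInfinityHarmonicOn u Ω →
      ∀ (x₀ : EuclideanSpace ℝ (Fin d)) (r M : ℝ), 0 < r → closedBall x₀ (2 * r) ⊆ Ω →
        (∀ y ∈ closedBall x₀ (2 * r), ∀ z ∈ closedBall x₀ (2 * r), u y - u z ≤ M) →
        ∀ x ∈ closedBall x₀ r, ∀ y ∈ closedBall x₀ r,
          ‖gradient u x - gradient u y‖ ≤ C * (M / r) * (‖x - y‖ / r) ^ α := by
  obtain ⟨α, C, hα, hC, h⟩ := c1alpha d (affineThm _)
  refine ⟨α, C, hα, hC, ?_⟩
  intro Ω u _ hu x₀ r M hr hsub hM x hx y hy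
  have e : 2 * r / 2 = r := by ring
  have h1 := (h u Ω hu x₀ (2 * r) M (by positivity) hsub hM).2 x (by rwa [e]) y (by rwa [e])
  rw [norm_gradient_sub]
  refine h1.trans ?_
  have hM0 : 0 ≤ M := by
    have h0 : x₀ ∈ closedBall x₀ (2 * r) := mem_closedBall_self (by positivity)
    have := hM x₀ h0 x₀ h0
    linarith
  have h2 : M / (2 * r) ≤ M / r := div_le_div_of_nonneg_left hM0 hr (by linarith)
  have h3 : ‖x - y‖ / (2 * r) ≤ ‖x - y‖ / r :=
    div_le_div_of_nonneg_left (norm_nonneg _) hr (by linarith)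
  have h4 : (‖x - y‖ / (2 * r)) ^ α ≤ (‖x - y‖ / r) ^ α :=
    Real.rpow_le_rpow (by positivity) h3 hα.le
  have h5 : C * (M / (2 * r)) ≤ C * (M / r) := mul_le_mul_of_nonneg_left h2 hC.le
  exact mul_le_mul h5 h4 (by positivity) (by positivity)

theorem contDiffOn_infinityHarmonic (d : ℕ) (Ω : Set (EuclideanSpace ℝ (Fin d)))
    (u : EuclideanSpace ℝ (Fin d) → ℝ) (hΩ : IsOpen Ω) (hu : IsInfinityHarmonicOn u Ω) :
    ContDiffOn ℝ 1 u Ω :=
  contDiffOn_one d (affineThm _) u Ω hΩ hu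

theorem gradient_continuous (d : ℕ) (Ω : Set (EuclideanSpace ℝ (Fin d)))
    (u : EuclideanSpace ℝ (Fin d) → ℝ) (hΩ : IsOpen Ω) (hu : IsInfinityHarmonicOn u Ω) :
    (∀ x ∈ Ω, DifferentiableAt ℝ u x) ∧ ContinuousOn (gradient u) Ω := by
  have h := contDiffOn_infinityHarmonic d Ω u hΩ hu
  refine ⟨fun x hx => ((h.differentiableOn one_ne_zero) x hx).differentiableAt
    (hΩ.mem_nhds hx), ?_⟩
  have h1 := h.continuousOn_fderiv_of_isOpen hΩ le_rfl
  exact (LinearIsometryEquiv.continuous _).comp_continuousOn h1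

end Vale.Agent.P080
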