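import Mathlib

/-!
# P080, Part C, steps (28)-(32): improvement of natural flatness implies `C^{1,α}`

Pure real analysis: the improvement theorem (27) is a hypothesis (`Imp`).
-/

open Metric Set Filter Topology
open scoped RealInnerProductSpace

namespace Vale.Agent.P080.C2

variable {E : Type*} [NormedAddCommGroup E] [InnerProductSpace ℝ E]

/-- unit direction -/
noncomputable def dir (p : E) : E := ‖p‖⁻¹ • p

/-- the anisotropic cylinder: height `r` in the direction of `p`, width `√m r` -/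
def Cyl (x : E) (r : ℝ) (p : E) (m : ℝ) (y : E) : Prop :=
  |⟪dir p, y - x⟫| ≤ r ∧ ‖y - x - ⟪dir p, y - x⟫ • dir p‖ ≤ √m * r

/-- natural flatness -/
def NF (u : E → ℝ) (x : E) (r : ℝ) (p : E) (m : ℝ) : Prop :=
  ∀ y, Cyl x r p m y → |u y - u x - ⟪p, y - x⟫| ≤ m * r

/-- flatness on a ball -/
def BF (u : E → ℝ) (x : E) (ρ : ℝ) (p : E) (η : ℝ) : Prop :=
  ∀ y, ‖y - x‖ ≤ ρ → |u y - u x - ⟪p, y - x⟫| ≤ η

/-- the improvement theorem (27), as a property of `u` near `x0` -/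
def Imp (u : E → ℝ) (x0 : E) (M es : ℝ) : Prop :=
  ∀ (x : E) (r m : ℝ), ‖x - x0‖ ≤ 3 → 0 < r → M * r ≤ 1 → 0 < m → m ≤ es →
    (∀ (x' : E) (r' : ℝ), ‖x' - x‖ ≤ M * r → r / M ≤ r' → r' ≤ M * r →
      ∃ p' : E, 1 / 4 ≤ ‖p'‖ ∧ ‖p'‖ ≤ 2 ∧ NF u x' r' p' m) →
    ∃ p : E, ∀ y, Cyl x r p m y → |u y - u x - ⟪p, y - x⟫| ≤ m / 4 * r

theorem norm_dir_le (p : E) : ‖dir p‖ ≤ 1 := by
  rw [dir, norm_smul, norm_inv, norm_norm]
  by_cases h : ‖p‖ = 0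
  · rw [h]
    simp
  · rw [inv_mul_cancel₀ h]

theorem perp_le {e : E} (h : E) (he : ‖e‖ ≤ 1) : ‖h - ⟪e, h⟫ • e‖ ≤ ‖h‖ := by
  have h1 : ‖h - ⟪e, h⟫ • e‖ ^ 2 = ‖h‖ ^ 2 - 2 * ⟪e, h⟫ ^ 2 + ⟪e, h⟫ ^ 2 * ‖e‖ ^ 2 := by
    rw [norm_sub_sq_real, inner_smul_right, real_inner_comm, norm_smul, mul_pow,
      Real.norm_eq_abs, sq_abs]
    ring
  have h2 : ⟪e, h⟫ ^ 2 * ‖e‖ ^ 2 ≤ ⟪e, h⟫ ^ 2 * 1 := by
    refine mul_le_mul_of_nonneg_left ?_ (sq_nonneg _)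
    have := norm_nonneg e
    nlinarith
  have h3 : ‖h - ⟪e, h⟫ • e‖ ^ 2 ≤ ‖h‖ ^ 2 := by
    rw [h1]
    nlinarith [sq_nonneg ⟪e, h⟫]
  exact (sq_le_sq₀ (norm_nonneg _) (norm_nonneg _)).1 h3

theorem cyl_of_ball {x y p : E} {r m : ℝ} (hm : m ≤ 1) (hr : 0 ≤ r)
    (h : ‖y - x‖ ≤ √m * r) : Cyl x r p m y := by
  have hs : √m ≤ 1 := Real.sqrt_le_one.2 hm
  refine ⟨?_, (perp_le _ (norm_dir_le p)).trans h⟩
  have h1 := abs_real_inner_le_norm (dir p) (y - x)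
  have h2 : ‖dir p‖ * ‖y - x‖ ≤ 1 * ‖y - x‖ :=
    mul_le_mul_of_nonneg_right (norm_dir_le p) (norm_nonneg _)
  have h3 : √m * r ≤ 1 * r := mul_le_mul_of_nonneg_right hs hr
  linarith

theorem ball_of_cyl {x y p : E} {r m : ℝ} (hm : m ≤ 1) (hr : 0 ≤ r) (h : Cyl x r p m y) :
    ‖y - x‖ ≤ 2 * r := by
  have hs : √m ≤ 1 := Real.sqrt_le_one.2 hm
  have h1 : ‖y - x‖ ≤ ‖y - x - ⟪dir p, y - x⟫ • dir p‖ + ‖⟪dir p, y - x⟫ • dir p‖ := by
    have := norm_add_le (y - x - ⟪dir p, y - x⟫ • dir p) (⟪dir p, y - x⟫ • dir p)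
    rwa [sub_add_cancel] at this
  have h2 : ‖⟪dir p, y - x⟫ • dir p‖ ≤ r := by
    rw [norm_smul, Real.norm_eq_abs]
    have h3 : |⟪dir p, y - x⟫| * ‖dir p‖ ≤ |⟪dir p, y - x⟫| * 1 :=
      mul_le_mul_of_nonneg_left (norm_dir_le p) (abs_nonneg _)
    linarith [h.1]
  have h3 : √m * r ≤ 1 * r := mul_le_mul_of_nonneg_right hs hr
  linarith [h.2]

theorem NF.bf {u : E → ℝ} {x p : E} {r m : ℝ} (h : NF u x r p m) (hm : m ≤ 1) (hr : 0 ≤ r) :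
    BF u x (√m * r) p (m * r) := fun _ hy => h _ (cyl_of_ball hm hr hy)

theorem BF.nf {u : E → ℝ} {x p : E} {r m : ℝ} (h : BF u x (2 * r) p (m * r)) (hm : m ≤ 1)
    (hr : 0 ≤ r) : NF u x r p m := fun _ hy => h _ (ball_of_cyl hm hr hy)

theorem BF.mono {u : E → ℝ} {x p : E} {ρ ρ' η η' : ℝ} (h : BF u x ρ p η) (h1 : ρ' ≤ ρ)
    (h2 : η ≤ η') : BF u x ρ' p η' := fun y hy => (h y (hy.trans h1)).trans h2

theorem BF.sub_le {u : E → ℝ} {x p p' : E} {ρ η η' : ℝ} (h : BF u x ρ p η)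
    (h' : BF u x ρ p' η') (hρ : 0 ≤ ρ) : ‖p - p'‖ * ρ ≤ η + η' := by
  by_cases h0 : p - p' = 0
  · rw [h0, norm_zero, zero_mul]
    have h1 := h x (by simpa using hρ)
    have h2 := h' x (by simpa using hρ)
    linarith [abs_nonneg (u x - u x - ⟪p, x - x⟫), abs_nonneg (u x - u x - ⟪p', x - x⟫)]
  · have hn : 0 < ‖p - p'‖ := norm_pos_iff.2 h0
    set y := x + (ρ / ‖p - p'‖) • (p - p') with hy
    have hyx : y - x = (ρ / ‖p - p'‖) • (p - p') := by rw [hy]; abel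
    have hny : ‖y - x‖ ≤ ρ := by
      rw [hyx, norm_smul, Real.norm_of_nonneg (by positivity), div_mul_cancel₀ _ hn.ne']
    have h1 := abs_le.1 (h y hny)
    have h2 := abs_le.1 (h' y hny)
    have h3 : ⟪p, y - x⟫ - ⟪p', y - x⟫ = ‖p - p'‖ * ρ := by
      rw [← inner_sub_left, hyx, inner_smul_right, real_inner_self_eq_norm_sq]
      field_simp
    linarith [h1.1, h1.2, h2.1, h2.2]

/-- comparison of the slopes of two naturally flat cylinders with the same centre -/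
theorem cmp {u : E → ℝ} {x p p' : E} {r r' s s' ρ : ℝ} (h : NF u x r p (s ^ 2))
    (h' : NF u x r' p' (s' ^ 2)) (hs : 0 < s) (hs1 : s ≤ 1) (hs' : 0 < s') (hs1' : s' ≤ 1)
    (hr : 0 < r) (hr' : 0 < r') (hρ0 : 0 ≤ ρ) (hρ : ρ ≤ s * r) (hρ' : ρ ≤ s' * r') :
    ‖p - p'‖ * ρ ≤ s ^ 2 * r + s' ^ 2 * r' := by
  have h1 := h.bf (by nlinarith) hr.le
  have h2 := h'.bf (by nlinarith) hr'.le
  rw [Real.sqrt_sq hs.le] at h1
  rw [Real.sqrt_sq hs'.le] at h2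
  exact (h1.mono hρ le_rfl).sub_le (h2.mono hρ' le_rfl) hρ0

/-- the region `Z` -/
def InZ (x0 : E) (ρ : ℝ) (x : E) (r : ℝ) : Prop :=
  0 < r ∧ ρ ≤ r ∧ r ≤ 1 ∧ ‖x - x0‖ ≤ 1 + 2 * √r

/-- the data of the theorem -/
structure Data (u : E → ℝ) (x0 q0 : E) (M es σ : ℝ) (q : E → ℝ → E) : Prop where
  hM : 2 ≤ M
  hσ : 0 < σ
  hσe : σ ^ 2 ≤ es
  hσM : 1548 * M ^ 4 * σ ≤ 1
  imp : Imp u x0 M es
  flat : ∀ (x : E) (r : ℝ), ‖x - x0‖ ≤ 3 → 0 < r → r ≤ 1 → BF u x (2 * r) (q x r) (σ ^ 2 * r)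
  glob : ∀ y, ‖y - x0‖ ≤ 5 → |u y - u x0 - ⟪q0, y - x0⟫| ≤ 8 * σ ^ 2
  q0l : 1 / 2 ≤ ‖q0‖
  q0u : ‖q0‖ ≤ 3 / 2

variable {u : E → ℝ} {x0 q0 : E} {M es σ : ℝ} {q : E → ℝ → E}

omit [InnerProductSpace ℝ E] in
theorem InZ.norm_le {ρ r : ℝ} {x : E} (h : InZ x0 ρ x r) : ‖x - x0‖ ≤ 3 := by
  obtain ⟨_, _, h2, h3⟩ := h
  have : √r ≤ 1 := Real.sqrt_le_one.2 h2
  linarith

theorem Data.M4 (D : Data u x0 q0 M es σ q) : 16 ≤ M ^ 4 := by
  have h1 := D.hM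
  calc (16 : ℝ) = 2 ^ 4 := by norm_num
    _ ≤ M ^ 4 := pow_le_pow_left₀ (by norm_num) h1 4

theorem Data.M1 (D : Data u x0 q0 M es σ q) : M ≤ M ^ 4 := by
  have h1 := D.hM
  calc M = M ^ 1 := (pow_one M).symm
    _ ≤ M ^ 4 := pow_le_pow_right₀ (by linarith) (by norm_num)

theorem Data.M3 (D : Data u x0 q0 M es σ q) : M ^ 3 ≤ M ^ 4 :=
  pow_le_pow_right₀ (by linarith [D.hM]) (by norm_num)

theorem Data.σ1 (D : Data u x0 q0 M es σ q) : 24768 * σ ≤ 1 := by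
  have h1 := D.M4
  have h2 := D.hσ
  have h3 := D.hσM
  nlinarith

theorem Data.sq_le (D : Data u x0 q0 M es σ q) : σ ^ 2 ≤ σ := by
  have h1 := D.σ1
  have h2 := D.hσ
  nlinarith

/-- comparison with the global slope -/
theorem Data.globBF (D : Data u x0 q0 M es σ q) {x : E} (hx : ‖x - x0‖ ≤ 3) {ρ : ℝ}
    (hρ : ρ ≤ 2) : BF u x ρ q0 (16 * σ ^ 2) := by
  intro y hy
  have h1 : ‖y - x0‖ ≤ 5 := by
    calc ‖y - x0‖ = ‖(y - x) + (x - x0)‖ := by congr 1; abel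
      _ ≤ ‖y - x‖ + ‖x - x0‖ := norm_add_le _ _
      _ ≤ 5 := by linarith
  have h2 := abs_le.1 (D.glob y h1)
  have h3 := abs_le.1 (D.glob x (by linarith))
  have h4 : ⟪q0, y - x⟫ = ⟪q0, y - x0⟫ - ⟪q0, x - x0⟫ := by
    rw [← inner_sub_right]
    congr 1
    abel
  rw [abs_le, h4]
  constructor <;> linarith [h2.1, h2.2, h3.1, h3.2]

theorem Data.direct (D : Data u x0 q0 M es σ q) {x : E} (hx : ‖x - x0‖ ≤ 3) {r : ℝ}
    (hr : 0 < r) (hr1 : r ≤ 1) : ‖q x r - q0‖ * (2 * r) ≤ σ ^ 2 * r + 16 * σ ^ 2 :=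
  (D.flat x r hx hr hr1).sub_le (D.globBF hx (by linarith)) (by linarith)

/-- (29) -/
theorem Data.level (D : Data u x0 q0 M es σ q) {ρ : ℝ}
    (hS : ∀ x r, InZ x0 ρ x r → ‖q x r - q0‖ ≤ 1 / 12) :
    ∀ (i : ℕ) (x : E) (r : ℝ), 0 < r →
      (∀ (x' : E) (r' : ℝ), ‖x' - x‖ ≤ 2 * (M ^ i - 1) * r → r / M ^ i ≤ r' → r' ≤ M ^ i * r →
        InZ x0 ρ x' r') →
      ∃ p, NF u x r p ((σ / 2 ^ i) ^ 2) ∧ ‖p - q x r‖ ≤ 5 / 2 * σ * (1 - 1 / 2 ^ i) := by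
  have hM := D.hM
  have hσ := D.hσ
  have hσ1 := D.σ1
  intro i
  induction i with
  | zero =>
    intro x r hr hH
    have h1 : InZ x0 ρ x r := hH x r (by simp) (by simp) (by simp)
    refine ⟨q x r, ?_, by simp⟩
    rw [pow_zero, div_one]
    exact (D.flat x r h1.norm_le hr h1.2.2.1).nf (by nlinarith) hr.le
  | succ i ih =>
    intro x r hr hH
    have hMi : 1 ≤ M ^ i := one_le_pow₀ (by linarith)
    have hMi0 : 0 < M ^ i := by linarith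
    have hMs : M ^ (i + 1) = M ^ i * M := pow_succ _ _
    have hM0 : 0 < M := by linarith
    -- neighbours
    have hnb : ∀ (x' : E) (r' : ℝ), ‖x' - x‖ ≤ M * r → r / M ≤ r' → r' ≤ M * r →
        0 < r' ∧ InZ x0 ρ x' r' ∧ ∀ (x'' : E) (r'' : ℝ), ‖x'' - x'‖ ≤ 2 * (M ^ i - 1) * r' →
          r' / M ^ i ≤ r'' → r'' ≤ M ^ i * r' → InZ x0 ρ x'' r'' := by
      intro x' r' h1 h2 h3
      have hr'0 : 0 < r' := lt_of_lt_of_le (by positivity) h2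
      have hk : ∀ (x'' : E) (r'' : ℝ), ‖x'' - x'‖ ≤ 2 * (M ^ i - 1) * r' →
          r' / M ^ i ≤ r'' → r'' ≤ M ^ i * r' → InZ x0 ρ x'' r'' := by
        intro x'' r'' h4 h5 h6
        refine hH x'' r'' ?_ ?_ ?_
        · have h7 : ‖x'' - x‖ ≤ ‖x'' - x'‖ + ‖x' - x‖ := by
            calc ‖x'' - x‖ = ‖(x'' - x') + (x' - x)‖ := by congr 1; abel
              _ ≤ _ := norm_add_le _ _
          have h8 : 2 * (M ^ i - 1) * r' ≤ 2 * (M ^ i - 1) * (M * r) :=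
            mul_le_mul_of_nonneg_left h3 (by linarith)
          rw [hMs]
          nlinarith
        · calc r / M ^ (i + 1) = r / M / M ^ i := by rw [hMs, mul_comm, div_mul_eq_div_div]
            _ ≤ r' / M ^ i := div_le_div_of_nonneg_right h2 hMi0.le
            _ ≤ r'' := h5
        · calc r'' ≤ M ^ i * r' := h6
            _ ≤ M ^ i * (M * r) := mul_le_mul_of_nonneg_left h3 hMi0.le
            _ = M ^ (i + 1) * r := by rw [hMs]; ring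
      refine ⟨hr'0, ?_, hk⟩
      refine hk x' r' ?_ ?_ ?_
      · rw [sub_self, norm_zero]
        exact mul_nonneg (by linarith) hr'0.le
      · exact div_le_self hr'0.le hMi
      · nlinarith
    have hself := hnb x r (by rw [sub_self, norm_zero]; positivity)
      (div_le_self hr.le (by linarith)) (by nlinarith)
    have hup := hnb x (M * r) (by rw [sub_self, norm_zero]; positivity)
      ((div_le_self hr.le (by linarith)).trans (by nlinarith)) le_rfl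
    obtain ⟨p₀, hp0, hp0q⟩ := ih x r hr hself.2.2
    have h2i : (1 : ℝ) ≤ 2 ^ i := one_le_pow₀ (by norm_num)
    have hsi0 : 0 < σ / 2 ^ i := by positivity
    have hsi1 : σ / 2 ^ i ≤ σ := div_le_self hσ.le h2i
    obtain ⟨p, hp⟩ := D.imp x r ((σ / 2 ^ i) ^ 2) hself.2.1.norm_le hr hup.2.1.2.2.1
      (by positivity) (le_trans (pow_le_pow_left₀ hsi0.le hsi1 2) D.hσe) (by
        intro x' r' h1 h2 h3
        obtain ⟨hr', hz', hn'⟩ := hnb x' r' h1 h2 h3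
        obtain ⟨p', hp', hpq'⟩ := ih x' r' hr' hn'
        have h4 := hS x' r' hz'
        have h5 : 5 / 2 * σ * (1 - 1 / 2 ^ i) ≤ 5 / 2 * σ * 1 :=
          mul_le_mul_of_nonneg_left (by
            have : (0 : ℝ) < 1 / 2 ^ i := by positivity
            linarith) (by positivity)
        have h6 : ‖p' - q0‖ ≤ 1 / 4 := by
          calc ‖p' - q0‖ = ‖(p' - q x' r') + (q x' r' - q0)‖ := by congr 1; abel
            _ ≤ ‖p' - q x' r'‖ + ‖q x' r' - q0‖ := norm_add_le _ _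
            _ ≤ 1 / 4 := by linarith
        refine ⟨p', ?_, ?_, hp'⟩
        · have h7 : ‖q0‖ ≤ ‖p'‖ + ‖p' - q0‖ := by
            calc ‖q0‖ = ‖p' - (p' - q0)‖ := by congr 1; abel
              _ ≤ _ := norm_sub_le _ _
          linarith [D.q0l]
        · have h7 : ‖p'‖ ≤ ‖q0‖ + ‖p' - q0‖ := by
            calc ‖p'‖ = ‖q0 + (p' - q0)‖ := by congr 1; abel
              _ ≤ _ := norm_add_le _ _
          linarith [D.q0u])
    -- the two slopes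
    have hsm : (σ / 2 ^ i) ^ 2 ≤ 1 := by nlinarith
    have hb1 : BF u x (σ / 2 ^ i * r) p ((σ / 2 ^ i) ^ 2 / 4 * r) := by
      intro y hy
      refine hp y (cyl_of_ball hsm hr.le ?_)
      rw [Real.sqrt_sq hsi0.le]
      exact hy
    have hb2 : BF u x (σ / 2 ^ i * r) p₀ ((σ / 2 ^ i) ^ 2 * r) := by
      have := hp0.bf hsm hr.le
      rwa [Real.sqrt_sq hsi0.le] at this
    have hcmp := hb1.sub_le hb2 (by positivity)
    have hd : ‖p - p₀‖ ≤ 5 / 4 * (σ / 2 ^ i) := by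
      have h1 : ‖p - p₀‖ * (σ / 2 ^ i * r) ≤ 5 / 4 * (σ / 2 ^ i) * (σ / 2 ^ i * r) := by
        nlinarith
      exact le_of_mul_le_mul_right h1 (by positivity)
    refine ⟨p, ?_, ?_⟩
    · intro y hy
      have hsq : √((σ / 2 ^ (i + 1)) ^ 2) ≤ √((σ / 2 ^ i) ^ 2) := by
        rw [Real.sqrt_sq (by positivity), Real.sqrt_sq hsi0.le, pow_succ, ← div_div]
        linarith
      have h1 := hp y ⟨hy.1, hy.2.trans (mul_le_mul_of_nonneg_right hsq hr.le)⟩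
      have h2 : (σ / 2 ^ (i + 1)) ^ 2 = (σ / 2 ^ i) ^ 2 / 4 := by
        rw [pow_succ (2 : ℝ) i, ← div_div]
        ring
      rw [h2]
      exact h1
    · calc ‖p - q x r‖ = ‖(p - p₀) + (p₀ - q x r)‖ := by congr 1; abel
        _ ≤ ‖p - p₀‖ + ‖p₀ - q x r‖ := norm_add_le _ _
        _ ≤ 5 / 4 * (σ / 2 ^ i) + 5 / 2 * σ * (1 - 1 / 2 ^ i) := add_le_add hd hp0q
        _ = 5 / 2 * σ * (1 - 1 / 2 ^ (i + 1)) := by
          rw [pow_succ]
          field_simp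
          ring

end Vale.Agent.P080.C2
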