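import Vale.Agent.P080.C2

/-!
# P080, Part C, steps (30)-(32): no stopping and the pointwise `C^{1,α}` expansion
-/

open Metric Set Filter Topology
open scoped RealInnerProductSpace

namespace Vale.Agent.P080.C2

variable {E : Type*} [NormedAddCommGroup E] [InnerProductSpace ℝ E]
variable {u : E → ℝ} {x0 q0 : E} {M es σ : ℝ} {q : E → ℝ → E}

omit [InnerProductSpace ℝ E] in
/-- (30) -/
theorem geom (hM : 2 ≤ M) {r1 : ℝ} (hr1 : 0 ≤ r1) {x : E} (hx : ‖x - x0‖ ≤ 1 + 2 * √r1)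
    {i : ℕ} {r : ℝ} (hr : 0 < r) (h1 : 4 * M ^ (i + 1) * r1 ≤ r) (h2 : 4 * M ^ (3 * i) * r ≤ 1)
    {x' : E} {r' : ℝ} (h3 : ‖x' - x‖ ≤ 2 * (M ^ i - 1) * r) (h4 : r / M ^ i ≤ r')
    (h5 : r' ≤ M ^ i * r) : InZ x0 (4 * M * r1) x' r' := by
  have hM0 : 0 < M := by linarith
  have hMi : 1 ≤ M ^ i := one_le_pow₀ (by linarith)
  have hMi0 : 0 < M ^ i := by linarith
  have hr' : 0 < r' := lt_of_lt_of_le (by positivity) h4
  have h6 : r ≤ M ^ i * r' := by
    rw [div_le_iff₀ hMi0] at h4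
    linarith
  have h7 : 4 * M * r1 ≤ r' := by
    have h8 : M ^ i * (4 * M * r1) ≤ M ^ i * r' := by
      calc M ^ i * (4 * M * r1) = 4 * M ^ (i + 1) * r1 := by rw [pow_succ]; ring
        _ ≤ r := h1
        _ ≤ _ := h6
    exact le_of_mul_le_mul_left h8 hMi0
  have h3i : M ^ (3 * i) = M ^ i * M ^ i * M ^ i := by
    rw [← pow_add, ← pow_add]
    congr 1
    ring
  have h8 : r' ≤ 1 := by
    have h9 : M ^ i * r ≤ M ^ (3 * i) * r := by
      refine mul_le_mul_of_nonneg_right ?_ hr.le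
      rw [h3i]
      nlinarith [mul_le_mul hMi hMi zero_le_one hMi0.le]
    nlinarith
  refine ⟨hr', h7, h8, ?_⟩
  have hw0 : 0 ≤ √r' := Real.sqrt_nonneg _
  have hw2 : √r' ^ 2 = r' := Real.sq_sqrt hr'.le
  have h9 : √r1 ≤ √r' / 2 := by
    rw [Real.sqrt_le_iff]
    refine ⟨by positivity, ?_⟩
    rw [div_pow, hw2]
    nlinarith
  have h10 : M ^ i * r ≤ √r' / 2 := by
    refine (sq_le_sq₀ (by positivity) (by positivity)).1 ?_
    rw [div_pow, hw2]
    have h11 : (M ^ i * r) ^ 2 = M ^ i * M ^ i * r * r := by ring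
    have h12 : M ^ i * M ^ i * r * r ≤ M ^ i * M ^ i * r * (M ^ i * r') :=
      mul_le_mul_of_nonneg_left h6 (by positivity)
    have h13 : M ^ i * M ^ i * r * (M ^ i * r') = M ^ (3 * i) * r * r' := by
      rw [h3i]
      ring
    have h14 : M ^ (3 * i) * r * r' ≤ 1 / 4 * r' :=
      mul_le_mul_of_nonneg_right (by linarith) hr'.le
    rw [h11]
    linarith
  have h15 : ‖x' - x0‖ ≤ ‖x' - x‖ + ‖x - x0‖ := by
    calc ‖x' - x0‖ = ‖(x' - x) + (x - x0)‖ := by congr 1; abel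
      _ ≤ _ := norm_add_le _ _
  have h16 : 2 * (M ^ i - 1) * r ≤ 2 * (M ^ i * r) := by nlinarith
  linarith

/-- level `i` slopes at the admissible scales -/
theorem Data.levelAt (D : Data u x0 q0 M es σ q) {ρ : ℝ}
    (hS : ∀ x r, InZ x0 ρ x r → ‖q x r - q0‖ ≤ 1 / 12) {r1 : ℝ} (hr1 : 0 ≤ r1)
    (hρ : ρ ≤ 4 * M * r1) {x : E} (hx : ‖x - x0‖ ≤ 1 + 2 * √r1) {i : ℕ} {r : ℝ} (hr : 0 < r)
    (h1 : 4 * M ^ (i + 1) * r1 ≤ r) (h2 : 4 * M ^ (3 * i) * r ≤ 1) :
    ∃ p, NF u x r p ((σ / 2 ^ i) ^ 2) ∧ ‖p - q x r‖ ≤ 5 / 2 * σ * (1 - 1 / 2 ^ i) :=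
  D.level hS i x r hr fun _ _ h3 h4 h5 =>
    have h := geom D.hM hr1 hx hr h1 h2 h3 h4 h5
    ⟨h.1, hρ.trans h.2.1, h.2.2⟩

/-- chain down from the scale `1/4` -/
theorem Data.upper (D : Data u x0 q0 M es σ q) {ρ : ℝ}
    (hS : ∀ x r, InZ x0 ρ x r → ‖q x r - q0‖ ≤ 1 / 12) {r1 : ℝ} (hr1 : 0 ≤ r1)
    (hρ : ρ ≤ 4 * M * r1) {x : E} (hx : ‖x - x0‖ ≤ 1 + 2 * √r1) (i : ℕ)
    (hi : 16 * M ^ (4 * i + 1) * r1 ≤ 1) :
    ∃ p, NF u x (1 / (4 * M ^ (3 * i))) p ((σ / 2 ^ i) ^ 2) ∧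
      ‖p - q x (1 / 4)‖ ≤ 8 * M ^ 3 * σ * (1 - 1 / 2 ^ i) := by
  have hM := D.hM
  have hM0 : 0 < M := by linarith
  have hσ := D.hσ
  have hσ1 := D.σ1
  induction i with
  | zero =>
    obtain ⟨p, hp, hpq⟩ := D.levelAt hS hr1 hρ hx (i := 0) (r := 1 / 4) (by norm_num)
      (by
        have : 16 * M ^ (4 * 0 + 1) * r1 ≤ 1 := hi
        simp only [mul_zero, zero_add, pow_one] at this ⊢
        linarith) (by simp)
    refine ⟨p, ?_, ?_⟩
    · simpa using hp
    · simpa using hpq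
  | succ i ih =>
    have hMi0 : 0 < M ^ (3 * i) := by positivity
    have hi' : 16 * M ^ (4 * i + 1) * r1 ≤ 1 := by
      refine le_trans ?_ hi
      refine mul_le_mul_of_nonneg_right ?_ hr1
      refine mul_le_mul_of_nonneg_left ?_ (by norm_num)
      exact pow_le_pow_right₀ (by linarith) (by omega)
    obtain ⟨p, hp, hpq⟩ := ih hi'
    obtain ⟨p', hp', -⟩ := D.levelAt hS hr1 hρ hx (i := i + 1)
      (r := 1 / (4 * M ^ (3 * (i + 1)))) (by positivity)
      (by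
        rw [le_div_iff₀ (by positivity)]
        calc 4 * M ^ (i + 1 + 1) * r1 * (4 * M ^ (3 * (i + 1)))
            = 16 * (M ^ (i + 1 + 1) * M ^ (3 * (i + 1))) * r1 := by ring
          _ = 16 * M ^ (4 * (i + 1) + 1) * r1 := by
            rw [← pow_add]
            congr 3
            ring
          _ ≤ 1 := hi)
      (by
        rw [mul_one_div, div_self (by positivity)])
    refine ⟨p', hp', ?_⟩
    have h2i : (1 : ℝ) ≤ 2 ^ i := one_le_pow₀ (by norm_num)
    set s := σ / 2 ^ i with hs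
    have hs0 : 0 < s := by positivity
    have hsσ : s ≤ σ := div_le_self hσ.le h2i
    have hs' : σ / 2 ^ (i + 1) = s / 2 := by rw [pow_succ, ← div_div]
    set R := 1 / (4 * M ^ (3 * i)) with hR
    have hR0 : 0 < R := by positivity
    have hR' : 1 / (4 * M ^ (3 * (i + 1))) = R / M ^ 3 := by
      rw [hR, div_div]
      congr 1
      rw [show 3 * (i + 1) = 3 * i + 3 by ring, pow_add]
      ring
    rw [hs', hR'] at hp'
    have hM3 : (1 : ℝ) ≤ M ^ 3 := one_le_pow₀ (by linarith)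
    have hRM : R / M ^ 3 ≤ R := div_le_self hR0.le hM3
    have h1 := cmp hp hp' hs0 (by linarith) (by positivity) (by linarith) hR0 (by positivity)
      (ρ := s / 2 * (R / M ^ 3)) (by positivity)
      (mul_le_mul (by linarith) hRM (by positivity) hs0.le) le_rfl
    have h2 : ‖p - p'‖ ≤ 4 * M ^ 3 * s := by
      have h3 : s ^ 2 * R + (s / 2) ^ 2 * (R / M ^ 3) ≤ 2 * s ^ 2 * R := by
        have h4 : (s / 2) ^ 2 * (R / M ^ 3) ≤ s ^ 2 * R :=
          mul_le_mul (by nlinarith) hRM (by positivity) (by positivity)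
        linarith
      have h5 : ‖p - p'‖ * (s / 2 * (R / M ^ 3)) ≤ 4 * M ^ 3 * s * (s / 2 * (R / M ^ 3)) := by
        refine (h1.trans h3).trans_eq ?_
        field_simp
        ring
      exact le_of_mul_le_mul_right h5 (by positivity)
    calc ‖p' - q x (1 / 4)‖ = ‖(p - q x (1 / 4)) - (p - p')‖ := by congr 1; abel
      _ ≤ ‖p - q x (1 / 4)‖ + ‖p - p'‖ := norm_sub_le _ _
      _ ≤ 8 * M ^ 3 * σ * (1 - 1 / 2 ^ i) + 4 * M ^ 3 * s := add_le_add hpq h2
      _ = 8 * M ^ 3 * σ * (1 - 1 / 2 ^ (i + 1)) := by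
        rw [hs, pow_succ (2 : ℝ) i]
        field_simp
        ring

/-- chain up from the scale `4 M r₁` -/
theorem Data.lower (D : Data u x0 q0 M es σ q) {ρ : ℝ}
    (hS : ∀ x r, InZ x0 ρ x r → ‖q x r - q0‖ ≤ 1 / 12) {r1 : ℝ} (hr1 : 0 < r1)
    (hρ : ρ ≤ 4 * M * r1) {x : E} (hx : ‖x - x0‖ ≤ 1 + 2 * √r1) (i : ℕ)
    (hi : 16 * M ^ (4 * i + 1) * r1 ≤ 1) :
    ∃ p, NF u x (4 * M ^ (i + 1) * r1) p ((σ / 2 ^ i) ^ 2) ∧
      ‖p - q x (4 * M * r1)‖ ≤ 2 * M * σ * (1 - 1 / 2 ^ i) := by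
  have hM := D.hM
  have hM0 : 0 < M := by linarith
  have hσ := D.hσ
  have hσ1 := D.σ1
  have hfit : ∀ i : ℕ, 16 * M ^ (4 * i + 1) * r1 ≤ 1 →
      4 * M ^ (3 * i) * (4 * M ^ (i + 1) * r1) ≤ 1 := by
    intro i hi
    refine le_trans (le_of_eq ?_) hi
    calc 4 * M ^ (3 * i) * (4 * M ^ (i + 1) * r1) = 16 * (M ^ (3 * i) * M ^ (i + 1)) * r1 := by
          ring
      _ = 16 * M ^ (4 * i + 1) * r1 := by
        rw [← pow_add]
        congr 3
        ring
  induction i with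
  | zero =>
    obtain ⟨p, hp, hpq⟩ := D.levelAt hS hr1.le hρ hx (i := 0) (r := 4 * M ^ (0 + 1) * r1)
      (by positivity) le_rfl (hfit 0 hi)
    refine ⟨p, hp, ?_⟩
    simpa using hpq
  | succ i ih =>
    have hi' : 16 * M ^ (4 * i + 1) * r1 ≤ 1 := by
      refine le_trans ?_ hi
      refine mul_le_mul_of_nonneg_right ?_ hr1.le
      refine mul_le_mul_of_nonneg_left ?_ (by norm_num)
      exact pow_le_pow_right₀ (by linarith) (by omega)
    obtain ⟨p, hp, hpq⟩ := ih hi'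
    obtain ⟨p', hp', -⟩ := D.levelAt hS hr1.le hρ hx (i := i + 1)
      (r := 4 * M ^ (i + 1 + 1) * r1) (by positivity) le_rfl (hfit (i + 1) hi)
    refine ⟨p', hp', ?_⟩
    have h2i : (1 : ℝ) ≤ 2 ^ i := one_le_pow₀ (by norm_num)
    set s := σ / 2 ^ i with hs
    have hs0 : 0 < s := by positivity
    have hsσ : s ≤ σ := div_le_self hσ.le h2i
    have hs' : σ / 2 ^ (i + 1) = s / 2 := by rw [pow_succ, ← div_div]
    set L := 4 * M ^ (i + 1) * r1 with hL
    have hL0 : 0 < L := by positivity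
    have hL' : 4 * M ^ (i + 1 + 1) * r1 = M * L := by
      rw [hL, pow_succ M (i + 1)]
      ring
    rw [hs', hL'] at hp'
    have h1 := cmp hp hp' hs0 (by linarith) (by positivity) (by linarith) hL0 (by positivity)
      (ρ := s * L) (by positivity) le_rfl (by nlinarith [mul_pos hs0 hL0])
    have h2 : ‖p - p'‖ ≤ M * s := by
      have h5 : ‖p - p'‖ * (s * L) ≤ M * s * (s * L) := by
        refine h1.trans ?_
        have h6 : 0 < s ^ 2 * L := by positivity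
        nlinarith
      exact le_of_mul_le_mul_right h5 (by positivity)
    calc ‖p' - q x (4 * M * r1)‖ = ‖(p - q x (4 * M * r1)) - (p - p')‖ := by congr 1; abel
      _ ≤ ‖p - q x (4 * M * r1)‖ + ‖p - p'‖ := norm_sub_le _ _
      _ ≤ 2 * M * σ * (1 - 1 / 2 ^ i) + M * s := add_le_add hpq h2
      _ = 2 * M * σ * (1 - 1 / 2 ^ (i + 1)) := by
        rw [hs, pow_succ (2 : ℝ) i]
        field_simp
        ring

/-- one step of the continuation in the scale -/
theorem Data.step (D : Data u x0 q0 M es σ q) {ρ : ℝ}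
    (hS : ∀ x r, InZ x0 ρ x r → ‖q x r - q0‖ ≤ 1 / 12) {x : E} {r1 : ℝ} (hr1 : 0 < r1)
    (hr1' : r1 ≤ 1) (hρ : ρ ≤ 4 * M * r1) (hx : ‖x - x0‖ ≤ 1 + 2 * √r1) :
    ‖q x r1 - q0‖ ≤ 129 * M ^ 4 * σ := by
  have hM := D.hM
  have hM0 : 0 < M := by linarith
  have hσ := D.hσ
  have hσ1 := D.σ1
  have hsq := D.sq_le
  have hMM := D.M1
  have hM4 := D.M4
  have hx3 : ‖x - x0‖ ≤ 3 := by
    have : √r1 ≤ 1 := Real.sqrt_le_one.2 hr1'
    linarith
  have hM4s : M * σ ≤ M ^ 4 * σ := mul_le_mul_of_nonneg_right hMM hσ.le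
  rcases lt_or_ge 1 (16 * M * r1) with hcase | hcase
  · -- large scale: direct
    have h1 := D.direct hx3 hr1 hr1'
    have h2 : ‖q x r1 - q0‖ * (2 * r1) ≤ (129 * M * σ ^ 2) * (2 * r1) := by
      have h3 : 16 * σ ^ 2 ≤ 16 * σ ^ 2 * (16 * M * r1) := by
        have : 0 < σ ^ 2 := by positivity
        nlinarith
      have h4 : σ ^ 2 * r1 ≤ 2 * M * σ ^ 2 * r1 := by
        have : 0 < σ ^ 2 * r1 := by positivity
        nlinarith
      nlinarith
    have h3 := le_of_mul_le_mul_right h2 (by positivity)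
    nlinarith
  · -- the chains
    obtain ⟨I, hI1, hI2⟩ : ∃ I : ℕ, 16 * M ^ (4 * I + 1) * r1 ≤ 1 ∧
        1 < 16 * M ^ (4 * (I + 1) + 1) * r1 := by
      have h1 : 1 ≤ 1 / (16 * M * r1) := by
        rw [le_div_iff₀ (by positivity)]
        linarith
      obtain ⟨I, h2, h3⟩ := exists_nat_pow_near h1
        (show 1 < M ^ 4 by linarith)
      refine ⟨I, ?_, ?_⟩
      · rw [le_div_iff₀ (by positivity), ← pow_mul] at h2
        refine le_trans (le_of_eq ?_) h2
        rw [pow_succ]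
        ring
      · rw [div_lt_iff₀ (by positivity), ← pow_mul] at h3
        refine lt_of_lt_of_eq h3 ?_
        rw [pow_succ M (4 * (I + 1))]
        ring
    obtain ⟨p, hp, hpq⟩ := D.upper hS hr1.le hρ hx I hI1
    obtain ⟨p', hp', hpq'⟩ := D.lower hS hr1 hρ hx I hI1
    have h2i : (1 : ℝ) ≤ 2 ^ I := one_le_pow₀ (by norm_num)
    have h2i' : 0 < 1 / (2 : ℝ) ^ I := by positivity
    -- middle
    set s := σ / 2 ^ I with hs
    have hs0 : 0 < s := by positivity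
    have hsσ : s ≤ σ := div_le_self hσ.le h2i
    set R := 1 / (4 * M ^ (3 * I)) with hR
    set L := 4 * M ^ (I + 1) * r1 with hL
    have hR0 : 0 < R := by positivity
    have hL0 : 0 < L := by positivity
    have hLR : L ≤ R := by
      rw [hR, le_div_iff₀ (by positivity)]
      refine le_trans (le_of_eq ?_) hI1
      rw [hL]
      calc 4 * M ^ (I + 1) * r1 * (4 * M ^ (3 * I)) = 16 * (M ^ (3 * I) * M ^ (I + 1)) * r1 := by
            ring
        _ = 16 * M ^ (4 * I + 1) * r1 := by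
          rw [← pow_add]
          congr 3
          ring
    have hRL : R ≤ M ^ 4 * L := by
      rw [hR, div_le_iff₀ (by positivity)]
      refine le_trans hI2.le (le_of_eq ?_)
      rw [hL]
      calc 16 * M ^ (4 * (I + 1) + 1) * r1 = 16 * M ^ (4 + (I + 1) + 3 * I) * r1 := by
            congr 3
            ring
        _ = M ^ 4 * (4 * M ^ (I + 1) * r1) * (4 * M ^ (3 * I)) := by
          rw [pow_add, pow_add]
          ring
    have h1 := cmp hp hp' hs0 (by linarith) hs0 (by linarith) hR0 hL0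
      (ρ := s * L) (by positivity) (mul_le_mul_of_nonneg_left hLR hs0.le) le_rfl
    have h2 : ‖p - p'‖ ≤ 2 * M ^ 4 * s := by
      have h5 : ‖p - p'‖ * (s * L) ≤ 2 * M ^ 4 * s * (s * L) := by
        refine h1.trans ?_
        have h6 : s ^ 2 * R ≤ s ^ 2 * (M ^ 4 * L) := mul_le_mul_of_nonneg_left hRL (by positivity)
        have h7 : s ^ 2 * L ≤ s ^ 2 * (M ^ 4 * L) :=
          mul_le_mul_of_nonneg_left (by nlinarith) (by positivity)
        linarith
      exact le_of_mul_le_mul_right h5 (by positivity)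
    -- ends
    have h4M : 4 * M * r1 ≤ 1 := by linarith
    have h3 : ‖q x r1 - q x (4 * M * r1)‖ ≤ 3 * M * σ ^ 2 := by
      have h4 := (D.flat x r1 hx3 hr1 hr1').sub_le
        ((D.flat x (4 * M * r1) hx3 (by positivity) h4M).mono (ρ' := 2 * r1)
          (by nlinarith) le_rfl) (by positivity)
      have h5 : ‖q x r1 - q x (4 * M * r1)‖ * (2 * r1) ≤ 3 * M * σ ^ 2 * (2 * r1) := by
        refine h4.trans ?_
        have : 0 < σ ^ 2 * r1 := by positivity
        nlinarith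
      exact le_of_mul_le_mul_right h5 (by positivity)
    have h4 : ‖q x (1 / 4) - q0‖ ≤ 33 * σ ^ 2 := by
      have := D.direct hx3 (r := 1 / 4) (by norm_num) (by norm_num)
      nlinarith [sq_nonneg σ]
    have h5 : 8 * M ^ 3 * σ * (1 - 1 / 2 ^ I) ≤ 8 * M ^ 3 * σ * 1 :=
      mul_le_mul_of_nonneg_left (by linarith) (by positivity)
    have h6 : 2 * M * σ * (1 - 1 / 2 ^ I) ≤ 2 * M * σ * 1 :=
      mul_le_mul_of_nonneg_left (by linarith) (by positivity)
    have h7 : M ^ 3 * σ ≤ M ^ 4 * σ := mul_le_mul_of_nonneg_right D.M3 hσ.le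
    have h8 : M ^ 4 * s ≤ M ^ 4 * σ := mul_le_mul_of_nonneg_left hsσ (by positivity)
    have h9 : M * σ ^ 2 ≤ M * σ := mul_le_mul_of_nonneg_left hsq hM0.le
    have h10 : σ ≤ M ^ 4 * σ := by nlinarith
    calc ‖q x r1 - q0‖ = ‖(q x r1 - q x (4 * M * r1)) + -(p' - q x (4 * M * r1)) + -(p - p') +
          (p - q x (1 / 4)) + (q x (1 / 4) - q0)‖ := by congr 1; abel
      _ ≤ ‖q x r1 - q x (4 * M * r1)‖ + ‖-(p' - q x (4 * M * r1))‖ + ‖-(p - p')‖ +
          ‖p - q x (1 / 4)‖ + ‖q x (1 / 4) - q0‖ := by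
        refine (norm_add_le _ _).trans (add_le_add ?_ le_rfl)
        refine (norm_add_le _ _).trans (add_le_add ?_ le_rfl)
        refine (norm_add_le _ _).trans (add_le_add ?_ le_rfl)
        exact norm_add_le _ _
      _ ≤ 3 * M * σ ^ 2 + 2 * M * σ * 1 + 2 * M ^ 4 * s + 8 * M ^ 3 * σ * 1 + 33 * σ ^ 2 := by
        rw [norm_neg, norm_neg]
        linarith
      _ ≤ 129 * M ^ 4 * σ := by linarith

/-- no stopping -/
theorem Data.all (D : Data u x0 q0 M es σ q) (x : E) (r : ℝ) (hr : 0 < r) (hr1 : r ≤ 1)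
    (hx : ‖x - x0‖ ≤ 1 + 2 * √r) : ‖q x r - q0‖ ≤ 129 * M ^ 4 * σ := by
  have hM := D.hM
  have hM0 : 0 < M := by linarith
  have hσM := D.hσM
  have key : ∀ k : ℕ, ∀ x r, InZ x0 ((1 / M) ^ k) x r → ‖q x r - q0‖ ≤ 1 / 12 := by
    intro k
    induction k with
    | zero =>
      intro x r h
      have h1 : 1 ≤ r := by simpa using h.2.1
      have h2 := D.direct h.norm_le h.1 h.2.2.1
      have hσ := D.hσ
      have hσ1 := D.σ1
      have h4 : σ ^ 2 ≤ 1 / 200 := by nlinarith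
      have h3 : ‖q x r - q0‖ * (2 * r) ≤ 1 / 12 * (2 * r) := by
        have h5 : σ ^ 2 * r ≤ 1 / 200 * r := mul_le_mul_of_nonneg_right h4 (by linarith)
        linarith
      exact le_of_mul_le_mul_right h3 (by linarith)
    | succ k ih =>
      intro x r h
      have h1 : (1 / M) ^ k ≤ 4 * M * r := by
        have h2 := h.2.1
        rw [pow_succ] at h2
        have h3 : (1 / M) ^ k = M * ((1 / M) ^ k * (1 / M)) := by
          field_simp
        rw [h3]
        have h4 : M * ((1 / M) ^ k * (1 / M)) ≤ M * r := mul_le_mul_of_nonneg_left h2 hM0.le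
        nlinarith [mul_pos hM0 h.1]
      have h2 := D.step ih h.1 h.2.2.1 h1 h.2.2.2
      linarith
  obtain ⟨k, hk⟩ := exists_pow_lt_of_lt_one hr (show 1 / M < 1 by
    rw [div_lt_one hM0]
    linarith)
  refine D.step (key k) hr hr1 (hk.le.trans ?_) hx
  nlinarith [mul_pos hM0 hr]

end Vale.Agent.P080.C2
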