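import Vale.Agent.P080.C2b

/-!
# P080, Part C, step (32): the pointwise expansion
-/

open Metric Set Filter Topology
open scoped RealInnerProductSpace

namespace Vale.Agent.P080.C2

variable {E : Type*} [NormedAddCommGroup E] [InnerProductSpace ℝ E]
variable {u : E → ℝ} {x0 q0 : E} {M es σ : ℝ} {q : E → ℝ → E}

/-- the Hoelder exponent -/
noncomputable def al (M : ℝ) : ℝ := Real.log 2 / Real.log (2 * M ^ 3)

theorem M3_ge (hM : 2 ≤ M) : 8 ≤ M ^ 3 := by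
  calc (8 : ℝ) = 2 ^ 3 := by norm_num
    _ ≤ M ^ 3 := pow_le_pow_left₀ (by norm_num) hM 3

theorem al_pos (hM : 2 ≤ M) : 0 < al M :=
  div_pos (Real.log_pos (by norm_num)) (Real.log_pos (by linarith [M3_ge hM]))

theorem al_le (hM : 2 ≤ M) : al M ≤ 1 := by
  rw [al, div_le_one (Real.log_pos (by linarith [M3_ge hM]))]
  exact Real.log_le_log (by norm_num) (by linarith [M3_ge hM])

theorem two_rpow (hM : 2 ≤ M) : (2 * M ^ 3) ^ al M = 2 := by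
  have h1 : 0 < 2 * M ^ 3 := by linarith [M3_ge hM]
  have h2 : 0 < Real.log (2 * M ^ 3) := Real.log_pos (by linarith [M3_ge hM])
  rw [Real.rpow_def_of_pos h1, al, mul_div_cancel₀ _ h2.ne', Real.exp_log (by norm_num)]

theorem scal {s t a : ℝ} (hs : 0 < s) (hs1 : s ≤ 1) (ht : 0 ≤ t) (ha : 0 < a) (ha1 : a ≤ 1) :
    s * (4 * t / s) ^ a ≤ 4 * t ^ a := by
  rw [Real.div_rpow (by positivity) hs.le, Real.mul_rpow (by norm_num) ht]
  have h1 : (4 : ℝ) ^ a ≤ 4 := by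
    calc (4 : ℝ) ^ a ≤ 4 ^ (1 : ℝ) := Real.rpow_le_rpow_of_exponent_le (by norm_num) ha1
      _ = 4 := Real.rpow_one 4
  have h2 : s ≤ s ^ a := by
    calc s = s ^ (1 : ℝ) := (Real.rpow_one s).symm
      _ ≤ s ^ a := Real.rpow_le_rpow_of_exponent_ge hs hs1 ha1
  have h3 : 0 < s ^ a := Real.rpow_pos_of_pos hs a
  have h4 : 0 ≤ t ^ a := Real.rpow_nonneg ht a
  rw [mul_div_assoc', div_le_iff₀ h3]
  have h5 : 4 ^ a * t ^ a ≤ 4 * t ^ a := mul_le_mul_of_nonneg_right h1 h4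
  calc s * (4 ^ a * t ^ a) ≤ s * (4 * t ^ a) := mul_le_mul_of_nonneg_left h5 hs.le
    _ ≤ s ^ a * (4 * t ^ a) := mul_le_mul_of_nonneg_right h2 (by positivity)
    _ = 4 * t ^ a * s ^ a := by ring

theorem Data.cmpR (D : Data u x0 q0 M es σ q) {x p p' : E} {i : ℕ}
    (hp : NF u x (1 / (4 * M ^ (3 * i))) p ((σ / 2 ^ i) ^ 2))
    (hp' : NF u x (1 / (4 * M ^ (3 * (i + 1)))) p' ((σ / 2 ^ (i + 1)) ^ 2)) :
    ‖p - p'‖ ≤ 4 * M ^ 3 * (σ / 2 ^ i) := by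
  have hM := D.hM
  have hM0 : 0 < M := by linarith
  have hσ := D.hσ
  have hσ1 := D.σ1
  have h2i : (1 : ℝ) ≤ 2 ^ i := one_le_pow₀ (by norm_num)
  set s := σ / 2 ^ i with hs
  have hs0 : 0 < s := by positivity
  have hsσ : s ≤ σ := div_le_self hσ.le h2i
  have hs' : σ / 2 ^ (i + 1) = s / 2 := by rw [pow_succ, ← div_div]
  set R := 1 / (4 * M ^ (3 * i)) with hR
  have hR0 : 0 < R := by positivity
  have hR' : 1 / (4 * M ^ (3 * (i + 1))) = R / M ^ 3 := by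
    rw [hR, div_div]
    congr 1
    rw [show 3 * (i + 1) = 3 * i + 3 by ring, pow_add]
    ring
  rw [hs', hR'] at hp'
  have hM3 : (1 : ℝ) ≤ M ^ 3 := one_le_pow₀ (by linarith)
  have hRM : R / M ^ 3 ≤ R := div_le_self hR0.le hM3
  have h1 := cmp hp hp' hs0 (by linarith) (by positivity) (by linarith) hR0 (by positivity)
    (ρ := s / 2 * (R / M ^ 3)) (by positivity)
    (mul_le_mul (by linarith) hRM (by positivity) hs0.le) le_rfl
  have h3 : s ^ 2 * R + (s / 2) ^ 2 * (R / M ^ 3) ≤ 2 * s ^ 2 * R := by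
    have h4 : (s / 2) ^ 2 * (R / M ^ 3) ≤ s ^ 2 * R :=
      mul_le_mul (by nlinarith) hRM (by positivity) (by positivity)
    linarith
  have h5 : ‖p - p'‖ * (s / 2 * (R / M ^ 3)) ≤ 4 * M ^ 3 * s * (s / 2 * (R / M ^ 3)) := by
    refine (h1.trans h3).trans_eq ?_
    field_simp
    ring
  exact le_of_mul_le_mul_right h5 (by positivity)

theorem theta_pow (hM : 2 ≤ M) (n : ℕ) :
    ((2 * M ^ 3)⁻¹ ^ n) ^ al M = (1 / 2) ^ n := by
  have h0 : 0 < 2 * M ^ 3 := by linarith [M3_ge hM]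
  have h1 : (2 * M ^ 3)⁻¹ ^ al M = 1 / 2 := by
    rw [Real.inv_rpow h0.le, two_rpow hM, one_div]
  have h2 : 0 ≤ (2 * M ^ 3)⁻¹ := (inv_pos.2 h0).le
  generalize (2 * M ^ 3)⁻¹ = t at h1 h2 ⊢
  rw [← Real.rpow_natCast t n, ← Real.rpow_mul h2, mul_comm, Real.rpow_mul h2, h1,
    Real.rpow_natCast]

/-- (32) -/
theorem Data.expansion [CompleteSpace E] (D : Data u x0 q0 M es σ q) {x : E}
    (hx : ‖x - x0‖ ≤ 1) :
    ∃ P : E, ‖P - q0‖ ≤ 100 * M ^ 3 * σ ∧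
      ∀ y, ‖y - x‖ ≤ 2 → |u y - u x - ⟪P, y - x⟫| ≤ 100 * M ^ 3 * ‖y - x‖ ^ (1 + al M) := by
  have hM := D.hM
  have hM0 : 0 < M := by linarith
  have hσ := D.hσ
  have hσ1 := D.σ1
  have hM3 := M3_ge hM
  have hσM := D.hσM
  have hS : ∀ x r, InZ x0 0 x r → ‖q x r - q0‖ ≤ 1 / 12 := fun x r h => by
    have := D.all x r h.1 h.2.2.1 h.2.2.2
    linarith
  have hp : ∀ i : ℕ, ∃ p, NF u x (1 / (4 * M ^ (3 * i))) p ((σ / 2 ^ i) ^ 2) := fun i => by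
    obtain ⟨p, hp, -⟩ := D.upper hS le_rfl (by simp) (x := x)
      (by rw [Real.sqrt_zero]; linarith) i (by simp)
    exact ⟨p, hp⟩
  choose p hp using hp
  have hstep : ∀ n, dist (p n) (p (n + 1)) ≤ 8 * M ^ 3 * σ / 2 / 2 ^ n := fun n => by
    rw [dist_eq_norm]
    refine (D.cmpR (hp n) (hp (n + 1))).trans (le_of_eq ?_)
    ring
  have hcau := cauchySeq_of_le_geometric_two hstep
  obtain ⟨P, hP⟩ := cauchySeq_tendsto_of_complete hcau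
  have hPn : ∀ n, ‖p n - P‖ ≤ 8 * M ^ 3 * σ / 2 ^ n := fun n => by
    rw [← dist_eq_norm]
    exact dist_le_of_le_geometric_two_of_tendsto hstep hP n
  have hx3 : ‖x - x0‖ ≤ 3 := by linarith
  have hp0 : ‖p 0 - q0‖ ≤ 65 * σ := by
    have h1 := (hp 0).bf (by simp only [pow_zero, div_one]; nlinarith) (by positivity)
    simp only [pow_zero, div_one, mul_zero, mul_one, Real.sqrt_sq hσ.le] at h1
    have h2 := h1.sub_le (D.globBF hx3 (ρ := σ * (1 / 4)) (by linarith)) (by positivity)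
    have h3 : ‖p 0 - q0‖ * (σ * (1 / 4)) ≤ 65 * σ * (σ * (1 / 4)) := by
      refine h2.trans (le_of_eq ?_)
      ring
    exact le_of_mul_le_mul_right h3 (by positivity)
  have hPq : ‖P - q0‖ ≤ (65 + 8 * M ^ 3) * σ := by
    have h1 := hPn 0
    rw [pow_zero, div_one] at h1
    calc ‖P - q0‖ = ‖(p 0 - q0) - (p 0 - P)‖ := by congr 1; abel
      _ ≤ ‖p 0 - q0‖ + ‖p 0 - P‖ := norm_sub_le _ _
      _ ≤ (65 + 8 * M ^ 3) * σ := by linarith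
  refine ⟨P, hPq.trans ?_, fun y hy => ?_⟩
  · exact mul_le_mul_of_nonneg_right (by linarith) hσ.le
  have hα := al_pos hM
  have hα1 := al_le hM
  set h := y - x with hh
  have hn0 := norm_nonneg h
  have hpow : ‖h‖ ^ (1 + al M) = ‖h‖ * ‖h‖ ^ al M := by
    rw [Real.rpow_add' hn0 (by linarith), Real.rpow_one]
  have hsc := scal hσ (by linarith) hn0 hα hα1
  rcases eq_or_lt_of_le hn0 with hz | hz
  · have h0 : h = 0 := norm_eq_zero.1 hz.symm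
    have hyx : y = x := sub_eq_zero.1 (hh ▸ h0)
    rw [h0, hyx, sub_self, inner_zero_right, sub_self, abs_zero, norm_zero]
    positivity
  rcases le_or_gt ‖h‖ (σ / 4) with hcase | hcase
  · -- small distance
    have hθ0 : 0 < (2 * M ^ 3)⁻¹ := by positivity
    have hθ1 : (2 * M ^ 3)⁻¹ < 1 := inv_lt_one_of_one_lt₀ (by linarith)
    obtain ⟨i, hi1, hi2⟩ := exists_nat_pow_near_of_lt_one (x := 4 * ‖h‖ / σ)
      (y := (2 * M ^ 3)⁻¹) (by positivity) (by rw [div_le_one hσ]; linarith) hθ0 hθ1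
    set s := σ / 2 ^ i with hs
    have h2i : (1 : ℝ) ≤ 2 ^ i := one_le_pow₀ (by norm_num)
    have hs0 : 0 < s := by positivity
    have hsσ : s ≤ σ := div_le_self hσ.le h2i
    set R := 1 / (4 * M ^ (3 * i)) with hR
    have hR0 : 0 < R := by positivity
    have hρi : s * R = σ / 4 * (2 * M ^ 3)⁻¹ ^ i := by
      rw [hs, hR, inv_pow, mul_pow, ← pow_mul]
      field_simp
    have hle : ‖h‖ ≤ s * R := by
      rw [hρi]
      rw [div_le_iff₀ hσ] at hi2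
      linarith
    have hge : s * R ≤ 2 * M ^ 3 * ‖h‖ := by
      rw [hρi]
      have h1 : σ * (2 * M ^ 3)⁻¹ ^ (i + 1) < 4 * ‖h‖ := by
        rw [lt_div_iff₀ hσ] at hi1
        linarith
      have h2 : σ * (2 * M ^ 3)⁻¹ ^ i = 2 * M ^ 3 * (σ * (2 * M ^ 3)⁻¹ ^ (i + 1)) := by
        rw [pow_succ]
        have h20 : 2 * M ^ 3 * (2 * M ^ 3)⁻¹ = 1 := mul_inv_cancel₀ (by positivity)
        calc σ * (2 * M ^ 3)⁻¹ ^ i = (2 * M ^ 3 * (2 * M ^ 3)⁻¹) * (σ * (2 * M ^ 3)⁻¹ ^ i) := by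
              rw [h20, one_mul]
          _ = _ := by ring
      have h3 : 2 * M ^ 3 * (σ * (2 * M ^ 3)⁻¹ ^ (i + 1)) ≤ 2 * M ^ 3 * (4 * ‖h‖) :=
        mul_le_mul_of_nonneg_left h1.le (by positivity)
      linarith
    have hbf := (hp i).bf (by nlinarith) hR0.le
    rw [Real.sqrt_sq hs0.le] at hbf
    have h1 := hbf y hle
    have h2 : |⟪p i, h⟫ - ⟪P, h⟫| ≤ 8 * M ^ 3 * σ / 2 ^ i * ‖h‖ := by
      rw [← inner_sub_left]
      exact (abs_real_inner_le_norm _ _).trans (mul_le_mul_of_nonneg_right (hPn i) hn0)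
    have h3 : |u y - u x - ⟪P, h⟫| ≤ s ^ 2 * R + 8 * M ^ 3 * σ / 2 ^ i * ‖h‖ := by
      calc |u y - u x - ⟪P, h⟫| = |(u y - u x - ⟪p i, h⟫) + (⟪p i, h⟫ - ⟪P, h⟫)| := by
            congr 1; ring
        _ ≤ |u y - u x - ⟪p i, h⟫| + |⟪p i, h⟫ - ⟪P, h⟫| := abs_add_le _ _
        _ ≤ _ := add_le_add h1 h2
    have h4 : s ^ 2 * R ≤ s * (2 * M ^ 3 * ‖h‖) := by
      calc s ^ 2 * R = s * (s * R) := by ring
        _ ≤ _ := mul_le_mul_of_nonneg_left hge hs0.le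
    have h5 : 8 * M ^ 3 * σ / 2 ^ i * ‖h‖ = s * (8 * M ^ 3 * ‖h‖) := by
      rw [hs]
      ring
    have h6 : 1 / 2 ^ i ≤ 2 * (4 * ‖h‖ / σ) ^ al M := by
      have h7 : ((2 * M ^ 3)⁻¹ ^ (i + 1)) ^ al M ≤ (4 * ‖h‖ / σ) ^ al M :=
        Real.rpow_le_rpow (by positivity) hi1.le hα.le
      rw [theta_pow hM, one_div_pow, pow_succ] at h7
      have h9 : 1 / (2 : ℝ) ^ i = 2 * (1 / (2 ^ i * 2)) := by
        field_simp
      rw [h9]
      linarith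
    have h7 : s ≤ 2 * (σ * (4 * ‖h‖ / σ) ^ al M) := by
      have h8 : s = σ * (1 / 2 ^ i) := by
        rw [hs]
        ring
      rw [h8]
      nlinarith
    have h8 : s ≤ 8 * ‖h‖ ^ al M := by linarith
    rw [hpow]
    have h9 : s * (10 * M ^ 3 * ‖h‖) ≤ 8 * ‖h‖ ^ al M * (10 * M ^ 3 * ‖h‖) :=
      mul_le_mul_of_nonneg_right h8 (by positivity)
    have h10 : 0 ≤ M ^ 3 * (‖h‖ * ‖h‖ ^ al M) := by positivity
    calc |u y - u x - ⟪P, h⟫| ≤ s * (2 * M ^ 3 * ‖h‖) + s * (8 * M ^ 3 * ‖h‖) := by linarith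
      _ = s * (10 * M ^ 3 * ‖h‖) := by ring
      _ ≤ 8 * ‖h‖ ^ al M * (10 * M ^ 3 * ‖h‖) := h9
      _ = 80 * (M ^ 3 * (‖h‖ * ‖h‖ ^ al M)) := by ring
      _ ≤ 100 * (M ^ 3 * (‖h‖ * ‖h‖ ^ al M)) := by linarith
      _ = _ := by ring
  · -- large distance
    have h1 := D.globBF hx3 (ρ := 2) le_rfl y hy
    have h2 : |⟪q0, h⟫ - ⟪P, h⟫| ≤ (65 + 8 * M ^ 3) * σ * ‖h‖ := by
      rw [← inner_sub_left]
      refine (abs_real_inner_le_norm _ _).trans (mul_le_mul_of_nonneg_right ?_ hn0)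
      rw [norm_sub_rev]
      exact hPq
    have h3 : |u y - u x - ⟪P, h⟫| ≤ 16 * σ ^ 2 + (65 + 8 * M ^ 3) * σ * ‖h‖ := by
      calc |u y - u x - ⟪P, h⟫| = |(u y - u x - ⟪q0, h⟫) + (⟪q0, h⟫ - ⟪P, h⟫)| := by
            congr 1; ring
        _ ≤ |u y - u x - ⟪q0, h⟫| + |⟪q0, h⟫ - ⟪P, h⟫| := abs_add_le _ _
        _ ≤ _ := add_le_add h1 h2
    have h4 : 16 * σ ^ 2 ≤ 64 * σ * ‖h‖ := by nlinarith
    have h5 : 1 ≤ (4 * ‖h‖ / σ) ^ al M :=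
      Real.one_le_rpow (by rw [le_div_iff₀ hσ]; linarith) hα.le
    have h6 : σ ≤ 4 * ‖h‖ ^ al M := by nlinarith
    have h7 : σ * ((129 + 8 * M ^ 3) * ‖h‖) ≤ 4 * ‖h‖ ^ al M * ((129 + 8 * M ^ 3) * ‖h‖) :=
      mul_le_mul_of_nonneg_right h6 (by positivity)
    rw [hpow]
    have h8 : 0 ≤ ‖h‖ * ‖h‖ ^ al M := by positivity
    have h9 : 8 * (‖h‖ * ‖h‖ ^ al M) ≤ M ^ 3 * (‖h‖ * ‖h‖ ^ al M) :=
      mul_le_mul_of_nonneg_right hM3 h8
    calc |u y - u x - ⟪P, h⟫| ≤ 64 * σ * ‖h‖ + (65 + 8 * M ^ 3) * σ * ‖h‖ := by linarith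
      _ = σ * ((129 + 8 * M ^ 3) * ‖h‖) := by ring
      _ ≤ 4 * ‖h‖ ^ al M * ((129 + 8 * M ^ 3) * ‖h‖) := h7
      _ = 516 * (‖h‖ * ‖h‖ ^ al M) + 32 * (M ^ 3 * (‖h‖ * ‖h‖ ^ al M)) := by ring
      _ ≤ 100 * (M ^ 3 * (‖h‖ * ‖h‖ ^ al M)) := by linarith
      _ = _ := by ring

end Vale.Agent.P080.C2
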