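import Vale.Agent.P080.OpsLemmas

open Metric Set Filter Topology
open scoped RealInnerProductSpace

namespace Vale.Agent.P080

variable {E : Type*} [NormedAddCommGroup E] [InnerProductSpace ℝ E]

theorem exists_tendsto_of_bdd {F : Type*} [NormedAddCommGroup F] [ProperSpace F] (l : Ultrafilter ℕ)
    {a : ℕ → F} {R : ℝ} (h : ∀ᶠ n in l, ‖a n‖ ≤ R) : ∃ b, ‖b‖ ≤ R ∧ Tendsto a l (𝓝 b) := by
  have h1 : closedBall (0 : F) R ∈ l.map a := by
    rw [Ultrafilter.mem_map]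
    have : a ⁻¹' closedBall 0 R ∈ (l : Filter ℕ) := by
      filter_upwards [h] with n hn
      simpa using hn
    exact this
  obtain ⟨b, hb, hle⟩ := (isCompact_closedBall (0 : F) R).ultrafilter_le_nhds' (l.map a) h1
  exact ⟨b, by simpa using hb, hle⟩

def LocLip (l : Ultrafilter ℕ) (u : ℕ → E → ℝ) : Prop :=
  ∀ R : ℝ, ∀ᶠ n in l, ∀ x y : E, ‖x‖ ≤ R → ‖y‖ ≤ R → u n x - u n y ≤ ‖x - y‖

omit [InnerProductSpace ℝ E] in
theorem locLip_of_lip (l : Ultrafilter ℕ) {u : ℕ → E → ℝ} (h : ∀ n, Lip1 (u n)) :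
    LocLip l u := fun _ => Eventually.of_forall fun n x y _ _ => h n x y

omit [InnerProductSpace ℝ E] in
theorem exists_ultralimit (l : Ultrafilter ℕ) {u : ℕ → E → ℝ}
    (h0 : ∀ᶠ n in l, u n 0 = 0) (hlip : LocLip l u) :
    ∃ v : E → ℝ, ∀ x, Tendsto (fun n => u n x) l (𝓝 (v x)) := by
  have : ∀ x, ∃ b, Tendsto (fun n => u n x) l (𝓝 b) := by
    intro x
    have h : ∀ᶠ n in l, ‖u n x‖ ≤ ‖x‖ := by
      filter_upwards [h0, hlip ‖x‖] with n h1 h2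
      have a1 := h2 x 0 le_rfl (by simp)
      have a2 := h2 0 x (by simp) le_rfl
      rw [h1] at a1 a2
      rw [Real.norm_eq_abs, abs_le]
      simp only [sub_zero, zero_sub, norm_neg] at a1 a2
      constructor <;> linarith
    obtain ⟨b, -, hb⟩ := exists_tendsto_of_bdd l h
    exact ⟨b, hb⟩
  choose v hv using this
  exact ⟨v, hv⟩

omit [InnerProductSpace ℝ E] in
theorem tendsto_eval_of_locLip (l : Ultrafilter ℕ) {u : ℕ → E → ℝ} {v : E → ℝ}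
    (hlim : ∀ x, Tendsto (fun n => u n x) l (𝓝 (v x))) (hu : LocLip l u)
    {x : ℕ → E} {y : E} (hx : Tendsto x l (𝓝 y)) : Tendsto (fun n => u n (x n)) l (𝓝 (v y)) := by
  have h1 : Tendsto (fun n => ‖x n - y‖) l (𝓝 0) := tendsto_iff_norm_sub_tendsto_zero.1 hx
  have h2 : ∀ᶠ n in l, ‖u n (x n) - u n y‖ ≤ ‖x n - y‖ := by
    have h3 : ∀ᶠ n in l, ‖x n‖ ≤ ‖y‖ + 1 := by
      have := (hx.norm).eventually_lt_const (show ‖y‖ < ‖y‖ + 1 by linarith)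
      filter_upwards [this] with n hn using hn.le
    filter_upwards [h3, hu (‖y‖ + 1)] with n h4 h5
    have a1 := h5 (x n) y h4 (by linarith)
    have a2 := h5 y (x n) (by linarith) h4
    rw [norm_sub_rev] at a2
    rw [Real.norm_eq_abs, abs_le]
    constructor <;> linarith
  have h3 : Tendsto (fun n => u n (x n) - u n y) l (𝓝 0) :=
    squeeze_zero_norm' h2 h1
  have h4 := h3.add (hlim y)
  simpa using h4

theorem Cls.ultralimit [FiniteDimensional ℝ E] (l : Ultrafilter ℕ) {u : ℕ → E → ℝ} {v : E → ℝ}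
    (hlim : ∀ x, Tendsto (fun n => u n x) l (𝓝 (v x)))
    (hlip : LocLip l u)
    (hup : ∀ R : ℝ, ∀ᶠ n in l, ∀ y z : E, ‖y‖ ≤ R → ‖z‖ ≤ R → ∀ t : ℝ, 0 < t → 1 / R ≤ t → t ≤ 1 →
      ∃ w, t * ‖w - y‖ ≤ ‖z - y‖ ∧ u n z ≤ (1 - t) * u n y + t * u n w)
    (hdn : ∀ R : ℝ, ∀ᶠ n in l, ∀ y z : E, ‖y‖ ≤ R → ‖z‖ ≤ R → ∀ t : ℝ, 0 < t → 1 / R ≤ t → t ≤ 1 →
      ∃ w, t * ‖w - y‖ ≤ ‖z - y‖ ∧ (1 - t) * u n y + t * u n w ≤ u n z) :
    Cls v := by
  have hlimw : ∀ (y z : E) (t : ℝ), 0 < t → ∀ w : ℕ → E,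
      (∀ᶠ n in l, t * ‖w n - y‖ ≤ ‖z - y‖) →
      ∃ w', Tendsto w l (𝓝 w') ∧ t * ‖w' - y‖ ≤ ‖z - y‖ := by
    intro y z t ht w hw
    have h1 : ∀ᶠ n in l, ‖w n‖ ≤ ‖z - y‖ / t + ‖y‖ := by
      filter_upwards [hw] with n hn
      have h2 : ‖w n - y‖ ≤ ‖z - y‖ / t := by
        rw [le_div_iff₀ ht]; linarith
      have h3 := norm_sub_norm_le (w n) y
      linarith
    obtain ⟨w', -, hw'⟩ := exists_tendsto_of_bdd l h1
    refine ⟨w', hw', ?_⟩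
    exact le_of_tendsto ((hw'.sub_const y).norm.const_mul t) hw
  refine ⟨?_, ?_, ?_⟩
  · intro x y
    refine le_of_tendsto ((hlim x).sub (hlim y)) ?_
    filter_upwards [hlip (max ‖x‖ ‖y‖)] with n hn
    exact hn x y (le_max_left _ _) (le_max_right _ _)
  · intro y z t ht ht1
    set R := max (max ‖y‖ ‖z‖) (1 / t) with hR
    have hRt : 1 / R ≤ t := by
      have h1 : 1 / t ≤ R := le_max_right _ _
      have h2 : 0 < 1 / t := by positivity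
      rw [div_le_iff₀ (h2.trans_le h1)]
      rw [div_le_iff₀ ht] at h1
      linarith
    have hev := hup R
    have hyR : ‖y‖ ≤ R := (le_max_left _ _).trans (le_max_left _ _)
    have hzR : ‖z‖ ≤ R := (le_max_right _ _).trans (le_max_left _ _)
    have hex : ∀ n, ∃ w, (∀ y z : E, ‖y‖ ≤ R → ‖z‖ ≤ R → ∀ t : ℝ, 0 < t → 1 / R ≤ t → t ≤ 1 →
      ∃ w, t * ‖w - y‖ ≤ ‖z - y‖ ∧ u n z ≤ (1 - t) * u n y + t * u n w) →
        t * ‖w - y‖ ≤ ‖z - y‖ ∧ u n z ≤ (1 - t) * u n y + t * u n w := by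
      intro n
      by_cases hP : (∀ y z : E, ‖y‖ ≤ R → ‖z‖ ≤ R → ∀ t : ℝ, 0 < t → 1 / R ≤ t → t ≤ 1 →
        ∃ w, t * ‖w - y‖ ≤ ‖z - y‖ ∧ u n z ≤ (1 - t) * u n y + t * u n w)
      · obtain ⟨w, hw⟩ := hP y z hyR hzR t ht hRt ht1
        exact ⟨w, fun _ => hw⟩
      · exact ⟨0, fun h => absurd h hP⟩
    choose w hw using hex
    have hw' : ∀ᶠ n in l, t * ‖w n - y‖ ≤ ‖z - y‖ ∧ u n z ≤ (1 - t) * u n y + t * u n (w n) := by
      filter_upwards [hev] with n hn using hw n hn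
    obtain ⟨w', h1, h2⟩ := hlimw y z t ht w (hw'.mono fun n hn => hn.1)
    refine ⟨w', h2, ?_⟩
    exact le_of_tendsto_of_tendsto (hlim z) (((hlim y).const_mul (1 - t)).add
      ((tendsto_eval_of_locLip l hlim hlip h1).const_mul t)) (hw'.mono fun n hn => hn.2)
  · intro y z t ht ht1
    set R := max (max ‖y‖ ‖z‖) (1 / t) with hR
    have hRt : 1 / R ≤ t := by
      have h1 : 1 / t ≤ R := le_max_right _ _
      have h2 : 0 < 1 / t := by positivity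
      rw [div_le_iff₀ (h2.trans_le h1)]
      rw [div_le_iff₀ ht] at h1
      linarith
    have hev := hdn R
    have hyR : ‖y‖ ≤ R := (le_max_left _ _).trans (le_max_left _ _)
    have hzR : ‖z‖ ≤ R := (le_max_right _ _).trans (le_max_left _ _)
    have hex : ∀ n, ∃ w, (∀ y z : E, ‖y‖ ≤ R → ‖z‖ ≤ R → ∀ t : ℝ, 0 < t → 1 / R ≤ t → t ≤ 1 →
      ∃ w, t * ‖w - y‖ ≤ ‖z - y‖ ∧ (1 - t) * u n y + t * u n w ≤ u n z) →
        t * ‖w - y‖ ≤ ‖z - y‖ ∧ (1 - t) * u n y + t * u n w ≤ u n z := by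
      intro n
      by_cases hP : (∀ y z : E, ‖y‖ ≤ R → ‖z‖ ≤ R → ∀ t : ℝ, 0 < t → 1 / R ≤ t → t ≤ 1 →
        ∃ w, t * ‖w - y‖ ≤ ‖z - y‖ ∧ (1 - t) * u n y + t * u n w ≤ u n z)
      · obtain ⟨w, hw⟩ := hP y z hyR hzR t ht hRt ht1
        exact ⟨w, fun _ => hw⟩
      · exact ⟨0, fun h => absurd h hP⟩
    choose w hw using hex
    have hw' : ∀ᶠ n in l, t * ‖w n - y‖ ≤ ‖z - y‖ ∧ (1 - t) * u n y + t * u n (w n) ≤ u n z := by
      filter_upwards [hev] with n hn using hw n hn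
    obtain ⟨w', h1, h2⟩ := hlimw y z t ht w (hw'.mono fun n hn => hn.1)
    refine ⟨w', h2, ?_⟩
    exact le_of_tendsto_of_tendsto (((hlim y).const_mul (1 - t)).add
      ((tendsto_eval_of_locLip l hlim hlip h1).const_mul t)) (hlim z) (hw'.mono fun n hn => hn.2)

theorem Cls.ultralimit_cls [FiniteDimensional ℝ E] (l : Ultrafilter ℕ) {u : ℕ → E → ℝ} {v : E → ℝ}
    (hlim : ∀ x, Tendsto (fun n => u n x) l (𝓝 (v x))) (hu : ∀ n, Cls (u n)) : Cls v := by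
  refine Cls.ultralimit l hlim (locLip_of_lip l fun n => (hu n).lip) ?_ ?_
  · exact fun R => Eventually.of_forall fun n y z _ _ t ht _ ht1 => (hu n).up y z t ht ht1
  · exact fun R => Eventually.of_forall fun n y z _ _ t ht _ ht1 => (hu n).dn y z t ht ht1

theorem tendsto_infc [FiniteDimensional ℝ E] (l : Ultrafilter ℕ) {u : ℕ → E → ℝ} {v : E → ℝ}
    (hlim : ∀ x, Tendsto (fun n => u n x) l (𝓝 (v x))) (hu : ∀ n, Lip1 (u n)) (hv : Lip1 v)
    {s : ℝ} (hs : 0 < s) {x : ℕ → E} {y : E} (hx : Tendsto x l (𝓝 y)) :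
    Tendsto (fun n => infc s (u n) (x n)) l (𝓝 (infc s v y)) := by
  have hl := locLip_of_lip l hu
  have hex : ∀ n, ∃ ξ : E, ‖ξ‖ ≤ s ∧ infc s (u n) (x n) = u n (x n - ξ) + ‖ξ‖ ^ 2 / (2 * s) :=
    fun n => (hu n).exists_infc hs (x n)
  choose ξ h1 h2 using hex
  obtain ⟨ξ', -, hξ'⟩ := exists_tendsto_of_bdd l (a := ξ) (Eventually.of_forall h1)
  have h3 : Tendsto (fun n => infc s (u n) (x n)) l (𝓝 (v (y - ξ') + ‖ξ'‖ ^ 2 / (2 * s))) := by
    have := (tendsto_eval_of_locLip l hlim hl (hx.sub hξ')).add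
      ((hξ'.norm.pow 2).div_const (2 * s))
    exact this.congr fun n => (h2 n).symm
  have h4 : v (y - ξ') + ‖ξ'‖ ^ 2 / (2 * s) ≤ infc s v y := by
    obtain ⟨ζ, -, hζ⟩ := hv.exists_infc hs y
    rw [hζ]
    have h5 := (tendsto_eval_of_locLip l hlim hl (hx.sub_const ζ)).add_const
      (‖ζ‖ ^ 2 / (2 * s))
    refine le_of_tendsto_of_tendsto' h3 h5 fun n => ?_
    have := (hu n).infc_le hs (x n) (x n - ζ)
    rwa [sub_sub_cancel_left, norm_neg] at this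
  have h6 : infc s v y ≤ v (y - ξ') + ‖ξ'‖ ^ 2 / (2 * s) := by
    have := hv.infc_le hs y (y - ξ')
    rwa [sub_sub_cancel_left, norm_neg] at this
  rw [le_antisymm h6 h4]
  exact h3

end Vale.Agent.P080
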