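import Vale.Agent.P080.Basic

open Metric Set Filter Topology
open scoped RealInnerProductSpace

namespace Vale.Agent.P080

variable {d : ℕ}

theorem infLaplacian_neg (φ : Eu d → ℝ) (z : Eu d) :
    infLaplacian (fun x => -φ x) z = -infLaplacian φ z := by
  have h1 : fderiv ℝ (fun x => -φ x) = fun x => -fderiv ℝ φ x := by
    funext x
    exact fderiv_fun_neg
  have h2 : gradient (fun x => -φ x) z = -gradient φ z := by
    unfold gradient
    rw [h1]
    simp
  unfold infLaplacian
  rw [h2, h1]
  have h3 : fderiv ℝ (fun x => -fderiv ℝ φ x) z = -fderiv ℝ (fderiv ℝ φ) z := fderiv_fun_neg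
  rw [h3]
  simp

theorem IsInfinityHarmonicOn.neg {u : Eu d → ℝ} {Ω : Set (Eu d)}
    (hu : IsInfinityHarmonicOn u Ω) : IsInfinityHarmonicOn (fun x => -u x) Ω := by
  refine ⟨hu.1.neg, ?_⟩
  intro z hz φ hφ
  have h := hu.2 z hz (fun x => -φ x) hφ.neg
  rw [infLaplacian_neg] at h
  constructor
  · intro hmax
    have : IsLocalMin (fun x => u x - -φ x) z := by
      have := hmax.neg
      refine this.congr (Eventually.of_forall fun x => ?_)
      simp
      ring
    linarith [h.2 this]
  · intro hmin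
    have : IsLocalMax (fun x => u x - -φ x) z := by
      have := hmin.neg
      refine this.congr (Eventually.of_forall fun x => ?_)
      simp
      ring
    linarith [h.1 this]

theorem comparison_upper {u φ : Eu d → ℝ} {Ω K G : Set (Eu d)}
    (hu : IsInfinityHarmonicOn u Ω) (hK : IsCompact K) (hG : IsOpen G) (hGK : G ⊆ K)
    (hKΩ : K ⊆ Ω) (hφ : ContinuousOn φ K) (hφ2 : ∀ z ∈ G, ContDiffAt ℝ 2 φ z)
    (hneg : ∀ z ∈ G, infLaplacian φ z < 0) (hb : ∀ z ∈ K, z ∉ G → u z ≤ φ z) :
    ∀ z ∈ K, u z ≤ φ z := by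
  intro z hz
  by_contra hlt
  push Not at hlt
  obtain ⟨m, hmK, hm⟩ := hK.exists_isMaxOn ⟨z, hz⟩ ((hu.1.mono hKΩ).sub hφ)
  have hmz : u z - φ z ≤ u m - φ m := hm hz
  have hmG : m ∈ G := by
    by_contra hmG
    have := hb m hmK hmG
    linarith
  have hloc : IsLocalMax (fun x => u x - φ x) m := by
    filter_upwards [hG.mem_nhds hmG] with x hx
    exact hm (hGK hx)
  have := (hu.2 m (hKΩ hmK) φ (hφ2 m hmG)).1 hloc
  linarith [hneg m hmG]

theorem cone_upper {u : Eu d → ℝ} {Ω : Set (Eu d)} (hu : IsInfinityHarmonicOn u Ω)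
    {y : Eu d} {R M : ℝ} (hR : 0 < R) (hsub : closedBall y R ⊆ Ω)
    (hM : ∀ x ∈ closedBall y R, u x ≤ M) :
    ∀ x ∈ closedBall y R, u x ≤ u y + (M - u y) / R * ‖x - y‖ := by
  intro x hx
  have hMy : u y ≤ M := hM y (mem_closedBall_self hR.le)
  set b := (M - u y) / R with hb
  have hb0 : 0 ≤ b := div_nonneg (by linarith) hR.le
  have hbR : b * R = M - u y := by rw [hb]; field_simp
  have key : ∀ c : ℝ, 0 < c → u x ≤ u y + (b + 2 * c * R) * ‖x - y‖ - c * ‖x - y‖ ^ 2 := by
    intro c hc
    have := comparison_upper (φ := cone (u y) (b + 2 * c * R) c y) (K := closedBall y R)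
      (G := ball y R \ {y}) hu (isCompact_closedBall y R) (isOpen_ball.sdiff isClosed_singleton)
      (sdiff_subset.trans ball_subset_closedBall) hsub ?_ ?_ ?_ ?_ x hx
    · exact this
    · apply Continuous.continuousOn
      unfold cone
      fun_prop
    · intro z hz
      exact cone_contDiffAt _ _ _ _ _ (by simpa using hz.2)
    · intro z hz
      have hzy : z ≠ y := by simpa using hz.2
      rw [cone_infLaplacian _ _ _ _ _ hzy]
      have h1 : ‖z - y‖ < R := by
        have := hz.1
        rwa [mem_ball, dist_eq_norm] at this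
      have h2 : 0 < b + 2 * c * R - 2 * c * ‖z - y‖ := by nlinarith
      have h3 : 0 < (b + 2 * c * R - 2 * c * ‖z - y‖) ^ 2 := by positivity
      nlinarith
    · intro z hz hzG
      by_cases hzy : z = y
      · subst hzy
        simp [cone]
      · have hzR : ‖z - y‖ = R := by
          have h1 : ‖z - y‖ ≤ R := by rwa [mem_closedBall, dist_eq_norm] at hz
          have h2 : ¬ ‖z - y‖ < R := by
            intro h
            apply hzG
            refine ⟨?_, by simpa using hzy⟩
            rwa [mem_ball, dist_eq_norm]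
          linarith [not_lt.1 h2]
        unfold cone
        rw [hzR]
        have := hM z hz
        nlinarith [mul_pos hc (mul_pos hR hR)]
  refine le_of_forall_pos_le_add fun ε hε => ?_
  have hx' : ‖x - y‖ ≤ R := by rwa [mem_closedBall, dist_eq_norm] at hx
  have h := key (ε / (2 * R * R)) (by positivity)
  have hn := norm_nonneg (x - y)
  have h1 : 2 * (ε / (2 * R * R)) * R * ‖x - y‖ ≤ ε := by
    have : 2 * (ε / (2 * R * R)) * R * ‖x - y‖ = ε * (‖x - y‖ / R) := by field_simp
    rw [this]
    have : ‖x - y‖ / R ≤ 1 := (div_le_one hR).2 hx'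
    nlinarith
  have h2 : 0 ≤ ε / (2 * R * R) * ‖x - y‖ ^ 2 := by positivity
  nlinarith

theorem cone_lower {u : Eu d → ℝ} {Ω : Set (Eu d)} (hu : IsInfinityHarmonicOn u Ω)
    {y : Eu d} {R M : ℝ} (hR : 0 < R) (hsub : closedBall y R ⊆ Ω)
    (hM : ∀ x ∈ closedBall y R, M ≤ u x) :
    ∀ x ∈ closedBall y R, u y - (u y - M) / R * ‖x - y‖ ≤ u x := by
  intro x hx
  have := cone_upper (M := -M) hu.neg hR hsub (fun z hz => by linarith [hM z hz]) x hx
  have e : (-M - -u y) / R = (u y - M) / R := by ring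
  rw [e] at this
  linarith

end Vale.Agent.P080
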