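import Mathlib

namespace Vale.Agent.P080

noncomputable def infLaplacian {d : ℕ} (φ : EuclideanSpace ℝ (Fin d) → ℝ)
    (z : EuclideanSpace ℝ (Fin d)) : ℝ :=
  fderiv ℝ (fderiv ℝ φ) z (gradient φ z) (gradient φ z)

def IsInfinityHarmonicOn {d : ℕ} (u : EuclideanSpace ℝ (Fin d) → ℝ)
    (Ω : Set (EuclideanSpace ℝ (Fin d))) : Prop :=
  ContinuousOn u Ω ∧
    ∀ z ∈ Ω, ∀ φ : EuclideanSpace ℝ (Fin d) → ℝ, ContDiffAt ℝ 2 φ z →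
      (IsLocalMax (fun x => u x - φ x) z → 0 ≤ infLaplacian φ z) ∧
      (IsLocalMin (fun x => u x - φ x) z → infLaplacian φ z ≤ 0)

def TouchedByBall {d : ℕ} (u : EuclideanSpace ℝ (Fin d) → ℝ)
    (U : Set (EuclideanSpace ℝ (Fin d))) (x : EuclideanSpace ℝ (Fin d)) (ρ : ℝ) : Prop :=
  ∃ c, dist x c = ρ ∧
    ((∀ y ∈ Metric.ball c ρ ∩ U, u y ≤ u x) ∨ (∀ y ∈ Metric.ball c ρ ∩ U, u x ≤ u y))

end Vale.Agent.P080
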