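import Vale.Agent.P080.Slope

open Metric Set Filter Topology
open scoped RealInnerProductSpace

namespace Vale.Agent.P080

variable {d : ℕ}

theorem norm_smul_sub_le {e w : Eu d} {R : ℝ} (hR : 0 < R) (he : ‖e‖ ≤ 1)
    (hw : ‖w‖ ≤ R / 2) : ‖R • e - w‖ ≤ R - ⟪e, w⟫ + ‖w‖ ^ 2 / R := by
  have h1 : ⟪e, w⟫ ≤ R / 2 := by
    have := real_inner_le_norm e w
    have h2 : ‖e‖ * ‖w‖ ≤ 1 * ‖w‖ := mul_le_mul_of_nonneg_right he (norm_nonneg _)
    linarith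
  have h3 : 0 ≤ ‖w‖ ^ 2 / R := by positivity
  have h4 : 0 ≤ R - ⟪e, w⟫ + ‖w‖ ^ 2 / R := by linarith
  rw [← pow_le_pow_iff_left₀ (norm_nonneg _) h4 (two_ne_zero)]
  have h5 : ‖R • e - w‖ ^ 2 = R ^ 2 * ‖e‖ ^ 2 - 2 * (R * ⟪e, w⟫) + ‖w‖ ^ 2 := by
    rw [norm_sub_sq_real, norm_smul, inner_smul_left, Real.norm_of_nonneg hR.le]
    simp
    ring
  rw [h5]
  have h6 : ‖e‖ ^ 2 ≤ 1 := by
    have := norm_nonneg e
    nlinarith
  set q := ‖w‖ ^ 2 / R with hq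
  have h7 : ‖w‖ ^ 2 = q * R := by rw [hq]; field_simp
  rw [h7]
  have h8 : 0 ≤ q * (R - ⟪e, w⟫ - R / 2) := mul_nonneg h3 (by linarith)
  nlinarith [sq_nonneg ⟪e, w⟫, sq_nonneg q, mul_le_mul_of_nonneg_left h6 (sq_nonneg R)]

theorem diff_aux {e e' : Eu d} {S η : ℝ} (hS : 0 < S) (hη : 0 < η) (hne : ‖e‖ ≤ 1)
    (hne' : ‖e'‖ ≤ 1) (hsum : 2 * S ≤ (S + η) * ‖e + e'‖) :
    S * ‖e - e'‖ ≤ 2 * √(2 * S * η) := by
  have h1 : ‖e + e'‖ ^ 2 + ‖e - e'‖ ^ 2 = 2 * (‖e‖ ^ 2 + ‖e'‖ ^ 2) :=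
    parallelogram_law_with_norm ℝ e e'
  have h2 : ‖e‖ ^ 2 ≤ 1 := by nlinarith [norm_nonneg e]
  have h2' : ‖e'‖ ^ 2 ≤ 1 := by nlinarith [norm_nonneg e']
  have h3 : (2 * S) ^ 2 ≤ (S + η) ^ 2 * ‖e + e'‖ ^ 2 := by
    rw [← mul_pow]
    exact pow_le_pow_left₀ (by linarith) hsum 2
  have h4 : (S + η) ^ 2 * ‖e - e'‖ ^ 2 ≤ 4 * ((S + η) ^ 2 - S ^ 2) := by
    have h5 : ‖e - e'‖ ^ 2 ≤ 4 - ‖e + e'‖ ^ 2 := by linarith
    have h6 := mul_le_mul_of_nonneg_left h5 (sq_nonneg (S + η))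
    linarith
  have h5 : (S * ‖e - e'‖) ^ 2 ≤ (2 * √(2 * S * η)) ^ 2 := by
    rw [mul_pow, mul_pow, Real.sq_sqrt (by positivity)]
    have h6 : S ^ 2 * ((S + η) ^ 2 * ‖e - e'‖ ^ 2) ≤ S ^ 2 * (4 * ((S + η) ^ 2 - S ^ 2)) :=
      mul_le_mul_of_nonneg_left h4 (sq_nonneg S)
    have h7 : S ^ 2 * (4 * ((S + η) ^ 2 - S ^ 2)) ≤ (2 ^ 2 * (2 * S * η)) * (S + η) ^ 2 := by
      have h8 : 0 < S * η * η * S := by positivity
      have h9 : 0 < S * η * η * η := by positivity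
      have e1 : (2 ^ 2 * (2 * S * η)) * (S + η) ^ 2 - S ^ 2 * (4 * ((S + η) ^ 2 - S ^ 2))
          = 12 * (S * η * η * S) + 8 * (S * η * η * η) := by ring
      linarith
    have h13 : 0 < (S + η) ^ 2 := by positivity
    have h14 : S ^ 2 * ‖e - e'‖ ^ 2 * (S + η) ^ 2 ≤ (2 ^ 2 * (2 * S * η)) * (S + η) ^ 2 := by
      linarith
    exact le_of_mul_le_mul_right h14 h13
  exact (pow_le_pow_iff_left₀ (by positivity) (by positivity) two_ne_zero).1 h5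

theorem flat_aux {u : Eu d → ℝ} {x : Eu d} {S η κ t R : ℝ} (hS : 0 < S) (hη : 0 < η)
    (hκ : 0 < κ) (hκ' : κ ≤ 1 / 2) (hR : 0 < R) (ht : t * κ = η)
    (hlip : ∀ a, ‖a - x‖ ≤ R → ∀ b, ‖b - x‖ ≤ R → u a - u b ≤ (S + η) * ‖a - b‖)
    {y z : Eu d} (hy : ‖y - x‖ ≤ R) (hyu : u x + S * R ≤ u y)
    (hz : ‖z - x‖ ≤ R) (hzu : u z ≤ u x - S * R) :
    ∃ e : Eu d, ‖e‖ ≤ 1 ∧ ∀ w, ‖w‖ ≤ κ * R →
      |u (x + w) - u x - S * ⟪e, w⟫| ≤
        (t + η + (S + η) * κ + 2 * √(2 * S * η)) * (κ * R) := by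
  set e : Eu d := R⁻¹ • (y - x) with he
  set e' : Eu d := -(R⁻¹ • (z - x)) with he'
  have hRe : R • e = y - x := by rw [he, smul_smul, mul_inv_cancel₀ hR.ne', one_smul]
  have hRe' : R • e' = -(z - x) := by
    rw [he', smul_neg, smul_smul, mul_inv_cancel₀ hR.ne', one_smul]
  have hne : ‖e‖ ≤ 1 := by
    rw [he, norm_smul, norm_inv, Real.norm_of_nonneg hR.le]
    rw [inv_mul_le_iff₀ hR]; linarith
  have hne' : ‖e'‖ ≤ 1 := by
    rw [he', norm_neg, norm_smul, norm_inv, Real.norm_of_nonneg hR.le]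
    rw [inv_mul_le_iff₀ hR]; linarith
  have hsum : 2 * S ≤ (S + η) * ‖e + e'‖ := by
    have h1 := hlip y hy z hz
    have h2 : y - z = R • (e + e') := by
      rw [smul_add, hRe, hRe']; abel
    rw [h2, norm_smul, Real.norm_of_nonneg hR.le] at h1
    have h3 : 2 * S * R ≤ ((S + η) * ‖e + e'‖) * R := by linarith
    exact le_of_mul_le_mul_right h3 hR
  have hdiff : S * ‖e - e'‖ ≤ 2 * √(2 * S * η) := diff_aux hS hη hne hne' hsum
  refine ⟨e, hne, ?_⟩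
  intro w hw
  have hκR : κ * R ≤ R / 2 := by
    have := mul_le_mul_of_nonneg_right hκ' hR.le
    linarith
  have hwR : ‖w‖ ≤ R / 2 := hw.trans hκR
  have hxw : ‖x + w - x‖ ≤ R := by
    rw [add_sub_cancel_left]; linarith
  have hq : ‖w‖ ^ 2 / R ≤ κ * (κ * R) := by
    rw [div_le_iff₀ hR]
    have := pow_le_pow_left₀ (norm_nonneg w) hw 2
    linarith
  have hSη : 0 < S + η := by linarith
  have hqq := mul_le_mul_of_nonneg_left hq hSη.le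
  have hηR : η * R = t * (κ * R) := by rw [← ht]; ring
  have hew : |⟪e, w⟫| ≤ κ * R := by
    have h1 := abs_real_inner_le_norm e w
    have h2 : ‖e‖ * ‖w‖ ≤ 1 * ‖w‖ := mul_le_mul_of_nonneg_right hne (norm_nonneg _)
    linarith
  have hew' : |⟪e', w⟫| ≤ κ * R := by
    have h1 := abs_real_inner_le_norm e' w
    have h2 : ‖e'‖ * ‖w‖ ≤ 1 * ‖w‖ := mul_le_mul_of_nonneg_right hne' (norm_nonneg _)
    linarith
  have hl1 := mul_le_mul_of_nonneg_left (abs_le.1 hew).1 hη.le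
  have hl2 := mul_le_mul_of_nonneg_left (abs_le.1 hew').2 hη.le
  set Q := √(2 * S * η) with hQ
  have hQ0 : 0 ≤ Q := Real.sqrt_nonneg _
  have hsq : 0 ≤ 2 * Q * (κ * R) := by positivity
  rw [abs_le]
  constructor
  · have h1 := hlip y hy (x + w) hxw
    have h2 : y - (x + w) = R • e - w := by rw [hRe]; abel
    rw [h2] at h1
    have h3 := norm_smul_sub_le hR hne hwR
    have h4 := mul_le_mul_of_nonneg_left h3 hSη.le
    linarith
  · have h1 := hlip (x + w) hxw z hz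
    have h2 : x + w - z = R • e' - (-w) := by rw [hRe']; abel
    rw [h2] at h1
    have h3 := norm_smul_sub_le (w := -w) hR hne' (by rwa [norm_neg])
    rw [inner_neg_right, norm_neg] at h3
    have h4 := mul_le_mul_of_nonneg_left h3 hSη.le
    have h5 : S * ⟪e', w⟫ ≤ S * ⟪e, w⟫ + 2 * Q * (κ * R) := by
      have h6 : ⟪e' - e, w⟫ ≤ ‖e' - e‖ * ‖w‖ := real_inner_le_norm _ _
      rw [inner_sub_left, norm_sub_rev] at h6
      have h7 : S * (‖e - e'‖ * ‖w‖) ≤ 2 * Q * (κ * R) := by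
        rw [← mul_assoc]
        exact mul_le_mul hdiff hw (norm_nonneg _) (by positivity)
      have h8 := mul_le_mul_of_nonneg_left h6 hS.le
      linarith
    linarith

theorem HasSlope.flat {u : Eu d → ℝ} {Ω : Set (Eu d)} {x : Eu d} {S : ℝ}
    (h : HasSlope u Ω x S) (hΩ : IsOpen Ω) (hx : x ∈ Ω) (hS : 0 < S) {ε : ℝ} (hε : 0 < ε) :
    ∃ r₀ : ℝ, 0 < r₀ ∧ ∀ r : ℝ, 0 < r → r ≤ r₀ → closedBall x r ⊆ Ω ∧
      ∃ e : Eu d, ‖e‖ ≤ 1 ∧ 1 - ε ≤ ‖e‖ ∧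
        ∀ w, ‖w‖ ≤ r → |u (x + w) - u x - S * ⟪e, w⟫| ≤ ε * S * r := by
  obtain ⟨ρ, hρ, hρΩ⟩ := nhds_basis_closedBall.mem_iff.1 (hΩ.mem_nhds hx)
  set ε₁ := ε * S with hε₁
  have hε₁pos : 0 < ε₁ := by positivity
  set κ := min (1 / 2) (ε₁ / (4 * (S + 1))) with hκ
  have hκpos : 0 < κ := by
    simp only [hκ, lt_min_iff]
    constructor
    · norm_num
    · positivity
  have hκ1 : κ ≤ 1 / 2 := min_le_left _ _
  have hκ2 : (S + 1) * κ ≤ ε₁ / 4 := by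
    have : κ ≤ ε₁ / (4 * (S + 1)) := min_le_right _ _
    rw [le_div_iff₀ (by positivity)] at this
    linarith
  set η := min 1 (min (κ * ε₁ / 8) (ε₁ ^ 2 / (128 * S))) with hη
  have hηpos : 0 < η := by
    simp only [hη, lt_min_iff]
    refine ⟨one_pos, by positivity, by positivity⟩
  have hη1 : η ≤ 1 := min_le_left _ _
  have hη2 : η ≤ κ * ε₁ / 8 := (min_le_right _ _).trans (min_le_left _ _)
  have hη3 : η ≤ ε₁ ^ 2 / (128 * S) := (min_le_right _ _).trans (min_le_right _ _)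
  have hη4 : η / κ ≤ ε₁ / 8 := by
    rw [div_le_iff₀ hκpos]; linarith
  have hη5 : 2 * √(2 * S * η) ≤ ε₁ / 4 := by
    have h1 : 2 * S * η ≤ (ε₁ / 8) ^ 2 := by
      rw [le_div_iff₀ (by positivity)] at hη3
      nlinarith
    have h2 : √(2 * S * η) ≤ ε₁ / 8 := by
      rw [show ε₁ / 8 = √((ε₁ / 8) ^ 2) from (Real.sqrt_sq (by positivity)).symm]
      exact Real.sqrt_le_sqrt h1
    linarith
  obtain ⟨δ, hδ, hlip⟩ := h.lip η hηpos
  refine ⟨κ * min (δ / 2) ρ, by positivity, ?_⟩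
  intro r hr hr0
  set R := r / κ with hRdef
  have hκR : κ * R = r := by rw [hRdef]; field_simp
  have hRpos : 0 < R := by positivity
  have hR : R ≤ min (δ / 2) ρ := by
    rw [hRdef, div_le_iff₀ hκpos]; linarith
  have hR1 : R ≤ δ / 2 := hR.trans (min_le_left _ _)
  have hR2 : R ≤ ρ := hR.trans (min_le_right _ _)
  have hRΩ : closedBall x R ⊆ Ω := (closedBall_subset_closedBall hR2).trans hρΩ
  have hrR : r ≤ R := by nlinarith
  have hrΩ : closedBall x r ⊆ Ω := (closedBall_subset_closedBall hrR).trans hRΩ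
  refine ⟨hrΩ, ?_⟩
  obtain ⟨y, hy, hyu⟩ := h.up R hRpos hRΩ
  obtain ⟨z, hz, hzu⟩ := h.down R hRpos hRΩ
  obtain ⟨e, he, hflat⟩ := flat_aux hS hηpos hκpos hκ1 hRpos (div_mul_cancel₀ η hκpos.ne')
    (fun a ha b hb => hlip a (by linarith) b (by linarith)) hy hyu hz hzu
  rw [hκR] at hflat
  have hcoef : η / κ + η + (S + η) * κ + 2 * √(2 * S * η) ≤ ε₁ := by
    have : (S + η) * κ ≤ (S + 1) * κ := mul_le_mul_of_nonneg_right (by linarith) hκpos.le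
    have : κ * ε₁ ≤ 1 / 2 * ε₁ := mul_le_mul_of_nonneg_right hκ1 hε₁pos.le
    linarith
  have hflat' : ∀ w, ‖w‖ ≤ r → |u (x + w) - u x - S * ⟪e, w⟫| ≤ ε * S * r := by
    intro w hw
    exact (hflat w hw).trans (mul_le_mul_of_nonneg_right hcoef hr.le)
  refine ⟨e, he, ?_, hflat'⟩
  obtain ⟨y', hy', hyu'⟩ := h.up r hr hrΩ
  have h1 := (abs_le.1 (hflat' (y' - x) hy')).2
  rw [add_sub_cancel] at h1
  have h2 : ⟪e, y' - x⟫ ≤ ‖e‖ * r :=
    (real_inner_le_norm _ _).trans (mul_le_mul_of_nonneg_left hy' (norm_nonneg _))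
  have h3 := mul_le_mul_of_nonneg_left h2 hS.le
  have h4 : (1 - ε) * (S * r) ≤ ‖e‖ * (S * r) := by nlinarith
  exact le_of_mul_le_mul_right h4 (by positivity)

end Vale.Agent.P080
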