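import Vale.Agent.P080.Affine
import Vale.Agent.P080.Cone

open Metric Set Filter Topology
open scoped RealInnerProductSpace

namespace Vale.Agent.P080

variable {d : ℕ}

theorem up_of_harm {u : Eu d → ℝ} {Ω : Set (Eu d)} (hu : IsInfinityHarmonicOn u Ω)
    {y z : Eu d} {t : ℝ} (ht : 0 < t) (ht1 : t ≤ 1) (hsub : closedBall y (‖z - y‖ / t) ⊆ Ω) :
    ∃ w, t * ‖w - y‖ ≤ ‖z - y‖ ∧ u z ≤ (1 - t) * u y + t * u w := by
  by_cases hzy : z = y
  · subst hzy
    exact ⟨z, by simp, by linarith⟩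
  · have hn : 0 < ‖z - y‖ := norm_pos_iff.2 (sub_ne_zero.2 hzy)
    have hR : 0 < ‖z - y‖ / t := by positivity
    obtain ⟨w, hw, hmax⟩ := (isCompact_closedBall y (‖z - y‖ / t)).exists_isMaxOn
      ⟨y, mem_closedBall_self hR.le⟩ (hu.1.mono hsub)
    refine ⟨w, ?_, ?_⟩
    · rw [mem_closedBall, dist_eq_norm, le_div_iff₀ ht] at hw
      linarith
    · have hz : z ∈ closedBall y (‖z - y‖ / t) := by
        rw [mem_closedBall, dist_eq_norm, le_div_iff₀ ht]
        nlinarith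
      have := cone_upper (M := u w) hu hR hsub (fun x hx => hmax hx) z hz
      refine this.trans_eq ?_
      field_simp
      ring

theorem dn_of_harm {u : Eu d → ℝ} {Ω : Set (Eu d)} (hu : IsInfinityHarmonicOn u Ω)
    {y z : Eu d} {t : ℝ} (ht : 0 < t) (ht1 : t ≤ 1) (hsub : closedBall y (‖z - y‖ / t) ⊆ Ω) :
    ∃ w, t * ‖w - y‖ ≤ ‖z - y‖ ∧ (1 - t) * u y + t * u w ≤ u z := by
  obtain ⟨w, h1, h2⟩ := up_of_harm hu.neg ht ht1 hsub
  exact ⟨w, h1, by linarith⟩

theorem scale_cmul {u : Eu d → ℝ} {Ω : Set (Eu d)} (hu : IsInfinityHarmonicOn u Ω) {c : ℝ}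
    (hc : 0 < c) {y z : Eu d} {t : ℝ} (ht : 0 < t) (ht1 : t ≤ 1)
    (hsub : closedBall y (‖z - y‖ / t) ⊆ Ω) :
    ∃ w, t * ‖w - y‖ ≤ ‖z - y‖ ∧ c * u z ≤ (1 - t) * (c * u y) + t * (c * u w) := by
  obtain ⟨w, h1, h2⟩ := up_of_harm hu ht ht1 hsub
  refine ⟨w, h1, ?_⟩
  have := mul_le_mul_of_nonneg_left h2 hc.le
  linarith

theorem lip_of_growth {u : Eu d → ℝ} (hu : IsInfinityHarmonicOn u univ) {C : ℝ}
    (hC : ∃ᶠ R in atTop, ∀ x ∈ closedBall (0 : Eu d) R, u x ≤ C * R) (x y : Eu d) :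
    u x - u y ≤ C * ‖x - y‖ := by
  have h1 : ∃ᶠ R : ℝ in atTop, u x - u y ≤ (C * R - u y) / (R - ‖y‖) * ‖x - y‖ := by
    refine (hC.and_eventually (eventually_gt_atTop (‖y‖ + ‖x - y‖))).mono ?_
    rintro R ⟨h, hR⟩
    have hn := norm_nonneg (x - y)
    have hR0 : 0 < R - ‖y‖ := by linarith
    have hsub : closedBall y (R - ‖y‖) ⊆ closedBall 0 R := by
      apply closedBall_subset_closedBall'
      rw [dist_zero_right]
      linarith
    have := cone_upper (M := C * R) hu hR0 (subset_univ _) (fun z hz => h z (hsub hz)) x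
      (by rw [mem_closedBall, dist_eq_norm]; linarith)
    linarith
  have h2 : Tendsto (fun R : ℝ => (C * R - u y) / (R - ‖y‖) * ‖x - y‖) atTop
      (𝓝 (C * ‖x - y‖)) := by
    refine Tendsto.mul_const _ ?_
    have e : (fun R : ℝ => C + (C * ‖y‖ - u y) / (R - ‖y‖))
        =ᶠ[atTop] fun R : ℝ => (C * R - u y) / (R - ‖y‖) := by
      filter_upwards [eventually_gt_atTop ‖y‖] with R hR
      have : R - ‖y‖ ≠ 0 := by linarith
      field_simp
      ring
    refine Tendsto.congr' e ?_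
    have h3 : Tendsto (fun R : ℝ => (C * ‖y‖ - u y) / (R - ‖y‖)) atTop (𝓝 0) :=
      Tendsto.div_atTop tendsto_const_nhds
        (tendsto_atTop_add_const_right _ _ tendsto_id)
    simpa using h3.const_add C
  by_contra hcon
  push Not at hcon
  have h3 := h2.eventually_lt_const hcon
  obtain ⟨R, hR1, hR2⟩ := (h1.and_eventually h3).exists
  linarith

theorem liouville {u : Eu d → ℝ} (hu : IsInfinityHarmonicOn u univ) {C : ℝ}
    (hC : ∃ᶠ R in atTop, ∀ x ∈ closedBall (0 : Eu d) R, u x ≤ C * R) :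
    ∃ (p : Eu d) (c : ℝ), ∀ x, u x = ⟪p, x⟫ + c := by
  set L := max C 1 with hL
  have hL0 : 0 < L := lt_of_lt_of_le one_pos (le_max_right _ _)
  have hlip : ∀ x y, u x - u y ≤ L * ‖x - y‖ := fun x y =>
    (lip_of_growth hu hC x y).trans
      (mul_le_mul_of_nonneg_right (le_max_left _ _) (norm_nonneg _))
  have hcls : Cls (fun x => L⁻¹ * u x) := by
    refine ⟨?_, ?_, ?_⟩
    · intro x y
      have := hlip x y
      have h2 := mul_le_mul_of_nonneg_left this (show 0 ≤ L⁻¹ by positivity)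
      rw [← mul_assoc, inv_mul_cancel₀ hL0.ne', one_mul] at h2
      linarith
    · intro y z t ht ht1
      exact scale_cmul hu (by positivity) ht ht1 (subset_univ _)
    · intro y z t ht ht1
      obtain ⟨w, h1, h2⟩ := scale_cmul hu.neg (show 0 < L⁻¹ by positivity) ht ht1
        (subset_univ (closedBall y (‖z - y‖ / t)))
      exact ⟨w, h1, by linarith⟩
  obtain ⟨p, c, hp⟩ := hcls.affine
  refine ⟨L • p, L * c, fun x => ?_⟩
  have := hp x
  rw [real_inner_smul_left, ← mul_add, ← this, ← mul_assoc, mul_inv_cancel₀ hL0.ne', one_mul]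

end Vale.Agent.P080
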