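import Vale.Agent.P080.MOpsDefs

/-! Comparison of adapted slopes of a function of the class `MCls K`. -/

open Metric Set Filter Topology
open scoped RealInnerProductSpace

namespace Vale.Agent.P080

variable {E : Type*} [NormedAddCommGroup E] [InnerProductSpace ℝ E]

/-- two affine approximations at the same point are close -/
theorem adapted_two {W : E → ℝ → ℝ} {x v v' : E} {z ρ r' s s' a b D : ℝ}
    (hρ : 0 < ρ) (hr : ρ ≤ r') (hD : 1 ≤ D) (hab : a + b ≤ D * ρ)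
    (h1 : ∀ (y : E) (z' : ℝ), |z' - z| ≤ ρ → ‖y - x - (z' - z) • v‖ ≤ ρ →
      |W y z' - W x z - ⟪v, y - x⟫ - s * (z' - z)| ≤ a)
    (h2 : ∀ (y : E) (z' : ℝ), |z' - z| ≤ r' → ‖y - x - (z' - z) • v'‖ ≤ r' →
      |W y z' - W x z - ⟪v', y - x⟫ - s' * (z' - z)| ≤ b) :
    ‖v - v'‖ ≤ D ∧ |(s + ‖v‖ ^ 2 / 2) - (s' + ‖v'‖ ^ 2 / 2)| ≤ 3 / 2 * D ^ 2 := by
  have hv : ‖v - v'‖ ≤ D := by
    by_cases h0 : v - v' = 0
    · rw [h0, norm_zero]; linarith
    · have hn : 0 < ‖v - v'‖ := norm_pos_iff.mpr h0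
      have hny : ‖(ρ / ‖v - v'‖) • (v - v')‖ = ρ := by
        rw [norm_smul, Real.norm_of_nonneg (by positivity)]
        field_simp
      have e0 : x + (ρ / ‖v - v'‖) • (v - v') - x = (ρ / ‖v - v'‖) • (v - v') := by
        abel
      have k1 := h1 (x + (ρ / ‖v - v'‖) • (v - v')) z (by simp [hρ.le])
        (by rw [e0, sub_self, zero_smul, sub_zero, hny])
      have k2 := h2 (x + (ρ / ‖v - v'‖) • (v - v')) z
        (by rw [sub_self, abs_zero]; linarith)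
        (by rw [e0, sub_self, zero_smul, sub_zero, hny]; exact hr)
      rw [e0, sub_self, mul_zero, sub_zero, inner_smul_right] at k1 k2
      have k3 : (ρ / ‖v - v'‖) * (⟪v, v - v'⟫ - ⟪v', v - v'⟫) ≤ a + b := by
        have := (abs_le.mp k1).1
        have := (abs_le.mp k2).2
        linarith
      rw [← inner_sub_left, real_inner_self_eq_norm_sq] at k3
      have e1 : (ρ / ‖v - v'‖) * ‖v - v'‖ ^ 2 = ‖v - v'‖ * ρ := by
        field_simp
      rw [e1] at k3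
      exact le_of_mul_le_mul_right (k3.trans hab) hρ
  refine ⟨hv, ?_⟩
  have hD0 : 0 < D := by linarith
  have hh : 0 < ρ / D := by positivity
  have hhρ : ρ / D ≤ ρ := div_le_self hρ.le hD
  have e0 : x + (ρ / D) • v - x = (ρ / D) • v := by abel
  have e1 : z + ρ / D - z = ρ / D := by ring
  have k1 := h1 (x + (ρ / D) • v) (z + ρ / D)
    (by rw [e1, abs_of_pos hh]; exact hhρ)
    (by rw [e1, e0, sub_self, norm_zero]; exact hρ.le)
  have k2 := h2 (x + (ρ / D) • v) (z + ρ / D)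
    (by rw [e1, abs_of_pos hh]; linarith)
    (by
      rw [e1, e0, ← smul_sub, norm_smul, Real.norm_of_nonneg hh.le]
      calc ρ / D * ‖v - v'‖ ≤ ρ / D * D := mul_le_mul_of_nonneg_left hv hh.le
        _ = ρ := by field_simp
        _ ≤ r' := hr)
  rw [e0, e1, inner_smul_right] at k1 k2
  have hP : a + b ≤ (ρ / D) * D ^ 2 := by
    have : (ρ / D) * D ^ 2 = D * ρ := by field_simp
    rw [this]; exact hab
  have k3 : |(ρ / D) * ((⟪v, v⟫ - ⟪v', v⟫) + (s - s'))| ≤ (ρ / D) * D ^ 2 := by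
    rw [abs_le] at k1 k2 ⊢
    constructor
    · nlinarith [k1.1, k2.2, k1.2, k2.1]
    · nlinarith [k1.1, k2.2, k1.2, k2.1]
  rw [abs_mul, abs_of_pos hh] at k3
  have k4 : |(⟪v, v⟫ - ⟪v', v⟫) + (s - s')| ≤ D ^ 2 := le_of_mul_le_mul_left k3 hh
  have e2 : ‖v - v'‖ ^ 2 = ‖v‖ ^ 2 - 2 * ⟪v', v⟫ + ‖v'‖ ^ 2 := by
    rw [norm_sub_sq_real, real_inner_comm]
  rw [real_inner_self_eq_norm_sq] at k4
  have e3 : (s + ‖v‖ ^ 2 / 2) - (s' + ‖v'‖ ^ 2 / 2)
      = ((‖v‖ ^ 2 - ⟪v', v⟫) + (s - s')) - ‖v - v'‖ ^ 2 / 2 := by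
    rw [e2]; ring
  have hv2 : ‖v - v'‖ ^ 2 ≤ D ^ 2 := by
    have := norm_nonneg (v - v')
    nlinarith
  rw [e3, abs_le]
  rw [abs_le] at k4
  have := sq_nonneg ‖v - v'‖
  constructor
  · nlinarith [k4.1]
  · nlinarith [k4.2]

theorem Adapted.same {K : ℝ} (hK : 1 ≤ K) {W : E → ℝ → ℝ} {x v v' : E} {z r r' s s' : ℝ}
    (hr : 0 < r) (h1 : r / 2 ≤ r') (h2 : r' ≤ r) (ha : Adapted K W x z r v s)
    (hb : Adapted K W x z r' v' s') :
    ‖v - v'‖ ≤ 3 * K ∧ |(s + ‖v‖ ^ 2 / 2) - (s' + ‖v'‖ ^ 2 / 2)| ≤ 14 * K ^ 2 := by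
  have h := adapted_two (W := W) (x := x) (v := v) (v' := v') (z := z) (ρ := r') (r' := r')
    (s := s) (s' := s') (a := K * r) (b := K * r') (D := 3 * K) (by linarith) le_rfl
    (by linarith) (by nlinarith)
    (fun y z' k1 k2 => ha y z' (k1.trans h2) (k2.trans h2)) hb
  refine ⟨h.1, h.2.trans ?_⟩
  nlinarith

theorem Adapted.near {K : ℝ} (hK : 1 ≤ K) {W : E → ℝ → ℝ} {x x₁ v v₁ : E} {z z₁ r s s₁ : ℝ}
    (hr : 0 < r) (h1 : |z₁ - z| ≤ r / 2) (h2 : ‖x₁ - x - (z₁ - z) • v‖ ≤ r / 2)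
    (ha : Adapted K W x z r v s) (hb : Adapted K W x₁ z₁ r v₁ s₁) :
    ‖v - v₁‖ ≤ 6 * K ∧ |(s + ‖v‖ ^ 2 / 2) - (s₁ + ‖v₁‖ ^ 2 / 2)| ≤ 54 * K ^ 2 := by
  have h0 := ha x₁ z₁ (h1.trans (by linarith)) (h2.trans (by linarith))
  have h := adapted_two (W := W) (x := x₁) (v := v) (v' := v₁) (z := z₁) (ρ := r / 2) (r' := r)
    (s := s) (s' := s₁) (a := 2 * (K * r)) (b := K * r) (D := 6 * K) (by linarith) (by linarith)
    (by linarith) (by linarith) ?_ hb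
  · refine ⟨h.1, h.2.trans ?_⟩
    nlinarith
  · intro y z' k1 k2
    have k3 : |z' - z| ≤ r := by
      rw [abs_le] at h1 k1 ⊢
      constructor <;> linarith [h1.1, h1.2, k1.1, k1.2]
    have k4 : ‖y - x - (z' - z) • v‖ ≤ r := by
      have e : y - x - (z' - z) • v
          = (y - x₁ - (z' - z₁) • v) + (x₁ - x - (z₁ - z) • v) := by
        module
      rw [e]
      refine (norm_add_le _ _).trans ?_
      linarith
    have k5 := ha y z' k3 k4
    have e1 : y - x₁ = (y - x) - (x₁ - x) := by abel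
    rw [e1, inner_sub_right]
    rw [abs_le] at h0 k5 ⊢
    constructor <;> nlinarith [h0.1, h0.2, k5.1, k5.2]

/-- adapted slopes at the same point, at scales with ratio at most `2 ^ n` -/
theorem MCls.chain {K : ℝ} (hK : 1 ≤ K) {W : E → ℝ → ℝ} (hW : MCls K W) (x : E) (z : ℝ)
    (n : ℕ) : ∀ (r ρ : ℝ) (v v' : E) (s s' : ℝ), 0 < r → r ≤ ρ → ρ ≤ 2 ^ n * r →
      Adapted K W x z r v s → Adapted K W x z ρ v' s' →
      ‖v - v'‖ ≤ 3 * K * (n + 1) ∧
        |(s + ‖v‖ ^ 2 / 2) - (s' + ‖v'‖ ^ 2 / 2)| ≤ 14 * K ^ 2 * (n + 1) := by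
  induction n with
  | zero =>
    intro r ρ v v' s s' hr h1 h2 ha hb
    have h3 : ρ = r := by
      rw [pow_zero, one_mul] at h2
      linarith
    subst h3
    have := Adapted.same hK hr (by linarith) le_rfl ha hb
    simpa using this
  | succ n ih =>
    intro r ρ v v' s s' hr h1 h2 ha hb
    have hK2 : 0 ≤ 14 * K ^ 2 := by positivity
    have hn : (0 : ℝ) ≤ n := Nat.cast_nonneg n
    push_cast
    by_cases hc : ρ ≤ 2 * r
    · have h3 := Adapted.same hK (by linarith) (by linarith) h1 hb ha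
      refine ⟨?_, ?_⟩
      · rw [norm_sub_rev]
        refine h3.1.trans ?_
        nlinarith
      · rw [abs_sub_comm]
        refine h3.2.trans ?_
        nlinarith
    · push Not at hc
      obtain ⟨v'', s'', h''⟩ := hW.flat x z (ρ / 2) (by linarith)
      have h3 := Adapted.same hK (by linarith) le_rfl (by linarith) hb h''
      have h4 := ih r (ρ / 2) v v'' s s'' hr (by linarith)
        (by rw [pow_succ] at h2; linarith) ha h''
      refine ⟨?_, ?_⟩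
      · have e : v - v' = (v - v'') - (v' - v'') := by abel
        rw [e]
        refine (norm_sub_le _ _).trans ?_
        linarith [h3.1, h4.1]
      · have h5 := h3.2
        have h6 := h4.2
        rw [abs_le] at h5 h6 ⊢
        constructor <;> linarith [h5.1, h5.2, h6.1, h6.2]

/-- choice of the number of octaves -/
theorem exists_octaves {K : ℝ} (hK : 1 ≤ K) {A : ℝ} (hA : 1 ≤ A) :
    ∃ k : ℕ, 2 * A * (1 + 3 * K * (k + 1)) ≤ 2 ^ k ∧
      (k : ℝ) ≤ (6 + 4 * Real.log (16 * K)) * (1 + Real.log A) := by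
  have h16 : (1 : ℝ) ≤ 16 * K * A := by nlinarith
  obtain ⟨n, h1, h2⟩ := exists_nat_pow_near h16 (by norm_num : (1 : ℝ) < 2)
  refine ⟨2 * (n + 1), ?_, ?_⟩
  · have hb : ((n + 1 : ℕ) : ℝ) + 1 ≤ 2 ^ (n + 1) := by
      have := Nat.lt_two_pow_self (n := n + 1)
      have h3 : n + 1 + 1 ≤ 2 ^ (n + 1) := this
      exact_mod_cast h3
    push_cast at hb ⊢
    have hm : (0 : ℝ) < 2 ^ (n + 1) := by positivity
    have hn : (0 : ℝ) ≤ n := Nat.cast_nonneg n
    have h5 : 2 * A * (1 + 3 * K * (2 * ((n : ℝ) + 1) + 1)) ≤ (16 * K * A) * 2 ^ (n + 1) := by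
      have h6 : 1 + 3 * K * (2 * ((n : ℝ) + 1) + 1) ≤ 8 * K * 2 ^ (n + 1) := by
        have h7 : 3 * K * (2 * ((n : ℝ) + 1) + 1) ≤ 3 * K * (2 * 2 ^ (n + 1)) := by
          refine mul_le_mul_of_nonneg_left ?_ (by positivity)
          linarith
        have h8 : (1 : ℝ) ≤ K * 2 ^ (n + 1) := by
          have : (1 : ℝ) ≤ 2 ^ (n + 1) := one_le_pow₀ (by norm_num)
          nlinarith
        nlinarith
      calc 2 * A * (1 + 3 * K * (2 * ((n : ℝ) + 1) + 1))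
          ≤ 2 * A * (8 * K * 2 ^ (n + 1)) := mul_le_mul_of_nonneg_left h6 (by positivity)
        _ = (16 * K * A) * 2 ^ (n + 1) := by ring
    calc 2 * A * (1 + 3 * K * (2 * ((n : ℝ) + 1) + 1))
        ≤ (16 * K * A) * 2 ^ (n + 1) := h5
      _ ≤ 2 ^ (n + 1) * 2 ^ (n + 1) := mul_le_mul_of_nonneg_right h2.le hm.le
      _ = 2 ^ (2 * (n + 1)) := by ring
  · have h3 : (n : ℝ) * Real.log 2 ≤ Real.log (16 * K) + Real.log A := by
      rw [← Real.log_pow, ← Real.log_mul (by positivity) (by positivity)]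
      exact Real.log_le_log (by positivity) h1
    have h4 : (1 : ℝ) / 2 ≤ Real.log 2 := by
      have := Real.log_two_gt_d9
      linarith
    have hA0 : 0 ≤ Real.log A := Real.log_nonneg hA
    have hK0 : 0 ≤ Real.log (16 * K) := Real.log_nonneg (by linarith)
    have hn : (0 : ℝ) ≤ n := Nat.cast_nonneg n
    have h5 : (n : ℝ) ≤ 2 * (Real.log (16 * K) + Real.log A) := by nlinarith
    push_cast
    nlinarith [mul_nonneg hA0 hK0]

theorem MCls.far {K : ℝ} (hK : 1 ≤ K) : ∃ C : ℝ, 0 < C ∧ ∀ W : E → ℝ → ℝ, MCls K W →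
    ∀ (x x₁ v v₁ : E) (z z₁ r r₁ s s₁ A : ℝ), 0 < r → 0 < r₁ → 1 ≤ A → r ≤ A * r₁ →
    r₁ ≤ A * r → |z₁ - z| ≤ A * r → ‖x₁ - x - (z₁ - z) • v‖ ≤ A * r →
    Adapted K W x z r v s → Adapted K W x₁ z₁ r₁ v₁ s₁ →
    ‖v₁ - v‖ ≤ C * (1 + Real.log A) ∧
      |(s₁ + ‖v₁‖ ^ 2 / 2) - (s + ‖v‖ ^ 2 / 2)| ≤ C * (1 + Real.log A) := by
  have hK0 : 0 ≤ Real.log (16 * K) := Real.log_nonneg (by linarith)
  have hC0 : (0 : ℝ) < K ^ 2 * (42 * (6 + 4 * Real.log (16 * K)) + 82) := by positivity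
  refine ⟨K ^ 2 * (42 * (6 + 4 * Real.log (16 * K)) + 82), hC0, ?_⟩
  intro W hW x x₁ v v₁ z z₁ r r₁ s s₁ A hr hr₁ hA hrA hr₁A hz hx ha hb
  obtain ⟨k, hk1, hk2⟩ := exists_octaves hK hA
  have hA0 : 0 ≤ Real.log A := Real.log_nonneg hA
  have hkn : (0 : ℝ) ≤ k := Nat.cast_nonneg k
  have hb1 : 3 * K * (k + 1) ≥ 0 := by positivity
  have hp : (1 : ℝ) ≤ 2 ^ k := one_le_pow₀ (by norm_num)
  have hp0 : (0 : ℝ) < 2 ^ k := by positivity
  have hAk : 2 * A ≤ 2 ^ k := by nlinarith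
  have hρ : 0 < 2 ^ k * r := by positivity
  -- up at the first point
  obtain ⟨w, σ, hw⟩ := hW.flat x z (2 ^ k * r) hρ
  have c1 := MCls.chain hK hW x z k r (2 ^ k * r) v w s σ hr (by nlinarith) le_rfl ha hw
  -- over to the second point
  obtain ⟨w₁, σ₁, hw₁⟩ := hW.flat x₁ z₁ (2 ^ k * r) hρ
  have hAr : A * r ≤ 2 ^ k * r / 2 := by nlinarith
  have hx' : ‖x₁ - x - (z₁ - z) • w‖ ≤ 2 ^ k * r / 2 := by
    have e : x₁ - x - (z₁ - z) • w = (x₁ - x - (z₁ - z) • v) + (z₁ - z) • (v - w) := by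
      module
    rw [e]
    refine (norm_add_le _ _).trans ?_
    rw [norm_smul, Real.norm_eq_abs]
    have h5 : |z₁ - z| * ‖v - w‖ ≤ (A * r) * (3 * K * (k + 1)) :=
      mul_le_mul hz c1.1 (norm_nonneg _) (by positivity)
    have h6 : (A * r) * (1 + 3 * K * (k + 1)) ≤ 2 ^ k * r / 2 := by
      have := mul_le_mul_of_nonneg_right hk1 hr.le
      linarith
    linarith
  have c2 := Adapted.near hK hρ (hz.trans hAr) hx' hw hw₁
  -- down at the second point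
  have hd : 2 ^ k * r ≤ 2 ^ (2 * k) * r₁ := by
    have e : (2 : ℝ) ^ (2 * k) * r₁ = 2 ^ k * (2 ^ k * r₁) := by ring
    rw [e]
    refine mul_le_mul_of_nonneg_left ?_ hp0.le
    have : A * r₁ ≤ 2 ^ k * r₁ := mul_le_mul_of_nonneg_right (by linarith) hr₁.le
    linarith
  have c3 := MCls.chain hK hW x₁ z₁ (2 * k) r₁ (2 ^ k * r) v₁ w₁ s₁ σ₁ hr₁ (by nlinarith) hd
    hb hw₁
  push_cast at c3
  have hK2 : K ≤ K ^ 2 := by nlinarith
  have hmain : K ^ 2 * (42 * k + 82)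
      ≤ K ^ 2 * (42 * (6 + 4 * Real.log (16 * K)) + 82) * (1 + Real.log A) := by
    rw [mul_assoc]
    refine mul_le_mul_of_nonneg_left ?_ (by positivity)
    nlinarith
  refine ⟨le_trans ?_ hmain, le_trans ?_ hmain⟩
  · have e : v₁ - v = (v₁ - w₁) - (w - w₁) - (v - w) := by abel
    have h6 : ‖v₁ - v‖ ≤ ‖v₁ - w₁‖ + ‖w - w₁‖ + ‖v - w‖ := by
      rw [e]
      refine (norm_sub_le _ _).trans ?_
      have := norm_sub_le (v₁ - w₁) (w - w₁)
      linarith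
    have h7 : ‖v₁ - v‖ ≤ K * (9 * k + 12) := by
      have := c1.1
      have := c2.1
      have := c3.1
      nlinarith
    refine h7.trans ?_
    have h8 : K * (9 * k + 12) ≤ K ^ 2 * (9 * k + 12) :=
      mul_le_mul_of_nonneg_right hK2 (by positivity)
    refine h8.trans (mul_le_mul_of_nonneg_left ?_ (by positivity))
    linarith
  · have h1 := c1.2
    have h2 := c2.2
    have h3 := c3.2
    have e : K ^ 2 * (42 * (k : ℝ) + 82)
        = 14 * K ^ 2 * (k + 1) + 54 * K ^ 2 + 14 * K ^ 2 * (2 * k + 1) := by ring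
    rw [e]
    rw [abs_le] at h1 h2 h3 ⊢
    constructor <;> linarith [h1.1, h1.2, h2.1, h2.2, h3.1, h3.2]

end Vale.Agent.P080
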