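import Vale.Agent.P080.MAdapt1

/-! Growth, continuity and subquadratic growth of the functions of the class `MCls K`. -/

open Metric Set Filter Topology
open scoped RealInnerProductSpace

namespace Vale.Agent.P080

variable {E : Type*} [NormedAddCommGroup E] [InnerProductSpace ℝ E]

namespace Ad2

theorem exists_M (c : ℝ) (hc : 0 ≤ c) : ∃ M : ℝ, 1 ≤ M ∧ 1 + 7 * c + c * Real.log M ≤ M := by
  have hm : (0 : ℝ) < 2 + 7 * c := by positivity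
  refine ⟨(2 + 7 * c) ^ 2, by nlinarith, ?_⟩
  have h1 : Real.log ((2 + 7 * c) ^ 2) ≤ 2 * (1 + 7 * c) := by
    rw [Real.log_pow]
    have := Real.log_le_sub_one_of_pos hm
    push_cast
    linarith
  nlinarith [mul_le_mul_of_nonneg_left h1 hc]

/-- the scale `A = M w^6` is large enough -/
theorem scale_ineq {c M w : ℝ} (hc : 0 ≤ c) (hM : 1 ≤ M)
    (hM2 : 1 + 7 * c + c * Real.log M ≤ M) (hw : 1 ≤ w) :
    w ^ 4 * (1 + c * (1 + Real.log (M * w ^ 6))) ≤ M * w ^ 6 ∧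
      c * (1 + Real.log (M * w ^ 6)) ≤ c * (7 + Real.log M) * w ∧
      0 ≤ c * (1 + Real.log (M * w ^ 6)) := by
  have hw0 : 0 < w := by linarith
  have hlM : 0 ≤ Real.log M := Real.log_nonneg hM
  have hlw : 0 ≤ Real.log w := Real.log_nonneg hw
  have hlw2 : Real.log w ≤ w := by
    have := Real.log_le_sub_one_of_pos hw0
    linarith
  have hlA : Real.log (M * w ^ 6) = Real.log M + 6 * Real.log w := by
    rw [Real.log_mul (by positivity) (by positivity), Real.log_pow]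
    push_cast
    ring
  rw [hlA]
  refine ⟨?_, ?_, by positivity⟩
  · have h3 : 1 + c * (1 + (Real.log M + 6 * Real.log w)) ≤ M * w ^ 2 := by
      have hw2 : w ≤ w ^ 2 := by nlinarith
      have hw1 : 1 ≤ w ^ 2 := by nlinarith
      have h4 : c * (1 + (Real.log M + 6 * Real.log w)) ≤ c * (1 + (Real.log M + 6 * w ^ 2)) := by
        refine mul_le_mul_of_nonneg_left ?_ hc
        linarith
      have h5 : 0 ≤ (1 + c + c * Real.log M) * (w ^ 2 - 1) :=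
        mul_nonneg (by positivity) (by linarith)
      calc 1 + c * (1 + (Real.log M + 6 * Real.log w))
          ≤ 1 + c * (1 + (Real.log M + 6 * w ^ 2)) := by linarith
        _ ≤ (1 + 7 * c + c * Real.log M) * w ^ 2 := by linarith
        _ ≤ M * w ^ 2 := mul_le_mul_of_nonneg_right hM2 (by positivity)
    calc w ^ 4 * (1 + c * (1 + (Real.log M + 6 * Real.log w)))
        ≤ w ^ 4 * (M * w ^ 2) := mul_le_mul_of_nonneg_left h3 (by positivity)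
      _ = M * w ^ 6 := by ring
  · rw [mul_assoc]
    refine mul_le_mul_of_nonneg_left ?_ hc
    nlinarith

/-- change of the affine function under a change of the data -/
theorem aff_diff {x y v v' : E} {z z' s s' D ℓ : ℝ} (hℓ0 : 0 ≤ ℓ)
    (hz : |z' - z| ≤ D) (hy : ‖y - x - (z' - z) • v‖ ≤ D) (h1 : ‖v' - v‖ ≤ ℓ)
    (h2 : |(s' + ‖v'‖ ^ 2 / 2) - (s + ‖v‖ ^ 2 / 2)| ≤ ℓ) :
    |⟪v', y - x⟫ + s' * (z' - z) - (⟪v, y - x⟫ + s * (z' - z))| ≤ D * (2 * ℓ + ℓ ^ 2 / 2) := by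
  set b : E := y - x - (z' - z) • v with hb
  have hD0 : 0 ≤ D := (abs_nonneg _).trans hz
  have hyx : y - x = b + (z' - z) • v := by rw [hb]; abel
  have e2 : ⟪v', y - x⟫ + s' * (z' - z) - (⟪v, y - x⟫ + s * (z' - z))
      = ⟪v' - v, b⟫ + (((s' + ‖v'‖ ^ 2 / 2) - (s + ‖v‖ ^ 2 / 2)) - ‖v' - v‖ ^ 2 / 2) * (z' - z) := by
    have e3 : ‖v'‖ ^ 2 = ‖v‖ ^ 2 + 2 * ⟪v' - v, v⟫ + ‖v' - v‖ ^ 2 := by
      have : v' = v + (v' - v) := by abel
      conv_lhs => rw [this]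
      rw [norm_add_sq_real, real_inner_comm]
    rw [e3, hyx, inner_add_right, inner_add_right, inner_sub_left, inner_smul_right,
      inner_smul_right, inner_sub_left, real_inner_self_eq_norm_sq]
    ring
  rw [e2]
  have h5 : |⟪v' - v, b⟫| ≤ ℓ * D := (abs_real_inner_le_norm _ _).trans
    (mul_le_mul h1 hy (norm_nonneg _) hℓ0)
  have h6 : |((s' + ‖v'‖ ^ 2 / 2) - (s + ‖v‖ ^ 2 / 2)) - ‖v' - v‖ ^ 2 / 2| ≤ ℓ + ℓ ^ 2 / 2 := by
    have h7 : ‖v' - v‖ ^ 2 ≤ ℓ ^ 2 := pow_le_pow_left₀ (norm_nonneg _) h1 2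
    have h8 : 0 ≤ ‖v' - v‖ ^ 2 := by positivity
    rw [abs_le] at h2 ⊢
    constructor <;> linarith [h2.1, h2.2]
  calc |⟪v' - v, b⟫ + (((s' + ‖v'‖ ^ 2 / 2) - (s + ‖v‖ ^ 2 / 2)) - ‖v' - v‖ ^ 2 / 2)
        * (z' - z)|
      ≤ |⟪v' - v, b⟫| + |(((s' + ‖v'‖ ^ 2 / 2) - (s + ‖v‖ ^ 2 / 2)) - ‖v' - v‖ ^ 2 / 2)
        * (z' - z)| := abs_add_le _ _
    _ ≤ ℓ * D + (ℓ + ℓ ^ 2 / 2) * D := by
        rw [abs_mul]
        exact add_le_add h5 (mul_le_mul h6 hz (abs_nonneg _) (by positivity))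
    _ = D * (2 * ℓ + ℓ ^ 2 / 2) := by ring

/-- the point is in the cylinder of the data at the larger scale -/
theorem in_cyl {x y v v' : E} {z z' D ℓ R : ℝ} (hℓ0 : 0 ≤ ℓ)
    (hz : |z' - z| + ‖y - x - (z' - z) • v‖ ≤ D) (h1 : ‖v' - v‖ ≤ ℓ)
    (hDA : D * (1 + ℓ) ≤ R) :
    |z' - z| ≤ R ∧ ‖y - x - (z' - z) • v'‖ ≤ R := by
  have hz1 : |z' - z| ≤ D := by linarith [norm_nonneg (y - x - (z' - z) • v)]
  have hD0 : 0 ≤ D := (abs_nonneg _).trans hz1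
  have h0 : 0 ≤ D * ℓ := mul_nonneg hD0 hℓ0
  refine ⟨by linarith, ?_⟩
  have e1 : y - x - (z' - z) • v' = (y - x - (z' - z) • v) - (z' - z) • (v' - v) := by
    rw [smul_sub]; abel
  have h3 : ‖(z' - z) • (v' - v)‖ ≤ |z' - z| * ℓ := by
    rw [norm_smul, Real.norm_eq_abs]
    exact mul_le_mul_of_nonneg_left h1 (abs_nonneg _)
  have h4 : |z' - z| * ℓ ≤ D * ℓ := mul_le_mul_of_nonneg_right hz1 hℓ0
  calc ‖y - x - (z' - z) • v'‖ ≤ ‖y - x - (z' - z) • v‖ + ‖(z' - z) • (v' - v)‖ := by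
        rw [e1]; exact norm_sub_le _ _
    _ ≤ R := by linarith [abs_nonneg (z' - z)]

/-- from `D = |z' - z| + ...` to a scale `R = A r` whose cylinder contains the point -/
theorem growth_far {K : ℝ} {C₁ M : ℝ} (hC₁ : 0 < C₁) (hM : 1 ≤ M)
    (hM2 : 1 + 7 * C₁ + C₁ * Real.log M ≤ M) {W : E → ℝ → ℝ} (hW : MCls K W)
    (hfar : ∀ (x x₁ v v₁ : E) (z z₁ r r₁ s s₁ A : ℝ), 0 < r → 0 < r₁ → 1 ≤ A → r ≤ A * r₁ →
      r₁ ≤ A * r → |z₁ - z| ≤ A * r → ‖x₁ - x - (z₁ - z) • v‖ ≤ A * r →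
      Adapted K W x z r v s → Adapted K W x₁ z₁ r₁ v₁ s₁ →
      ‖v₁ - v‖ ≤ C₁ * (1 + Real.log A) ∧
        |(s₁ + ‖v₁‖ ^ 2 / 2) - (s + ‖v‖ ^ 2 / 2)| ≤ C₁ * (1 + Real.log A))
    {x v : E} {z r s : ℝ} (hr : 0 < r) (ha : Adapted K W x z r v s) (y : E) (z' : ℝ) {w : ℝ}
    (hw : 1 ≤ w) (hD : |z' - z| + ‖y - x - (z' - z) • v‖ ≤ w ^ 4 * r) :
    |W y z' - W x z - ⟪v, y - x⟫ - s * (z' - z)| ≤
      r * ((K * M + 2 * (C₁ * (7 + Real.log M)) + (C₁ * (7 + Real.log M)) ^ 2 / 2) * w ^ 6) := by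
  obtain ⟨k1, k2, k3⟩ := scale_ineq hC₁.le hM hM2 hw
  set A : ℝ := M * w ^ 6 with hA
  have hw6 : 1 ≤ w ^ 6 := one_le_pow₀ hw
  have hA1 : 1 ≤ A := by
    rw [hA]
    exact one_le_mul_of_one_le_of_one_le hM hw6
  have hA2 : r ≤ A * (A * r) := by
    have : 1 * 1 ≤ A * A := mul_le_mul hA1 hA1 zero_le_one (by linarith)
    calc r = 1 * 1 * r := by ring
      _ ≤ A * A * r := mul_le_mul_of_nonneg_right this hr.le
      _ = A * (A * r) := by ring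
  have hAr : 0 < A * r := mul_pos (by linarith) hr
  obtain ⟨v', s', ha'⟩ := hW.flat x z (A * r) hAr
  obtain ⟨h1, h2⟩ := hfar x x v v' z z r (A * r) s s' A hr hAr hA1 hA2 le_rfl
    (by rw [sub_self, abs_zero]; exact hAr.le)
    (by rw [sub_self, sub_self, zero_smul, sub_zero, norm_zero]; exact hAr.le) ha ha'
  set ℓ : ℝ := C₁ * (1 + Real.log A) with hℓ
  set c : ℝ := C₁ * (7 + Real.log M) with hc
  have hc0 : 0 ≤ c := by
    have := Real.log_nonneg hM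
    rw [hc]
    positivity
  have hDA : w ^ 4 * r * (1 + ℓ) ≤ A * r := by
    calc w ^ 4 * r * (1 + ℓ) = w ^ 4 * (1 + ℓ) * r := by ring
      _ ≤ A * r := mul_le_mul_of_nonneg_right k1 hr.le
  obtain ⟨hin1, hin2⟩ := in_cyl k3 hD h1 hDA
  have h3 := ha' y z' hin1 hin2
  have h4 := aff_diff (s := s) (s' := s') (D := w ^ 4 * r) (y := y) (x := x) (z' := z') (z := z)
    k3 (by linarith [norm_nonneg (y - x - (z' - z) • v)])
    (by linarith [abs_nonneg (z' - z)]) h1 h2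
  have e3 : W y z' - W x z - ⟪v, y - x⟫ - s * (z' - z)
      = (W y z' - W x z - ⟪v', y - x⟫ - s' * (z' - z))
        + (⟪v', y - x⟫ + s' * (z' - z) - (⟪v, y - x⟫ + s * (z' - z))) := by ring
  rw [e3]
  refine (abs_add_le _ _).trans ((add_le_add h3 h4).trans ?_)
  have h6 : 2 * ℓ + ℓ ^ 2 / 2 ≤ 2 * (c * w) + (c * w) ^ 2 / 2 := by
    have : ℓ ^ 2 ≤ (c * w) ^ 2 := pow_le_pow_left₀ k3 k2 2
    linarith
  have h7 : w ^ 4 * r * (2 * ℓ + ℓ ^ 2 / 2) ≤ w ^ 4 * r * (2 * (c * w) + (c * w) ^ 2 / 2) :=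
    mul_le_mul_of_nonneg_left h6 (by positivity)
  have h8 : w ^ 5 ≤ w ^ 6 := pow_le_pow_right₀ hw (by norm_num)
  have h9 : 2 * c * w ^ 5 ≤ 2 * c * w ^ 6 := mul_le_mul_of_nonneg_left h8 (by positivity)
  calc K * (A * r) + w ^ 4 * r * (2 * ℓ + ℓ ^ 2 / 2)
      ≤ K * (A * r) + w ^ 4 * r * (2 * (c * w) + (c * w) ^ 2 / 2) := by linarith
    _ = r * (K * M * w ^ 6 + (2 * c * w ^ 5 + c ^ 2 / 2 * w ^ 6)) := by rw [hA]; ring
    _ ≤ r * (K * M * w ^ 6 + (2 * c * w ^ 6 + c ^ 2 / 2 * w ^ 6)) := by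
        refine mul_le_mul_of_nonneg_left ?_ hr.le
        linarith
    _ = r * ((K * M + 2 * c + c ^ 2 / 2) * w ^ 6) := by ring

end Ad2

theorem MCls.growth {K : ℝ} (hK : 1 ≤ K) {δ : ℝ} (hδ : 0 < δ) : ∃ C : ℝ, 0 < C ∧
    ∀ W : E → ℝ → ℝ, MCls K W → ∀ (x v : E) (z r s : ℝ), 0 < r → Adapted K W x z r v s →
    ∀ (y : E) (z' : ℝ), |W y z' - W x z - ⟪v, y - x⟫ - s * (z' - z)|
      ≤ r * C + δ * (|z' - z| + ‖y - x - (z' - z) • v‖) ^ 2 / r := by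
  obtain ⟨C₁, hC₁, hfar⟩ := MCls.far (E := E) hK
  obtain ⟨M, hM, hM2⟩ := Ad2.exists_M C₁ hC₁.le
  set B : ℝ := K * M + 2 * (C₁ * (7 + Real.log M)) + (C₁ * (7 + Real.log M)) ^ 2 / 2 with hB
  have hlM : 0 ≤ Real.log M := Real.log_nonneg hM
  have hB0 : 0 < B := by rw [hB]; positivity
  refine ⟨B + B ^ 4 / δ ^ 3, by positivity, fun W hW x v z r s hr ha y z' => ?_⟩
  set D : ℝ := |z' - z| + ‖y - x - (z' - z) • v‖ with hD
  have hD0 : 0 ≤ D := by positivity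
  -- `w = max 1 (D / r)^(1/4)`
  set w : ℝ := max 1 (√(√(D / r))) with hw
  have hw1 : 1 ≤ w := le_max_left _ _
  have hDr : 0 ≤ D / r := by positivity
  have hq4 : (√(√(D / r))) ^ 4 = D / r := by
    have h1 : (√(√(D / r))) ^ 4 = ((√(√(D / r))) ^ 2) ^ 2 := by ring
    rw [h1, Real.sq_sqrt (Real.sqrt_nonneg _), Real.sq_sqrt hDr]
  have hDw : D ≤ w ^ 4 * r := by
    have h1 : D / r ≤ w ^ 4 := by
      rw [← hq4]
      exact pow_le_pow_left₀ (Real.sqrt_nonneg _) (le_max_right _ _) 4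
    rwa [div_le_iff₀ hr] at h1
  have h1 := Ad2.growth_far hC₁ hM hM2 hW (hfar W hW) hr ha y z' hw1 hDw
  rw [← hB] at h1
  refine h1.trans ?_
  have hw6 : B * w ^ 6 ≤ B + B ^ 4 / δ ^ 3 + δ * (D / r) ^ 2 := by
    rcases le_total (√(√(D / r))) 1 with h2 | h2
    · have : w = 1 := by rw [hw]; exact max_eq_left h2
      rw [this, one_pow, mul_one]
      have : 0 ≤ B ^ 4 / δ ^ 3 + δ * (D / r) ^ 2 := by positivity
      linarith
    · have h3 : w = √(√(D / r)) := by rw [hw]; exact max_eq_right h2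
      have h4 : (D / r) ^ 2 = w ^ 8 := by rw [← hq4, h3]; ring
      rw [h4]
      have hw0 : 0 < w := by linarith
      set q : ℝ := w ^ 2 with hq
      have hq0 : 0 < q := by positivity
      have e6 : w ^ 6 = q ^ 3 := by rw [hq]; ring
      have e8 : w ^ 8 = q ^ 4 := by rw [hq]; ring
      rw [e6, e8]
      rcases le_total q (B / δ) with h5 | h5
      · have h6 : q ^ 3 ≤ (B / δ) ^ 3 := pow_le_pow_left₀ hq0.le h5 3
        have h7 : B * q ^ 3 ≤ B ^ 4 / δ ^ 3 := by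
          calc B * q ^ 3 ≤ B * (B / δ) ^ 3 := mul_le_mul_of_nonneg_left h6 hB0.le
            _ = B ^ 4 / δ ^ 3 := by rw [div_pow]; ring
        have : 0 ≤ δ * q ^ 4 := by positivity
        linarith
      · rw [div_le_iff₀ hδ] at h5
        have h7 : B * q ^ 3 ≤ δ * q ^ 4 := by
          calc B * q ^ 3 ≤ q * δ * q ^ 3 := mul_le_mul_of_nonneg_right h5 (by positivity)
            _ = δ * q ^ 4 := by ring
        have : 0 ≤ B ^ 4 / δ ^ 3 := by positivity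
        linarith
  calc r * (B * w ^ 6) ≤ r * (B + B ^ 4 / δ ^ 3 + δ * (D / r) ^ 2) :=
        mul_le_mul_of_nonneg_left hw6 hr.le
    _ = r * (B + B ^ 4 / δ ^ 3) + δ * D ^ 2 / r := by
        field_simp

theorem MCls.continuous {K : ℝ} (hK : 1 ≤ K) {W : E → ℝ → ℝ} (h : MCls K W) :
    Continuous fun p : E × ℝ => W p.1 p.2 := by
  rw [continuous_iff_continuousAt]
  rintro ⟨x, z⟩
  rw [Metric.continuousAt_iff']
  intro ε hε
  set r : ℝ := ε / (4 * K) with hr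
  have hK0 : 0 < K := by linarith
  have hr0 : 0 < r := by rw [hr]; positivity
  obtain ⟨v, s, ha⟩ := h.flat x z r hr0
  have t1 : Tendsto (fun p : E × ℝ => |p.2 - z|) (𝓝 (x, z)) (𝓝 0) := by
    have : Continuous fun p : E × ℝ => |p.2 - z| := by fun_prop
    have := this.tendsto (x, z)
    simpa using this
  have t2 : Tendsto (fun p : E × ℝ => ‖p.1 - x - (p.2 - z) • v‖) (𝓝 (x, z)) (𝓝 0) := by
    have : Continuous fun p : E × ℝ => ‖p.1 - x - (p.2 - z) • v‖ := by fun_prop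
    have := this.tendsto (x, z)
    simpa using this
  have t3 : Tendsto (fun p : E × ℝ => |⟪v, p.1 - x⟫ + s * (p.2 - z)|) (𝓝 (x, z)) (𝓝 0) := by
    have : Continuous fun p : E × ℝ => |⟪v, p.1 - x⟫ + s * (p.2 - z)| := by fun_prop
    have := this.tendsto (x, z)
    simpa using this
  filter_upwards [t1.eventually (gt_mem_nhds hr0), t2.eventually (gt_mem_nhds hr0),
    t3.eventually (gt_mem_nhds (half_pos hε))] with p h1 h2 h3
  have h4 := ha p.1 p.2 h1.le h2.le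
  rw [Real.dist_eq]
  have h5 : K * r = ε / 4 := by rw [hr]; field_simp
  have e1 : W p.1 p.2 - W x z = (W p.1 p.2 - W x z - ⟪v, p.1 - x⟫ - s * (p.2 - z))
      + (⟪v, p.1 - x⟫ + s * (p.2 - z)) := by ring
  rw [e1]
  calc |(W p.1 p.2 - W x z - ⟪v, p.1 - x⟫ - s * (p.2 - z)) + (⟪v, p.1 - x⟫ + s * (p.2 - z))|
      ≤ |W p.1 p.2 - W x z - ⟪v, p.1 - x⟫ - s * (p.2 - z)| + |⟪v, p.1 - x⟫ + s * (p.2 - z)| :=
        abs_add_le _ _
    _ < ε := by linarith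

theorem MCls.subQuad {K : ℝ} (hK : 1 ≤ K) {W : E → ℝ → ℝ} (h : MCls K W) (z : ℝ) :
    SubQuad (fun y => W y z) := by
  intro δ hδ
  obtain ⟨C, hC, hg⟩ := MCls.growth (E := E) hK (half_pos hδ)
  obtain ⟨v, s, ha⟩ := h.flat 0 z 1 one_pos
  refine ⟨|W 0 z| + C + ‖v‖ ^ 2 / (2 * δ), fun y => ?_⟩
  have h1 := hg W h 0 v z 1 s one_pos ha y z
  rw [sub_self, zero_smul, sub_zero, sub_zero, mul_zero, sub_zero, abs_zero, zero_add, one_mul,
    div_one] at h1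
  have h2 : |⟪v, y⟫| ≤ ‖v‖ ^ 2 / (2 * δ) + δ / 2 * ‖y‖ ^ 2 := by
    refine (abs_real_inner_le_norm v y).trans ?_
    have h3 : 0 ≤ (‖v‖ - δ * ‖y‖) ^ 2 / (2 * δ) := by positivity
    have h4 : (‖v‖ - δ * ‖y‖) ^ 2 / (2 * δ) = ‖v‖ ^ 2 / (2 * δ) + δ / 2 * ‖y‖ ^ 2
        - ‖v‖ * ‖y‖ := by
      field_simp
      ring
    linarith
  have e1 : W y z = (W y z - W 0 z - ⟪v, y⟫) + W 0 z + ⟪v, y⟫ := by ring
  calc |W y z| = |(W y z - W 0 z - ⟪v, y⟫) + W 0 z + ⟪v, y⟫| := by rw [← e1]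
    _ ≤ |W y z - W 0 z - ⟪v, y⟫| + |W 0 z| + |⟪v, y⟫| := abs_add_three _ _ _
    _ ≤ (C + δ / 2 * ‖y‖ ^ 2) + |W 0 z| + (‖v‖ ^ 2 / (2 * δ) + δ / 2 * ‖y‖ ^ 2) := by
        linarith
    _ = |W 0 z| + C + ‖v‖ ^ 2 / (2 * δ) + δ * ‖y‖ ^ 2 := by ring

end Vale.Agent.P080
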