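import Vale.Agent.P080.MOps

open Metric Set Filter Topology
open scoped RealInnerProductSpace

namespace Vale.Agent.P080

variable {E : Type*} [NormedAddCommGroup E] [InnerProductSpace ℝ E]

/-- logarithms against small powers -/
theorem log_small {L : ℝ} (hL : 1 ≤ L) : 1 + Real.log (2 * L) ≤ 17 * L ^ (1 / 8 : ℝ) := by
  have h1 : (1 : ℝ) ≤ L ^ (1 / 8 : ℝ) := Real.one_le_rpow hL (by norm_num)
  have h2 : Real.log (2 * L) = Real.log 2 + Real.log L :=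
    Real.log_mul (by norm_num) (by linarith)
  have h3 : Real.log L ≤ L ^ (1 / 8 : ℝ) / (1 / 8) :=
    Real.log_le_rpow_div (by linarith) (by norm_num)
  have h4 : Real.log 2 ≤ 1 := by linarith [Real.log_two_lt_d9]
  rw [h2]
  linarith

/-- comparison of the adapted data at the origin with those at a far scale -/
theorem base_far {K : ℝ} (hK : 1 ≤ K) {X : ℝ} :
    ∃ C : ℝ, 0 < C ∧ ∀ W : E → ℝ → ℝ, MCls K W → ∀ s : ℝ, Adapted K W 0 0 1 0 s →
      ∀ (x : E) (z L r : ℝ), ‖x‖ ≤ X → |z| ≤ X → 1 ≤ r → r ≤ 2 * L → X ≤ 2 * L → 1 ≤ L →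
        ∀ (v' : E) (s' : ℝ), Adapted K W x z r v' s' →
        ‖v'‖ ≤ C * L ^ (1 / 8 : ℝ) ∧ |(s' + ‖v'‖ ^ 2 / 2) - s| ≤ C * L ^ (1 / 8 : ℝ) := by
  obtain ⟨C, hC, h⟩ := MCls.far (E := E) hK
  refine ⟨C * 17, by positivity, ?_⟩
  intro W hW s had x z L r hx hz hr hrL hXL hL v' s' had'
  have h1 := h W hW 0 x 0 v' 0 z 1 r s s' (2 * L) one_pos (by linarith) (by linarith)
    (by nlinarith) (by linarith) (by rw [sub_zero]; linarith)
    (by rw [smul_zero, sub_zero, sub_zero]; linarith) had had'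
  have h2 := mul_le_mul_of_nonneg_left (log_small hL) hC.le
  obtain ⟨h3, h4⟩ := h1
  rw [sub_zero] at h3
  have e1 : s + ‖(0 : E)‖ ^ 2 / 2 = s := by simp
  rw [e1] at h4
  constructor
  · linarith
  · linarith

theorem ba_t3 {X L s' z aa ax : ℝ} (hL0 : 0 < L) (hs0 : 0 < s') (hs' : s' = L + z)
    (haa : aa ≤ ax ^ 2 + 2 * ax * X + X ^ 2) :
    aa / (2 * L) - ax ^ 2 / (2 * s') ≤
      ax ^ 2 * z / (2 * L * s') + (2 * ax * X + X ^ 2) / (2 * L) := by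
  have h1 : aa / (2 * L) ≤ (ax ^ 2 + 2 * ax * X + X ^ 2) / (2 * L) :=
    div_le_div_of_nonneg_right haa (by positivity)
  have h2 : (ax ^ 2 + 2 * ax * X + X ^ 2) / (2 * L) - ax ^ 2 / (2 * s') =
      ax ^ 2 * z / (2 * L * s') + (2 * ax * X + X ^ 2) / (2 * L) := by
    have : z = s' - L := by rw [hs']; ring
    rw [this]
    field_simp
    ring
  linarith

theorem ba_t4 {X L s' z B ax P : ℝ} (hL0 : 0 < L) (hs0 : 0 < s') (hX : 0 ≤ X) (hzX : z ≤ X)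
    (hax : 0 ≤ ax) (haxB : ax ≤ B * P * s') :
    ax ^ 2 * z / (2 * L * s') ≤ X * B ^ 2 * P ^ 2 * s' / (2 * L) := by
  have h1 : ax ^ 2 ≤ (B * P * s') ^ 2 := pow_le_pow_left₀ hax haxB 2
  have h2 : ax ^ 2 * z ≤ (B * P * s') ^ 2 * X :=
    (mul_le_mul_of_nonneg_left hzX (sq_nonneg _)).trans (mul_le_mul_of_nonneg_right h1 hX)
  calc ax ^ 2 * z / (2 * L * s') ≤ (B * P * s') ^ 2 * X / (2 * L * s') :=
        div_le_div_of_nonneg_right h2 (by positivity)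
    _ = X * B ^ 2 * P ^ 2 * s' / (2 * L) := by
      field_simp

theorem ba_t7 {X L s' B P : ℝ} (hL0 : 0 < L) (hX : 0 ≤ X) (hB : 0 ≤ B)
    (hs1 : 3 / 4 * L ≤ s') (hPP : P ≤ P ^ 2) :
    X * (B * P) ≤ 2 * X * B * P ^ 2 / L * s' := by
  rw [div_mul_eq_mul_div, le_div_iff₀ hL0]
  have h1 : 0 ≤ X * B := mul_nonneg hX hB
  have hP2 : 0 ≤ P ^ 2 := sq_nonneg P
  have h2 : P * L ≤ 2 * P ^ 2 * s' := by
    have h3 : P * L ≤ P ^ 2 * L := mul_le_mul_of_nonneg_right hPP hL0.le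
    have h4 : P ^ 2 * (3 / 4 * L) ≤ P ^ 2 * s' := mul_le_mul_of_nonneg_left hs1 hP2
    have h5 : 0 ≤ P ^ 2 * L := mul_nonneg hP2 hL0.le
    linarith
  calc X * (B * P) * L = X * B * (P * L) := by ring
    _ ≤ X * B * (2 * P ^ 2 * s') := mul_le_mul_of_nonneg_left h2 h1
    _ = 2 * X * B * P ^ 2 * s' := by ring

theorem ba_t9 {X L s' B P : ℝ} (hL0 : 0 < L) (hX : 1 ≤ X) (hB : 0 ≤ B)
    (hs11 : 1 ≤ s') (hP : 1 ≤ P) (hPP : P ≤ P ^ 2) :
    (2 * (B * P * s') * X + X ^ 2) / (2 * L) ≤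
      (2 * X * X * B + X ^ 2) * P ^ 2 / L * s' := by
  have hP2 : 1 ≤ P ^ 2 := hP.trans hPP
  have h1 : (2 * X * X * B + X ^ 2) * P ^ 2 / L * s' =
      ((2 * X * X * B + X ^ 2) * P ^ 2 * s' * 2) / (2 * L) := by
    field_simp
  rw [h1]
  apply div_le_div_of_nonneg_right _ (by positivity)
  have h2 : B * P * s' * X ≤ X * X * B * P ^ 2 * s' := by
    have h3 : X * P ≤ X * X * P ^ 2 := by
      have h4 : X * P ≤ X * P ^ 2 := mul_le_mul_of_nonneg_left hPP (by linarith)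
      have h5 : X * P ^ 2 ≤ X * X * P ^ 2 := by
        have : X ≤ X * X := by nlinarith
        exact mul_le_mul_of_nonneg_right this (by positivity)
      linarith
    calc B * P * s' * X = (X * P) * (B * s') := by ring
      _ ≤ (X * X * P ^ 2) * (B * s') := mul_le_mul_of_nonneg_right h3 (by positivity)
      _ = X * X * B * P ^ 2 * s' := by ring
  have h4 : X ^ 2 ≤ X ^ 2 * P ^ 2 * s' := by
    have h5 : 1 ≤ P ^ 2 * s' := by
      calc (1 : ℝ) = 1 * 1 := by ring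
        _ ≤ P ^ 2 * s' := mul_le_mul hP2 hs11 zero_le_one (by positivity)
    calc X ^ 2 = X ^ 2 * 1 := by ring
      _ ≤ X ^ 2 * (P ^ 2 * s') := mul_le_mul_of_nonneg_left h5 (by positivity)
      _ = _ := by ring
  have h5 : 0 ≤ X * X * B * P ^ 2 * s' := by positivity
  have h6 : 0 ≤ X ^ 2 * P ^ 2 * s' := by positivity
  linarith

/-- the real-variable bookkeeping of `base_compare` -/
theorem base_arith {X L s' z qL s C1 B W0 Wx aa ax P : ℝ} (hX : 1 ≤ X) (hL : 4 * X ≤ L)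
    (hs' : s' = L + z) (hz : |z| ≤ X) (hC1 : 0 ≤ C1) (hB : 0 ≤ B) (hP : 1 ≤ P)
    (hW : |Wx - W0 - s * z| ≤ C1) (hq : |qL - s| ≤ B * P)
    (hax : 0 ≤ ax) (haxB : ax ≤ B * P * s')
    (haa : aa ≤ ax ^ 2 + 2 * ax * X + X ^ 2) :
    (Wx - (W0 - L * qL - aa / (2 * L) + ax ^ 2 / (2 * s'))) / s' ≤
      qL + (2 * C1 + 2 * X * B + X * B ^ 2 + 2 * X * X * B + X ^ 2) * P ^ 2 / L := by
  have hz1 := abs_le.1 hz
  have hs1 : 3 / 4 * L ≤ s' := by rw [hs']; linarith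
  have hL0 : 0 < L := by linarith
  have hs0 : 0 < s' := by linarith
  have hs11 : 1 ≤ s' := by linarith
  have hPP : P ≤ P ^ 2 := by nlinarith
  have hP2 : 1 ≤ P ^ 2 := hP.trans hPP
  rw [div_le_iff₀ hs0]
  -- term by term
  have t1 : Wx - W0 - s * z ≤ C1 := (abs_le.1 hW).2
  have t2 : -(z * (qL - s)) ≤ X * (B * P) := by
    have h1 : |z * (qL - s)| ≤ X * (B * P) := by
      rw [abs_mul]
      exact mul_le_mul hz hq (abs_nonneg _) (by linarith)
    have h2 := (abs_le.1 h1).1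
    linarith
  have t3 := ba_t3 (X := X) hL0 hs0 hs' haa
  have t4 := ba_t4 hL0 hs0 (by linarith) hz1.2 hax haxB
  have t5 : (2 * ax * X + X ^ 2) / (2 * L) ≤ (2 * (B * P * s') * X + X ^ 2) / (2 * L) := by
    apply div_le_div_of_nonneg_right _ (by positivity)
    have := mul_le_mul_of_nonneg_right haxB (show 0 ≤ X by linarith)
    linarith
  -- final comparison
  have t6 : C1 ≤ 2 * C1 * P ^ 2 / L * s' := by
    rw [div_mul_eq_mul_div, le_div_iff₀ hL0]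
    have h1 : C1 * L ≤ C1 * (2 * (P ^ 2 * s')) := by
      apply mul_le_mul_of_nonneg_left _ hC1
      have h2 : 1 * (3 / 4 * L) ≤ P ^ 2 * s' := mul_le_mul hP2 hs1 (by positivity) (by positivity)
      linarith
    linarith
  have t7 := ba_t7 hL0 (show 0 ≤ X by linarith) hB hs1 hPP
  have t8 : X * B ^ 2 * P ^ 2 * s' / (2 * L) ≤ X * B ^ 2 * P ^ 2 / L * s' := by
    have h1 : X * B ^ 2 * P ^ 2 * s' / (2 * L) = (X * B ^ 2 * P ^ 2 / L * s') / 2 := by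
      field_simp
    have h2 : 0 ≤ X * B ^ 2 * P ^ 2 / L * s' := by
      have : 0 ≤ X := by linarith
      positivity
    linarith
  have t9 := ba_t9 hL0 hX hB hs11 hP hPP
  have e1 : (qL + (2 * C1 + 2 * X * B + X * B ^ 2 + 2 * X * X * B + X ^ 2) * P ^ 2 / L) * s' =
      qL * s' + 2 * C1 * P ^ 2 / L * s' + 2 * X * B * P ^ 2 / L * s' +
        X * B ^ 2 * P ^ 2 / L * s' + (2 * X * X * B + X ^ 2) * P ^ 2 / L * s' := by ring
  rw [e1]
  have e2 : Wx - (W0 - L * qL - aa / (2 * L) + ax ^ 2 / (2 * s')) =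
      (Wx - W0 - s * z) + -(z * (qL - s)) + (qL * s') + (aa / (2 * L) - ax ^ 2 / (2 * s')) := by
    rw [hs']; ring
  rw [e2]
  linarith

theorem base_compare [FiniteDimensional ℝ E] {K : ℝ} (hK : 1 ≤ K) {X : ℝ} (hX : 1 ≤ X) :
    ∃ C : ℝ, 0 < C ∧ ∀ W : E → ℝ → ℝ, MCls K W → ∀ s : ℝ, Adapted K W 0 0 1 0 s →
      ∀ (x : E) (z L : ℝ), ‖x‖ ≤ X → |z| ≤ X → 4 * X ≤ L →
        qmM W (L - X) x z ≤ qmM W L 0 0 + C * L ^ (-(3 / 4) : ℝ) := by
  obtain ⟨Cf, hCf, hfar⟩ := base_far (E := E) hK (X := X)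
  obtain ⟨Cd, hCd, hdn⟩ := MCls.dn_loc (E := E) hK
  obtain ⟨Cg, hCg, hgr⟩ := MCls.growth (E := E) hK (show (0 : ℝ) < 1 by norm_num)
  set B := Cf + Cd with hB
  set C1 := Cg + (2 * X) ^ 2 with hC1
  have hB0 : 0 < B := by positivity
  have hC10 : 0 < C1 := by positivity
  refine ⟨2 * C1 + 2 * X * B + X * B ^ 2 + 2 * X * X * B + X ^ 2, by positivity, ?_⟩
  intro W hW s had x z L hx hz hL
  have hz1 := abs_le.1 hz
  have hL1 : 1 ≤ L := by linarith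
  have hL0 : 0 < L := by linarith
  set s' := L + z with hs'
  have hs1 : 3 / 4 * L ≤ s' := by rw [hs']; linarith
  have hs0 : 0 < s' := by linarith
  have hs11 : 1 ≤ s' := by linarith
  set P := L ^ (1 / 8 : ℝ) with hP
  have hP1 : 1 ≤ P := Real.one_le_rpow hL1 (by norm_num)
  -- monotonicity
  have hmono : qmM W (L - X) x z ≤ qmM W s' x z :=
    MCls.qm_mono hK hW (by linarith) (by rw [hs']; linarith) x z
  -- power identity
  have hpow : P ^ 2 / L = L ^ (-(3 / 4) : ℝ) := by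
    rw [hP, ← Real.rpow_natCast, ← Real.rpow_mul hL0.le, div_eq_mul_inv,
      ← Real.rpow_neg_one L, ← Real.rpow_add hL0]
    norm_num
  -- the minimizer
  obtain ⟨a, ha⟩ := MCls.exists_dn hK hW hs0 x z
  have hza : z - s' = -L := by rw [hs']; ring
  rw [hza] at ha
  have hD0 := MCls.dn_le hK hW hL0 a 0 0
  rw [zero_sub, sub_zero] at hD0
  -- growth
  have hgrow : |W x z - W 0 0 - s * z| ≤ C1 := by
    have h1 := hgr W hW 0 0 0 1 s one_pos had x z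
    rw [inner_zero_left, sub_zero, sub_zero, smul_zero, sub_zero, sub_zero] at h1
    refine h1.trans ?_
    rw [hC1, one_mul, one_mul, div_one]
    have h2 : (|z| + ‖x‖) ^ 2 ≤ (2 * X) ^ 2 :=
      pow_le_pow_left₀ (by positivity) (by linarith) 2
    linarith
  -- slopes
  obtain ⟨vL, sL, hadL⟩ := hW.flat 0 0 L hL0
  obtain ⟨h1, -⟩ := hdn W hW 0 vL 0 L sL hL0 hadL
  obtain ⟨-, h2⟩ := hfar W hW s had 0 0 L L (by simp; linarith) (by simp; linarith) hL1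
    (by linarith) (by linarith) hL1 vL sL hadL
  have hq : |qmM W L 0 0 - s| ≤ B * P := by
    have h3 : |qmM W L 0 0 - s| ≤ |qmM W L 0 0 - (sL + ‖vL‖ ^ 2 / 2)| +
        |(sL + ‖vL‖ ^ 2 / 2) - s| := by
      have := abs_add_le (qmM W L 0 0 - (sL + ‖vL‖ ^ 2 / 2)) ((sL + ‖vL‖ ^ 2 / 2) - s)
      have e : qmM W L 0 0 - (sL + ‖vL‖ ^ 2 / 2) + ((sL + ‖vL‖ ^ 2 / 2) - s) =
        qmM W L 0 0 - s := by ring
      rwa [e] at this
    have h4 : Cd ≤ Cd * P := by nlinarith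
    rw [hB, add_mul]
    linarith
  obtain ⟨v', σ', hadx⟩ := hW.flat x z s' hs0
  obtain ⟨-, h3⟩ := hdn W hW x v' z s' σ' hs0 hadx
  obtain ⟨h4, -⟩ := hfar W hW s had x z L s' hx hz hs11 (by rw [hs']; linarith)
    (by linarith) hL1 v' σ' hadx
  have hax : ‖a - x‖ ≤ B * P * s' := by
    have h5 := h3 a (by rw [hza]; exact ha.ge)
    have h6 : ‖a - x‖ ≤ ‖a - x + s' • v'‖ + ‖s' • v'‖ := by
      have e : a - x = (a - x + s' • v') - s' • v' := by abel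
      conv_lhs => rw [e]
      exact norm_sub_le _ _
    rw [norm_smul, Real.norm_eq_abs, abs_of_pos hs0] at h6
    have h7 : s' * ‖v'‖ ≤ s' * (Cf * P) := mul_le_mul_of_nonneg_left h4 hs0.le
    have h8 : Cd * s' ≤ Cd * P * s' := by
      have : Cd ≤ Cd * P := by nlinarith
      exact mul_le_mul_of_nonneg_right this hs0.le
    rw [hB]
    nlinarith
  have haa : ‖a‖ ^ 2 ≤ ‖a - x‖ ^ 2 + 2 * ‖a - x‖ * X + X ^ 2 := by
    have h5 : ‖a‖ ≤ ‖a - x‖ + X := by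
      have e : a = (a - x) + x := by abel
      calc ‖a‖ = ‖(a - x) + x‖ := by rw [← e]
        _ ≤ ‖a - x‖ + ‖x‖ := norm_add_le _ _
        _ ≤ _ := by linarith
    calc ‖a‖ ^ 2 ≤ (‖a - x‖ + X) ^ 2 := pow_le_pow_left₀ (norm_nonneg _) h5 2
      _ = _ := by ring
  -- conclusion
  have hDval : W 0 0 - L * qmM W L 0 0 = dnM W L 0 0 := by
    unfold qmM
    field_simp
    ring
  have key : (W x z - (W 0 0 - L * qmM W L 0 0 - ‖a‖ ^ 2 / (2 * L) + ‖a - x‖ ^ 2 / (2 * s'))) / s' ≤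
      qmM W L 0 0 + (2 * C1 + 2 * X * B + X * B ^ 2 + 2 * X * X * B + X ^ 2) * P ^ 2 / L :=
    base_arith hX hL hs' hz hC10.le hB0.le hP1 hgrow hq (norm_nonneg _) hax haa
  have hqs : qmM W s' x z ≤
      (W x z - (W 0 0 - L * qmM W L 0 0 - ‖a‖ ^ 2 / (2 * L) + ‖a - x‖ ^ 2 / (2 * s'))) / s' := by
    unfold qmM
    apply div_le_div_of_nonneg_right _ hs0.le
    rw [ha]
    have : L * ((W 0 0 - dnM W L 0 0) / L) = W 0 0 - dnM W L 0 0 := by field_simp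
    rw [this]
    linarith
  have e : (2 * C1 + 2 * X * B + X * B ^ 2 + 2 * X * X * B + X ^ 2) * P ^ 2 / L =
      (2 * C1 + 2 * X * B + X * B ^ 2 + 2 * X * X * B + X ^ 2) * L ^ (-(3 / 4) : ℝ) := by
    rw [mul_div_assoc, hpow]
  rw [e] at key
  linarith

theorem qm_double [FiniteDimensional ℝ E] {K : ℝ} (hK : 1 ≤ K) : ∃ C : ℝ, 0 < C ∧
    ∀ W : E → ℝ → ℝ, MCls K W → ∀ (x : E) (z t : ℝ), 0 < t →
      qmM W (4 * t) x z ≤ qmM W t x z + C := by
  obtain ⟨Cd, hCd, hdn⟩ := MCls.dn_loc (E := E) hK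
  obtain ⟨Cf, hCf, hfar⟩ := MCls.far (E := E) hK
  have hlog : 0 ≤ Real.log 4 := Real.log_nonneg (by norm_num)
  refine ⟨2 * Cd + Cf * (1 + Real.log 4), by positivity, ?_⟩
  intro W hW x z t ht
  obtain ⟨v, s, had⟩ := hW.flat x z t ht
  obtain ⟨v', s', had'⟩ := hW.flat x z (4 * t) (by linarith)
  obtain ⟨h1, -⟩ := hdn W hW x v z t s ht had
  obtain ⟨h2, -⟩ := hdn W hW x v' z (4 * t) s' (by linarith) had'
  obtain ⟨-, h3⟩ := hfar W hW x x v v' z z t (4 * t) s s' 4 ht (by linarith) (by norm_num)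
    (by linarith) le_rfl (by simp; linarith) (by simp; linarith) had had'
  have h1' := (abs_le.1 h1).1
  have h2' := (abs_le.1 h2).2
  have h3' := (abs_le.1 h3).2
  linarith

theorem base_le [FiniteDimensional ℝ E] {K : ℝ} (hK : 1 ≤ K) {W : E → ℝ → ℝ} (h : MCls K W)
    {x₀ : E} {z₀ q : ℝ} (hq : ∀ t, 0 < t → qmM W t x₀ z₀ ≤ q) (x : E) (z : ℝ) {t : ℝ}
    (ht : 0 < t) : qmM W t x z ≤ q := by
  obtain ⟨v, s, had⟩ := h.flat x₀ z₀ 1 one_pos
  -- frame at `(x₀, z₀)`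
  set U := frameM W x₀ z₀ 1 v 0 with hU
  have hUM : MCls K U := h.frame one_pos
  have hUad : Adapted K U 0 0 1 0 (s + ⟪v, v⟫ - ‖v‖ ^ 2 / 2 - 0) := by
    have h1 : Adapted K W (x₀ + (1 : ℝ) • (0 : E) + ((1 : ℝ) * 0) • v) (z₀ + 1 * 0) (1 * 1) v s := by
      simpa using had
    have h2 := Adapted.frame (a := 0) one_pos h1
    rwa [sub_self] at h2
  set y := x - x₀ - (z - z₀) • v with hy
  set ζ := z - z₀ with hζ
  have hqU : ∀ τ, 0 < τ → qmM U τ 0 0 ≤ q := by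
    intro τ hτ
    have h1 := qmM_frame hK h (x₀ := x₀) (z₀ := z₀) one_pos (v := v) (a := 0) hτ 0 0
    rw [hU, h1]
    have h2 := hq τ hτ
    simpa using h2
  have hgoal : qmM W t x z = qmM U t y ζ := by
    have h1 := qmM_frame hK h (x₀ := x₀) (z₀ := z₀) one_pos (v := v) (a := 0) ht y ζ
    rw [hU, h1]
    have e1 : x₀ + (1 : ℝ) • y + (1 * ζ) • v = x := by
      rw [hy, hζ]; module
    have e2 : z₀ + 1 * ζ = z := by rw [hζ]; ring
    rw [e1, e2]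
    ring_nf
  rw [hgoal]
  set X := max 1 (max ‖y‖ |ζ|) with hX
  have hX1 : 1 ≤ X := le_max_left _ _
  have hyX : ‖y‖ ≤ X := (le_max_left _ _).trans (le_max_right _ _)
  have hζX : |ζ| ≤ X := (le_max_right _ _).trans (le_max_right _ _)
  obtain ⟨C, hC, hcomp⟩ := base_compare (E := E) hK hX1
  have hlim : Tendsto (fun L : ℝ => q + C * L ^ (-(3 / 4) : ℝ)) atTop (𝓝 (q + C * 0)) := by
    apply Tendsto.const_add
    apply Tendsto.const_mul
    exact tendsto_rpow_neg_atTop (by norm_num)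
  rw [mul_zero, add_zero] at hlim
  refine ge_of_tendsto hlim ?_
  filter_upwards [eventually_ge_atTop (4 * X + t + 1)] with L hL
  have h1 := hcomp U hUM _ hUad y ζ L hyX hζX (by linarith)
  have h2 := MCls.qm_mono hK hUM ht (show t ≤ L - X by linarith) y ζ
  have h3 := hqU L (by linarith)
  linarith

end Vale.Agent.P080
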