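import Vale.Agent.P080.MMaster

open Metric Set Filter Topology
open scoped RealInnerProductSpace

namespace Vale.Agent.P080

variable {E : Type*} [NormedAddCommGroup E] [InnerProductSpace ℝ E]

def AdmB (K c : ℝ) (W : E → ℝ → ℝ) : Prop :=
  MCls K W ∧ Ext c W 0 0 1 ∧ ∀ t, 0 < t → 0 ≤ qmM W t 0 0

theorem qmM_frame0 {K : ℝ} (hK : 1 ≤ K) {W : E → ℝ → ℝ} (h : MCls K W) {x₀ : E} {z₀ r : ℝ}
    (hr : 0 < r) {v : E} {a : ℝ} {t : ℝ} (ht : 0 < t) :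
    qmM (frameM W x₀ z₀ r v a) t 0 0 = qmM W (r * t) x₀ z₀ - a := by
  rw [qmM_frame hK h hr ht]
  simp

theorem ext_frame0 (c : ℝ) (W : E → ℝ → ℝ) {x₀ : E} {z₀ r : ℝ} (hr : 0 < r) {v : E} {a : ℝ} :
    Ext c (frameM W x₀ z₀ r v a) 0 0 1 ↔ Ext c W x₀ z₀ r := by
  rw [ext_frame c W hr one_pos]
  simp

theorem AdmB.frame {K c : ℝ} (hK : 1 ≤ K) {W : E → ℝ → ℝ} (h : MCls K W) {x : E} {z θ w : ℝ}
    (hθ : 0 < θ) (he : Ext c W x z θ) (hw : ∀ t, 0 < t → w ≤ qmM W t x z) (v : E) :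
    AdmB K c (frameM W x z θ v w) := by
  refine ⟨h.frame hθ, (ext_frame0 c W hθ).2 he, fun t ht => ?_⟩
  rw [qmM_frame0 hK h hθ ht]
  linarith [hw (θ * t) (mul_pos hθ ht)]

noncomputable def DDB (K c : ℝ) (E : Type*) [NormedAddCommGroup E] [InnerProductSpace ℝ E]
    (l : ℝ) : ℝ :=
  sInf {e | ∃ W : E → ℝ → ℝ, AdmB K c W ∧ e = qmM W l 0 0}

theorem DDB_le {K c : ℝ} {W : E → ℝ → ℝ} (h : AdmB K c W) {l : ℝ} (hl : 0 < l) :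
    DDB K c E l ≤ qmM W l 0 0 :=
  csInf_le ⟨0, by rintro e ⟨W', hW', rfl⟩; exact hW'.2.2 l hl⟩ ⟨W, h, rfl⟩

theorem DDB_nonneg {K c : ℝ} {l : ℝ} (hl : 0 < l) : 0 ≤ DDB K c E l :=
  Real.sInf_nonneg (by rintro e ⟨W', hW', rfl⟩; exact hW'.2.2 l hl)

theorem DDB_star {K c : ℝ} (hK : 1 ≤ K) {W : E → ℝ → ℝ} (h : MCls K W) {x : E} {z θ w l : ℝ}
    (hθ : 0 < θ) (hl : 0 < l) (he : Ext c W x z θ) (hw : ∀ t, 0 < t → w ≤ qmM W t x z) :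
    DDB K c E l ≤ qmM W (θ * l) x z - w := by
  have h1 := DDB_le (AdmB.frame hK h hθ he hw 0) hl
  rwa [qmM_frame0 hK h hθ hl] at h1

theorem exists_near {K c : ℝ} (hne : ∃ W : E → ℝ → ℝ, AdmB K c W) (l : ℝ) {δ : ℝ}
    (hδ : 0 < δ) : ∃ W : E → ℝ → ℝ, AdmB K c W ∧ qmM W l 0 0 < DDB K c E l + δ := by
  obtain ⟨W, hW⟩ := hne
  have h1 : {e | ∃ W : E → ℝ → ℝ, AdmB K c W ∧ e = qmM W l 0 0}.Nonempty := ⟨_, W, hW, rfl⟩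
  obtain ⟨e, ⟨W', hW', rfl⟩, h2⟩ := Real.lt_sInf_add_pos h1 hδ
  exact ⟨W', hW', h2⟩

theorem DDB_mono [FiniteDimensional ℝ E] {K c : ℝ} (hK : 1 ≤ K)
    (hne : ∃ W : E → ℝ → ℝ, AdmB K c W) {l l' : ℝ} (hl : 0 < l) (hll : l ≤ l') :
    DDB K c E l ≤ DDB K c E l' := by
  obtain ⟨W, hW⟩ := hne
  refine le_csInf ⟨_, W, hW, rfl⟩ ?_
  rintro e ⟨W', hW', rfl⟩
  exact (DDB_le hW' hl).trans (hW'.1.qm_mono hK hl hll 0 0)

theorem AdmB.norm {K c : ℝ} (hK : 1 ≤ K) {W : E → ℝ → ℝ} (h : AdmB K c W) :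
    ∃ (W' : E → ℝ → ℝ) (s : ℝ), AdmB K c W' ∧ Adapted K W' 0 0 1 0 s ∧ W' 0 0 = 0 ∧
      ∀ t, 0 < t → qmM W' t 0 0 = qmM W t 0 0 := by
  obtain ⟨v, s, hv⟩ := h.1.flat 0 0 1 one_pos
  have hq : ∀ t, 0 < t → qmM (frameM W 0 0 1 v 0) t 0 0 = qmM W t 0 0 := fun t ht => by
    rw [qmM_frame0 hK h.1 one_pos ht, one_mul, sub_zero]
  refine ⟨frameM W 0 0 1 v 0, s + ⟪v, v⟫ - ‖v‖ ^ 2 / 2 - 0, AdmB.frame hK h.1 one_pos h.2.1 h.2.2 v,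
    ?_, frameM_zero _ _ _ _ _ _, hq⟩
  have h1 : Adapted K W (0 + (1 : ℝ) • (0 : E) + ((1 : ℝ) * 0) • v) (0 + 1 * 0) (1 * 1) v s := by
    simpa using hv
  have h2 := Adapted.frame (x₀ := 0) (z₀ := 0) (v := v) (a := 0) one_pos h1
  rwa [sub_self] at h2

theorem scale_aux {D : ℝ → ℝ} {Cd CB X₀ : ℝ} (hCd : 0 < Cd) (hCB : 0 < CB) (hX₀ : 1 ≤ X₀)
    (hD0 : ∀ l, 1 ≤ l → 0 ≤ D l) (hDmono : ∀ l l' : ℝ, 1 ≤ l → l ≤ l' → D l ≤ D l')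
    (hD4 : ∀ l, 1 ≤ l → D (4 * l) ≤ D l + Cd) (hcon : ∀ q : ℝ, ∃ l, 1 ≤ l ∧ q < D l) :
    ∃ A I l₁ ε δ : ℝ, 0 < A ∧ 0 < ε ∧ 0 < δ ∧ ε ≤ 2 * Cd + 1 ∧ δ ≤ ε / 10 ^ 4 ∧
      10 ^ 5 * X₀ ≤ l₁ ∧ 10 ^ 4 * CB ≤ A ∧ ε = A / √l₁ ∧ D l₁ + ε < I + δ ∧
      ∀ l, 1 ≤ l → I ≤ D l + A / √l := by
  set A : ℝ := 10 ^ 4 * CB + (2 * Cd + 1) * (10 ^ 5 * X₀) with hA
  have hA0 : 0 < A := by positivity
  have hΦ0 : ∀ l, 1 ≤ l → 0 ≤ D l + A / √l := fun l hl => by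
    have h1 : 0 ≤ D l := hD0 l hl
    have h2 : 0 ≤ A / √l := by positivity
    exact add_nonneg h1 h2
  set I : ℝ := sInf ((fun l => D l + A / √l) '' Ici 1) with hI
  have hbdd : BddBelow ((fun l => D l + A / √l) '' Ici 1) :=
    ⟨0, by rintro e ⟨l, hl, rfl⟩; exact hΦ0 l hl⟩
  have hIle : ∀ l, 1 ≤ l → I ≤ D l + A / √l := fun l hl => csInf_le hbdd ⟨l, hl, rfl⟩
  obtain ⟨L₀, hL₀, hL₀'⟩ := hcon (I + 1)
  have hsL₀ : 0 < √L₀ := Real.sqrt_pos.2 (by linarith)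
  obtain ⟨δ, hδ0, hδ1, hδ2⟩ : ∃ δ : ℝ, 0 < δ ∧ δ ≤ 1 / 2 ∧ δ ≤ A / √L₀ / 10 ^ 4 :=
    ⟨min (1 / 2) (A / √L₀ / 10 ^ 4), lt_min (by norm_num) (by positivity), min_le_left _ _,
      min_le_right _ _⟩
  obtain ⟨e, ⟨l₁, hl₁, rfl⟩, hlt⟩ := Real.lt_sInf_add_pos
    (s := (fun l => D l + A / √l) '' Ici 1) ⟨_, 1, self_mem_Ici, rfl⟩ hδ0
  have hlt' : D l₁ + A / √l₁ < I + δ := hlt
  have hl₁1 : 1 ≤ l₁ := hl₁
  have hl₁0 : 0 < l₁ := by linarith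
  have hs0 : 0 < √l₁ := Real.sqrt_pos.2 hl₁0
  have hε0 : 0 < A / √l₁ := by positivity
  have hl₁L : l₁ < L₀ := by
    by_contra h
    push Not at h
    have h1 := hDmono _ _ hL₀ h
    linarith
  have hδε : δ ≤ A / √l₁ / 10 ^ 4 := by
    refine hδ2.trans ?_
    have h1 : √l₁ ≤ √L₀ := Real.sqrt_le_sqrt hl₁L.le
    have h2 : A / √L₀ ≤ A / √l₁ := by gcongr
    linarith
  have hεC : A / √l₁ ≤ 2 * Cd + 1 := by
    have h1 := hIle (4 * l₁) (by linarith)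
    have h2 := hD4 l₁ hl₁1
    have h3 : √(4 * l₁) = 2 * √l₁ := by
      rw [Real.sqrt_mul (by norm_num), show (4 : ℝ) = 2 ^ 2 by norm_num,
        Real.sqrt_sq (by norm_num)]
    have h4 : A / √(4 * l₁) = A / √l₁ / 2 := by
      rw [h3]
      field_simp
    rw [h4] at h1
    linarith
  have hsl : 10 ^ 5 * X₀ ≤ √l₁ := by
    have h1 : A ≤ (2 * Cd + 1) * √l₁ := by
      rw [div_le_iff₀ hs0] at hεC
      exact hεC
    have h2 : (2 * Cd + 1) * (10 ^ 5 * X₀) ≤ (2 * Cd + 1) * √l₁ := by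
      have : 0 ≤ 10 ^ 4 * CB := by positivity
      linarith
    exact le_of_mul_le_mul_left h2 (by positivity)
  have hll : 10 ^ 5 * X₀ ≤ l₁ := by
    have h1 : √l₁ * √l₁ = l₁ := Real.mul_self_sqrt hl₁0.le
    have h2 : 1 ≤ √l₁ := by nlinarith
    nlinarith
  refine ⟨A, I, l₁, A / √l₁, δ, hA0, hε0, hδ0, hεC, hδε, hll, ?_, rfl, hlt', hIle⟩
  have : 0 ≤ (2 * Cd + 1) * (10 ^ 5 * X₀) := by positivity
  linarith

theorem scale_rpow {A CB l₁ : ℝ} (hl₁ : 1 ≤ l₁) (hA : 10 ^ 4 * CB ≤ A) (hCB : 0 < CB) :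
    CB * l₁ ^ (-(3 / 4) : ℝ) ≤ A / √l₁ / 10 ^ 4 := by
  have hl₁0 : 0 < l₁ := by linarith
  have h1 : l₁ ^ (-(3 / 4) : ℝ) ≤ l₁ ^ (-(1 / 2) : ℝ) :=
    Real.rpow_le_rpow_of_exponent_le hl₁ (by norm_num)
  have h2 : l₁ ^ (-(1 / 2) : ℝ) = 1 / √l₁ := by
    rw [Real.rpow_neg hl₁0.le, ← Real.sqrt_eq_rpow, one_div]
  have h3 : CB ≤ A / 10 ^ 4 := by
    rw [le_div_iff₀ (by norm_num)]
    linarith
  calc CB * l₁ ^ (-(3 / 4) : ℝ) ≤ CB * (1 / √l₁) := by rw [← h2]; gcongr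
    _ ≤ A / 10 ^ 4 * (1 / √l₁) := by gcongr
    _ = A / √l₁ / 10 ^ 4 := by ring

theorem scale_sqrt {A X₀ l₁ θ : ℝ} (hA : 0 < A) (hX₀ : 1 ≤ X₀) (hl₁ : 10 ^ 5 * X₀ ≤ l₁)
    (h1 : 1 / 2 ≤ θ) (h2 : θ ≤ 2) :
    A / √((l₁ - X₀) / θ) ≤ A / √l₁ * (√θ + 2 / 10 ^ 5) := by
  have hθ0 : 0 < θ := by linarith
  have hl₁0 : 0 < l₁ := by linarith
  have hs0 : 0 < √l₁ := Real.sqrt_pos.2 hl₁0
  have h5 : √((l₁ - X₀) / θ) = √(l₁ - X₀) / √θ := by rw [Real.sqrt_div' _ hθ0.le]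
  have hsθ : 0 < √θ := Real.sqrt_pos.2 hθ0
  have hsl' : 0 < √(l₁ - X₀) := Real.sqrt_pos.2 (by linarith)
  have h6 : √l₁ ≤ √(l₁ - X₀) * (1 + 1 / 10 ^ 5) := by
    rw [Real.sqrt_le_left (by positivity), mul_pow, Real.sq_sqrt (by linarith)]
    nlinarith
  have h8 : √θ ≤ 2 := by
    rw [Real.sqrt_le_left (by norm_num)]
    linarith
  have h4 : A / √((l₁ - X₀) / θ) ≤ A / √l₁ * √θ * (1 + 1 / 10 ^ 5) := by
    rw [h5, div_div_eq_mul_div, div_le_iff₀ hsl']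
    calc A * √θ = A * √θ / √l₁ * √l₁ := by field_simp
      _ ≤ A * √θ / √l₁ * (√(l₁ - X₀) * (1 + 1 / 10 ^ 5)) := by gcongr
      _ = A / √l₁ * √θ * (1 + 1 / 10 ^ 5) * √(l₁ - X₀) := by ring
  refine h4.trans ?_
  have h9 : 0 < A / √l₁ := by positivity
  have : A / √l₁ * √θ * (1 / 10 ^ 5) ≤ A / √l₁ * 2 * (1 / 10 ^ 5) := by gcongr
  linarith

theorem hyp_one {ε θ w : ℝ} (hε : 0 < ε) (h1 : 1 / 2 ≤ θ) (h2 : θ ≤ 2)
    (h : w ≤ ε * (√θ - 1 + 4 / 10 ^ 4)) :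
    w ≤ ε / 2 * (θ - 1) - ε / 20 * (θ - 1) ^ 2 + 3 * ε := by
  have h2 : √θ - 1 ≤ (θ - 1) / 2 := by
    have h3 : √θ * √θ = θ := Real.mul_self_sqrt (by linarith)
    nlinarith [sq_nonneg (√θ - 1)]
  have h3 : ε * (√θ - 1 + 4 / 10 ^ 4) ≤ ε * ((θ - 1) / 2 + 4 / 10 ^ 4) := by gcongr
  have h4 : ε * (θ - 1) ^ 2 ≤ ε * 1 := by
    gcongr
    nlinarith
  linarith

theorem hyp_two {ε θ w : ℝ} (hε : 0 < ε) (h1 : θ = 1 / 2 ∨ θ = 2)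
    (h : w ≤ ε * (√θ - 1 + 4 / 10 ^ 4)) :
    w < ε / 2 * (θ - 1) - ε / 20 * (θ - 1) ^ 2 := by
  rcases h1 with rfl | rfl
  · have h2 : √(1 / 2 : ℝ) ≤ 0.7072 := by
      rw [Real.sqrt_le_left (by norm_num)]
      norm_num
    have h3 : ε * (√(1 / 2 : ℝ) - 1 + 4 / 10 ^ 4) ≤ ε * (0.7072 - 1 + 4 / 10 ^ 4) := by gcongr
    linarith
  · have h2 : √(2 : ℝ) ≤ 1.415 := by
      rw [Real.sqrt_le_left (by norm_num)]
      norm_num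
    have h3 : ε * (√(2 : ℝ) - 1 + 4 / 10 ^ 4) ≤ ε * (1.415 - 1 + 4 / 10 ^ 4) := by gcongr
    linarith

theorem DDB_bdd [FiniteDimensional ℝ E] {K c : ℝ} (hK : 1 ≤ K) (hc : 0 ≤ c)
    (hB : Bnd K c E) (hne : ∃ W : E → ℝ → ℝ, AdmB K c W) :
    ∃ q : ℝ, ∀ l, 1 ≤ l → DDB K c E l ≤ q := by
  by_contra hcon
  push Not at hcon
  obtain ⟨Cd, hCd, hdouble⟩ := qm_double (E := E) hK
  obtain ⟨X₀, hX₀, hmaster⟩ := master (E := E) hK hc hB (show 0 < 2 * Cd + 1 by positivity)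
  obtain ⟨CB, hCB, hbase⟩ := base_compare (E := E) hK hX₀
  have hD4 : ∀ l : ℝ, 1 ≤ l → DDB K c E (4 * l) ≤ DDB K c E l + Cd := by
    intro l hl
    have hl0 : 0 < l := by linarith
    refine le_of_forall_pos_le_add fun δ hδ => ?_
    obtain ⟨W, hW, h1⟩ := exists_near hne l hδ
    have h2 := DDB_le hW (mul_pos four_pos hl0)
    have h3 := hdouble W hW.1 0 0 l hl0
    linarith
  obtain ⟨A, I, l₁, ε, δ, hA, hε, hδ, hεC, hδε, hll, hAC, hεA, hD, hI⟩ := scale_aux hCd hCB hX₀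
    (fun l hl => DDB_nonneg (E := E) (K := K) (c := c) (by linarith))
    (fun l l' h1 h2 => DDB_mono hK hne (by linarith) h2) hD4 hcon
  have hl₁1 : 1 ≤ l₁ := by linarith
  have hl₁0 : 0 < l₁ := by linarith
  have hCB' := scale_rpow hl₁1 hAC hCB
  rw [← hεA] at hCB'
  obtain ⟨V₀, hV₀, hV₀'⟩ := exists_near hne l₁ hδ
  obtain ⟨V, s, hV, hVs, -, hVq⟩ := hV₀.norm hK
  have hVl : qmM V l₁ 0 0 < DDB K c E l₁ + δ := by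
    rw [hVq l₁ hl₁0]
    exact hV₀'
  have key : ∀ (x : E) (z θ w : ℝ), ‖x‖ ^ 2 + z ^ 2 ≤ X₀ ^ 2 → 1 / 2 ≤ θ → θ ≤ 2 →
      Ext c V x z θ → (∀ t, 0 < t → w ≤ qmM V t x z) → w ≤ ε * (√θ - 1 + 4 / 10 ^ 4) := by
    intro x z θ w hxz hθ1 hθ2 he hw
    have hθ0 : 0 < θ := by linarith
    have hx : ‖x‖ ≤ X₀ := (abs_le_of_sq_le_sq' (by nlinarith [sq_nonneg z]) (by linarith)).2
    have hz : |z| ≤ X₀ := abs_le_of_sq_le_sq (by nlinarith [sq_nonneg ‖x‖]) (by linarith)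
    have h1 := hbase V hV.1 s hVs x z l₁ hx hz (by linarith)
    have hl'1 : 1 ≤ (l₁ - X₀) / θ := by
      rw [le_div_iff₀ hθ0]
      linarith
    have h2 := DDB_star hK hV.1 hθ0 (by linarith : 0 < (l₁ - X₀) / θ) he hw
    rw [mul_div_cancel₀ _ hθ0.ne'] at h2
    have h3 := hI _ hl'1
    have h4 := scale_sqrt hA hX₀ hll hθ1 hθ2
    rw [← hεA] at h4
    linarith
  refine hmaster V s ε (ε / 2) hV.1 hVs hV.2.1 hV.2.2 hε hεC ?_ ?_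
  · intro x z θ w hxz hθ1 hθ2 he hw
    exact hyp_one hε hθ1 hθ2 (key x z θ w hxz hθ1 hθ2 he hw)
  · intro x z θ w hxz hθ he hw
    refine hyp_two hε hθ (key x z θ w hxz ?_ ?_ he hw)
    · rcases hθ with rfl | rfl <;> norm_num
    · rcases hθ with rfl | rfl <;> norm_num

theorem exists_min [FiniteDimensional ℝ E] {K c : ℝ} (hK : 1 ≤ K) (hc : 0 ≤ c)
    (hB : Bnd K c E) (hne : ∃ W : E → ℝ → ℝ, NormM K W ∧ Ext c W 0 0 1) :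
    ∃ (q : ℝ) (V : E → ℝ → ℝ), MCls K V ∧ Ext c V 0 0 1 ∧ (∀ t, 0 < t → 0 ≤ qmM V t 0 0) ∧
      (∀ t, 0 < t → qmM V t 0 0 ≤ q) ∧
      ∀ (W : E → ℝ → ℝ) (x : E) (z θ w q' : ℝ), MCls K W → 0 < θ → Ext c W x z θ →
        (∀ t, 0 < t → w ≤ qmM W t x z) → (∀ t, 0 < t → qmM W t x z ≤ q') → q + w ≤ q' := by
  have hne' : ∃ W : E → ℝ → ℝ, AdmB K c W := by
    obtain ⟨W, hW, he⟩ := hne
    obtain ⟨w, hw⟩ := ext_finite hK hB hW.1 one_pos he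
    exact ⟨_, AdmB.frame hK hW.1 one_pos he hw 0⟩
  obtain ⟨q₀, hq₀⟩ := DDB_bdd hK hc hB hne'
  set q : ℝ := sSup ((fun l => DDB K c E l) '' Ici 1) with hq
  have hbdd : BddAbove ((fun l => DDB K c E l) '' Ici 1) :=
    ⟨q₀, by rintro e ⟨l, hl, rfl⟩; exact hq₀ l hl⟩
  have hDq : ∀ l, 1 ≤ l → DDB K c E l ≤ q := fun l hl => le_csSup hbdd ⟨l, hl, rfl⟩
  have hlast : ∀ (W : E → ℝ → ℝ) (x : E) (z θ w q' : ℝ), MCls K W → 0 < θ → Ext c W x z θ →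
      (∀ t, 0 < t → w ≤ qmM W t x z) → (∀ t, 0 < t → qmM W t x z ≤ q') → q + w ≤ q' := by
    intro W x z θ w q' hW hθ he hw hq'
    have h1 : q ≤ q' - w := by
      refine csSup_le ⟨_, 1, self_mem_Ici, rfl⟩ ?_
      rintro e ⟨l, hl, rfl⟩
      have hl0 : (0 : ℝ) < l := lt_of_lt_of_le one_pos hl
      have h2 := DDB_star hK hW hθ hl0 he hw
      have h3 := hq' (θ * l) (mul_pos hθ hl0)
      change DDB K c E l ≤ q' - w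
      linarith
    linarith
  have hseq : ∀ n : ℕ, ∃ (W : E → ℝ → ℝ) (s : ℝ), AdmB K c W ∧ Adapted K W 0 0 1 0 s ∧
      W 0 0 = 0 ∧ qmM W ((n : ℝ) + 1) 0 0 ≤ q + 1 / ((n : ℝ) + 1) := by
    intro n
    have hn : (0 : ℝ) < (n : ℝ) + 1 := by positivity
    obtain ⟨W₀, hW₀, h1⟩ := exists_near hne' ((n : ℝ) + 1) (show 0 < 1 / ((n : ℝ) + 1) by positivity)
    obtain ⟨W, s, hW, hs, h0, hWq⟩ := hW₀.norm hK
    refine ⟨W, s, hW, hs, h0, ?_⟩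
    rw [hWq _ hn]
    have h2 := hDq ((n : ℝ) + 1) (by linarith [(Nat.cast_nonneg n : (0 : ℝ) ≤ n)])
    linarith
  choose W s hWA hWs hW0 hWq using hseq
  have hqm : ∀ (n : ℕ) (t : ℝ), 0 < t → t ≤ (n : ℝ) + 1 → qmM (W n) t 0 0 ≤ q + 1 / ((n : ℝ) + 1) :=
    fun n t ht htn => ((hWA n).1.qm_mono hK ht htn 0 0).trans (hWq n)
  obtain ⟨C, hC, hloc⟩ := MCls.dn_loc (E := E) hK
  have hsb : ∀ n, |s n| ≤ C + (|q| + 1) := by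
    intro n
    have h1 := (hloc (W n) (hWA n).1 0 0 0 1 (s n) one_pos (hWs n)).1
    rw [norm_zero] at h1
    have h2 := (hWA n).2.2 1 one_pos
    have h3 := hqm n 1 one_pos (by linarith [(Nat.cast_nonneg n : (0 : ℝ) ≤ n)])
    have h4 : 1 / ((n : ℝ) + 1) ≤ 1 := by
      rw [div_le_one (by positivity)]
      linarith [(Nat.cast_nonneg n : (0 : ℝ) ≤ n)]
    have h5 := le_abs_self q
    rw [abs_le] at h1 ⊢
    constructor <;> linarith [h1.1, h1.2]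
  have htame : Tame K W := by
    refine ⟨fun n => (hWA n).1, C + (|q| + 1), fun n => ⟨?_, 0, s n, hWs n, ?_, hsb n⟩⟩
    · rw [hW0 n, abs_zero]
      positivity
    · rw [norm_zero]
      positivity
  let u : Ultrafilter ℕ := Ultrafilter.of atTop
  have hu : (u : Filter ℕ) ≤ atTop := Ultrafilter.of_le atTop
  obtain ⟨V, hV, hconv⟩ := htame.exists_limit hK u
  have hlimq : ∀ t, 0 < t → Tendsto (fun n => qmM (W n) t 0 0) u (𝓝 (qmM V t 0 0)) := fun t ht =>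
    Conv.qm hK htame hV hconv (x := fun _ => 0) (z := fun _ => 0) (t := fun _ => t) ht
      tendsto_const_nhds tendsto_const_nhds tendsto_const_nhds
  refine ⟨q, V, hV, ?_, ?_, ?_, hlast⟩
  · exact Conv.ext hK htame hconv (x := fun _ => 0) (z := fun _ => 0) (θ := fun _ => 1) one_pos
      tendsto_const_nhds tendsto_const_nhds tendsto_const_nhds
      (Eventually.of_forall fun n => (hWA n).2.1)
  · intro t ht
    exact ge_of_tendsto' (hlimq t ht) fun n => (hWA n).2.2 t ht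
  · intro t ht
    have h1 : Tendsto (fun n : ℕ => q + 1 / ((n : ℝ) + 1)) u (𝓝 (q + 0)) :=
      (tendsto_const_nhds.add tendsto_one_div_add_atTop_nhds_zero_nat).mono_left hu
    rw [add_zero] at h1
    refine le_of_tendsto_of_tendsto (hlimq t ht) h1 ?_
    have h2 : ∀ᶠ n : ℕ in atTop, t ≤ (n : ℝ) + 1 := by
      obtain ⟨N, hN⟩ := exists_nat_ge t
      filter_upwards [eventually_ge_atTop N] with n hn
      have : (N : ℝ) ≤ n := by exact_mod_cast hn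
      linarith
    exact (h2.filter_mono hu).mono fun n hn => hqm n t ht hn

end Vale.Agent.P080
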