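import Mathlib

open Metric Set Filter Topology
open scoped RealInnerProductSpace

namespace Vale.Agent.P080

variable {E : Type*} [NormedAddCommGroup E] [InnerProductSpace ℝ E]

def Adapted (K : ℝ) (W : E → ℝ → ℝ) (x : E) (z r : ℝ) (v : E) (s : ℝ) : Prop :=
  ∀ (y : E) (z' : ℝ), |z' - z| ≤ r → ‖y - x - (z' - z) • v‖ ≤ r →
    |W y z' - W x z - ⟪v, y - x⟫ - s * (z' - z)| ≤ K * r

structure MCls (K : ℝ) (W : E → ℝ → ℝ) : Prop where
  flat : ∀ (x : E) (z r : ℝ), 0 < r → ∃ (v : E) (s : ℝ), Adapted K W x z r v s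
  up : ∀ (x a : E) (z t l : ℝ), 0 < t → 0 < l → l ≤ 1 →
    ∃ w : E, W a (z + t) - ‖a - x‖ ^ 2 / (2 * t)
      ≤ (1 - l) * W x z + l * (W w (z + t / l) - ‖w - x‖ ^ 2 / (2 * (t / l)))
  dn : ∀ (x a : E) (z t l : ℝ), 0 < t → 0 < l → l ≤ 1 →
    ∃ w : E, (1 - l) * W x z + l * (W w (z - t / l) + ‖w - x‖ ^ 2 / (2 * (t / l)))
      ≤ W a (z - t) + ‖a - x‖ ^ 2 / (2 * t)

def refl (W : E → ℝ → ℝ) : E → ℝ → ℝ := fun y z => -W y (-z)

theorem refl_refl (W : E → ℝ → ℝ) : refl (refl W) = W := by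
  funext y z
  simp [refl]

theorem MCls.refl {K : ℝ} {W : E → ℝ → ℝ} (h : MCls K W) : MCls K (refl W) := by
  refine ⟨?_, ?_, ?_⟩
  · intro x z r hr
    obtain ⟨v, s, hv⟩ := h.flat x (-z) r hr
    refine ⟨-v, s, fun y z' h1 h2 => ?_⟩
    have h3 : |(-z') - (-z)| ≤ r := by
      rw [show (-z') - (-z) = -(z' - z) by ring, abs_neg]; exact h1
    have h4 : ‖y - x - ((-z') - (-z)) • v‖ ≤ r := by
      have : y - x - ((-z') - (-z)) • v = y - x - (z' - z) • (-v) := by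
        rw [smul_neg]; module
      rw [this]; exact h2
    have h5 := hv y (-z') h3 h4
    have e : Vale.Agent.P080.refl W y z' - Vale.Agent.P080.refl W x z - ⟪-v, y - x⟫
        - s * (z' - z) = -(W y (-z') - W x (-z) - ⟪v, y - x⟫ - s * ((-z') - (-z))) := by
      simp only [Vale.Agent.P080.refl, inner_neg_left]
      ring
    rw [e, abs_neg]
    exact h5
  · intro x a z t l ht hl hl1
    obtain ⟨w, hw⟩ := h.dn x a (-z) t l ht hl hl1
    refine ⟨w, ?_⟩
    have e1 : -(z + t) = -z - t := by ring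
    have e2 : -(z + t / l) = -z - t / l := by ring
    simp only [Vale.Agent.P080.refl, e1, e2]
    linarith
  · intro x a z t l ht hl hl1
    obtain ⟨w, hw⟩ := h.up x a (-z) t l ht hl hl1
    refine ⟨w, ?_⟩
    have e1 : -(z - t) = -z + t := by ring
    have e2 : -(z - t / l) = -z + t / l := by ring
    simp only [Vale.Agent.P080.refl, e1, e2]
    linarith

end Vale.Agent.P080
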