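import Vale.Agent.P080.MOpsDefs

open Metric Set Filter Topology
open scoped RealInnerProductSpace

namespace Vale.Agent.P080

theorem caratheodory_fin {E : Type*} [NormedAddCommGroup E] [InnerProductSpace ℝ E]
    [FiniteDimensional ℝ E] {T : Set E} {x : E} (hx : x ∈ convexHull ℝ T) :
    ∃ (w : Fin (Module.finrank ℝ E + 1) → ℝ) (a : Fin (Module.finrank ℝ E + 1) → E),
      w ∈ stdSimplex ℝ (Fin (Module.finrank ℝ E + 1)) ∧ (∀ i, a i ∈ T) ∧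
        ∑ i, w i • a i = x := by
  classical
  have hne : T.Nonempty := by
    rw [← convexHull_nonempty_iff (𝕜 := ℝ)]
    exact ⟨x, hx⟩
  obtain ⟨t₀, ht₀⟩ := hne
  obtain ⟨ι, hι, z, w, hz, hind, hw, hsum, hxe⟩ := eq_pos_convex_span_of_mem_convexHull hx
  have hcard : Fintype.card ι ≤ Module.finrank ℝ E + 1 := by
    refine hind.card_le_finrank_succ.trans ?_
    have := Submodule.finrank_le (vectorSpan ℝ (Set.range z))
    omega
  obtain ⟨f⟩ : Nonempty (ι ↪ Fin (Module.finrank ℝ E + 1)) :=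
    Function.Embedding.nonempty_of_card_le (by simpa using hcard)
  refine ⟨Function.extend f w 0, Function.extend f z (fun _ => t₀), ⟨?_, ?_⟩, ?_, ?_⟩
  · intro j
    by_cases hj : ∃ i, f i = j
    · obtain ⟨i, rfl⟩ := hj
      rw [f.injective.extend_apply]
      exact (hw i).le
    · rw [Function.extend_apply' _ _ _ hj]
      simp
  · rw [← hsum]
    symm
    refine Fintype.sum_of_injective f f.injective _ _ ?_ ?_
    · intro j hj
      rw [Function.extend_apply' _ _ _ (by simpa using hj)]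
      rfl
    · intro i
      rw [f.injective.extend_apply]
  · intro j
    by_cases hj : ∃ i, f i = j
    · obtain ⟨i, rfl⟩ := hj
      rw [f.injective.extend_apply]
      exact hz ⟨i, rfl⟩
    · rw [Function.extend_apply' _ _ _ hj]
      exact ht₀
  · rw [← hxe]
    symm
    refine Fintype.sum_of_injective f f.injective _ _ ?_ ?_
    · intro j hj
      rw [Function.extend_apply' w _ _ (by simpa using hj)]
      simp
    · intro i
      rw [f.injective.extend_apply, f.injective.extend_apply]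

theorem isCompact_hull {E : Type*} [NormedAddCommGroup E] [InnerProductSpace ℝ E]
    [FiniteDimensional ℝ E] {T : Set E} (hT : IsCompact T) : IsCompact (convexHull ℝ T) := by
  have h1 : IsCompact ((stdSimplex ℝ (Fin (Module.finrank ℝ E + 1))) ×ˢ
      (Set.univ.pi fun _ : Fin (Module.finrank ℝ E + 1) => T)) :=
    (isCompact_stdSimplex ℝ _).prod (isCompact_univ_pi fun _ => hT)
  have h2 : Continuous fun q : (Fin (Module.finrank ℝ E + 1) → ℝ) ×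
      (Fin (Module.finrank ℝ E + 1) → E) => ∑ i, q.1 i • q.2 i := by
    fun_prop
  have h3 := h1.image h2
  have h4 : (fun q : (Fin (Module.finrank ℝ E + 1) → ℝ) ×
      (Fin (Module.finrank ℝ E + 1) → E) => ∑ i, q.1 i • q.2 i) ''
      ((stdSimplex ℝ (Fin (Module.finrank ℝ E + 1))) ×ˢ
      (Set.univ.pi fun _ : Fin (Module.finrank ℝ E + 1) => T)) = convexHull ℝ T := by
    apply Set.Subset.antisymm
    · rintro _ ⟨⟨w, a⟩, ⟨hw, ha⟩, rfl⟩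
      exact mem_convexHull_of_exists_fintype w a hw.1 hw.2 (fun i => ha i (Set.mem_univ i)) rfl
    · intro x hx
      obtain ⟨w, a, hw, ha, hs⟩ := caratheodory_fin hx
      exact ⟨(w, a), ⟨hw, fun i _ => ha i⟩, hs⟩
  rwa [h4] at h3

variable {E : Type*} [NormedAddCommGroup E] [InnerProductSpace ℝ E]

theorem ez_growth {g : E → ℝ} (hg : SubQuad g) {θ : ℝ} (hθ : 0 < θ) (x : E) (B : ℝ) :
    ∃ C : ℝ, ∀ p : E, ‖p‖ ≤ B → ∀ A : E,
      g A - ⟪p, A - x⟫ - ‖A - x‖ ^ 2 / (2 * θ) ≤ C - ‖A - x‖ ^ 2 / (4 * θ) := by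
  obtain ⟨C, hC⟩ := hg (1 / (16 * θ)) (by positivity)
  refine ⟨C + ‖x‖ ^ 2 / (8 * θ) + 2 * θ * B ^ 2, ?_⟩
  intro p hp A
  have hB : 0 ≤ B := (norm_nonneg p).trans hp
  have h1 := (le_abs_self _).trans (hC A)
  have h2 : ‖A‖ ^ 2 ≤ 2 * ‖A - x‖ ^ 2 + 2 * ‖x‖ ^ 2 := by
    have h3 : ‖A‖ ≤ ‖A - x‖ + ‖x‖ := by
      have := norm_add_le (A - x) x
      rwa [sub_add_cancel] at this
    have h4 := norm_nonneg A
    nlinarith [sq_nonneg (‖A - x‖ - ‖x‖)]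
  have h3 : -⟪p, A - x⟫ ≤ B * ‖A - x‖ := by
    have h4 := abs_real_inner_le_norm p (A - x)
    have h5 := neg_le_abs ⟪p, A - x⟫
    have h6 : ‖p‖ * ‖A - x‖ ≤ B * ‖A - x‖ := mul_le_mul_of_nonneg_right hp (norm_nonneg _)
    linarith
  have h4 : B * ‖A - x‖ ≤ 2 * θ * B ^ 2 + ‖A - x‖ ^ 2 / (8 * θ) := by
    have h5 : 0 ≤ (4 * θ * B - ‖A - x‖) ^ 2 / (8 * θ) := by positivity
    have h6 : (4 * θ * B - ‖A - x‖) ^ 2 / (8 * θ)
        = 2 * θ * B ^ 2 + ‖A - x‖ ^ 2 / (8 * θ) - B * ‖A - x‖ := by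
      field_simp
      ring
    linarith
  have h5 : 1 / (16 * θ) * ‖A‖ ^ 2 ≤ ‖A - x‖ ^ 2 / (8 * θ) + ‖x‖ ^ 2 / (8 * θ) := by
    have h6 : 1 / (16 * θ) * ‖A‖ ^ 2 ≤ 1 / (16 * θ) * (2 * ‖A - x‖ ^ 2 + 2 * ‖x‖ ^ 2) :=
      mul_le_mul_of_nonneg_left h2 (by positivity)
    have h7 : 1 / (16 * θ) * (2 * ‖A - x‖ ^ 2 + 2 * ‖x‖ ^ 2)
        = ‖A - x‖ ^ 2 / (8 * θ) + ‖x‖ ^ 2 / (8 * θ) := by
      field_simp
      ring
    linarith
  have h6 : ‖A - x‖ ^ 2 / (2 * θ) = ‖A - x‖ ^ 2 / (8 * θ) + ‖A - x‖ ^ 2 / (8 * θ)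
      + ‖A - x‖ ^ 2 / (4 * θ) := by
    field_simp
    ring
  linarith

theorem ez_bddBelow (g : E → ℝ) (θ : ℝ) (x : E) :
    BddBelow {e | ∃ p : E, ∀ A : E, g A - ⟪p, A - x⟫ - ‖A - x‖ ^ 2 / (2 * θ) ≤ e} := by
  refine ⟨g x, ?_⟩
  rintro e ⟨p, hp⟩
  simpa using hp x

theorem ez_nonempty {g : E → ℝ} (hg : SubQuad g) {θ : ℝ} (hθ : 0 < θ) (x : E) :
    {e | ∃ p : E, ∀ A : E, g A - ⟪p, A - x⟫ - ‖A - x‖ ^ 2 / (2 * θ) ≤ e}.Nonempty := by
  obtain ⟨C, hC⟩ := ez_growth hg hθ x 0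
  refine ⟨C, 0, fun A => ?_⟩
  have h1 := hC 0 (by simp) A
  have h2 : 0 ≤ ‖A - x‖ ^ 2 / (4 * θ) := by positivity
  linarith

theorem Ez_le {g : E → ℝ} {θ e : ℝ} {x : E}
    (h : ∃ p : E, ∀ A : E, g A - ⟪p, A - x⟫ - ‖A - x‖ ^ 2 / (2 * θ) ≤ e) : Ez g x θ ≤ e :=
  csInf_le (ez_bddBelow g θ x) h

theorem Ez_attained [FiniteDimensional ℝ E] {g : E → ℝ} (hc : Continuous g) (hg : SubQuad g)
    {θ : ℝ} (hθ : 0 < θ) (x : E) :
    ∃ p : E, ∀ A : E, g A - ⟪p, A - x⟫ - ‖A - x‖ ^ 2 / (2 * θ) ≤ Ez g x θ := by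
  have hex : ∀ j : ℕ, ∃ p : E, ∀ A : E,
      g A - ⟪p, A - x⟫ - ‖A - x‖ ^ 2 / (2 * θ) ≤ Ez g x θ + 1 / ((j : ℝ) + 1) := by
    intro j
    have h1 : Ez g x θ < Ez g x θ + 1 / ((j : ℝ) + 1) := by
      have : (0 : ℝ) < 1 / ((j : ℝ) + 1) := by positivity
      linarith
    obtain ⟨e, ⟨p, hp⟩, he⟩ := exists_lt_of_csInf_lt (ez_nonempty hg hθ x) h1
    exact ⟨p, fun A => (hp A).trans he.le⟩
  choose p hp using hex
  obtain ⟨C, hC⟩ := hg 1 one_pos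
  have hbd : ∀ j, ‖p j‖ ≤ |Ez g x θ| + 1 + 1 / (2 * θ) + (|C| + (1 + ‖x‖) ^ 2) := by
    intro j
    by_cases h0 : p j = 0
    · rw [h0, norm_zero]
      positivity
    · have hn : 0 < ‖p j‖ := norm_pos_iff.2 h0
      have h1 := hp j (x - (‖p j‖)⁻¹ • p j)
      have e1 : x - (‖p j‖)⁻¹ • p j - x = -((‖p j‖)⁻¹ • p j) := by abel
      have e2 : ‖(‖p j‖)⁻¹ • p j‖ = 1 := by
        rw [norm_smul, norm_inv, norm_norm, inv_mul_cancel₀ hn.ne']
      rw [e1, inner_neg_right, inner_smul_right, real_inner_self_eq_norm_sq, norm_neg, e2] at h1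
      have e3 : ‖p j‖⁻¹ * ‖p j‖ ^ 2 = ‖p j‖ := by
        rw [sq, ← mul_assoc, inv_mul_cancel₀ hn.ne', one_mul]
      rw [e3] at h1
      have h2 := hC (x - (‖p j‖)⁻¹ • p j)
      have h3 : ‖x - (‖p j‖)⁻¹ • p j‖ ≤ 1 + ‖x‖ := by
        refine (norm_sub_le _ _).trans ?_
        rw [e2]
        linarith
      have h4 : ‖x - (‖p j‖)⁻¹ • p j‖ ^ 2 ≤ (1 + ‖x‖) ^ 2 :=
        pow_le_pow_left₀ (norm_nonneg _) h3 2
      have h5 := neg_abs_le (g (x - (‖p j‖)⁻¹ • p j))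
      have h6 : 1 / ((j : ℝ) + 1) ≤ 1 := by
        rw [div_le_one (by positivity)]
        have : (0 : ℝ) ≤ j := Nat.cast_nonneg j
        linarith
      have h7 := le_abs_self (Ez g x θ)
      have h8 := le_abs_self C
      have h9 : (1 : ℝ) ^ 2 / (2 * θ) = 1 / (2 * θ) := by norm_num
      rw [h9] at h1
      linarith
  obtain ⟨p₀, -, φ, hφ, hlim⟩ := (isCompact_closedBall (0 : E)
    (|Ez g x θ| + 1 + 1 / (2 * θ) + (|C| + (1 + ‖x‖) ^ 2))).tendsto_subseq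
    (fun j => by simpa using hbd j)
  refine ⟨p₀, fun A => ?_⟩
  have h1 : Tendsto (fun j => g A - ⟪p (φ j), A - x⟫ - ‖A - x‖ ^ 2 / (2 * θ)) atTop
      (𝓝 (g A - ⟪p₀, A - x⟫ - ‖A - x‖ ^ 2 / (2 * θ))) :=
    (tendsto_const_nhds.sub (hlim.inner tendsto_const_nhds)).sub tendsto_const_nhds
  have h2 : Tendsto (fun j => Ez g x θ + 1 / (((φ j : ℕ) : ℝ) + 1)) atTop (𝓝 (Ez g x θ + 0)) :=
    tendsto_const_nhds.add (tendsto_one_div_add_atTop_nhds_zero_nat.comp hφ.tendsto_atTop)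
  rw [add_zero] at h2
  exact le_of_tendsto_of_tendsto' h1 h2 fun j => hp (φ j) A

theorem sum_inner_zero {ι : Type*} [Fintype ι] {lam : ι → ℝ} {a : ι → E}
    (hs : ∑ i, lam i = 1) {x : E} (hx : ∑ i, lam i • a i = x) (p : E) :
    ∑ i, lam i * ⟪p, a i - x⟫ = 0 := by
  have h1 : ∑ i, lam i * ⟪p, a i - x⟫ = ⟪p, ∑ i, lam i • (a i - x)⟫ := by
    rw [inner_sum]
    refine Finset.sum_congr rfl fun i _ => ?_
    rw [inner_smul_right]
  have h2 : ∑ i, lam i • (a i - x) = 0 := by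
    simp only [smul_sub, Finset.sum_sub_distrib]
    rw [hx, ← Finset.sum_smul, hs, one_smul, sub_self]
  rw [h1, h2, inner_zero_right]

theorem config_le_Ez [FiniteDimensional ℝ E] {g : E → ℝ} (hc : Continuous g)
    (hg : SubQuad g) {θ : ℝ} (hθ : 0 < θ) {ι : Type} [Fintype ι] {lam : ι → ℝ} {a : ι → E}
    (hl : ∀ i, 0 ≤ lam i) (hs : ∑ i, lam i = 1) {x : E} (hx : ∑ i, lam i • a i = x) :
    ∑ i, lam i * (g (a i) - ‖a i - x‖ ^ 2 / (2 * θ)) ≤ Ez g x θ := by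
  obtain ⟨p, hp⟩ := Ez_attained hc hg hθ x
  have h1 : ∑ i, lam i * (g (a i) - ‖a i - x‖ ^ 2 / (2 * θ))
      = ∑ i, lam i * (g (a i) - ⟪p, a i - x⟫ - ‖a i - x‖ ^ 2 / (2 * θ)) := by
    have h2 : ∑ i, lam i * (g (a i) - ⟪p, a i - x⟫ - ‖a i - x‖ ^ 2 / (2 * θ))
        = ∑ i, lam i * (g (a i) - ‖a i - x‖ ^ 2 / (2 * θ)) - ∑ i, lam i * ⟪p, a i - x⟫ := by
      rw [← Finset.sum_sub_distrib]
      refine Finset.sum_congr rfl fun i _ => ?_
      ring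
    rw [h2, sum_inner_zero hs hx, sub_zero]
  rw [h1]
  calc ∑ i, lam i * (g (a i) - ⟪p, a i - x⟫ - ‖a i - x‖ ^ 2 / (2 * θ))
      ≤ ∑ i, lam i * Ez g x θ :=
        Finset.sum_le_sum fun i _ => mul_le_mul_of_nonneg_left (hp (a i)) (hl i)
    _ = Ez g x θ := by rw [← Finset.sum_mul, hs, one_mul]

theorem config_eq_Ez {g : E → ℝ} {θ : ℝ} {ι : Type} [Fintype ι] {lam : ι → ℝ} {a : ι → E}
    (hs : ∑ i, lam i = 1) {x p : E} (hx : ∑ i, lam i • a i = x)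
    (h : ∀ i, g (a i) - ⟪p, a i - x⟫ - ‖a i - x‖ ^ 2 / (2 * θ) = Ez g x θ) :
    Ez g x θ = ∑ i, lam i * (g (a i) - ‖a i - x‖ ^ 2 / (2 * θ)) := by
  have h1 : ∑ i, lam i * (g (a i) - ‖a i - x‖ ^ 2 / (2 * θ))
      = ∑ i, lam i * (g (a i) - ⟪p, a i - x⟫ - ‖a i - x‖ ^ 2 / (2 * θ)) := by
    have h2 : ∑ i, lam i * (g (a i) - ⟪p, a i - x⟫ - ‖a i - x‖ ^ 2 / (2 * θ))
        = ∑ i, lam i * (g (a i) - ‖a i - x‖ ^ 2 / (2 * θ)) - ∑ i, lam i * ⟪p, a i - x⟫ := by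
      rw [← Finset.sum_sub_distrib]
      refine Finset.sum_congr rfl fun i _ => ?_
      ring
    rw [h2, sum_inner_zero hs hx, sub_zero]
  rw [h1]
  simp only [h]
  rw [← Finset.sum_mul, hs, one_mul]

theorem exists_sup [FiniteDimensional ℝ E] {g : E → ℝ} (hc : Continuous g) (hg : SubQuad g)
    {θ : ℝ} (hθ : 0 < θ) (x p : E) :
    ∃ A₀ : E, ∀ A : E, g A - ⟪p, A - x⟫ - ‖A - x‖ ^ 2 / (2 * θ)
      ≤ g A₀ - ⟪p, A₀ - x⟫ - ‖A₀ - x‖ ^ 2 / (2 * θ) := by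
  obtain ⟨C, hC⟩ := ez_growth hg hθ x ‖p‖
  have hcont : Continuous fun A : E => g A - ⟪p, A - x⟫ - ‖A - x‖ ^ 2 / (2 * θ) := by fun_prop
  set R : ℝ := 4 * θ * (|C| + |g x|) + 1 with hR
  have hRpos : 0 < R := by positivity
  obtain ⟨A₀, hA₀, hmax⟩ := (isCompact_closedBall x R).exists_isMaxOn
    ⟨x, mem_closedBall_self hRpos.le⟩ hcont.continuousOn
  refine ⟨A₀, fun A => ?_⟩
  by_cases hA : ‖A - x‖ ≤ R
  · exact hmax (by rwa [mem_closedBall, dist_eq_norm])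
  · push Not at hA
    have h1 := hC p le_rfl A
    have h2 : g x - ⟪p, x - x⟫ - ‖x - x‖ ^ 2 / (2 * θ)
        ≤ g A₀ - ⟪p, A₀ - x⟫ - ‖A₀ - x‖ ^ 2 / (2 * θ) := hmax (mem_closedBall_self hRpos.le)
    have h3 : g x ≤ g A₀ - ⟪p, A₀ - x⟫ - ‖A₀ - x‖ ^ 2 / (2 * θ) := by simpa using h2
    have h4 : |C| + |g x| ≤ ‖A - x‖ ^ 2 / (4 * θ) := by
      rw [le_div_iff₀ (by positivity)]
      have h5 : (0 : ℝ) ≤ |C| + |g x| := by positivity
      have h6 : R ≤ ‖A - x‖ ^ 2 := by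
        have h7 : (1 : ℝ) ≤ R := by
          rw [hR]
          have : 0 ≤ 4 * θ * (|C| + |g x|) := by positivity
          linarith
        nlinarith
      nlinarith
    have h5 := le_abs_self C
    have h6 := neg_abs_le (g x)
    linarith

theorem exists_config [FiniteDimensional ℝ E] {g : E → ℝ} (hc : Continuous g)
    (hg : SubQuad g) {θ : ℝ} (hθ : 0 < θ) (x : E) :
    ∃ p : E, (∀ A : E, g A - ⟪p, A - x⟫ - ‖A - x‖ ^ 2 / (2 * θ) ≤ Ez g x θ) ∧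
      ∃ (ι : Type) (_ : Fintype ι) (lam : ι → ℝ) (a : ι → E), (∀ i, 0 ≤ lam i) ∧
        ∑ i, lam i = 1 ∧ ∑ i, lam i • a i = x ∧
        ∀ i, g (a i) - ⟪p, a i - x⟫ - ‖a i - x‖ ^ 2 / (2 * θ) = Ez g x θ := by
  obtain ⟨p, hp⟩ := Ez_attained hc hg hθ x
  refine ⟨p, hp, ?_⟩
  set T : Set E := {A | g A - ⟪p, A - x⟫ - ‖A - x‖ ^ 2 / (2 * θ) = Ez g x θ} with hT
  have hFc : ∀ q : E, Continuous fun A : E => g A - ⟪q, A - x⟫ - ‖A - x‖ ^ 2 / (2 * θ) := by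
    intro q
    fun_prop
  obtain ⟨C₀, hC₀⟩ := ez_growth hg hθ x (‖p‖ + 1)
  have hTclosed : IsClosed T := isClosed_eq (hFc p) continuous_const
  have hfar : ∀ (q A : E) (b : ℝ), ‖q‖ ≤ ‖p‖ + 1 →
      b ≤ g A - ⟪q, A - x⟫ - ‖A - x‖ ^ 2 / (2 * θ) → ‖A - x‖ ^ 2 ≤ 4 * θ * (C₀ - b) := by
    intro q A b hq hb
    have h1 := hC₀ q hq A
    have h2 : ‖A - x‖ ^ 2 / (4 * θ) ≤ C₀ - b := by linarith
    rwa [div_le_iff₀ (by positivity), mul_comm] at h2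
  have hTbdd : Bornology.IsBounded T := by
    rw [isBounded_iff_subset_closedBall x]
    refine ⟨√(4 * θ * (C₀ - Ez g x θ)), ?_⟩
    intro A hA
    rw [mem_closedBall, dist_eq_norm]
    apply Real.le_sqrt_of_sq_le
    exact hfar p A _ (by linarith) (le_of_eq hA.symm)
  have hTcomp : IsCompact T := Metric.isCompact_of_isClosed_isBounded hTclosed hTbdd
  have hx : x ∈ convexHull ℝ T := by
    by_contra hx
    obtain ⟨f, u, hfx, hfT⟩ := geometric_hahn_banach_point_closed (convex_convexHull ℝ T)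
      (isCompact_hull hTcomp).isClosed hx
    set v : E := (InnerProductSpace.toDual ℝ E).symm f with hv
    have hfv : ∀ y : E, f y = ⟪v, y⟫ := by
      intro y
      rw [hv, InnerProductSpace.toDual_symm_apply]
    set N := ‖v‖ + 1 with hN
    have hNpos : 0 < N := by positivity
    -- perturbation
    have hex : ∀ j : ℕ, ∃ A : E, Ez g x θ - (1 / ((j : ℝ) + 1)) ^ 2 <
        g A - ⟪p + ((1 / ((j : ℝ) + 1)) / N) • v, A - x⟫ - ‖A - x‖ ^ 2 / (2 * θ) := by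
      intro j
      by_contra hcon
      push Not at hcon
      have h1 := Ez_le ⟨p + ((1 / ((j : ℝ) + 1)) / N) • v, hcon⟩
      have h2 : 0 < (1 / ((j : ℝ) + 1)) ^ 2 := by positivity
      linarith
    choose A hA using hex
    have hj1 : ∀ j : ℕ, 1 / ((j : ℝ) + 1) ≤ 1 := by
      intro j
      rw [div_le_one (by positivity)]
      have : (0 : ℝ) ≤ j := Nat.cast_nonneg j
      linarith
    have hjpos : ∀ j : ℕ, 0 < 1 / ((j : ℝ) + 1) := fun j => by positivity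
    have hexp : ∀ j : ℕ, ⟪p + ((1 / ((j : ℝ) + 1)) / N) • v, A j - x⟫
        = ⟪p, A j - x⟫ + (1 / ((j : ℝ) + 1)) / N * ⟪v, A j - x⟫ := by
      intro j
      rw [inner_add_left, inner_smul_left]
      simp
    have hin : ∀ j : ℕ, ⟪v, A j - x⟫ ≤ N * (1 / ((j : ℝ) + 1)) := by
      intro j
      have h1 := hA j
      rw [hexp] at h1
      have h2 := hp (A j)
      have h3 : 1 / ((j : ℝ) + 1) / N * ⟪v, A j - x⟫ ≤ (1 / ((j : ℝ) + 1)) ^ 2 := by linarith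
      have h4 : (1 / ((j : ℝ) + 1)) * ⟪v, A j - x⟫
          ≤ (1 / ((j : ℝ) + 1)) * (N * (1 / ((j : ℝ) + 1))) := by
        calc (1 / ((j : ℝ) + 1)) * ⟪v, A j - x⟫
            = N * (1 / ((j : ℝ) + 1) / N * ⟪v, A j - x⟫) := by field_simp
          _ ≤ N * (1 / ((j : ℝ) + 1)) ^ 2 := mul_le_mul_of_nonneg_left h3 hNpos.le
          _ = _ := by ring
      exact le_of_mul_le_mul_left h4 (hjpos j)
    have hq : ∀ j : ℕ, ‖p + ((1 / ((j : ℝ) + 1)) / N) • v‖ ≤ ‖p‖ + 1 := by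
      intro j
      refine (norm_add_le _ _).trans ?_
      rw [norm_smul, Real.norm_of_nonneg (by positivity)]
      have h1 : 1 / ((j : ℝ) + 1) / N * ‖v‖ ≤ 1 := by
        rw [div_mul_eq_mul_div, div_le_one hNpos]
        calc 1 / ((j : ℝ) + 1) * ‖v‖ ≤ 1 * ‖v‖ :=
              mul_le_mul_of_nonneg_right (hj1 j) (norm_nonneg _)
          _ ≤ N := by rw [hN]; linarith
      linarith
    have hbdA : ∀ j : ℕ, A j ∈ closedBall x (√(4 * θ * (C₀ - (Ez g x θ - 1)))) := by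
      intro j
      rw [mem_closedBall, dist_eq_norm]
      apply Real.le_sqrt_of_sq_le
      refine hfar _ (A j) _ (hq j) ?_
      have h1 := (hA j).le
      have h2 : (1 / ((j : ℝ) + 1)) ^ 2 ≤ 1 := by
        have := hj1 j
        have := (hjpos j).le
        nlinarith
      linarith
    obtain ⟨A₀, -, φ, hφ, hlim⟩ := (isCompact_closedBall x _).tendsto_subseq hbdA
    have hj0 : Tendsto (fun j => 1 / (((φ j : ℕ) : ℝ) + 1)) atTop (𝓝 0) :=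
      tendsto_one_div_add_atTop_nhds_zero_nat.comp hφ.tendsto_atTop
    have hA0v : ⟪v, A₀ - x⟫ ≤ 0 := by
      have h1 : Tendsto (fun j => ⟪v, A (φ j) - x⟫) atTop (𝓝 ⟪v, A₀ - x⟫) :=
        tendsto_const_nhds.inner (hlim.sub tendsto_const_nhds)
      have h2 : Tendsto (fun j => N * (1 / (((φ j : ℕ) : ℝ) + 1))) atTop (𝓝 (N * 0)) :=
        hj0.const_mul N
      rw [mul_zero] at h2
      exact le_of_tendsto_of_tendsto' h1 h2 fun j => hin (φ j)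
    have hA0T : A₀ ∈ T := by
      refine le_antisymm (hp A₀) ?_
      have h1 : Tendsto (fun j => g (A (φ j)) - ⟪p, A (φ j) - x⟫ - ‖A (φ j) - x‖ ^ 2 / (2 * θ))
          atTop (𝓝 (g A₀ - ⟪p, A₀ - x⟫ - ‖A₀ - x‖ ^ 2 / (2 * θ))) :=
        ((hFc p).tendsto A₀).comp hlim
      have h2 : Tendsto (fun j => Ez g x θ - (1 / (((φ j : ℕ) : ℝ) + 1)) ^ 2
          + (1 / (((φ j : ℕ) : ℝ) + 1)) / N * ⟪v, A (φ j) - x⟫) atTop
          (𝓝 (Ez g x θ - 0 ^ 2 + 0 / N * ⟪v, A₀ - x⟫)) := by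
        refine (tendsto_const_nhds.sub (hj0.pow 2)).add ((hj0.div_const N).mul ?_)
        exact tendsto_const_nhds.inner (hlim.sub tendsto_const_nhds)
      have e0 : Ez g x θ - 0 ^ 2 + 0 / N * ⟪v, A₀ - x⟫ = Ez g x θ := by simp
      rw [e0] at h2
      refine le_of_tendsto_of_tendsto' h2 h1 fun j => ?_
      have h3 := hA (φ j)
      rw [hexp] at h3
      linarith
    have h1 := hfT A₀ (subset_convexHull ℝ T hA0T)
    rw [hfv] at h1 hfx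
    rw [inner_sub_right] at hA0v
    linarith
  obtain ⟨ι, hι, w, a, hw, hs, ha, hx'⟩ := mem_convexHull_iff_exists_fintype.1 hx
  exact ⟨ι, hι, w, a, hw, hs, hx', fun i => ha i⟩

theorem ext_iff_Ez [FiniteDimensional ℝ E] {W : E → ℝ → ℝ} {x : E} {z θ c : ℝ}
    (hc : Continuous fun y => W y z) (hg : SubQuad fun y => W y z) (hθ : 0 < θ) :
    Ext c W x z θ ↔ W x z + c * θ ≤ Ez (fun y => W y z) x θ := by
  constructor
  · intro h
    refine le_csInf (ez_nonempty hg hθ x) ?_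
    rintro e ⟨p, hp⟩
    obtain ⟨A, hA⟩ := h p
    have := hp A
    simp only at this
    linarith
  · intro h p
    obtain ⟨A₀, hA₀⟩ := exists_sup hc hg hθ x p
    refine ⟨A₀, ?_⟩
    have h1 : Ez (fun y => W y z) x θ
        ≤ W A₀ z - ⟪p, A₀ - x⟫ - ‖A₀ - x‖ ^ 2 / (2 * θ) := Ez_le ⟨p, hA₀⟩
    linarith

theorem extLe_iff_Ez [FiniteDimensional ℝ E] {W : E → ℝ → ℝ} {x : E} {z θ c : ℝ}
    (hc : Continuous fun y => W y z) (hg : SubQuad fun y => W y z) (hθ : 0 < θ) :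
    ExtLe c W x z θ ↔ Ez (fun y => W y z) x θ ≤ W x z + c * θ := by
  constructor
  · rintro ⟨p, hp⟩
    refine Ez_le ⟨p, fun A => ?_⟩
    have := hp A
    linarith
  · intro h
    obtain ⟨p, hp⟩ := Ez_attained hc hg hθ x
    refine ⟨p, fun A => ?_⟩
    have := hp A
    linarith

end Vale.Agent.P080
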