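import Vale.Agent.P080.MOps
import Vale.Agent.P080.MSep

open Metric Set Filter Topology
open scoped RealInnerProductSpace

namespace Vale.Agent.P080

variable {E : Type*} [NormedAddCommGroup E] [InnerProductSpace ℝ E]

/-- the contact inequality at a point of a configuration -/
theorem touch_of_config {g : E → ℝ} {θ e : ℝ} (hθ : 0 < θ) {x p a : E}
    (hp : ∀ A : E, g A - ⟪p, A - x⟫ - ‖A - x‖ ^ 2 / (2 * θ) ≤ e)
    (ha : g a - ⟪p, a - x⟫ - ‖a - x‖ ^ 2 / (2 * θ) = e) (A : E) :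
    g A ≤ g a + ⟪p + (1 / θ) • (a - x), A - a⟫ + ‖A - a‖ ^ 2 / (2 * θ) := by
  have h1 := hp A
  rw [← ha] at h1
  have e1 : A - x = (A - a) + (a - x) := by abel
  rw [e1, norm_add_sq_real, inner_add_right] at h1
  rw [inner_add_left, real_inner_smul_left, real_inner_comm (A - a) (a - x)]
  rw [real_inner_comm (a - x) (A - a)] at h1
  have e2 : (‖A - a‖ ^ 2 + 2 * ⟪a - x, A - a⟫ + ‖a - x‖ ^ 2) / (2 * θ)
      = ‖A - a‖ ^ 2 / (2 * θ) + 1 / θ * ⟪a - x, A - a⟫ + ‖a - x‖ ^ 2 / (2 * θ) := by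
    field_simp
  rw [e2] at h1
  have e3 : ⟪A - a, a - x⟫ = ⟪a - x, A - a⟫ := real_inner_comm _ _
  first
    | linarith
    | (rw [e3]; linarith)

/-- characteristic through a contact point -/
theorem char_low {K : ℝ} {W : E → ℝ → ℝ} (h : MCls K W) {θ : ℝ}
    (hθ : 0 < θ) {a q : E} {z : ℝ}
    (hT : ∀ A : E, W A z ≤ W a z + ⟪q, A - a⟫ + ‖A - a‖ ^ 2 / (2 * θ)) {s : ℝ} (hs : 0 < s)
    (hsθ : s < θ) :
    W (a - s • q) (z - s) ≤ W a z - s * ((W a z - W (a - θ • q) (z - θ)) / θ) := by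
  have hts : 0 < θ - s := by linarith
  have hl : 0 < (θ - s) / θ := by positivity
  have hl1 : (θ - s) / θ ≤ 1 := by rw [div_le_one hθ]; linarith
  obtain ⟨w, hw⟩ := h.up (a - θ • q) (a - s • q) (z - θ) (θ - s) ((θ - s) / θ) hts hl hl1
  have e1 : z - θ + (θ - s) = z - s := by ring
  have e2 : z - θ + (θ - s) / ((θ - s) / θ) = z := by
    have : (θ - s) / ((θ - s) / θ) = θ := by
      have := hts.ne'
      field_simp
    rw [this]; ring
  have e2' : (θ - s) / ((θ - s) / θ) = θ := by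
    have := hts.ne'
    field_simp
  rw [e1, e2, e2'] at hw
  have e3 : a - s • q - (a - θ • q) = (θ - s) • q := by module
  have e4 : w - (a - θ • q) = (w - a) + θ • q := by abel
  rw [e3, e4, norm_smul, Real.norm_of_nonneg hts.le, norm_add_sq_real, norm_smul,
    Real.norm_of_nonneg hθ.le, real_inner_smul_right, real_inner_comm] at hw
  have h1 := hT w
  have e5 : ((θ - s) * ‖q‖) ^ 2 / (2 * (θ - s)) = (θ - s) * ‖q‖ ^ 2 / 2 := by
    have := hts.ne'
    field_simp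
  have e6 : (‖w - a‖ ^ 2 + 2 * (θ * ⟪q, w - a⟫) + (θ * ‖q‖) ^ 2) / (2 * θ)
      = ‖w - a‖ ^ 2 / (2 * θ) + ⟪q, w - a⟫ + θ * ‖q‖ ^ 2 / 2 := by
    field_simp
  rw [e5, e6] at hw
  have h2 : (θ - s) / θ * (W w z - (‖w - a‖ ^ 2 / (2 * θ) + ⟪q, w - a⟫ + θ * ‖q‖ ^ 2 / 2))
      ≤ (θ - s) / θ * (W a z - θ * ‖q‖ ^ 2 / 2) :=
    mul_le_mul_of_nonneg_left (by linarith) hl.le
  have e7 : W a z - s * ((W a z - W (a - θ • q) (z - θ)) / θ)
      = (θ - s) * ‖q‖ ^ 2 / 2 + (1 - (θ - s) / θ) * W (a - θ • q) (z - θ)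
        + (θ - s) / θ * (W a z - θ * ‖q‖ ^ 2 / 2) := by
    field_simp
    ring
  rw [e7]
  linarith

/-- slopes at a contact point are close to the slope of the touching paraboloid -/
theorem slope_close {K : ℝ} {W : E → ℝ → ℝ} {θ : ℝ}
    (hθ : 0 < θ) {a q v : E} {z r σ : ℝ}
    (hT : ∀ A : E, W A z ≤ W a z + ⟪q, A - a⟫ + ‖A - a‖ ^ 2 / (2 * θ)) (hr : 0 < r)
    (hrθ : r ≤ θ) (hv : Adapted K W a z r v σ) : ‖v - q‖ ≤ K + 1 / 2 := by
  by_cases h0 : v - q = 0
  · have h1 := hv a z (by simpa using hr.le) (by simpa using hr.le)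
    have h2 : 0 ≤ K * r := (abs_nonneg _).trans h1
    have h3 : 0 ≤ K := nonneg_of_mul_nonneg_left h2 hr
    rw [h0, norm_zero]
    linarith
  have hn : 0 < ‖v - q‖ := norm_pos_iff.2 h0
  have hd : ‖(r / ‖v - q‖) • (v - q)‖ = r := by
    rw [norm_smul, Real.norm_of_nonneg (by positivity)]
    field_simp
  set y : E := (r / ‖v - q‖) • (v - q) with hy
  have h1 := hv (a + y) z (by simpa using hr.le) (by simpa using hd.le)
  have h2 := hT (a + y)
  simp only [add_sub_cancel_left, sub_self, mul_zero, sub_zero, hd] at h1 h2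
  have h3 := (abs_le.1 h1).1
  have h4 : ⟪v, y⟫ - ⟪q, y⟫ = r * ‖v - q‖ := by
    rw [← inner_sub_left, hy, real_inner_smul_right, real_inner_self_eq_norm_sq]
    field_simp
  have h5 : r * ‖v - q‖ ≤ K * r + r ^ 2 / (2 * θ) := by linarith
  have h6 : r ^ 2 / (2 * θ) ≤ r * (1 / 2) := by
    rw [div_le_iff₀ (by positivity)]
    nlinarith
  have h7 : r * ‖v - q‖ ≤ r * (K + 1 / 2) := by linarith
  exact le_of_mul_le_mul_left h7 hr

/-- one-sided time-Lipschitz bound at a contact point -/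
theorem point_low {K : ℝ} (hK : 1 ≤ K) {W : E → ℝ → ℝ} (h : MCls K W) {θ : ℝ}
    (hθ : 0 < θ) {a q : E} {z Q κ : ℝ} (hQ : ‖q‖ ≤ Q)
    (hκ : -κ ≤ (W a z - W (a - θ • q) (z - θ)) / θ)
    (hT : ∀ A : E, W A z ≤ W a z + ⟪q, A - a⟫ + ‖A - a‖ ^ 2 / (2 * θ)) {d : ℝ} (hd : 0 < d)
    (hdθ : (1 + Q + (K + 1 / 2)) * d ≤ θ) :
    W a z - (κ + (Q + (K + 1 / 2)) * Q + K * (K + 3 / 2) + K * (1 + Q + (K + 1 / 2))) * d
      ≤ W a (z + d) := by
  have hQ0 : 0 ≤ Q := (norm_nonneg q).trans hQ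
  set r : ℝ := (1 + Q + (K + 1 / 2)) * d with hr
  have hr0 : 0 < r := by positivity
  obtain ⟨v, σ, hv⟩ := h.flat a z r hr0
  have hvq := slope_close hθ hT hr0 hdθ hv
  have hvn : ‖v‖ ≤ Q + (K + 1 / 2) := by
    have : ‖v‖ ≤ ‖v - q‖ + ‖q‖ := by
      have := norm_add_le (v - q) q
      rwa [sub_add_cancel] at this
    linarith
  -- lower bound for σ
  have hσ : -κ - (Q + (K + 1 / 2)) * Q - K * (K + 3 / 2) ≤ σ := by
    set s : ℝ := r / (K + 3 / 2) with hs
    have hs0 : 0 < s := by positivity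
    have hsr : s * (K + 3 / 2) = r := by rw [hs]; field_simp
    have hsr' : s < r := by
      rw [hs, div_lt_iff₀ (by linarith)]
      nlinarith
    have h1 := char_low h hθ hT hs0 (by linarith)
    have h2 := hv (a - s • q) (z - s) (by
      rw [show z - s - z = -s by ring, abs_neg, abs_of_pos hs0]; exact hsr'.le) (by
      have e : a - s • q - a - (z - s - z) • v = s • (v - q) := by module
      rw [e, norm_smul, Real.norm_of_nonneg hs0.le]
      nlinarith)
    have h3 := (abs_le.1 h2).1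
    have e1 : a - s • q - a = -(s • q) := by abel
    rw [e1, inner_neg_right, real_inner_smul_right, show z - s - z = -s by ring] at h3
    have h4 : ⟪v, q⟫ ≤ (Q + (K + 1 / 2)) * Q := by
      refine (real_inner_le_norm v q).trans ?_
      exact mul_le_mul hvn hQ (norm_nonneg _) (by positivity)
    have h5 : s * (-κ) ≤ s * ((W a z - W (a - θ • q) (z - θ)) / θ) :=
      mul_le_mul_of_nonneg_left hκ hs0.le
    have h6 : s * (-κ - (Q + (K + 1 / 2)) * Q - K * (K + 3 / 2)) ≤ s * σ := by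
      have h7 : s * ⟪v, q⟫ ≤ s * ((Q + (K + 1 / 2)) * Q) := mul_le_mul_of_nonneg_left h4 hs0.le
      have h8 : K * r = s * (K * (K + 3 / 2)) := by rw [← hsr]; ring
      rw [h8] at h3
      nlinarith
    exact le_of_mul_le_mul_left h6 hs0
  have h1 := hv a (z + d) (by
    rw [add_sub_cancel_left, abs_of_pos hd, hr]
    nlinarith) (by
    have e : a - a - (z + d - z) • v = -(d • v) := by module
    rw [e, norm_neg, norm_smul, Real.norm_of_nonneg hd.le, hr]
    nlinarith)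
  have h2 := (abs_le.1 h1).1
  simp only [sub_self, inner_zero_right, sub_zero, add_sub_cancel_left] at h2
  have h3 : (-κ - (Q + (K + 1 / 2)) * Q - K * (K + 3 / 2)) * d ≤ σ * d :=
    mul_le_mul_of_nonneg_right hσ hd.le
  have h4 : K * r = K * (1 + Q + (K + 1 / 2)) * d := by rw [hr]; ring
  rw [h4] at h2
  linarith

theorem ext_finite [FiniteDimensional ℝ E] {K c : ℝ} (hK : 1 ≤ K) (hB : Bnd K c E)
    {W : E → ℝ → ℝ} (h : MCls K W) {θ : ℝ} (hθ : 0 < θ) {x : E} {z : ℝ}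
    (he : Ext c W x z θ) : ∃ w : ℝ, ∀ t, 0 < t → w ≤ qmM W t x z := by
  have hcont : ∀ z, Continuous fun y => W y z := fun z =>
    (h.continuous hK).comp (Continuous.prodMk continuous_id continuous_const)
  have hE := (ext_iff_Ez (hcont z) (h.subQuad hK z) hθ).1 he
  obtain ⟨p, hp, ι, hι, lam, a, hl, hs, hx, ha⟩ := exists_config (hcont z) (h.subQuad hK z) hθ x
  have hval := config_eq_Ez (g := fun y => W y z) hs hx ha
  -- uniform constants
  set q : ι → E := fun i => p + (1 / θ) • (a i - x) with hq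
  set Q : ℝ := ∑ i, ‖q i‖ with hQ
  set κ : ℝ := ∑ i, |(W (a i) z - W (a i - θ • q i) (z - θ)) / θ| with hκ
  have hQi : ∀ i, ‖q i‖ ≤ Q := fun i =>
    Finset.single_le_sum (f := fun i => ‖q i‖) (fun j _ => norm_nonneg _) (Finset.mem_univ i)
  have hκi : ∀ i, -κ ≤ (W (a i) z - W (a i - θ • q i) (z - θ)) / θ := fun i => by
    have h1 := Finset.single_le_sum (f := fun i => |(W (a i) z - W (a i - θ • q i) (z - θ)) / θ|)
      (fun j _ => abs_nonneg _) (Finset.mem_univ i)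
    have h2 := neg_abs_le ((W (a i) z - W (a i - θ • q i) (z - θ)) / θ)
    linarith
  have hQ0 : 0 ≤ Q := Finset.sum_nonneg fun i _ => norm_nonneg _
  set C : ℝ := κ + (Q + (K + 1 / 2)) * Q + K * (K + 3 / 2) + K * (1 + Q + (K + 1 / 2)) with hC
  set d₀ : ℝ := θ / (1 + Q + (K + 1 / 2)) with hd₀
  have hden : 0 < 1 + Q + (K + 1 / 2) := by positivity
  have hd₀pos : 0 < d₀ := by positivity
  have hlow : ∀ d, 0 < d → d ≤ d₀ → W x z - C * d ≤ W x (z + d) := by
    intro d hd hdd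
    have hdθ : (1 + Q + (K + 1 / 2)) * d ≤ θ := by
      rw [hd₀, le_div_iff₀ hden] at hdd
      linarith
    have h1 : ∀ i, W (a i) z - C * d ≤ W (a i) (z + d) := fun i =>
      point_low hK h hθ (hQi i) (hκi i) (fun A => touch_of_config hθ hp (ha i) A) hd hdθ
    obtain ⟨p', hp'⟩ := hB W h x (z + d) θ hθ
    have h2 : ∑ i, lam i * (W (a i) (z + d) - ⟪p', a i - x⟫ - ‖a i - x‖ ^ 2 / (2 * θ))
        ≤ ∑ i, lam i * (W x (z + d) + c * θ) :=
      Finset.sum_le_sum fun i _ => mul_le_mul_of_nonneg_left (by linarith [hp' (a i)]) (hl i)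
    rw [← Finset.sum_mul, hs, one_mul] at h2
    have h3 : ∑ i, lam i * (W (a i) (z + d) - ⟪p', a i - x⟫ - ‖a i - x‖ ^ 2 / (2 * θ))
        = ∑ i, lam i * (W (a i) (z + d) - ‖a i - x‖ ^ 2 / (2 * θ)) := by
      have h4 : ∑ i, lam i * (W (a i) (z + d) - ⟪p', a i - x⟫ - ‖a i - x‖ ^ 2 / (2 * θ))
          = ∑ i, lam i * (W (a i) (z + d) - ‖a i - x‖ ^ 2 / (2 * θ))
            - ∑ i, lam i * ⟪p', a i - x⟫ := by
        rw [← Finset.sum_sub_distrib]
        refine Finset.sum_congr rfl fun i _ => ?_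
        ring
      rw [h4, sum_inner_zero hs hx, sub_zero]
    rw [h3] at h2
    have h5 : ∑ i, lam i * (W (a i) z - C * d - ‖a i - x‖ ^ 2 / (2 * θ))
        ≤ ∑ i, lam i * (W (a i) (z + d) - ‖a i - x‖ ^ 2 / (2 * θ)) :=
      Finset.sum_le_sum fun i _ => mul_le_mul_of_nonneg_left (by linarith [h1 i]) (hl i)
    have h6 : ∑ i, lam i * (W (a i) z - C * d - ‖a i - x‖ ^ 2 / (2 * θ))
        = ∑ i, lam i * (W (a i) z - ‖a i - x‖ ^ 2 / (2 * θ)) - C * d := by
      have : ∑ i, lam i * (W (a i) z - C * d - ‖a i - x‖ ^ 2 / (2 * θ))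
          = ∑ i, lam i * (W (a i) z - ‖a i - x‖ ^ 2 / (2 * θ)) - (∑ i, lam i) * (C * d) := by
        rw [Finset.sum_mul, ← Finset.sum_sub_distrib]
        refine Finset.sum_congr rfl fun i _ => ?_
        ring
      rw [this, hs, one_mul]
    rw [h6, ← hval] at h5
    linarith
  obtain ⟨C₁, hC₁, hu⟩ := MCls.up_loc (E := E) hK
  obtain ⟨C₂, hC₂, hdn⟩ := MCls.dn_loc (E := E) hK
  have hsmall : ∀ d, 0 < d → d ≤ d₀ → -C - C₁ - C₂ ≤ qmM W d x z := by
    intro d hd hdd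
    obtain ⟨v, s, hv⟩ := h.flat x z d hd
    have h1 := (hu W h x v z d s hd hv).1
    have h2 := (hdn W h x v z d s hd hv).1
    have h3 : -C ≤ qpM W d x z := by
      rw [qpM, le_div_iff₀ hd]
      have h4 := MCls.le_up hK h hd x x z
      simp only [sub_self, norm_zero] at h4
      have h5 := hlow d hd hdd
      have e0 : (0 : ℝ) ^ 2 / (2 * d) = 0 := by simp
      rw [e0] at h4
      linarith
    have h6 := (abs_le.1 h1).2
    have h7 := (abs_le.1 h2).1
    linarith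
  refine ⟨-C - C₁ - C₂, fun t ht => ?_⟩
  rcases le_total t d₀ with htd | htd
  · exact hsmall t ht htd
  · exact (hsmall d₀ hd₀pos le_rfl).trans (MCls.qm_mono hK h hd₀pos htd x z)

end Vale.Agent.P080
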