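import Vale.Agent.P080.MOps
import Vale.Agent.P080.Compact

open Metric Set Filter Topology
open scoped RealInnerProductSpace

namespace Vale.Agent.P080

variable {E : Type*} [NormedAddCommGroup E] [InnerProductSpace ℝ E]

def Tame (K : ℝ) (W : ℕ → E → ℝ → ℝ) : Prop :=
  (∀ n, MCls K (W n)) ∧ ∃ B : ℝ, ∀ n, |W n 0 0| ≤ B ∧
    ∃ (v : E) (s : ℝ), Adapted K (W n) 0 0 1 v s ∧ ‖v‖ ≤ B ∧ |s| ≤ B

def Conv (l : Filter ℕ) (W : ℕ → E → ℝ → ℝ) (U : E → ℝ → ℝ) : Prop :=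
  ∀ (x : ℕ → E) (z : ℕ → ℝ) (x₀ : E) (z₀ : ℝ), Tendsto x l (𝓝 x₀) → Tendsto z l (𝓝 z₀) →
    Tendsto (fun n => W n (x n) (z n)) l (𝓝 (U x₀ z₀))

theorem Tame.of_norm {K : ℝ} {W : ℕ → E → ℝ → ℝ} (h : ∀ n, NormM K (W n)) : Tame K W := by
  refine ⟨fun n => (h n).1, 0, fun n => ⟨?_, 0, 0, (h n).2.2, ?_, ?_⟩⟩
  · rw [(h n).2.1, abs_zero]
  · rw [norm_zero]
  · rw [abs_zero]

theorem MCls.tame {K : ℝ} {W : E → ℝ → ℝ} (h : MCls K W) : Tame K (fun _ => W) := by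
  obtain ⟨v, s, hv⟩ := h.flat 0 0 1 one_pos
  have h1 := abs_nonneg (W 0 0)
  have h2 := norm_nonneg v
  have h3 := abs_nonneg s
  exact ⟨fun _ => h, |W 0 0| + ‖v‖ + |s|, fun n =>
    ⟨by linarith, v, s, hv, by linarith, by linarith⟩⟩

theorem MCls.conv_const {K : ℝ} (hK : 1 ≤ K) {W : E → ℝ → ℝ} (h : MCls K W) (l : Filter ℕ) :
    Conv l (fun _ => W) W := by
  intro x z x₀ z₀ hx hz
  exact ((MCls.continuous hK h).tendsto (x₀, z₀)).comp (hx.prodMk_nhds hz)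

theorem Tame.growth {K : ℝ} (hK : 1 ≤ K) {W : ℕ → E → ℝ → ℝ} (h : Tame K W) (R : ℝ) {δ : ℝ}
    (hδ : 0 < δ) : ∃ C : ℝ, 0 < C ∧ ∀ (n : ℕ) (x : E) (z : ℝ), |z| ≤ R →
      |W n x z| ≤ C + δ * ‖x‖ ^ 2 := by
  obtain ⟨hW, B, hB⟩ := h
  obtain ⟨C₀, hC₀, hg⟩ := MCls.growth (E := E) hK (show (0 : ℝ) < δ / 4 by positivity)
  have hB0 : 0 ≤ B := (abs_nonneg _).trans (hB 0).1
  refine ⟨B + B ^ 2 / (2 * δ) + B * |R| + C₀ + δ / 2 * (|R| * (1 + B)) ^ 2, by positivity, ?_⟩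
  intro n x z hz
  obtain ⟨h0, v, s, ha, hv, hs⟩ := hB n
  have h1 := hg (W n) (hW n) 0 v 0 1 s one_pos ha x z
  rw [sub_zero, sub_zero, one_mul, div_one] at h1
  have hzR : |z| ≤ |R| := hz.trans (le_abs_self R)
  have h2 : |⟪v, x⟫| ≤ B ^ 2 / (2 * δ) + δ / 2 * ‖x‖ ^ 2 := by
    refine (abs_real_inner_le_norm v x).trans ?_
    have h3 : 0 ≤ (B - δ * ‖x‖) ^ 2 / (2 * δ) := by positivity
    have h4 : (B - δ * ‖x‖) ^ 2 / (2 * δ) = B ^ 2 / (2 * δ) + δ / 2 * ‖x‖ ^ 2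
        - B * ‖x‖ := by
      field_simp
      ring
    have h5 : ‖v‖ * ‖x‖ ≤ B * ‖x‖ := mul_le_mul_of_nonneg_right hv (norm_nonneg _)
    linarith
  have h3 : |s * z| ≤ B * |R| := by
    rw [abs_mul]
    exact mul_le_mul hs hzR (abs_nonneg _) hB0
  have h4 : δ / 4 * (|z| + ‖x - z • v‖) ^ 2 ≤ δ / 2 * (|R| * (1 + B)) ^ 2 + δ / 2 * ‖x‖ ^ 2 := by
    have h5 : ‖x - z • v‖ ≤ ‖x‖ + |R| * B := by
      refine (norm_sub_le _ _).trans ?_
      rw [norm_smul, Real.norm_eq_abs]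
      have := mul_le_mul hzR hv (norm_nonneg _) (abs_nonneg R)
      linarith
    have h6 : |z| + ‖x - z • v‖ ≤ |R| * (1 + B) + ‖x‖ := by linarith
    have h7 : (|z| + ‖x - z • v‖) ^ 2 ≤ (|R| * (1 + B) + ‖x‖) ^ 2 :=
      pow_le_pow_left₀ (by positivity) h6 2
    nlinarith [sq_nonneg (|R| * (1 + B) - ‖x‖)]
  have e1 : W n x z = (W n x z - W n 0 0 - ⟪v, x⟫ - s * z) + (W n 0 0 + ⟪v, x⟫ + s * z) := by ring
  calc |W n x z| = |(W n x z - W n 0 0 - ⟪v, x⟫ - s * z) + (W n 0 0 + ⟪v, x⟫ + s * z)| := by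
        rw [← e1]
    _ ≤ |W n x z - W n 0 0 - ⟪v, x⟫ - s * z| + |W n 0 0 + ⟪v, x⟫ + s * z| := abs_add_le _ _
    _ ≤ |W n x z - W n 0 0 - ⟪v, x⟫ - s * z| + (|W n 0 0| + |⟪v, x⟫| + |s * z|) := by
        gcongr
        exact abs_add_three _ _ _
    _ ≤ _ := by linarith

theorem Tame.slopes {K : ℝ} (hK : 1 ≤ K) {W : ℕ → E → ℝ → ℝ} (h : Tame K W) (R : ℝ) {r : ℝ}
    (hr : 0 < r) : ∃ B : ℝ, ∀ (n : ℕ) (x v : E) (z s : ℝ), ‖x‖ ≤ R → |z| ≤ R →
      Adapted K (W n) x z r v s → ‖v‖ ≤ B ∧ |s| ≤ B := by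
  obtain ⟨hW, B, hB⟩ := h
  obtain ⟨C, hC, hf⟩ := MCls.far (E := E) hK
  have hB0 : 0 ≤ B := (abs_nonneg _).trans (hB 0).1
  set A : ℝ := 1 + 1 / r + r + |R| + |R| * B with hA
  have hA1 : 1 ≤ A := by
    have : 0 ≤ 1 / r + r + |R| + |R| * B := by positivity
    linarith
  set L : ℝ := C * (1 + Real.log A) with hL
  have hL0 : 0 ≤ L := by
    have := Real.log_nonneg hA1
    positivity
  refine ⟨L + B + B ^ 2 / 2 + (L + B) ^ 2 / 2, ?_⟩
  intro n x v z s hx hz ha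
  obtain ⟨h0, v0, s0, ha0, hv0, hs0⟩ := hB n
  have hxR : ‖x‖ ≤ |R| := hx.trans (le_abs_self R)
  have hzR : |z| ≤ |R| := hz.trans (le_abs_self R)
  have hRB : 0 ≤ |R| * B := by positivity
  have hr1 : 0 ≤ 1 / r := by positivity
  have hAr : (1 : ℝ) ≤ A * r := by
    have h1 : 1 / r * r = 1 := by field_simp
    have h2 : 1 / r * r ≤ A * r := by
      refine mul_le_mul_of_nonneg_right ?_ hr.le
      rw [hA]
      linarith [abs_nonneg R]
    linarith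
  obtain ⟨h1, h2⟩ := hf (W n) (hW n) 0 x v0 v 0 z 1 r s0 s A one_pos hr hA1 hAr
    (by rw [mul_one, hA]; linarith [abs_nonneg R])
    (by rw [mul_one, sub_zero, hA]; linarith [abs_nonneg R])
    (by
      rw [mul_one, sub_zero, sub_zero]
      refine (norm_sub_le _ _).trans ?_
      rw [norm_smul, Real.norm_eq_abs]
      have := mul_le_mul hzR hv0 (norm_nonneg _) (abs_nonneg R)
      rw [hA]
      linarith) ha0 ha
  rw [← hL] at h1 h2
  have h3 : ‖v‖ ≤ L + B := by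
    have h4 : v = (v - v0) + v0 := by abel
    have h5 : ‖v‖ ≤ ‖v - v0‖ + ‖v0‖ := by
      conv_lhs => rw [h4]
      exact norm_add_le _ _
    linarith
  have h4 : ‖v‖ ^ 2 ≤ (L + B) ^ 2 := pow_le_pow_left₀ (norm_nonneg _) h3 2
  have h5 : ‖v0‖ ^ 2 ≤ B ^ 2 := pow_le_pow_left₀ (norm_nonneg _) hv0 2
  have h6 : 0 ≤ ‖v‖ ^ 2 := by positivity
  have h7 : 0 ≤ ‖v0‖ ^ 2 := by positivity
  have h8 := abs_le.1 hs0
  have h9 := abs_le.1 h2
  have h10 : 0 ≤ B ^ 2 / 2 := by positivity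
  have h11 : 0 ≤ (L + B) ^ 2 / 2 := by positivity
  refine ⟨by linarith, abs_le.2 ⟨by linarith [h8.1, h9.1], by linarith [h8.2, h9.2]⟩⟩

theorem Conv.adapted {K : ℝ} {l : Filter ℕ} [NeBot l] {W : ℕ → E → ℝ → ℝ} {U : E → ℝ → ℝ}
    (h : Conv l W U) {x v : ℕ → E} {z s : ℕ → ℝ} {x₀ v₀ : E} {z₀ s₀ r : ℝ}
    (ha : ∀ᶠ n in l, Adapted K (W n) (x n) (z n) r (v n) (s n))
    (hx : Tendsto x l (𝓝 x₀)) (hz : Tendsto z l (𝓝 z₀)) (hv : Tendsto v l (𝓝 v₀))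
    (hs : Tendsto s l (𝓝 s₀)) : Adapted K U x₀ z₀ r v₀ s₀ := by
  intro y z' h1 h2
  set y' : ℕ → E := fun n => x n + (y - x₀) + (z' - z₀) • (v n - v₀) with hy'
  set z'' : ℕ → ℝ := fun n => z n + (z' - z₀) with hz''
  have hty : Tendsto y' l (𝓝 y) := by
    have : Tendsto y' l (𝓝 (x₀ + (y - x₀) + (z' - z₀) • (v₀ - v₀))) :=
      (hx.add_const _).add ((hv.sub_const _).const_smul _)
    simpa using this
  have htz : Tendsto z'' l (𝓝 z') := by
    have : Tendsto z'' l (𝓝 (z₀ + (z' - z₀))) := hz.add_const _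
    simpa using this
  have hlim : Tendsto (fun n => |W n (y' n) (z'' n) - W n (x n) (z n) - ⟪v n, y' n - x n⟫
      - s n * (z'' n - z n)|) l (𝓝 |U y z' - U x₀ z₀ - ⟪v₀, y - x₀⟫ - s₀ * (z' - z₀)|) :=
    ((((h y' z'' y z' hty htz).sub (h x z x₀ z₀ hx hz)).sub
      (hv.inner (hty.sub hx))).sub (hs.mul (htz.sub hz))).abs
  refine le_of_tendsto hlim ?_
  filter_upwards [ha] with n hn
  have e1 : z'' n - z n = z' - z₀ := by rw [hz'']; ring
  refine hn (y' n) (z'' n) (by rw [e1]; exact h1) ?_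
  rw [e1]
  have e2 : y' n - x n - (z' - z₀) • v n = y - x₀ - (z' - z₀) • v₀ := by
    rw [hy']
    simp only [smul_sub]
    abel
  rw [e2]
  exact h2

theorem Tame.refl {K : ℝ} {W : ℕ → E → ℝ → ℝ} (h : Tame K W) :
    Tame K (fun n => Vale.Agent.P080.refl (W n)) := by
  obtain ⟨hW, B, hB⟩ := h
  refine ⟨fun n => (hW n).refl, B, fun n => ?_⟩
  obtain ⟨h0, v, s, ha, hv, hs⟩ := hB n
  refine ⟨?_, -v, s, ?_, by rw [norm_neg]; exact hv, hs⟩
  · simp only [Vale.Agent.P080.refl, neg_zero, abs_neg]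
    exact h0
  · have := ha.refl
    rwa [neg_zero] at this

omit [InnerProductSpace ℝ E] in
theorem Conv.refl {l : Filter ℕ} {W : ℕ → E → ℝ → ℝ} {U : E → ℝ → ℝ} (h : Conv l W U) :
    Conv l (fun n => Vale.Agent.P080.refl (W n)) (Vale.Agent.P080.refl U) := by
  intro x z x₀ z₀ hx hz
  exact (h x (fun n => -z n) x₀ (-z₀) hx hz.neg).neg

theorem Tame.conv_of_tendsto {K : ℝ} (hK : 1 ≤ K) {W : ℕ → E → ℝ → ℝ}
    (h : Tame K W) {l : Filter ℕ} {U : E → ℝ → ℝ}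
    (hU : ∀ x z, Tendsto (fun n => W n x z) l (𝓝 (U x z))) : Conv l W U := by
  intro x z x₀ z₀ hx hz
  have hK0 : 0 < K := by linarith
  have key : Tendsto (fun n => W n (x n) (z n) - W n x₀ z₀) l (𝓝 0) := by
    rw [Metric.tendsto_nhds]
    intro ε hε
    set η : ℝ := ε / (4 * K) with hη
    have hη0 : 0 < η := by positivity
    obtain ⟨B, hB⟩ := Tame.slopes hK h (max ‖x₀‖ |z₀|) hη0
    choose v s hvs using fun n => (h.1 n).flat x₀ z₀ η hη0
    have hb : ∀ n, ‖v n‖ ≤ B ∧ |s n| ≤ B := fun n =>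
      hB n x₀ (v n) z₀ (s n) (le_max_left _ _) (le_max_right _ _) (hvs n)
    have hB0 : 0 ≤ B := (norm_nonneg _).trans (hb 0).1
    have t1 : Tendsto (fun n => ‖x n - x₀‖) l (𝓝 0) := tendsto_iff_norm_sub_tendsto_zero.1 hx
    have t2 : Tendsto (fun n => |z n - z₀|) l (𝓝 0) := by
      have := tendsto_iff_norm_sub_tendsto_zero.1 hz
      simpa [Real.norm_eq_abs] using this
    have t3 : Tendsto (fun n => ‖x n - x₀‖ + B * |z n - z₀|) l (𝓝 0) := by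
      have := t1.add (t2.const_mul B)
      simpa using this
    have t4 : Tendsto (fun n => B * ‖x n - x₀‖ + B * |z n - z₀|) l (𝓝 0) := by
      have := (t1.const_mul B).add (t2.const_mul B)
      simpa using this
    filter_upwards [t2.eventually (gt_mem_nhds hη0), t3.eventually (gt_mem_nhds hη0),
      t4.eventually (gt_mem_nhds (half_pos hε))] with n h1 h2 h3
    rw [Real.dist_eq, sub_zero]
    have h4 : ‖x n - x₀ - (z n - z₀) • v n‖ ≤ η := by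
      refine (norm_sub_le _ _).trans ?_
      rw [norm_smul, Real.norm_eq_abs]
      have : |z n - z₀| * ‖v n‖ ≤ |z n - z₀| * B :=
        mul_le_mul_of_nonneg_left (hb n).1 (abs_nonneg _)
      linarith
    have h5 := hvs n (x n) (z n) h1.le h4
    have h6 : K * η = ε / 4 := by rw [hη]; field_simp
    have h7 : |⟪v n, x n - x₀⟫| ≤ B * ‖x n - x₀‖ :=
      (abs_real_inner_le_norm _ _).trans (mul_le_mul_of_nonneg_right (hb n).1 (norm_nonneg _))
    have h8 : |s n * (z n - z₀)| ≤ B * |z n - z₀| := by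
      rw [abs_mul]
      exact mul_le_mul_of_nonneg_right (hb n).2 (abs_nonneg _)
    have h9 := abs_le.1 h5
    have h10 := abs_le.1 h7
    have h11 := abs_le.1 h8
    rw [abs_lt]
    constructor <;> linarith [h9.1, h9.2, h10.1, h10.2, h11.1, h11.2]
  have := key.add (hU x₀ z₀)
  simpa using this

theorem Conv.up [FiniteDimensional ℝ E] {K : ℝ} (hK : 1 ≤ K) {W : ℕ → E → ℝ → ℝ}
    (hW : Tame K W) {l : Ultrafilter ℕ} {U : E → ℝ → ℝ} (h : Conv l W U)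
    (x a : E) (z t m : ℝ) (ht : 0 < t) (hm : 0 < m) (hm1 : m ≤ 1) :
    ∃ w : E, U a (z + t) - ‖a - x‖ ^ 2 / (2 * t)
      ≤ (1 - m) * U x z + m * (U w (z + t / m) - ‖w - x‖ ^ 2 / (2 * (t / m))) := by
  have htm : 0 < t / m := div_pos ht hm
  obtain ⟨C, hC, hloc⟩ := MCls.up_loc (E := E) hK
  choose w hw using fun n => MCls.exists_up hK (hW.1 n) htm x z
  choose v s hvs using fun n => (hW.1 n).flat x z (t / m) htm
  obtain ⟨B, hB⟩ := Tame.slopes hK hW (max ‖x‖ |z|) htm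
  have hb : ∀ n, ‖v n‖ ≤ B := fun n =>
    (hB n x (v n) z (s n) (le_max_left _ _) (le_max_right _ _) (hvs n)).1
  have hwb : ∀ n, ‖w n‖ ≤ C * (t / m) + ‖x‖ + t / m * B := by
    intro n
    have h1 := (hloc (W n) (hW.1 n) x (v n) z (t / m) (s n) htm (hvs n)).2 (w n) (hw n).le
    have e : w n = (w n - x - (t / m) • v n) + x + (t / m) • v n := by abel
    have h2 : ‖w n‖ ≤ ‖w n - x - (t / m) • v n‖ + ‖x‖ + ‖(t / m) • v n‖ := by
      conv_lhs => rw [e]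
      exact norm_add₃_le
    rw [norm_smul, Real.norm_eq_abs, abs_of_pos htm] at h2
    have h3 : t / m * ‖v n‖ ≤ t / m * B := mul_le_mul_of_nonneg_left (hb n) htm.le
    linarith
  obtain ⟨w', -, hw'⟩ := exists_tendsto_of_bdd l (Eventually.of_forall hwb)
  refine ⟨w', ?_⟩
  have hl1 : Tendsto (fun n => W n a (z + t) - ‖a - x‖ ^ 2 / (2 * t)) l
      (𝓝 (U a (z + t) - ‖a - x‖ ^ 2 / (2 * t))) :=
    (h (fun _ => a) (fun _ => z + t) a (z + t) tendsto_const_nhds tendsto_const_nhds).sub_const _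
  have hl2 : Tendsto (fun n => (1 - m) * W n x z
      + m * (W n (w n) (z + t / m) - ‖w n - x‖ ^ 2 / (2 * (t / m)))) l
      (𝓝 ((1 - m) * U x z + m * (U w' (z + t / m) - ‖w' - x‖ ^ 2 / (2 * (t / m))))) :=
    ((h (fun _ => x) (fun _ => z) x z tendsto_const_nhds tendsto_const_nhds).const_mul _).add
      (((h w (fun _ => z + t / m) w' (z + t / m) hw' tendsto_const_nhds).sub
        (((hw'.sub_const x).norm.pow 2).div_const _)).const_mul m)
  refine le_of_tendsto_of_tendsto' hl1 hl2 fun n => ?_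
  obtain ⟨w₁, hw₁⟩ := (hW.1 n).up x a z t m ht hm hm1
  have h1 := MCls.le_up hK (hW.1 n) htm w₁ x z
  rw [hw n] at h1
  have h2 := mul_le_mul_of_nonneg_left h1 hm.le
  linarith

theorem Tame.exists_limit [FiniteDimensional ℝ E] {K : ℝ} (hK : 1 ≤ K) {W : ℕ → E → ℝ → ℝ}
    (h : Tame K W) (l : Ultrafilter ℕ) : ∃ U : E → ℝ → ℝ, MCls K U ∧ Conv l W U := by
  have hex : ∀ (x : E) (z : ℝ), ∃ b : ℝ, Tendsto (fun n => W n x z) l (𝓝 b) := by
    intro x z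
    obtain ⟨C, hC, hg⟩ := Tame.growth hK h |z| one_pos
    obtain ⟨b, -, hb⟩ := exists_tendsto_of_bdd l (a := fun n => W n x z)
      (R := C + 1 * ‖x‖ ^ 2) (Eventually.of_forall fun n => by
        rw [Real.norm_eq_abs]
        exact hg n x z le_rfl)
    exact ⟨b, hb⟩
  choose U hU using hex
  have hc : Conv l W U := Tame.conv_of_tendsto hK h hU
  refine ⟨U, ⟨?_, ?_, ?_⟩, hc⟩
  · intro x z r hr
    choose v s hvs using fun n => (h.1 n).flat x z r hr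
    obtain ⟨B, hB⟩ := Tame.slopes hK h (max ‖x‖ |z|) hr
    have hb : ∀ n, ‖v n‖ ≤ B ∧ |s n| ≤ B := fun n =>
      hB n x (v n) z (s n) (le_max_left _ _) (le_max_right _ _) (hvs n)
    obtain ⟨v', -, hv'⟩ := exists_tendsto_of_bdd l (Eventually.of_forall fun n => (hb n).1)
    obtain ⟨s', -, hs'⟩ := exists_tendsto_of_bdd l (a := s) (R := B)
      (Eventually.of_forall fun n => by rw [Real.norm_eq_abs]; exact (hb n).2)
    exact ⟨v', s', Conv.adapted hc (x := fun _ => x) (z := fun _ => z)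
      (Eventually.of_forall hvs) tendsto_const_nhds tendsto_const_nhds hv' hs'⟩
  · intro x a z t m ht hm hm1
    exact Conv.up hK h hc x a z t m ht hm hm1
  · intro x a z t m ht hm hm1
    obtain ⟨w, hw⟩ := Conv.up hK h.refl hc.refl x a (-z) t m ht hm hm1
    refine ⟨w, ?_⟩
    simp only [Vale.Agent.P080.refl] at hw
    have e1 : -(-z + t) = z - t := by ring
    have e2 : -(-z + t / m) = z - t / m := by ring
    rw [e1, e2, neg_neg] at hw
    linarith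

end Vale.Agent.P080
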