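import Vale.Agent.P080.MUltra
import Vale.Agent.P080.Compact

open Metric Set Filter Topology
open scoped RealInnerProductSpace

namespace Vale.Agent.P080

variable {E : Type*} [NormedAddCommGroup E] [InnerProductSpace ℝ E]

omit [InnerProductSpace ℝ E] in
theorem norm_sq_le_two' (A x : E) : ‖A‖ ^ 2 ≤ 2 * ‖A - x‖ ^ 2 + 2 * ‖x‖ ^ 2 := by
  have h1 : ‖A‖ ≤ ‖A - x‖ + ‖x‖ := by
    have := norm_add_le (A - x) x
    rwa [sub_add_cancel] at this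
  nlinarith [norm_nonneg A, norm_nonneg (A - x), norm_nonneg x, sq_nonneg (‖A - x‖ - ‖x‖)]

theorem quad_bound' {d P C θ : ℝ} (hθ : 0 < θ)
    (h : d ^ 2 / (8 * θ) ≤ C + P * d) : d ^ 2 ≤ 16 * θ * (C + 4 * θ * P ^ 2) := by
  rw [div_le_iff₀ (by positivity)] at h
  nlinarith [sq_nonneg (d - 8 * θ * P)]

theorem Tame.bdd_of_val {K : ℝ} (hK : 1 ≤ K) {W : ℕ → E → ℝ → ℝ} (hW : Tame K W)
    {l : Filter ℕ} {A x : ℕ → E} {z θ : ℕ → ℝ} {x₀ p : E} {z₀ θ₀ B : ℝ} (hθ₀ : 0 < θ₀)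
    (hx : Tendsto x l (𝓝 x₀)) (hz : Tendsto z l (𝓝 z₀)) (hθ : Tendsto θ l (𝓝 θ₀))
    (h : ∀ᶠ n in l, ‖A n - x n‖ ^ 2 / (2 * θ n) ≤ B + ‖p‖ * ‖A n - x n‖ + |W n (A n) (z n)|) :
    ∃ R : ℝ, ∀ᶠ n in l, ‖A n‖ ≤ R := by
  obtain ⟨C, -, hC⟩ := hW.growth hK (|z₀| + 1) (δ := 1 / (16 * θ₀)) (by positivity)
  have ex : ∀ᶠ n in l, ‖x n‖ ≤ ‖x₀‖ + 1 := by
    have := hx.norm.eventually_lt_const (show ‖x₀‖ < ‖x₀‖ + 1 by linarith)
    filter_upwards [this] with n hn using hn.le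
  have ez : ∀ᶠ n in l, |z n| ≤ |z₀| + 1 := by
    have := hz.abs.eventually_lt_const (show |z₀| < |z₀| + 1 by linarith)
    filter_upwards [this] with n hn using hn.le
  have eθ1 : ∀ᶠ n in l, 0 < θ n := hθ.eventually_const_lt hθ₀
  have eθ2 : ∀ᶠ n in l, θ n < 2 * θ₀ := hθ.eventually_lt_const (by linarith)
  set M := B + C + 1 / (8 * θ₀) * (‖x₀‖ + 1) ^ 2 with hM
  refine ⟨√(16 * θ₀ * (M + 4 * θ₀ * ‖p‖ ^ 2)) + (‖x₀‖ + 1), ?_⟩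
  filter_upwards [ex, ez, eθ1, eθ2, h] with n h2 hzn h3 h4 h5
  have h8 := hC n (A n) (z n) hzn
  have h9 := norm_sq_le_two' (A n) (x n)
  have h10 : ‖x n‖ ^ 2 ≤ (‖x₀‖ + 1) ^ 2 := pow_le_pow_left₀ (norm_nonneg _) h2 2
  have h12 : ‖A n - x n‖ ^ 2 / (4 * θ₀) ≤ ‖A n - x n‖ ^ 2 / (2 * θ n) :=
    div_le_div_of_nonneg_left (sq_nonneg _) (by positivity) (by linarith)
  have h13 : 1 / (16 * θ₀) * ‖A n‖ ^ 2 ≤ 1 / (8 * θ₀) * ‖A n - x n‖ ^ 2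
      + 1 / (8 * θ₀) * (‖x₀‖ + 1) ^ 2 := by
    have : 1 / (16 * θ₀) * ‖A n‖ ^ 2 ≤ 1 / (16 * θ₀) * (2 * ‖A n - x n‖ ^ 2
        + 2 * (‖x₀‖ + 1) ^ 2) := mul_le_mul_of_nonneg_left (by linarith) (by positivity)
    refine this.trans_eq ?_
    field_simp
    ring
  have h14 : ‖A n - x n‖ ^ 2 / (4 * θ₀) = 2 * (‖A n - x n‖ ^ 2 / (8 * θ₀)) := by
    field_simp; ring
  have h15 : 1 / (8 * θ₀) * ‖A n - x n‖ ^ 2 = ‖A n - x n‖ ^ 2 / (8 * θ₀) := by ring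
  have h16 : ‖A n - x n‖ ^ 2 / (8 * θ₀) ≤ M + ‖p‖ * ‖A n - x n‖ := by
    rw [hM]; linarith
  have h17 := quad_bound' hθ₀ h16
  have h18 : ‖A n - x n‖ ≤ √(16 * θ₀ * (M + 4 * θ₀ * ‖p‖ ^ 2)) := Real.le_sqrt_of_sq_le h17
  have h19 : ‖A n‖ ≤ ‖A n - x n‖ + ‖x n‖ := by
    have := norm_add_le (A n - x n) (x n)
    rwa [sub_add_cancel] at this
  linarith

theorem Conv.ext [FiniteDimensional ℝ E] {K : ℝ} (hK : 1 ≤ K) {l : Ultrafilter ℕ}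
    {W : ℕ → E → ℝ → ℝ} (hW : Tame K W) {U : E → ℝ → ℝ} (h : Conv l W U)
    {c : ℝ} {x : ℕ → E} {z θ : ℕ → ℝ} {x₀ : E} {z₀ θ₀ : ℝ} (hθ₀ : 0 < θ₀)
    (hx : Tendsto x l (𝓝 x₀)) (hz : Tendsto z l (𝓝 z₀)) (hθ : Tendsto θ l (𝓝 θ₀))
    (he : ∀ᶠ n in l, Ext c (W n) (x n) (z n) (θ n)) : Ext c U x₀ z₀ θ₀ := by
  intro p
  have h1 : ∀ n, ∃ A : E, Ext c (W n) (x n) (z n) (θ n) →
      c * θ n ≤ W n A (z n) - W n (x n) (z n) - ⟪p, A - x n⟫ - ‖A - x n‖ ^ 2 / (2 * θ n) := by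
    intro n
    by_cases hn : Ext c (W n) (x n) (z n) (θ n)
    · obtain ⟨A, hA⟩ := hn p
      exact ⟨A, fun _ => hA⟩
    · exact ⟨0, fun h => absurd h hn⟩
  choose A hA using h1
  have hWx := h x z x₀ z₀ hx hz
  have hcθ : Tendsto (fun n => c * θ n) l (𝓝 (c * θ₀)) := hθ.const_mul c
  obtain ⟨R, hR⟩ := hW.bdd_of_val hK (A := A) (p := p) (B := -(c * θ₀ - 1) - (U x₀ z₀ - 1))
    hθ₀ hx hz hθ (by
      filter_upwards [he, hWx.eventually_const_lt (show U x₀ z₀ - 1 < U x₀ z₀ by linarith),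
        hcθ.eventually_const_lt (show c * θ₀ - 1 < c * θ₀ by linarith)] with n h2 h3 h4
      have h5 := hA n h2
      have h6 : -⟪p, A n - x n⟫ ≤ ‖p‖ * ‖A n - x n‖ := by
        have := abs_real_inner_le_norm p (A n - x n)
        linarith [neg_abs_le ⟪p, A n - x n⟫]
      linarith [le_abs_self (W n (A n) (z n))])
  obtain ⟨A₀, -, hA₀⟩ := exists_tendsto_of_bdd l hR
  refine ⟨A₀, ?_⟩
  have hd := hA₀.sub hx
  have L2 := (((h A z A₀ z₀ hA₀ hz).sub hWx).sub ((tendsto_const_nhds (x := p)).inner hd)).sub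
    ((hd.norm.pow 2).div (hθ.const_mul 2) (by positivity))
  refine le_of_tendsto_of_tendsto hcθ L2 ?_
  filter_upwards [he] with n hn using hA n hn

theorem Conv.dn [FiniteDimensional ℝ E] {K : ℝ} (hK : 1 ≤ K) {l : Ultrafilter ℕ}
    {W : ℕ → E → ℝ → ℝ} (hW : Tame K W) {U : E → ℝ → ℝ} (hU : MCls K U) (h : Conv l W U)
    {x : ℕ → E} {z t : ℕ → ℝ} {x₀ : E} {z₀ t₀ : ℝ} (ht₀ : 0 < t₀)
    (hx : Tendsto x l (𝓝 x₀)) (hz : Tendsto z l (𝓝 z₀)) (ht : Tendsto t l (𝓝 t₀)) :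
    Tendsto (fun n => dnM (W n) (t n) (x n) (z n)) l (𝓝 (dnM U t₀ x₀ z₀)) := by
  have et : ∀ᶠ n in l, 0 < t n := ht.eventually_const_lt ht₀
  have h1 : ∀ n, ∃ a : E, 0 < t n →
      dnM (W n) (t n) (x n) (z n) = W n a (z n - t n) + ‖a - x n‖ ^ 2 / (2 * t n) := by
    intro n
    by_cases hn : 0 < t n
    · obtain ⟨a, ha⟩ := (hW.1 n).exists_dn hK hn (x n) (z n)
      exact ⟨a, fun _ => ha⟩
    · exact ⟨0, fun h => absurd h hn⟩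
  choose a ha using h1
  have hzt := hz.sub ht
  have hWx := h x (fun n => z n - t n) x₀ (z₀ - t₀) hx hzt
  obtain ⟨R, hR⟩ := hW.bdd_of_val hK (A := a) (p := (0 : E)) (B := U x₀ (z₀ - t₀) + 1)
    ht₀ hx hzt ht (by
      filter_upwards [et, hWx.eventually_lt_const
        (show U x₀ (z₀ - t₀) < U x₀ (z₀ - t₀) + 1 by linarith)] with n h2 h3
      have h4 := ha n h2
      have h5 := (hW.1 n).dn_le hK h2 (x n) (x n) (z n)
      rw [sub_self, norm_zero] at h5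
      simp only [ne_eq, OfNat.ofNat_ne_zero, not_false_eq_true, zero_pow, zero_div,
        add_zero] at h5
      rw [norm_zero, zero_mul, add_zero]
      linarith [neg_abs_le (W n (a n) (z n - t n))])
  obtain ⟨a₀, -, ha₀⟩ := exists_tendsto_of_bdd l hR
  have hd := ha₀.sub hx
  have L : Tendsto (fun n => W n (a n) (z n - t n) + ‖a n - x n‖ ^ 2 / (2 * t n)) l
      (𝓝 (U a₀ (z₀ - t₀) + ‖a₀ - x₀‖ ^ 2 / (2 * t₀))) :=
    (h a (fun n => z n - t n) a₀ (z₀ - t₀) ha₀ hzt).add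
      ((hd.norm.pow 2).div (ht.const_mul 2) (by positivity))
  have L1 : Tendsto (fun n => dnM (W n) (t n) (x n) (z n)) l
      (𝓝 (U a₀ (z₀ - t₀) + ‖a₀ - x₀‖ ^ 2 / (2 * t₀))) := by
    refine L.congr' ?_
    filter_upwards [et] with n hn using (ha n hn).symm
  have e : U a₀ (z₀ - t₀) + ‖a₀ - x₀‖ ^ 2 / (2 * t₀) = dnM U t₀ x₀ z₀ := by
    apply le_antisymm
    · obtain ⟨b, hb⟩ := hU.exists_dn hK ht₀ x₀ z₀
      rw [hb]
      have L2 : Tendsto (fun n => W n b (z n - t n) + ‖b - x n‖ ^ 2 / (2 * t n)) l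
          (𝓝 (U b (z₀ - t₀) + ‖b - x₀‖ ^ 2 / (2 * t₀))) :=
        (h (fun _ => b) (fun n => z n - t n) b (z₀ - t₀) tendsto_const_nhds hzt).add
          ((((tendsto_const_nhds (x := b)).sub hx).norm.pow 2).div (ht.const_mul 2)
            (by positivity))
      refine le_of_tendsto_of_tendsto L1 L2 ?_
      filter_upwards [et] with n hn using (hW.1 n).dn_le hK hn b (x n) (z n)
    · exact hU.dn_le hK ht₀ a₀ x₀ z₀
  rwa [e] at L1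

theorem Conv.qm [FiniteDimensional ℝ E] {K : ℝ} (hK : 1 ≤ K) {l : Ultrafilter ℕ}
    {W : ℕ → E → ℝ → ℝ} (hW : Tame K W) {U : E → ℝ → ℝ} (hU : MCls K U) (h : Conv l W U)
    {x : ℕ → E} {z t : ℕ → ℝ} {x₀ : E} {z₀ t₀ : ℝ} (ht₀ : 0 < t₀)
    (hx : Tendsto x l (𝓝 x₀)) (hz : Tendsto z l (𝓝 z₀)) (ht : Tendsto t l (𝓝 t₀)) :
    Tendsto (fun n => qmM (W n) (t n) (x n) (z n)) l (𝓝 (qmM U t₀ x₀ z₀)) :=
  ((h x z x₀ z₀ hx hz).sub (Conv.dn hK hW hU h ht₀ hx hz ht)).div ht ht₀.ne'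

end Vale.Agent.P080
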