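import Vale.Agent.P080.MOps2
import Vale.Agent.P080.MUltra
import Vale.Agent.P080.MUltra2
import Vale.Agent.P080.MSep
import Vale.Agent.P080.MExt0

open Metric Set Filter Topology
open scoped RealInnerProductSpace

namespace Vale.Agent.P080

variable {E : Type*} [NormedAddCommGroup E] [InnerProductSpace ℝ E]

theorem mcls_zero {K : ℝ} (hK : 1 ≤ K) : MCls K (fun (_ : E) (_ : ℝ) => (0 : ℝ)) := by
  refine ⟨fun x z r hr => ⟨0, 0, fun y z' _ _ => ?_⟩, fun x a z t l ht hl hl1 => ⟨x, ?_⟩,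
    fun x a z t l ht hl hl1 => ⟨x, ?_⟩⟩
  · simp only [inner_zero_left, zero_mul, sub_zero, abs_zero]
    positivity
  · simp only [sub_self, norm_zero]
    have : 0 ≤ ‖a - x‖ ^ 2 / (2 * t) := by positivity
    simp
    linarith
  · simp only [sub_self, norm_zero]
    have : 0 ≤ ‖a - x‖ ^ 2 / (2 * t) := by positivity
    simp
    linarith

theorem normM_zero {K : ℝ} (hK : 1 ≤ K) : NormM K (fun (_ : E) (_ : ℝ) => (0 : ℝ)) := by
  refine ⟨mcls_zero hK, rfl, fun y z' _ _ => ?_⟩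
  simp only [inner_zero_left, zero_mul, sub_zero, abs_zero]
  linarith

theorem NormM.slice_le {K : ℝ} (hK : 1 ≤ K) : ∃ C : ℝ, ∀ W : E → ℝ → ℝ, NormM K W →
    Ez (fun y => W y 0) 0 1 ≤ C := by
  obtain ⟨C, hC, hg⟩ := MCls.growth (E := E) hK (δ := 1 / 8) (by norm_num)
  refine ⟨C, fun W hW => Ez_le ⟨0, fun A => ?_⟩⟩
  have h1 := hg W hW.1 0 0 0 1 0 one_pos hW.2.2 A 0
  simp only [inner_zero_left, sub_zero, zero_mul, sub_self, abs_zero, zero_smul, zero_add,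
    hW.2.1, one_mul, div_one, mul_one] at h1 ⊢
  have h2 := (abs_le.1 h1).2
  nlinarith [sq_nonneg ‖A‖]

theorem exists_const (K : ℝ) (hK : 1 ≤ K) (E : Type*) [NormedAddCommGroup E]
    [InnerProductSpace ℝ E] [FiniteDimensional ℝ E] :
    ∃ c : ℝ, 0 ≤ c ∧ Bnd K c E ∧ ∃ W : E → ℝ → ℝ, NormM K W ∧ Ext c W 0 0 1 := by
  obtain ⟨C, hC⟩ := NormM.slice_le (E := E) hK
  set S : Set ℝ := {e | ∃ W : E → ℝ → ℝ, NormM K W ∧ e = Ez (fun y => W y 0) 0 1} with hS
  have hbdd : BddAbove S := ⟨C, by rintro e ⟨W, hW, rfl⟩; exact hC W hW⟩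
  have hne : S.Nonempty := ⟨_, _, normM_zero hK, rfl⟩
  have hcont : ∀ W : E → ℝ → ℝ, MCls K W → ∀ z, Continuous fun y => W y z := fun W hW z =>
    (hW.continuous hK).comp (Continuous.prodMk continuous_id continuous_const)
  refine ⟨sSup S, ?_, ?_, ?_⟩
  · refine le_csSup_of_le hbdd ⟨_, normM_zero hK, rfl⟩ ?_
    refine Real.sInf_nonneg ?_
    rintro e ⟨p, hp⟩
    have := hp 0
    simpa using this
  · intro W hW x z θ hθ
    obtain ⟨v, s, hv, hN⟩ := hW.exists_frame x z hθ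
    have h1 : Ez (fun y => frameM W x z θ v (s + ‖v‖ ^ 2 / 2) y 0) 0 1 ≤ sSup S :=
      le_csSup hbdd ⟨_, hN, rfl⟩
    have h2 : ExtLe (sSup S) (frameM W x z θ v (s + ‖v‖ ^ 2 / 2)) 0 0 1 := by
      rw [extLe_iff_Ez (hcont _ hN.1 0) (hN.1.subQuad hK 0) one_pos, frameM_zero, mul_one, zero_add]
      exact h1
    rw [extLe_frame _ _ hθ one_pos] at h2
    simpa using h2
  · have hseq : ∀ n : ℕ, ∃ W : E → ℝ → ℝ, NormM K W ∧
        sSup S - 1 / ((n : ℝ) + 1) < Ez (fun y => W y 0) 0 1 := by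
      intro n
      have h1 : sSup S - 1 / ((n : ℝ) + 1) < sSup S := by
        have : 0 < 1 / ((n : ℝ) + 1) := by positivity
        linarith
      obtain ⟨e, ⟨W, hW, rfl⟩, h2⟩ := exists_lt_of_lt_csSup hne h1
      exact ⟨W, hW, h2⟩
    choose W hWN hWE using hseq
    have htame := Tame.of_norm hWN
    let u : Ultrafilter ℕ := Ultrafilter.of atTop
    have hu : (u : Filter ℕ) ≤ atTop := Ultrafilter.of_le atTop
    obtain ⟨U, hU, hconv⟩ := htame.exists_limit hK u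
    have hU0 : U 0 0 = 0 := by
      have h1 := hconv (fun _ => 0) (fun _ => 0) 0 0 tendsto_const_nhds tendsto_const_nhds
      have h2 : (fun n => W n 0 0) = fun _ => (0 : ℝ) := funext fun n => (hWN n).2.1
      rw [h2] at h1
      exact tendsto_nhds_unique h1 tendsto_const_nhds
    have hUa : Adapted K U 0 0 1 0 0 :=
      Conv.adapted hconv (x := fun _ => 0) (v := fun _ => 0) (z := fun _ => 0) (s := fun _ => 0)
        (Eventually.of_forall fun n => (hWN n).2.2) tendsto_const_nhds tendsto_const_nhds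
        tendsto_const_nhds tendsto_const_nhds
    refine ⟨U, ⟨hU, hU0, hUa⟩, ?_⟩
    have key : ∀ c', c' < sSup S → U 0 0 + c' * 1 ≤ Ez (fun y => U y 0) 0 1 := by
      intro c' hc'
      rw [← ext_iff_Ez (hcont U hU 0) (hU.subQuad hK 0) one_pos]
      refine Conv.ext hK htame hconv (x := fun _ => 0) (z := fun _ => 0) (θ := fun _ => 1) one_pos
        tendsto_const_nhds tendsto_const_nhds tendsto_const_nhds ?_
      have h1 : Tendsto (fun n : ℕ => sSup S - 1 / ((n : ℝ) + 1)) atTop (𝓝 (sSup S - 0)) :=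
        tendsto_const_nhds.sub tendsto_one_div_add_atTop_nhds_zero_nat
      rw [sub_zero] at h1
      have h2 := h1.eventually (lt_mem_nhds hc')
      refine (h2.filter_mono hu).mono fun n hn => ?_
      rw [ext_iff_Ez (hcont _ (hWN n).1 0) ((hWN n).1.subQuad hK 0) one_pos, (hWN n).2.1]
      have := hWE n
      linarith
    rw [ext_iff_Ez (hcont U hU 0) (hU.subQuad hK 0) one_pos, hU0, mul_one, zero_add]
    refine le_of_forall_lt fun c' hc' => ?_
    obtain ⟨c'', h1, h2⟩ := exists_between hc'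
    have h3 := key c'' h2
    rw [hU0] at h3
    linarith

theorem sq_split {θ ε : ℝ} (hθ : 0 < θ) (hε : 0 < ε) (u w : E) :
    ‖u + w‖ ^ 2 / (2 * (θ + ε)) ≤ ‖u‖ ^ 2 / (2 * θ) + ‖w‖ ^ 2 / (2 * ε) := by
  have h1 : ‖u + w‖ ≤ ‖u‖ + ‖w‖ := norm_add_le u w
  have h2 : ‖u + w‖ ^ 2 ≤ (‖u‖ + ‖w‖) ^ 2 := by gcongr
  have h3 : (‖u‖ + ‖w‖) ^ 2 / (2 * (θ + ε)) ≤ ‖u‖ ^ 2 / (2 * θ) + ‖w‖ ^ 2 / (2 * ε) := by
    rw [div_add_div _ _ (by positivity) (by positivity), div_le_div_iff₀ (by positivity)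
      (by positivity)]
    nlinarith [sq_nonneg (‖u‖ * ε - ‖w‖ * θ), norm_nonneg u, norm_nonneg w]
  refine le_trans ?_ h3
  gcongr

theorem Ez_up_le [FiniteDimensional ℝ E] {K c : ℝ} (hK : 1 ≤ K) (hB : Bnd K c E)
    {W : E → ℝ → ℝ} (h : MCls K W) {ε θ : ℝ} (hε : 0 < ε) (hε1 : ε ≤ 1) (hθ : 0 < θ) (x : E) (z : ℝ) :
    Ez (fun y => upM W ε y z) x θ ≤ upM W ε x z + c * (θ + ε) := by
  have hgc : Continuous fun y => upM W ε y z :=
    (h.up_continuous hK hε).comp (Continuous.prodMk continuous_id continuous_const)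
  have hgs : SubQuad fun y => upM W ε y z := by
    intro δ hδ
    obtain ⟨C, -, hC⟩ := h.ops_growth hK |z| hδ
    exact ⟨C, fun A => (hC ε A z hε hε1 le_rfl).1⟩
  obtain ⟨p, -, ι, hι, lam, a, hl, hs, hx, hval⟩ := exists_config hgc hgs hθ x
  have hE := config_eq_Ez (g := fun y => upM W ε y z) (θ := θ) (p := p) hs hx hval
  choose A hA using fun i => h.exists_up hK hε (a i) z
  obtain ⟨p', hp'⟩ := hB W h (∑ i, lam i • A i) (z + ε) (θ + ε) (by positivity)
  set Ab : E := ∑ i, lam i • A i with hAb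
  have hup := h.le_up hK hε Ab x z
  have hterm : ∀ i, lam i * (upM W ε (a i) z - ‖a i - x‖ ^ 2 / (2 * θ)) ≤
      lam i * (W Ab (z + ε) + c * (θ + ε) - ‖Ab - x‖ ^ 2 / (2 * ε)) +
        ⟪p' - (1 / ε) • (Ab - x), lam i • (A i - Ab)⟫ +
        ⟪(1 / ε) • (Ab - x), lam i • (a i - x)⟫ := by
    intro i
    have h1 := hp' (A i)
    have h2 := sq_split hθ hε (a i - x) ((A i - a i) - (Ab - x))
    have h3 : (a i - x) + ((A i - a i) - (Ab - x)) = A i - Ab := by abel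
    rw [h3] at h2
    have h4 : ‖A i - a i‖ ^ 2 = ‖(A i - a i) - (Ab - x)‖ ^ 2
        + 2 * ⟪(A i - a i) - (Ab - x), Ab - x⟫ + ‖Ab - x‖ ^ 2 := by
      rw [← norm_add_sq_real, sub_add_cancel]
    have h5 : ‖A i - a i‖ ^ 2 / (2 * ε) = ‖(A i - a i) - (Ab - x)‖ ^ 2 / (2 * ε)
        + ⟪(A i - a i) - (Ab - x), Ab - x⟫ / ε + ‖Ab - x‖ ^ 2 / (2 * ε) := by
      rw [h4]
      field_simp
    have h6 : ⟪(A i - a i) - (Ab - x), Ab - x⟫ = ⟪Ab - x, A i - Ab⟫ - ⟪Ab - x, a i - x⟫ := by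
      rw [real_inner_comm, ← inner_sub_right]
      congr 1
      abel
    have e1 : ⟪p' - (1 / ε) • (Ab - x), lam i • (A i - Ab)⟫
        = lam i * (⟪p', A i - Ab⟫ - 1 / ε * ⟪Ab - x, A i - Ab⟫) := by
      rw [real_inner_smul_right, inner_sub_left p' ((1 / ε) • (Ab - x)) (A i - Ab),
        real_inner_smul_left]
    have e2 : ⟪(1 / ε) • (Ab - x), lam i • (a i - x)⟫ = lam i * (1 / ε * ⟪Ab - x, a i - x⟫) := by
      rw [real_inner_smul_right, real_inner_smul_left]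
    rw [hA i, h5, h6, e1, e2]
    have h7 : lam i * (W (A i) (z + ε) - W Ab (z + ε) - ⟪p', A i - Ab⟫
        - ‖A i - Ab‖ ^ 2 / (2 * (θ + ε))) ≤ lam i * (c * (θ + ε)) :=
      mul_le_mul_of_nonneg_left h1 (hl i)
    have h8 := mul_le_mul_of_nonneg_left h2 (hl i)
    have h9 : (⟪Ab - x, A i - Ab⟫ - ⟪Ab - x, a i - x⟫) / ε
        = 1 / ε * ⟪Ab - x, A i - Ab⟫ - 1 / ε * ⟪Ab - x, a i - x⟫ := by ring
    rw [h9]
    nlinarith [h7, h8]
  have hsum := Finset.sum_le_sum fun i (_ : i ∈ Finset.univ) => hterm i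
  rw [← hE, Finset.sum_add_distrib, Finset.sum_add_distrib, ← Finset.sum_mul, hs, one_mul,
    ← inner_sum, ← inner_sum] at hsum
  have h1 : ∑ i, lam i • (A i - Ab) = 0 := by
    simp only [smul_sub, Finset.sum_sub_distrib, ← Finset.sum_smul, hs, one_smul]
    rw [← hAb, sub_self]
  have h2 : ∑ i, lam i • (a i - x) = 0 := by
    simp only [smul_sub, Finset.sum_sub_distrib, ← Finset.sum_smul, hs, one_smul]
    rw [hx, sub_self]
  rw [h1, h2, inner_zero_right, inner_zero_right] at hsum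
  linarith

end Vale.Agent.P080
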