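import Vale.Agent.P080.MOps

open Metric Set Filter Topology
open scoped RealInnerProductSpace

namespace Vale.Agent.P080

variable {E : Type*} [NormedAddCommGroup E] [InnerProductSpace ℝ E]

/-- the last step: a nonpositive-defect function that vanishes on the positive axis is zero -/
private theorem rig_zero {K : ℝ} {V : E → ℝ → ℝ} (hV : MCls K V)
    (hb : ∀ (a y : E) (z s : ℝ), 0 < s → V a (z + s) - ‖a - y‖ ^ 2 / (2 * s) ≤ V y z)
    (hc : ∀ s : ℝ, 0 ≤ s → V 0 s = 0) (y : E) (z : ℝ) : V y z = 0 := by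
  have hlim : ∀ (c : ℝ) (y : E), Tendsto (fun T : ℝ => ‖y‖ ^ 2 / (2 * (T + c))) atTop (𝓝 0) := by
    intro c y
    apply Tendsto.div_atTop tendsto_const_nhds
    exact Tendsto.const_mul_atTop (by norm_num) (tendsto_atTop_add_const_right _ _ tendsto_id)
  have hpos : ∀ (y : E) (z : ℝ), 0 ≤ V y z := by
    intro y z
    have h1 : ∀ᶠ T in atTop, - (‖y‖ ^ 2 / (2 * (T + (- z)))) ≤ V y z := by
      filter_upwards [eventually_gt_atTop (max z 0)] with T hT
      have hT1 : z < T := lt_of_le_of_lt (le_max_left _ _) hT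
      have hT2 : 0 < T := lt_of_le_of_lt (le_max_right _ _) hT
      have h2 := hb 0 y z (T - z) (by linarith)
      rw [show z + (T - z) = T by ring, hc T hT2.le, zero_sub, zero_sub, norm_neg] at h2
      rw [← sub_eq_add_neg]
      exact h2
    have h3 : Tendsto (fun T : ℝ => - (‖y‖ ^ 2 / (2 * (T + (- z))))) atTop (𝓝 (- 0)) := (hlim (- z) y).neg
    have h4 := le_of_tendsto h3 h1
    linarith
  have haxis : ∀ z : ℝ, V 0 z = 0 := by
    intro z
    rcases le_or_gt 0 z with hz | hz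
    · exact hc z hz
    · have hS : 0 < 1 - z := by linarith
      have hl0 : 0 < 1 / (1 - z) := by positivity
      have hl1 : 1 / (1 - z) ≤ 1 := by
        rw [div_le_one hS]
        linarith
      obtain ⟨w, hw⟩ := hV.dn 0 0 1 1 (1 / (1 - z)) one_pos hl0 hl1
      have e1 : (1 : ℝ) / (1 / (1 - z)) = 1 - z := by field_simp
      rw [e1, show (1 : ℝ) - (1 - z) = z by ring, sub_self, hc 0 le_rfl, hc 1 zero_le_one, mul_zero, zero_add,
        sub_zero, sub_zero, norm_zero] at hw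
      have h5 : (0 : ℝ) + 0 ^ 2 / (2 * 1) = 0 := by norm_num
      rw [h5] at hw
      have h6 : 0 ≤ ‖w‖ ^ 2 / (2 * (1 - z)) := by positivity
      have h7 := hpos w z
      have h8 : V w z + ‖w‖ ^ 2 / (2 * (1 - z)) ≤ 0 := by
        by_contra hcon
        push Not at hcon
        have := mul_pos hl0 hcon
        linarith
      have h9 : ‖w‖ ^ 2 / (2 * (1 - z)) = 0 := by linarith
      have h10 : w = 0 := by
        rw [div_eq_zero_iff] at h9
        rcases h9 with h9 | h9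
        · exact norm_eq_zero.mp (pow_eq_zero_iff (two_ne_zero)|>.mp h9)
        · exfalso; linarith
      subst h10
      linarith
  have hneg : V y z ≤ 0 := by
    have h1 : ∀ᶠ T in atTop, V y z ≤ ‖y‖ ^ 2 / (2 * (T + z)) := by
      filter_upwards [eventually_gt_atTop (- z)] with T hT
      have h2 := hb y 0 (- T) (z + T) (by linarith)
      rw [show - T + (z + T) = z by ring, haxis, sub_zero] at h2
      rw [show T + z = z + T by ring]
      linarith
    exact ge_of_tendsto (hlim z y) h1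
  exact le_antisymm hneg (hpos y z)

theorem rigid [FiniteDimensional ℝ E] {K q : ℝ} (hK : 1 ≤ K) {U : E → ℝ → ℝ} (hU : MCls K U)
    (h1 : ∀ (x : E) (z t : ℝ), 0 < t → qmM U t x z ≤ q)
    {x₀ : E} {z₀ : ℝ} (h2 : q ≤ qmM U 1 x₀ z₀) :
    ∃ (v : E) (s : ℝ), ∀ (y : E) (z : ℝ), U y z = U 0 0 + ⟪v, y⟫ + s * z := by
  -- the reflected and translated function
  obtain ⟨V, hVdef⟩ : ∃ V : E → ℝ → ℝ, V = frameM (refl U) x₀ (- z₀) 1 0 q := ⟨_, rfl⟩
  have hV : MCls K V := by
    rw [hVdef]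
    exact hU.refl.frame one_pos
  have hVe : ∀ (y : E) (z : ℝ), V y z = U x₀ z₀ - U (x₀ + y) (z₀ - z) - q * z := by
    intro y z
    rw [hVdef]
    unfold frameM refl
    simp only [one_smul, one_mul, smul_zero, add_zero, neg_neg, div_one, inner_zero_left, norm_zero]
    rw [show - (- z₀ + z) = z₀ - z by ring]
    ring
  have hV0 : V 0 0 = 0 := by
    rw [hVe]
    simp
  have hb : ∀ (a y : E) (z s : ℝ), 0 < s → V a (z + s) - ‖a - y‖ ^ 2 / (2 * s) ≤ V y z := by
    intro a y z s hs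
    have h3 := h1 (x₀ + y) (z₀ - z) s hs
    unfold qmM at h3
    rw [div_le_iff₀ hs] at h3
    have h4 := hU.dn_le hK hs (x₀ + a) (x₀ + y) (z₀ - z)
    rw [show x₀ + a - (x₀ + y) = a - y by abel] at h4
    rw [hVe, hVe, show z₀ - (z + s) = z₀ - z - s by ring]
    linarith
  have hY : ∀ s : ℝ, 1 ≤ s → ∃ Y : E, V Y s = ‖Y‖ ^ 2 / (2 * s) := by
    intro s hs
    have hs0 : 0 < s := by linarith
    obtain ⟨a, ha⟩ := hU.exists_dn hK hs0 x₀ z₀
    have h3 : qmM U s x₀ z₀ = q :=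
      le_antisymm (h1 x₀ z₀ s hs0) (h2.trans (hU.qm_mono hK one_pos hs x₀ z₀))
    unfold qmM at h3
    rw [div_eq_iff hs0.ne', ha] at h3
    refine ⟨a - x₀, ?_⟩
    rw [hVe, show x₀ + (a - x₀) = a by abel]
    linarith
  -- the velocities
  have hvel : ∀ s : ℝ, 1 ≤ s → ∃ v : E, ∀ s' : ℝ, 0 < s' → s' ≤ s → V (s' • v) s' = s' * ‖v‖ ^ 2 / 2 := by
    intro s hs
    have hs0 : 0 < s := by linarith
    obtain ⟨Y, hYs⟩ := hY s hs
    have hYv : Y = s • ((1 / s) • Y) := by
      rw [smul_smul, mul_one_div_cancel hs0.ne', one_smul]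
    refine ⟨(1 / s) • Y, ?_⟩
    generalize (1 / s) • Y = v at hYv
    subst hYv
    have hYs2 : V (s • v) s = s * ‖v‖ ^ 2 / 2 := by
      rw [hYs, norm_smul, mul_pow, Real.norm_eq_abs, sq_abs]
      field_simp
    intro s' hs' hs's
    rcases eq_or_lt_of_le hs's with h | h
    · rw [h]
      exact hYs2
    · have h3 := hb (s' • v) 0 0 s' hs'
      rw [zero_add, sub_zero, hV0, norm_smul, mul_pow, Real.norm_eq_abs, sq_abs] at h3
      have e3 : s' ^ 2 * ‖v‖ ^ 2 / (2 * s') = s' * ‖v‖ ^ 2 / 2 := by field_simp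
      rw [e3] at h3
      have h4 := hb (s • v) (s' • v) s' (s - s') (by linarith)
      rw [show s' + (s - s') = s by ring, ← sub_smul, norm_smul, mul_pow, Real.norm_eq_abs, sq_abs, hYs2] at h4
      have hne : s - s' ≠ 0 := by linarith
      have e4 : (s - s') ^ 2 * ‖v‖ ^ 2 / (2 * (s - s')) = (s - s') * ‖v‖ ^ 2 / 2 := by field_simp
      rw [e4] at h4
      linarith
  choose! vel hvel using hvel
  -- boundedness
  obtain ⟨C, hC⟩ := hV.subQuad hK 1 (1 / 4) (by norm_num)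
  have hbd : ∀ s : ℝ, 1 ≤ s → ‖vel s‖ ≤ 4 * C + 1 := by
    intro s hs
    have h3 := hvel s hs 1 one_pos hs
    rw [one_smul, one_mul] at h3
    have h4 := (abs_le.mp (hC (vel s))).2
    simp only at h4
    rw [h3] at h4
    have h5 : ‖vel s‖ ^ 2 ≤ 4 * C := by linarith
    have h6 := sq_nonneg (‖vel s‖ - 1 / 2)
    nlinarith
  obtain ⟨v, -, φ, hφ, hφv⟩ := (isCompact_closedBall (0 : E) (4 * C + 1)).tendsto_subseq
    (x := fun n : ℕ => vel ((n : ℝ) + 1)) (fun n => by
      rw [mem_closedBall_zero_iff]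
      exact hbd _ (by linarith [n.cast_nonneg (α := ℝ)]))
  have hcont := hV.continuous hK
  have hv : ∀ s' : ℝ, 0 < s' → V (s' • v) s' = s' * ‖v‖ ^ 2 / 2 := by
    intro s' hs'
    have h3 : Tendsto (fun n : ℕ => V (s' • vel ((φ n : ℝ) + 1)) s') atTop (𝓝 (V (s' • v) s')) := by
      have h4 : Tendsto (fun n : ℕ => ((s' • vel ((φ n : ℝ) + 1), s') : E × ℝ)) atTop (𝓝 (s' • v, s')) :=
        (hφv.const_smul s').prodMk_nhds tendsto_const_nhds
      exact (hcont.tendsto (s' • v, s')).comp h4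
    have h5 : Tendsto (fun n : ℕ => s' * ‖vel ((φ n : ℝ) + 1)‖ ^ 2 / 2) atTop (𝓝 (s' * ‖v‖ ^ 2 / 2)) :=
      ((hφv.norm.pow 2).const_mul s').div_const 2
    refine tendsto_nhds_unique_of_eventuallyEq h3 h5 ?_
    have h6 : Tendsto (fun n : ℕ => ((φ n : ℕ) : ℝ)) atTop atTop :=
      tendsto_natCast_atTop_atTop.comp hφ.tendsto_atTop
    filter_upwards [h6.eventually_ge_atTop s'] with n hn
    exact hvel _ (by linarith [(φ n).cast_nonneg (α := ℝ)]) s' hs' (by linarith)
  -- the Galilean frame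
  obtain ⟨V', hV'def⟩ : ∃ V' : E → ℝ → ℝ, V' = frameM V 0 0 1 v 0 := ⟨_, rfl⟩
  have hV' : MCls K V' := by
    rw [hV'def]
    exact hV.frame one_pos
  have hVe' : ∀ (y : E) (z : ℝ), V' y z = V (y + z • v) z - ⟪v, y⟫ - ‖v‖ ^ 2 / 2 * z := by
    intro y z
    rw [hV'def]
    unfold frameM
    simp only [one_smul, one_mul, zero_add, add_zero, hV0, sub_zero, div_one]
  have hb' : ∀ (a y : E) (z s : ℝ), 0 < s → V' a (z + s) - ‖a - y‖ ^ 2 / (2 * s) ≤ V' y z := by
    intro a y z s hs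
    have h3 := hb (a + (z + s) • v) (y + z • v) z s hs
    have e1 : a + (z + s) • v - (y + z • v) = (a - y) + s • v := by
      rw [add_smul]; abel
    have e2 : ‖(a - y) + s • v‖ ^ 2 / (2 * s) = ‖a - y‖ ^ 2 / (2 * s) + (⟪v, a⟫ - ⟪v, y⟫) + s * ‖v‖ ^ 2 / 2 := by
      rw [norm_add_sq_real, norm_smul, mul_pow, Real.norm_eq_abs, sq_abs, inner_smul_right, inner_sub_left,
        real_inner_comm v a, real_inner_comm v y]
      field_simp
    rw [e1, e2] at h3
    rw [hVe', hVe']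
    linarith
  have hc' : ∀ s : ℝ, 0 ≤ s → V' 0 s = 0 := by
    intro s hs
    rw [hVe', zero_add, inner_zero_right]
    rcases eq_or_lt_of_le hs with h | h
    · rw [← h, zero_smul, hV0]
      ring
    · rw [hv s h]
      ring
  have hz := rig_zero hV' hb' hc'
  have hVfin : ∀ (y : E) (z : ℝ), V y z = ⟪v, y⟫ - ‖v‖ ^ 2 / 2 * z := by
    intro y z
    have h3 := hz (y - z • v) z
    rw [hVe', sub_add_cancel, inner_sub_right, inner_smul_right, real_inner_self_eq_norm_sq] at h3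
    linarith
  refine ⟨- v, q - ‖v‖ ^ 2 / 2, fun y z => ?_⟩
  have h3 := hVe (y - x₀) (z₀ - z)
  have h4 := hVe (0 - x₀) (z₀ - 0)
  rw [hVfin, show x₀ + (y - x₀) = y by abel, show z₀ - (z₀ - z) = z by ring, inner_sub_right] at h3
  rw [hVfin, show x₀ + (0 - x₀) = 0 by abel, show z₀ - (z₀ - 0) = 0 by ring, inner_sub_right, inner_zero_right] at h4
  rw [inner_neg_left]
  linarith

end Vale.Agent.P080
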