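import Vale.Agent.P080.MIter
import Vale.Agent.P080.MRigid

open Metric Set Filter Topology
open scoped RealInnerProductSpace

namespace Vale.Agent.P080

variable {E : Type*} [NormedAddCommGroup E] [InnerProductSpace ℝ E]

theorem const_zero [FiniteDimensional ℝ E] {K : ℝ} (hK : 1 ≤ K) : Bnd K 0 E := by
  obtain ⟨c, hc, hB, hne⟩ := exists_const K hK E
  obtain ⟨q, U, hU, hext, hq, x, z, hxz⟩ := exists_rigid hK hc hB hne
  obtain ⟨v, s, haff⟩ := rigid hK hU hq hxz
  obtain ⟨A, hA⟩ := hext v
  have hc0 : c ≤ 0 := by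
    rw [haff A 0, sub_zero] at hA
    have h1 : 0 ≤ ‖A‖ ^ 2 / (2 * 1) := by positivity
    linarith
  have : c = 0 := le_antisymm hc0 hc
  rwa [this] at hB

/-- supergradients -/
theorem supergrad [FiniteDimensional ℝ E] {K : ℝ} (hB : Bnd K 0 E)
    {W : E → ℝ → ℝ} (h : MCls K W) (z : ℝ) : ∃ p : E, ∀ A : E, W A z ≤ W 0 z + ⟪p, A⟫ := by
  obtain ⟨v, s, had⟩ := h.flat 0 z 1 one_pos
  have h1 : ∀ n : ℕ, ∃ p : E, ∀ A : E,
      W A z - W 0 z - ⟪p, A⟫ - ‖A‖ ^ 2 / (2 * ((n : ℝ) + 1)) ≤ 0 := by
    intro n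
    obtain ⟨p, hp⟩ := hB W h 0 z ((n : ℝ) + 1) (by positivity)
    refine ⟨p, fun A => ?_⟩
    have := hp A
    simpa using this
  choose p hp using h1
  -- boundedness
  have hbd : ∀ n, p n ∈ closedBall (0 : E) (1 / 2 + K + ‖v‖) := by
    intro n
    rw [mem_closedBall_zero_iff]
    by_cases h0 : p n = 0
    · rw [h0, norm_zero]
      have h2 : 0 ≤ K := by
        have := had 0 z (by simp) (by simp)
        have h3 := (abs_nonneg _).trans this
        linarith
      positivity
    · have hpos : 0 < ‖p n‖ := norm_pos_iff.2 h0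
      set A : E := -(‖p n‖⁻¹ • p n) with hA
      have hAn : ‖A‖ = 1 := by
        rw [hA, norm_neg, norm_smul, norm_inv, norm_norm, inv_mul_cancel₀ hpos.ne']
      have h2 := hp n A
      have h3 : ⟪p n, A⟫ = -‖p n‖ := by
        rw [hA, inner_neg_right, real_inner_smul_right, real_inner_self_eq_norm_sq]
        field_simp
      have h4 := had A z (by simp) (by simp [hAn])
      rw [sub_self, mul_zero, sub_zero, sub_zero, mul_one] at h4
      have h5 := (abs_le.1 h4).1
      have h6 : |⟪v, A⟫| ≤ ‖v‖ * 1 := by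
        rw [← hAn]; exact abs_real_inner_le_norm v A
      have h7 := (abs_le.1 h6).1
      rw [h3, hAn] at h2
      have h8 : (1 : ℝ) ^ 2 / (2 * ((n : ℝ) + 1)) ≤ 1 / 2 := by
        rw [one_pow]
        apply div_le_div_of_nonneg_left (by norm_num) (by norm_num)
        have : (0 : ℝ) ≤ n := Nat.cast_nonneg n
        linarith
      linarith
  obtain ⟨q, -, φ, hφ, hlim⟩ := (isCompact_closedBall (0 : E) (1 / 2 + K + ‖v‖)).tendsto_subseq hbd
  refine ⟨q, fun A => ?_⟩
  have h2 : Tendsto (fun n => W A z - W 0 z - ⟪p (φ n), A⟫ - ‖A‖ ^ 2 / (2 * ((φ n : ℝ) + 1)))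
      atTop (𝓝 (W A z - W 0 z - ⟪q, A⟫ - 0)) := by
    apply Tendsto.sub
    · apply Tendsto.sub tendsto_const_nhds
      exact hlim.inner tendsto_const_nhds
    · have h3 : Tendsto (fun n : ℕ => ‖A‖ ^ 2 / (2 * ((n : ℝ) + 1))) atTop (𝓝 0) := by
        apply Tendsto.div_atTop tendsto_const_nhds
        apply Tendsto.const_mul_atTop (by norm_num)
        exact tendsto_atTop_add_const_right _ _ tendsto_natCast_atTop_atTop
      exact h3.comp hφ.tendsto_atTop
  have h3 := le_of_tendsto' h2 (fun n => hp (φ n) A)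
  linarith

/-- `W(·, z)` is affine -/
theorem slice_affine [FiniteDimensional ℝ E] {K : ℝ} (hB : Bnd K 0 E)
    {W : E → ℝ → ℝ} (h : MCls K W) (z : ℝ) : ∃ p : E, ∀ A : E, W A z = W 0 z + ⟪p, A⟫ := by
  obtain ⟨p, hp⟩ := supergrad hB h z
  obtain ⟨p', hp'⟩ := supergrad hB h.refl (-z)
  have h1 : ∀ A, W 0 z + ⟪-p', A⟫ ≤ W A z := by
    intro A
    have := hp' A
    simp only [Vale.Agent.P080.refl, neg_neg] at this
    rw [inner_neg_left]
    linarith
  have h2 : p + p' = 0 := by
    have h3 := (h1 (-(p + p'))).trans (hp (-(p + p')))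
    have h4 : ⟪p + p', p + p'⟫ ≤ 0 := by
      simp only [inner_neg_left, inner_neg_right, neg_neg] at h3
      rw [inner_add_left]
      linarith
    rw [real_inner_self_eq_norm_sq] at h4
    have h5 : ‖p + p'‖ = 0 := by nlinarith [norm_nonneg (p + p')]
    exact norm_eq_zero.1 h5
  have h3 : -p' = p := by
    rw [neg_eq_iff_add_eq_zero, add_comm]
    exact h2
  refine ⟨p, fun A => le_antisymm (hp A) ?_⟩
  have := h1 A
  rwa [h3] at this

theorem affine_of_concave [FiniteDimensional ℝ E] {K : ℝ} (hK : 1 ≤ K) (hB : Bnd K 0 E)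
    {W : E → ℝ → ℝ} (h : MCls K W) :
    ∃ (v : E) (s : ℝ), ∀ (y : E) (z : ℝ), W y z = W 0 0 + ⟪v, y⟫ + s * z := by
  choose p hp using slice_affine hB h
  -- slopes are bounded
  have hbd : ∀ z, ‖p z - p 0‖ ≤ 2 * K := by
    intro z
    set r := max 1 |z| with hr
    have hr1 : 1 ≤ r := le_max_left _ _
    have hr0 : 0 < r := by linarith
    have hrz : |z| ≤ r := le_max_right _ _
    obtain ⟨v, s, had⟩ := h.flat 0 0 r hr0
    have key : ∀ z', |z'| ≤ r → ‖p z' - v‖ ≤ K := by
      intro z' hz'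
      by_cases h0 : p z' - v = 0
      · rw [h0, norm_zero]; linarith
      · have hpos : 0 < ‖p z' - v‖ := norm_pos_iff.2 h0
        set e : E := ‖p z' - v‖⁻¹ • (p z' - v) with he
        have hen : ‖e‖ = 1 := by
          rw [he, norm_smul, norm_inv, norm_norm, inv_mul_cancel₀ hpos.ne']
        have hie : ⟪p z' - v, e⟫ = ‖p z' - v‖ := by
          rw [he, real_inner_smul_right, real_inner_self_eq_norm_sq]
          field_simp
        have h1 := had (z' • v + r • e) z' (by simpa using hz') (by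
          have : z' • v + r • e - 0 - (z' - 0) • v = r • e := by rw [sub_zero, sub_zero]; abel
          rw [this, norm_smul, hen, Real.norm_eq_abs, abs_of_pos hr0, mul_one])
        have h2 := had (z' • v - r • e) z' (by simpa using hz') (by
          have : z' • v - r • e - 0 - (z' - 0) • v = -(r • e) := by rw [sub_zero, sub_zero]; abel
          rw [this, norm_neg, norm_smul, hen, Real.norm_eq_abs, abs_of_pos hr0, mul_one])
        rw [hp z' (z' • v + r • e)] at h1
        rw [hp z' (z' • v - r • e)] at h2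
        rw [sub_zero, inner_add_right, inner_add_right, real_inner_smul_right (p z') e r,
          real_inner_smul_right v e r] at h1
        rw [sub_zero, inner_sub_right, inner_sub_right, real_inner_smul_right (p z') e r,
          real_inner_smul_right v e r] at h2
        rw [inner_sub_left] at hie
        have h3 := (abs_le.1 h1).2
        have h4 := (abs_le.1 h2).1
        have h5 : r * ‖p z' - v‖ ≤ r * K := by
          rw [← hie]
          linarith
        exact le_of_mul_le_mul_left h5 hr0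
    have h1 := key z hrz
    have h2 := key 0 (by simp; linarith)
    calc ‖p z - p 0‖ = ‖(p z - v) - (p 0 - v)‖ := by congr 1; abel
      _ ≤ ‖p z - v‖ + ‖p 0 - v‖ := norm_sub_le _ _
      _ ≤ 2 * K := by linarith
  -- the inequality (C+)
  have hup : ∀ (x : E) (z t l : ℝ), 0 < t → 0 < l → l ≤ 1 →
      W 0 (z + t) + ⟪p (z + t), x⟫ + t * ‖p (z + t)‖ ^ 2 / 2 ≤
        (1 - l) * (W 0 z + ⟪p z, x⟫) +
          l * (W 0 (z + t / l) + ⟪p (z + t / l), x⟫) + t * ‖p (z + t / l)‖ ^ 2 / 2 := by
    intro x z t l ht hl hl1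
    obtain ⟨w, hw⟩ := h.up x (x + t • p (z + t)) z t l ht hl hl1
    rw [hp (z + t) (x + t • p (z + t)), hp z x, hp (z + t / l) w] at hw
    have e1 : x + t • p (z + t) - x = t • p (z + t) := by abel
    rw [e1, inner_add_right, real_inner_smul_right, real_inner_self_eq_norm_sq, norm_smul,
      Real.norm_eq_abs, mul_pow, sq_abs] at hw
    have e2 : t ^ 2 * ‖p (z + t)‖ ^ 2 / (2 * t) = t * ‖p (z + t)‖ ^ 2 / 2 := by field_simp
    rw [e2] at hw
    set t' := t / l with ht'
    have ht'0 : 0 < t' := by positivity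
    have hlt : l * t' = t := by rw [ht']; field_simp
    have h1 : ⟪p (z + t'), w⟫ - ‖w - x‖ ^ 2 / (2 * t') ≤
        ⟪p (z + t'), x⟫ + t' * ‖p (z + t')‖ ^ 2 / 2 := by
      have h2 : 0 ≤ ‖(w - x) - t' • p (z + t')‖ ^ 2 / (2 * t') := by positivity
      have h3 : ‖(w - x) - t' • p (z + t')‖ ^ 2 / (2 * t') =
          ‖w - x‖ ^ 2 / (2 * t') - ⟪p (z + t'), w - x⟫ + t' * ‖p (z + t')‖ ^ 2 / 2 := by
        rw [norm_sub_sq_real, real_inner_smul_right, norm_smul, Real.norm_eq_abs, mul_pow, sq_abs,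
          real_inner_comm]
        field_simp
      rw [h3, inner_sub_right] at h2
      linarith
    have h4 := mul_le_mul_of_nonneg_left h1 hl.le
    have h5 : l * (⟪p (z + t'), x⟫ + t' * ‖p (z + t')‖ ^ 2 / 2) =
        l * ⟪p (z + t'), x⟫ + t * ‖p (z + t')‖ ^ 2 / 2 := by
      rw [← hlt]; ring
    linarith
  -- slopes along characteristics
  have hlin : ∀ (z t l : ℝ), 0 < t → 0 < l → l ≤ 1 →
      p (z + t) = (1 - l) • p z + l • p (z + t / l) := by
    intro z t l ht hl hl1
    set d := p (z + t) - ((1 - l) • p z + l • p (z + t / l)) with hd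
    suffices d = 0 from sub_eq_zero.1 this
    by_contra hne
    have hpos : 0 < ‖d‖ ^ 2 := by
      have := norm_pos_iff.2 hne
      positivity
    set M := (1 - l) * W 0 z + l * W 0 (z + t / l) + t * ‖p (z + t / l)‖ ^ 2 / 2 -
      (W 0 (z + t) + t * ‖p (z + t)‖ ^ 2 / 2) with hM
    have h1 : ∀ x : E, ⟪d, x⟫ ≤ M := by
      intro x
      have h2 := hup x z t l ht hl hl1
      rw [hd, inner_sub_left, inner_add_left, real_inner_smul_left, real_inner_smul_left, hM]
      linarith
    have h3 := h1 (((|M| + 1) / ‖d‖ ^ 2) • d)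
    rw [real_inner_smul_right, real_inner_self_eq_norm_sq, div_mul_cancel₀ _ hpos.ne'] at h3
    have h4 := le_abs_self M
    linarith
  have hconst : ∀ (z t : ℝ), 0 < t → p (z + t) = p z := by
    intro z t ht
    have h1 : ∀ l : ℝ, 0 < l → l ≤ 1 → ‖p (z + t) - p z‖ ≤ l * (4 * K) := by
      intro l hl hl1
      have h2 := hlin z t l ht hl hl1
      have h3 : p (z + t) - p z = l • (p (z + t / l) - p z) := by
        rw [h2, sub_smul, one_smul, smul_sub]; abel
      rw [h3, norm_smul, Real.norm_eq_abs, abs_of_pos hl]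
      apply mul_le_mul_of_nonneg_left _ hl.le
      calc ‖p (z + t / l) - p z‖ = ‖(p (z + t / l) - p 0) - (p z - p 0)‖ := by congr 1; abel
        _ ≤ ‖p (z + t / l) - p 0‖ + ‖p z - p 0‖ := norm_sub_le _ _
        _ ≤ 4 * K := by linarith [hbd (z + t / l), hbd z]
    rw [← sub_eq_zero, ← norm_eq_zero]
    apply le_antisymm _ (norm_nonneg _)
    apply le_of_forall_pos_le_add
    intro δ hδ
    rw [zero_add]
    set l := min 1 (δ / (4 * K)) with hl
    have hl0 : 0 < l := lt_min one_pos (by positivity)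
    have h2 := h1 l hl0 (min_le_left _ _)
    have h3 : l ≤ δ / (4 * K) := min_le_right _ _
    rw [le_div_iff₀ (by positivity)] at h3
    linarith
  have hp0 : ∀ z, p z = p 0 := by
    intro z
    rcases lt_trichotomy z 0 with hz | hz | hz
    · have := hconst z (-z) (by linarith)
      rw [add_neg_cancel] at this
      exact this.symm
    · rw [hz]
    · have := hconst 0 z hz
      rwa [zero_add] at this
  -- the last coordinate
  have hq1 : ∀ (z t l : ℝ), 0 < t → 0 < l → l ≤ 1 →
      W 0 (z + t) ≤ (1 - l) * W 0 z + l * W 0 (z + t / l) := by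
    intro z t l ht hl hl1
    have h1 := hup 0 z t l ht hl hl1
    rw [hp0 (z + t), hp0 z, hp0 (z + t / l)] at h1
    simp only [inner_zero_right, add_zero] at h1
    linarith
  have hq2 : ∀ (z t l : ℝ), 0 < t → 0 < l → l ≤ 1 →
      (1 - l) * W 0 z + l * W 0 (z - t / l) ≤ W 0 (z - t) := by
    intro z t l ht hl hl1
    obtain ⟨w, hw⟩ := h.dn 0 (-(t • p 0)) z t l ht hl hl1
    rw [hp (z - t) (-(t • p 0)), hp (z - t / l) w, hp0 (z - t), hp0 (z - t / l), sub_zero,
      sub_zero, inner_neg_right, real_inner_smul_right, real_inner_self_eq_norm_sq, norm_neg,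
      norm_smul, Real.norm_eq_abs, mul_pow, sq_abs] at hw
    have e2 : t ^ 2 * ‖p 0‖ ^ 2 / (2 * t) = t * ‖p 0‖ ^ 2 / 2 := by field_simp
    rw [e2] at hw
    set t' := t / l with ht'
    have ht'0 : 0 < t' := by positivity
    have hlt : l * t' = t := by rw [ht']; field_simp
    have h1 : -(t' * ‖p 0‖ ^ 2 / 2) ≤ ⟪p 0, w⟫ + ‖w‖ ^ 2 / (2 * t') := by
      have h2 : 0 ≤ ‖w + t' • p 0‖ ^ 2 / (2 * t') := by positivity
      have h3 : ‖w + t' • p 0‖ ^ 2 / (2 * t') =
          ‖w‖ ^ 2 / (2 * t') + ⟪p 0, w⟫ + t' * ‖p 0‖ ^ 2 / 2 := by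
        rw [norm_add_sq_real, real_inner_smul_right, norm_smul, Real.norm_eq_abs, mul_pow, sq_abs,
          real_inner_comm]
        field_simp
      rw [h3] at h2
      linarith
    have h4 := mul_le_mul_of_nonneg_left h1 hl.le
    have h5 : l * -(t' * ‖p 0‖ ^ 2 / 2) = -(t * ‖p 0‖ ^ 2 / 2) := by
      rw [← hlt]; ring
    linarith
  have hq3 : ∀ (z t T : ℝ), 0 < t → t < T →
      W 0 (z + t) = (1 - t / T) * W 0 z + t / T * W 0 (z + T) := by
    intro z t T ht htT
    have hT : 0 < T := by linarith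
    apply le_antisymm
    · have h1 := hq1 z t (t / T) ht (by positivity) ((div_le_one hT).2 htT.le)
      have e1 : t / (t / T) = T := by field_simp
      rwa [e1] at h1
    · have hTt : 0 < T - t := by linarith
      have h1 := hq2 (z + T) (T - t) ((T - t) / T) hTt (by positivity)
        ((div_le_one hT).2 (by linarith))
      have e1 : (T - t) / ((T - t) / T) = T := by field_simp
      have e2 : z + T - (T - t) = z + t := by ring
      have e3 : z + T - T = z := by ring
      have e4 : (T - t) / T = 1 - t / T := by field_simp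
      rw [e1, e2, e3, e4] at h1
      linarith
  refine ⟨p 0, W 0 1 - W 0 0, fun y z => ?_⟩
  rw [hp z y, hp0 z]
  have hz : W 0 z = W 0 0 + (W 0 1 - W 0 0) * z := by
    rcases lt_trichotomy z 0 with hz | hz | hz
    · have h1 := hq3 z (-z) (1 - z) (by linarith) (by linarith)
      have e1 : z + -z = 0 := by ring
      have e2 : z + (1 - z) = 1 := by ring
      rw [e1, e2] at h1
      have h3 : (1 - z) ≠ 0 := by linarith
      field_simp at h1
      linarith
    · rw [hz]; ring
    · rcases lt_trichotomy z 1 with hz1 | hz1 | hz1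
      · have h1 := hq3 0 z 1 hz hz1
        rw [zero_add, zero_add, div_one] at h1
        rw [h1]; ring
      · rw [hz1]; ring
      · have h1 := hq3 0 1 z one_pos hz1
        rw [zero_add, zero_add] at h1
        have h3 : z ≠ 0 := by linarith
        field_simp at h1
        linarith
  rw [hz]
  ring

theorem MCls.affine [FiniteDimensional ℝ E] {K : ℝ} (hK : 1 ≤ K) {W : E → ℝ → ℝ}
    (h : MCls K W) :
    ∃ (v : E) (s : ℝ), ∀ (y : E) (z : ℝ), W y z = W 0 0 + ⟪v, y⟫ + s * z :=
  affine_of_concave hK (const_zero hK) h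

end Vale.Agent.P080
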