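import Vale.Agent.P080.MAdapt

open Metric Set Filter Topology
open scoped RealInnerProductSpace

namespace Vale.Agent.P080

variable {E : Type*} [NormedAddCommGroup E] [InnerProductSpace ℝ E]

theorem dnM_eq (W : E → ℝ → ℝ) (t : ℝ) (x : E) (z : ℝ) :
    dnM W t x z = -upM (refl W) t x (-z) := by
  unfold dnM upM
  rw [Real.sInf_def]
  congr 2
  ext e
  simp only [Set.mem_neg, Set.mem_range, refl]
  constructor
  · rintro ⟨a, ha⟩
    refine ⟨a, ?_⟩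
    have e1 : -(-z + t) = z - t := by ring
    rw [e1]
    linarith
  · rintro ⟨a, ha⟩
    refine ⟨a, ?_⟩
    have e1 : -(-z + t) = z - t := by ring
    rw [e1] at ha
    linarith

theorem upM_eq (W : E → ℝ → ℝ) (t : ℝ) (x : E) (z : ℝ) :
    upM W t x z = -dnM (refl W) t x (-z) := by
  rw [dnM_eq, refl_refl, neg_neg, neg_neg]

theorem qmM_eq (W : E → ℝ → ℝ) (t : ℝ) (x : E) (z : ℝ) :
    qmM W t x z = qpM (refl W) t x (-z) := by
  unfold qmM qpM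
  rw [dnM_eq]
  have : refl W x (-z) = -W x z := by simp [refl]
  rw [this]
  congr 1
  ring

theorem frameM_zero (W : E → ℝ → ℝ) (x₀ : E) (z₀ r : ℝ) (v : E) (a : ℝ) :
    frameM W x₀ z₀ r v a 0 0 = 0 := by
  simp [frameM]

theorem frame_move (W : E → ℝ → ℝ) {x₀ : E} {z₀ r : ℝ} (hr : 0 < r) {v : E} {a : ℝ}
    {t : ℝ} (ht : t ≠ 0) (y b : E) (z : ℝ) :
    frameM W x₀ z₀ r v a b (z + t) - ‖b - y‖ ^ 2 / (2 * t)
      = (W (x₀ + r • b + (r * (z + t)) • v) (z₀ + r * z + r * t)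
          - ‖x₀ + r • b + (r * (z + t)) • v - (x₀ + r • y + (r * z) • v)‖ ^ 2 / (2 * (r * t))
          - W x₀ z₀) / r - ⟪v, y⟫ - (‖v‖ ^ 2 / 2 + a) * z - a * t := by
  have hr' : r ≠ 0 := hr.ne'
  have e1 : x₀ + r • b + (r * (z + t)) • v - (x₀ + r • y + (r * z) • v)
      = r • ((b - y) + t • v) := by
    module
  have e2 : ‖r • ((b - y) + t • v)‖ ^ 2
      = r ^ 2 * (‖b - y‖ ^ 2 + 2 * (t * ⟪v, b - y⟫) + t ^ 2 * ‖v‖ ^ 2) := by
    rw [norm_smul, mul_pow, Real.norm_eq_abs, sq_abs, norm_add_sq_real, inner_smul_right,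
      real_inner_comm, norm_smul, mul_pow, Real.norm_eq_abs, sq_abs]
  have e3 : ⟪v, b - y⟫ = ⟪v, b⟫ - ⟪v, y⟫ := inner_sub_right _ _ _
  have e4 : z₀ + r * (z + t) = z₀ + r * z + r * t := by ring
  unfold frameM
  rw [e1, e2, e3, e4]
  field_simp
  ring

theorem frame_move_dn (W : E → ℝ → ℝ) {x₀ : E} {z₀ r : ℝ} (hr : 0 < r) {v : E} {a : ℝ}
    {t : ℝ} (ht : t ≠ 0) (y b : E) (z : ℝ) :
    frameM W x₀ z₀ r v a b (z - t) + ‖b - y‖ ^ 2 / (2 * t)
      = (W (x₀ + r • b + (r * (z - t)) • v) (z₀ + r * z - r * t)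
          + ‖x₀ + r • b + (r * (z - t)) • v - (x₀ + r • y + (r * z) • v)‖ ^ 2 / (2 * (r * t))
          - W x₀ z₀) / r - ⟪v, y⟫ - (‖v‖ ^ 2 / 2 + a) * z + a * t := by
  have hr' : r ≠ 0 := hr.ne'
  have e1 : x₀ + r • b + (r * (z - t)) • v - (x₀ + r • y + (r * z) • v)
      = r • ((b - y) - t • v) := by
    module
  have e2 : ‖r • ((b - y) - t • v)‖ ^ 2
      = r ^ 2 * (‖b - y‖ ^ 2 - 2 * (t * ⟪v, b - y⟫) + t ^ 2 * ‖v‖ ^ 2) := by
    rw [norm_smul, mul_pow, Real.norm_eq_abs, sq_abs, norm_sub_sq_real, inner_smul_right,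
      real_inner_comm, norm_smul, mul_pow, Real.norm_eq_abs, sq_abs]
  have e3 : ⟪v, b - y⟫ = ⟪v, b⟫ - ⟪v, y⟫ := inner_sub_right _ _ _
  have e4 : z₀ + r * (z - t) = z₀ + r * z - r * t := by ring
  unfold frameM
  rw [e1, e2, e3, e4]
  field_simp
  ring

theorem frame_real {P Q R V r i c a z t s l : ℝ} (hr : 0 < r) (h : P ≤ (1 - l) * R + l * Q)
    (hs : l * s = t) :
    (P - V) / r - i - c * z - a * t
      ≤ (1 - l) * ((R - V) / r - i - c * z) + l * ((Q - V) / r - i - c * z - a * s) := by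
  have h1 : 0 ≤ ((1 - l) * R + l * Q - P) / r := div_nonneg (by linarith) hr.le
  have h2 : (1 - l) * ((R - V) / r - i - c * z) + l * ((Q - V) / r - i - c * z - a * s)
      - ((P - V) / r - i - c * z - a * t) = ((1 - l) * R + l * Q - P) / r := by
    rw [← hs]
    field_simp
    ring
  linarith

theorem frame_real_dn {P Q R V r i c a z t s l : ℝ} (hr : 0 < r) (h : (1 - l) * R + l * Q ≤ P)
    (hs : l * s = t) :
    (1 - l) * ((R - V) / r - i - c * z) + l * ((Q - V) / r - i - c * z + a * s)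
      ≤ (P - V) / r - i - c * z + a * t := by
  have h1 : 0 ≤ (P - ((1 - l) * R + l * Q)) / r := div_nonneg (by linarith) hr.le
  have h2 : ((P - V) / r - i - c * z + a * t)
      - ((1 - l) * ((R - V) / r - i - c * z) + l * ((Q - V) / r - i - c * z + a * s))
      = (P - ((1 - l) * R + l * Q)) / r := by
    rw [← hs]
    field_simp
    ring
  linarith

theorem frame_surj (x₀ : E) {r : ℝ} (hr : 0 < r) (u : E) (w : E) :
    ∃ b : E, x₀ + r • b + u = w := by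
  refine ⟨r⁻¹ • (w - x₀ - u), ?_⟩
  rw [smul_inv_smul₀ hr.ne']
  abel

theorem Adapted.frame {K : ℝ} {W : E → ℝ → ℝ} {x₀ : E} {z₀ r : ℝ} (hr : 0 < r) {v : E} {a : ℝ}
    {y v' : E} {z ρ s' : ℝ}
    (h : Adapted K W (x₀ + r • y + (r * z) • v) (z₀ + r * z) (r * ρ) v' s') :
    Adapted K (frameM W x₀ z₀ r v a) y z ρ (v' - v) (s' + ⟪v', v⟫ - ‖v‖ ^ 2 / 2 - a) := by
  intro y' z' h1 h2
  have hr' : r ≠ 0 := hr.ne'
  have h3 : |z₀ + r * z' - (z₀ + r * z)| ≤ r * ρ := by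
    have : z₀ + r * z' - (z₀ + r * z) = r * (z' - z) := by ring
    rw [this, abs_mul, abs_of_pos hr]
    exact mul_le_mul_of_nonneg_left h1 hr.le
  have h4 : ‖x₀ + r • y' + (r * z') • v - (x₀ + r • y + (r * z) • v)
      - (z₀ + r * z' - (z₀ + r * z)) • v'‖ ≤ r * ρ := by
    have : x₀ + r • y' + (r * z') • v - (x₀ + r • y + (r * z) • v)
        - (z₀ + r * z' - (z₀ + r * z)) • v' = r • (y' - y - (z' - z) • (v' - v)) := by
      module
    rw [this, norm_smul, Real.norm_eq_abs, abs_of_pos hr]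
    exact mul_le_mul_of_nonneg_left h2 hr.le
  have h5 := h (x₀ + r • y' + (r * z') • v) (z₀ + r * z') h3 h4
  have e1 : x₀ + r • y' + (r * z') • v - (x₀ + r • y + (r * z) • v)
      = r • (y' - y) + (r * (z' - z)) • v := by module
  have e2 : frameM W x₀ z₀ r v a y' z' - frameM W x₀ z₀ r v a y z - ⟪v' - v, y' - y⟫
      - (s' + ⟪v', v⟫ - ‖v‖ ^ 2 / 2 - a) * (z' - z)
      = (W (x₀ + r • y' + (r * z') • v) (z₀ + r * z') - W (x₀ + r • y + (r * z) • v) (z₀ + r * z)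
        - ⟪v', x₀ + r • y' + (r * z') • v - (x₀ + r • y + (r * z) • v)⟫
        - s' * (z₀ + r * z' - (z₀ + r * z))) / r := by
    rw [e1, inner_add_right, inner_smul_right, inner_smul_right, inner_sub_left]
    unfold frameM
    rw [inner_sub_right v y' y]
    field_simp
    ring
  rw [e2, abs_div, abs_of_pos hr, div_le_iff₀ hr]
  calc _ ≤ K * (r * ρ) := h5
    _ = K * ρ * r := by ring

theorem MCls.frame {K : ℝ} {W : E → ℝ → ℝ} (h : MCls K W) {x₀ : E} {z₀ r : ℝ} (hr : 0 < r)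
    {v : E} {a : ℝ} : MCls K (frameM W x₀ z₀ r v a) := by
  have hr' : r ≠ 0 := hr.ne'
  refine ⟨?_, ?_, ?_⟩
  · intro x z ρ hρ
    obtain ⟨v', s', h'⟩ := h.flat (x₀ + r • x + (r * z) • v) (z₀ + r * z) (r * ρ) (mul_pos hr hρ)
    exact ⟨_, _, Adapted.frame hr h'⟩
  · intro x b z t l ht hl hl1
    obtain ⟨w', hw'⟩ := h.up (x₀ + r • x + (r * z) • v) (x₀ + r • b + (r * (z + t)) • v)
      (z₀ + r * z) (r * t) l (mul_pos hr ht) hl hl1
    obtain ⟨w, hw⟩ := frame_surj x₀ hr ((r * (z + t / l)) • v) w'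
    refine ⟨w, ?_⟩
    have htl : t / l ≠ 0 := (div_pos ht hl).ne'
    rw [frame_move W hr ht.ne' x b z, frame_move W hr htl x w z, hw]
    have e1 : r * t / l = r * (t / l) := by ring
    rw [e1] at hw'
    have e2 : frameM W x₀ z₀ r v a x z = (W (x₀ + r • x + (r * z) • v) (z₀ + r * z) - W x₀ z₀) / r
        - ⟪v, x⟫ - (‖v‖ ^ 2 / 2 + a) * z := rfl
    have e3 : l * (t / l) = t := by field_simp
    rw [e2]
    exact frame_real hr hw' e3
  · intro x b z t l ht hl hl1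
    obtain ⟨w', hw'⟩ := h.dn (x₀ + r • x + (r * z) • v) (x₀ + r • b + (r * (z - t)) • v)
      (z₀ + r * z) (r * t) l (mul_pos hr ht) hl hl1
    obtain ⟨w, hw⟩ := frame_surj x₀ hr ((r * (z - t / l)) • v) w'
    refine ⟨w, ?_⟩
    have htl : t / l ≠ 0 := (div_pos ht hl).ne'
    rw [frame_move_dn W hr ht.ne' x b z, frame_move_dn W hr htl x w z, hw]
    have e1 : r * t / l = r * (t / l) := by ring
    rw [e1] at hw'
    have e2 : frameM W x₀ z₀ r v a x z = (W (x₀ + r • x + (r * z) • v) (z₀ + r * z) - W x₀ z₀) / r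
        - ⟪v, x⟫ - (‖v‖ ^ 2 / 2 + a) * z := rfl
    have e3 : l * (t / l) = t := by field_simp
    rw [e2]
    exact frame_real_dn hr hw' e3

theorem sInf_affine {g : E → ℝ} (hg : BddBelow (Set.range g)) {f : E → ℝ} {φ : E → E}
    (hφ : Function.Surjective φ) {r d : ℝ} (hr : 0 < r) (hf : ∀ b, f b = g (φ b) / r + d) :
    sInf (Set.range f) = sInf (Set.range g) / r + d := by
  have hne : (Set.range g).Nonempty := Set.range_nonempty g
  have hnf : (Set.range f).Nonempty := Set.range_nonempty f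
  apply le_antisymm
  · have h1 : (sInf (Set.range f) - d) * r ≤ sInf (Set.range g) := by
      apply le_csInf hne
      rintro e ⟨c, rfl⟩
      obtain ⟨b, rfl⟩ := hφ c
      have hbf : BddBelow (Set.range f) := by
        obtain ⟨m, hm⟩ := hg
        refine ⟨m / r + d, ?_⟩
        rintro e ⟨b', rfl⟩
        rw [hf]
        have : m ≤ g (φ b') := hm ⟨_, rfl⟩
        have := div_le_div_of_nonneg_right this hr.le
        linarith
      have h2 : sInf (Set.range f) ≤ f b := csInf_le hbf ⟨b, rfl⟩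
      rw [hf] at h2
      have h3 : (sInf (Set.range f) - d) ≤ g (φ b) / r := by linarith
      rwa [le_div_iff₀ hr] at h3
    have h4 := div_le_div_of_nonneg_right h1 hr.le
    rw [mul_div_assoc, div_self hr.ne', mul_one] at h4
    linarith
  · apply le_csInf hnf
    rintro e ⟨b, rfl⟩
    rw [hf]
    have h1 : sInf (Set.range g) ≤ g (φ b) := csInf_le hg ⟨_, rfl⟩
    have := div_le_div_of_nonneg_right h1 hr.le
    linarith

theorem frame_map_surj (x₀ : E) {r : ℝ} (hr : 0 < r) (u : E) :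
    Function.Surjective (fun b : E => x₀ + r • b + u) :=
  fun w => frame_surj x₀ hr u w

theorem dnM_frame' (W : E → ℝ → ℝ) {x₀ : E} {z₀ r : ℝ} (hr : 0 < r) {v : E} {a : ℝ}
    {t : ℝ} (ht : 0 < t) (y : E) (z : ℝ)
    (hb : BddBelow (Set.range fun b : E => W b (z₀ + r * z - r * t)
      + ‖b - (x₀ + r • y + (r * z) • v)‖ ^ 2 / (2 * (r * t)))) :
    dnM (frameM W x₀ z₀ r v a) t y z
      = (dnM W (r * t) (x₀ + r • y + (r * z) • v) (z₀ + r * z) - W x₀ z₀) / r - ⟪v, y⟫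
        - (‖v‖ ^ 2 / 2 + a) * z + a * t := by
  have h := sInf_affine hb (f := fun b : E => frameM W x₀ z₀ r v a b (z - t)
      + ‖b - y‖ ^ 2 / (2 * t)) (φ := fun b : E => x₀ + r • b + (r * (z - t)) • v)
    (frame_map_surj x₀ hr _) (r := r)
    (d := - W x₀ z₀ / r - ⟪v, y⟫ - (‖v‖ ^ 2 / 2 + a) * z + a * t) hr (by
      intro b
      rw [frame_move_dn W hr ht.ne' y b z]
      ring)
  unfold dnM
  rw [h]
  ring

theorem MCls.bddBelow {K : ℝ} (hK : 1 ≤ K) {W : E → ℝ → ℝ} (h : MCls K W) {t : ℝ} (ht : 0 < t)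
    (x : E) (z : ℝ) : BddBelow (Set.range fun b : E => W b z + ‖b - x‖ ^ 2 / (2 * t)) := by
  obtain ⟨C, hC⟩ := h.subQuad hK z (1 / (4 * t)) (by positivity)
  refine ⟨-C - ‖x‖ ^ 2 / (2 * t), ?_⟩
  rintro e ⟨b, rfl⟩
  have h1 := abs_le.mp (hC b)
  have h2 : ‖b‖ ^ 2 ≤ 2 * ‖b - x‖ ^ 2 + 2 * ‖x‖ ^ 2 := by
    have h3 : ‖b‖ ≤ ‖b - x‖ + ‖x‖ := by
      calc ‖b‖ = ‖(b - x) + x‖ := by rw [sub_add_cancel]
        _ ≤ ‖b - x‖ + ‖x‖ := norm_add_le _ _
    nlinarith [norm_nonneg b, norm_nonneg (b - x), norm_nonneg x, sq_nonneg (‖b - x‖ - ‖x‖)]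
  have h4 : 1 / (4 * t) * ‖b‖ ^ 2 ≤ ‖b - x‖ ^ 2 / (2 * t) + ‖x‖ ^ 2 / (2 * t) := by
    calc 1 / (4 * t) * ‖b‖ ^ 2 ≤ 1 / (4 * t) * (2 * ‖b - x‖ ^ 2 + 2 * ‖x‖ ^ 2) :=
          mul_le_mul_of_nonneg_left h2 (by positivity)
      _ = ‖b - x‖ ^ 2 / (2 * t) + ‖x‖ ^ 2 / (2 * t) := by
          field_simp
          ring
  change -C - ‖x‖ ^ 2 / (2 * t) ≤ W b z + ‖b - x‖ ^ 2 / (2 * t)
  linarith

theorem dnM_frame {K : ℝ} (hK : 1 ≤ K) {W : E → ℝ → ℝ} (h : MCls K W) {x₀ : E} {z₀ r : ℝ}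
    (hr : 0 < r) {v : E} {a : ℝ} {t : ℝ} (ht : 0 < t) (y : E) (z : ℝ) :
    dnM (frameM W x₀ z₀ r v a) t y z
      = (dnM W (r * t) (x₀ + r • y + (r * z) • v) (z₀ + r * z) - W x₀ z₀) / r - ⟪v, y⟫
        - (‖v‖ ^ 2 / 2 + a) * z + a * t :=
  dnM_frame' W hr ht y z (h.bddBelow hK (mul_pos hr ht) _ _)

theorem qmM_frame {K : ℝ} (hK : 1 ≤ K) {W : E → ℝ → ℝ} (h : MCls K W) {x₀ : E} {z₀ r : ℝ}
    (hr : 0 < r) {v : E} {a : ℝ} {t : ℝ} (ht : 0 < t) (y : E) (z : ℝ) :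
    qmM (frameM W x₀ z₀ r v a) t y z
      = qmM W (r * t) (x₀ + r • y + (r * z) • v) (z₀ + r * z) - a := by
  unfold qmM
  rw [dnM_frame hK h hr ht]
  unfold frameM
  field_simp
  ring

theorem frame_ext_real (W : E → ℝ → ℝ) {x₀ : E} {z₀ r : ℝ} (hr : 0 < r) {v : E} {a : ℝ}
    {θ : ℝ} (hθ : 0 < θ) (y b p : E) (z : ℝ) :
    frameM W x₀ z₀ r v a b z - frameM W x₀ z₀ r v a y z - ⟪p - v, b - y⟫ - ‖b - y‖ ^ 2 / (2 * θ)
      = (W (x₀ + r • b + (r * z) • v) (z₀ + r * z) - W (x₀ + r • y + (r * z) • v) (z₀ + r * z)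
        - ⟪p, (x₀ + r • b + (r * z) • v) - (x₀ + r • y + (r * z) • v)⟫
        - ‖(x₀ + r • b + (r * z) • v) - (x₀ + r • y + (r * z) • v)‖ ^ 2 / (2 * (r * θ))) / r := by
  have hr' : r ≠ 0 := hr.ne'
  have e1 : (x₀ + r • b + (r * z) • v) - (x₀ + r • y + (r * z) • v) = r • (b - y) := by
    module
  rw [e1, inner_smul_right, norm_smul, mul_pow, Real.norm_eq_abs, sq_abs, inner_sub_left]
  unfold frameM
  rw [inner_sub_right v b y]
  field_simp
  ring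

theorem ext_frame (c : ℝ) (W : E → ℝ → ℝ) {x₀ : E} {z₀ r : ℝ} (hr : 0 < r) {v : E} {a : ℝ}
    {θ : ℝ} (hθ : 0 < θ) (y : E) (z : ℝ) :
    Ext c (frameM W x₀ z₀ r v a) y z θ
      ↔ Ext c W (x₀ + r • y + (r * z) • v) (z₀ + r * z) (r * θ) := by
  constructor
  · intro h p
    obtain ⟨b, hb⟩ := h (p - v)
    rw [frame_ext_real W hr hθ y b p z, le_div_iff₀ hr] at hb
    refine ⟨x₀ + r • b + (r * z) • v, ?_⟩
    calc c * (r * θ) = c * θ * r := by ring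
      _ ≤ _ := hb
  · intro h p
    obtain ⟨b', hb'⟩ := h (p + v)
    obtain ⟨b, hb⟩ := frame_surj x₀ hr ((r * z) • v) b'
    refine ⟨b, ?_⟩
    have := frame_ext_real W hr hθ (a := a) (v := v) (x₀ := x₀) (z₀ := z₀) y b (p + v) z
    rw [add_sub_cancel_right] at this
    rw [this, le_div_iff₀ hr, hb]
    calc c * θ * r = c * (r * θ) := by ring
      _ ≤ _ := hb'

theorem extLe_frame (c : ℝ) (W : E → ℝ → ℝ) {x₀ : E} {z₀ r : ℝ} (hr : 0 < r) {v : E} {a : ℝ}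
    {θ : ℝ} (hθ : 0 < θ) (y : E) (z : ℝ) :
    ExtLe c (frameM W x₀ z₀ r v a) y z θ
      ↔ ExtLe c W (x₀ + r • y + (r * z) • v) (z₀ + r * z) (r * θ) := by
  constructor
  · rintro ⟨p, hp⟩
    refine ⟨p + v, fun b' => ?_⟩
    obtain ⟨b, hb⟩ := frame_surj x₀ hr ((r * z) • v) b'
    have h1 := hp b
    have := frame_ext_real W hr hθ (a := a) (v := v) (x₀ := x₀) (z₀ := z₀) y b (p + v) z
    rw [add_sub_cancel_right] at this
    rw [this, div_le_iff₀ hr, hb] at h1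
    calc _ ≤ c * θ * r := h1
      _ = c * (r * θ) := by ring
  · rintro ⟨p, hp⟩
    refine ⟨p - v, fun b => ?_⟩
    rw [frame_ext_real W hr hθ y b p z, div_le_iff₀ hr]
    calc _ ≤ c * (r * θ) := hp _
      _ = c * θ * r := by ring

theorem MCls.exists_frame {K : ℝ} {W : E → ℝ → ℝ} (h : MCls K W) (x₀ : E) (z₀ : ℝ) {r : ℝ}
    (hr : 0 < r) : ∃ (v : E) (s : ℝ), Adapted K W x₀ z₀ r v s ∧
      NormM K (frameM W x₀ z₀ r v (s + ‖v‖ ^ 2 / 2)) := by
  obtain ⟨v, s, hv⟩ := h.flat x₀ z₀ r hr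
  refine ⟨v, s, hv, h.frame hr, frameM_zero _ _ _ _ _ _, ?_⟩
  have h1 : Adapted K W (x₀ + r • (0 : E) + (r * (0 : ℝ)) • v) (z₀ + r * 0) (r * 1) v s := by
    simpa using hv
  have h2 := Adapted.frame hr (a := s + ‖v‖ ^ 2 / 2) (v := v) h1
  have e1 : v - v = 0 := sub_self v
  have e2 : s + ⟪v, v⟫ - ‖v‖ ^ 2 / 2 - (s + ‖v‖ ^ 2 / 2) = 0 := by
    rw [real_inner_self_eq_norm_sq]
    ring
  rwa [e1, e2] at h2

end Vale.Agent.P080
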