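import Vale.Agent.P080.MBound

open Metric Set Filter Topology
open scoped RealInnerProductSpace

namespace Vale.Agent.P080

variable {E : Type*} [NormedAddCommGroup E] [InnerProductSpace ℝ E]

theorem exists_tendsto_ball [FiniteDimensional ℝ E] (l : Ultrafilter ℕ) {b : ℕ → E} {B : ℝ}
    (hb : ∀ n, ‖b n‖ ≤ B) : ∃ x : E, ‖x‖ ≤ B ∧ Tendsto b l (𝓝 x) := by
  have hK : IsCompact (closedBall (0 : E) B) := isCompact_closedBall 0 B
  have h1 : (closedBall (0 : E) B) ∈ l.map b := by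
    rw [Ultrafilter.mem_map]
    apply Filter.univ_mem'
    intro n
    simpa using hb n
  obtain ⟨x, hx, hle⟩ := hK.ultrafilter_le_nhds (l.map b) (le_principal_iff.mpr h1)
  refine ⟨x, by simpa using hx, ?_⟩
  exact hle

theorem exists_tendsto_real (l : Ultrafilter ℕ) {b : ℕ → ℝ} {B : ℝ}
    (hb : ∀ n, |b n| ≤ B) : ∃ x : ℝ, |x| ≤ B ∧ Tendsto b l (𝓝 x) := by
  have hK : IsCompact (closedBall (0 : ℝ) B) := isCompact_closedBall 0 B
  have h1 : (closedBall (0 : ℝ) B) ∈ l.map b := by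
    rw [Ultrafilter.mem_map]
    apply Filter.univ_mem'
    intro n
    simpa using hb n
  obtain ⟨x, hx, hle⟩ := hK.ultrafilter_le_nhds (l.map b) (le_principal_iff.mpr h1)
  refine ⟨x, by simpa using hx, ?_⟩
  exact hle

theorem norm_le_of_sq {x : E} {z X : ℝ} (hX : 0 ≤ X) (h : ‖x‖ ^ 2 + z ^ 2 ≤ X ^ 2) :
    ‖x‖ ≤ X ∧ |z| ≤ X := by
  constructor
  · exact le_of_sq_le_sq (by nlinarith [sq_nonneg z]) hX
  · exact abs_le_of_sq_le_sq (by nlinarith [sq_nonneg ‖x‖]) hX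

theorem iter_pick [FiniteDimensional ℝ E] {K c : ℝ} (hK : 1 ≤ K) (hc : 0 ≤ c)
    (hB : Bnd K c E) : ∃ X₀ : ℝ, 1 ≤ X₀ ∧ ∀ V : E → ℝ → ℝ, MCls K V →
      (∃ s, Adapted K V 0 0 1 0 s) → Ext c V 0 0 1 → (∀ t, 0 < t → 0 ≤ qmM V t 0 0) →
      (∀ (x : E) (z θ w : ℝ), 0 < θ → Ext c V x z θ → (∀ t, 0 < t → w ≤ qmM V t x z) → w ≤ 0) →
      ∃ (x : E) (z : ℝ), ‖x‖ ^ 2 + z ^ 2 ≤ X₀ ^ 2 ∧ Ext c V x z 2 ∧
        ∀ t, 0 < t → 0 ≤ qmM V t x z := by
  obtain ⟨X₀, hX₀, hm⟩ := master (C' := 1) hK hc hB one_pos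
  refine ⟨X₀, hX₀, ?_⟩
  intro V hV ⟨s, hs⟩ hext hq0 hw
  by_contra hno
  push Not at hno
  have key : ∃ η : ℝ, 0 < η ∧ ∀ (x : E) (z w : ℝ), ‖x‖ ^ 2 + z ^ 2 ≤ X₀ ^ 2 → Ext c V x z 2 →
      (∀ t, 0 < t → w ≤ qmM V t x z) → w ≤ -η := by
    by_contra hk
    push Not at hk
    have h1 : ∀ n : ℕ, (0 : ℝ) < 1 / ((n : ℝ) + 1) := fun n => Nat.one_div_pos_of_nat
    choose x z w hx he hq hlt using fun n : ℕ => hk (1 / ((n : ℝ) + 1)) (h1 n)
    have hX0 : 0 ≤ X₀ := by linarith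
    set l : Ultrafilter ℕ := Ultrafilter.of atTop with hl
    have hle : (l : Filter ℕ) ≤ atTop := Ultrafilter.of_le atTop
    obtain ⟨x₀, -, hx₀⟩ := exists_tendsto_ball l (fun n => (norm_le_of_sq hX0 (hx n)).1)
    obtain ⟨z₀, -, hz₀⟩ := exists_tendsto_real l (fun n => (norm_le_of_sq hX0 (hx n)).2)
    have hlim : ‖x₀‖ ^ 2 + z₀ ^ 2 ≤ X₀ ^ 2 := by
      have h2 : Tendsto (fun n => ‖x n‖ ^ 2 + (z n) ^ 2) l (𝓝 (‖x₀‖ ^ 2 + z₀ ^ 2)) :=
        ((hx₀.norm).pow 2).add (hz₀.pow 2)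
      exact le_of_tendsto h2 (Filter.Eventually.of_forall hx)
    have htame := hV.tame
    have hconv : Conv l (fun _ => V) V := hV.conv_const hK l
    have hext' : Ext c V x₀ z₀ 2 :=
      Conv.ext hK htame hconv (θ := fun _ => 2) (by norm_num) hx₀ hz₀ tendsto_const_nhds
        (Filter.Eventually.of_forall he)
    obtain ⟨t, ht, hneg⟩ := hno x₀ z₀ hlim hext'
    have h3 := Conv.qm hK htame hV hconv ht hx₀ hz₀ (tendsto_const_nhds (x := t))
    have h4 : Tendsto (fun n : ℕ => -(1 / ((n : ℝ) + 1))) l (𝓝 0) := by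
      have := (tendsto_one_div_add_atTop_nhds_zero_nat (𝕜 := ℝ)).neg
      rw [neg_zero] at this
      exact this.mono_left hle
    have h5 : (0 : ℝ) ≤ qmM V t x₀ z₀ := by
      apply le_of_tendsto_of_tendsto h4 h3
      apply Filter.Eventually.of_forall
      intro n
      exact (hlt n).le.trans (hq n t ht)
    linarith
  obtain ⟨η, hη, hηw⟩ := key
  have hε : 0 < min 1 (η / 2) := lt_min one_pos (by linarith)
  have hε1 : min 1 (η / 2) ≤ 1 := min_le_left _ _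
  have hε2 : min 1 (η / 2) ≤ η / 2 := min_le_right _ _
  set ε := min 1 (η / 2) with hεdef
  refine hm V s ε (-ε) hV hs hext hq0 hε hε1 ?_ ?_
  · intro x z θ w _ hθ1 hθ2 he hq
    have h1 := hw x z θ w (by linarith) he hq
    have h2 : -ε * (θ - 1) ≥ -ε := by nlinarith
    have h3 : (θ - 1) ^ 2 ≤ 1 := by nlinarith
    nlinarith
  · intro x z θ w hxz hθ he hq
    rcases hθ with hθ | hθ
    · have h1 := hw x z θ w (by linarith) he hq
      rw [hθ]
      nlinarith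
    · rw [hθ] at he ⊢
      have h1 := hηw x z w hxz he hq
      nlinarith

structure IterP (K c q X₀ B : ℝ) (V : E → ℝ → ℝ) (b : E) (e : ℝ) : Prop where
  cls : MCls K V
  ad : ∃ s, Adapted K V 0 0 1 0 s
  ext : Ext c V 0 0 1
  nn : ∀ t, 0 < t → 0 ≤ qmM V t 0 0
  zero : V 0 0 = 0
  hb : ‖b‖ ≤ B
  he : |e| ≤ X₀
  le : ∀ t, 0 < t → qmM V t b e ≤ q

theorem iter_step [FiniteDimensional ℝ E] {K c : ℝ} (hK : 1 ≤ K) (hc : 0 ≤ c)
    (hB : Bnd K c E) : ∃ X₀ B : ℝ, 0 ≤ X₀ ∧ 0 ≤ B ∧ ∀ (q : ℝ),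
      (∀ (W : E → ℝ → ℝ) (x : E) (z θ w q' : ℝ), MCls K W → 0 < θ → Ext c W x z θ →
        (∀ t, 0 < t → w ≤ qmM W t x z) → (∀ t, 0 < t → qmM W t x z ≤ q') → q + w ≤ q') →
      ∀ (V : E → ℝ → ℝ) (b : E) (e : ℝ), IterP K c q X₀ B V b e →
      ∃ (V' : E → ℝ → ℝ) (b' : E) (e' : ℝ), IterP K c q X₀ B V' b' e' ∧
        ∀ t, 0 < t → qmM V' t b' e' = qmM V (2 * t) b e := by
  obtain ⟨X₀, hX₀, hpick⟩ := iter_pick (E := E) hK hc hB
  obtain ⟨C, hC, hfar⟩ := MCls.far (E := E) hK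
  have hX0 : 0 ≤ X₀ := by linarith
  have hlog : 0 ≤ Real.log (2 * X₀) := Real.log_nonneg (by linarith)
  set Cv := C * (1 + Real.log (2 * X₀)) with hCv
  have hCv0 : 0 ≤ Cv := by positivity
  refine ⟨X₀, X₀ + 2 * X₀ * Cv, hX0, by positivity, ?_⟩
  intro q hmin V b e hP
  have hle : ∀ (x : E) (z t : ℝ), 0 < t → qmM V t x z ≤ q := by
    intro x z t ht
    exact base_le hK hP.cls hP.le x z ht
  obtain ⟨x, z, hxz, hext, hnn⟩ := hpick V hP.cls hP.ad hP.ext hP.nn (by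
    intro x z θ w hθ he hw
    have := hmin V x z θ w q hP.cls hθ he hw (fun t ht => hle x z t ht)
    linarith)
  obtain ⟨hx, hz⟩ := norm_le_of_sq hX0 hxz
  obtain ⟨v, s', hv⟩ := hP.cls.flat x z 2 (by norm_num)
  obtain ⟨s, hs⟩ := hP.ad
  have hvb : ‖v‖ ≤ Cv := by
    have := (hfar V hP.cls 0 x 0 v 0 z 1 2 s s' (2 * X₀) one_pos (by norm_num) (by linarith)
      (by linarith) (by linarith) (by rw [sub_zero]; linarith) (by
        rw [smul_zero, sub_zero, sub_zero]; linarith) hs hv).1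
    rwa [sub_zero] at this
  refine ⟨frameM V x z 2 v 0, (1 / 2 : ℝ) • (b - x) - ((e - z) / 2) • v, (e - z) / 2, ?_, ?_⟩
  · have hq : ∀ t, 0 < t → qmM (frameM V x z 2 v 0) t ((1 / 2 : ℝ) • (b - x) - ((e - z) / 2) • v)
        ((e - z) / 2) = qmM V (2 * t) b e := by
      intro t ht
      rw [qmM_frame hK hP.cls (by norm_num) ht, sub_zero]
      congr 1
      · module
      · ring
    refine ⟨hP.cls.frame (by norm_num), ?_, ?_, ?_, frameM_zero _ _ _ _ _ _, ?_, ?_, ?_⟩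
    · have h1 : Adapted K V (x + (2 : ℝ) • (0 : E) + ((2 : ℝ) * (0 : ℝ)) • v) (z + 2 * 0) (2 * 1)
          v s' := by simpa using hv
      have h2 := Adapted.frame (by norm_num) (a := 0) (v := v) h1
      rw [sub_self] at h2
      exact ⟨_, h2⟩
    · rw [ext_frame c V (by norm_num) one_pos]
      simpa using hext
    · intro t ht
      rw [qmM_frame hK hP.cls (by norm_num) ht]
      simpa using hnn (2 * t) (by linarith)
    · have h1 : |e - z| ≤ 2 * X₀ := by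
        have := abs_sub e z
        linarith [hP.he]
      have h2 : ‖((e - z) / 2) • v‖ ≤ X₀ * Cv := by
        rw [norm_smul, Real.norm_eq_abs, abs_div, abs_two]
        apply mul_le_mul (by linarith) hvb (norm_nonneg _) hX0
      have h3 : ‖(1 / 2 : ℝ) • (b - x)‖ ≤ (1 / 2) * (X₀ + 2 * X₀ * Cv + X₀) := by
        rw [norm_smul, Real.norm_eq_abs, abs_of_pos (by norm_num : (0 : ℝ) < 1 / 2)]
        apply mul_le_mul_of_nonneg_left _ (by norm_num)
        exact (norm_sub_le b x).trans (add_le_add hP.hb hx)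
      refine (norm_sub_le _ _).trans ?_
      linarith
    · rw [abs_div, abs_two]
      have := abs_sub e z
      linarith [hP.he]
    · intro t ht
      rw [hq t ht]
      exact hP.le (2 * t) (by linarith)
  · intro t ht
    rw [qmM_frame hK hP.cls (by norm_num) ht, sub_zero]
    congr 1
    · module
    · ring

theorem exists_rigid [FiniteDimensional ℝ E] {K c : ℝ} (hK : 1 ≤ K) (hc : 0 ≤ c)
    (hB : Bnd K c E) (hne : ∃ W : E → ℝ → ℝ, NormM K W ∧ Ext c W 0 0 1) :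
    ∃ (q : ℝ) (U : E → ℝ → ℝ), MCls K U ∧ Ext c U 0 0 1 ∧
      (∀ (x : E) (z t : ℝ), 0 < t → qmM U t x z ≤ q) ∧ ∃ (x : E) (z : ℝ), q ≤ qmM U 1 x z := by
  obtain ⟨q, V, hV, hext, hnn, hle, hmin⟩ := exists_min hK hc hB hne
  obtain ⟨X₀, B, hX0, hB0, hstep⟩ := iter_step (E := E) hK hc hB
  -- the starting point
  obtain ⟨v, s, hv⟩ := hV.flat 0 0 1 one_pos
  have hq1 : ∀ t, 0 < t → qmM (frameM V 0 0 1 v 0) t 0 0 = qmM V t 0 0 := by
    intro t ht
    rw [qmM_frame hK hV one_pos ht]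
    simp
  have hP0 : IterP K c q X₀ B (frameM V 0 0 1 v 0) 0 0 := by
    refine ⟨hV.frame one_pos, ?_, ?_, ?_, frameM_zero _ _ _ _ _ _, by simpa using hB0,
      by simpa using hX0, ?_⟩
    · have h1 : Adapted K V (0 + (1 : ℝ) • (0 : E) + ((1 : ℝ) * (0 : ℝ)) • v) (0 + 1 * 0) (1 * 1)
          v s := by simpa using hv
      have h2 := Adapted.frame one_pos (a := 0) (v := v) h1
      rw [sub_self] at h2
      exact ⟨_, h2⟩
    · rw [ext_frame c V one_pos one_pos]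
      simpa using hext
    · intro t ht
      rw [hq1 t ht]
      exact hnn t ht
    · intro t ht
      rw [hq1 t ht]
      exact hle t ht
  -- the sequence
  have hseq : ∃ f : ℕ → (E → ℝ → ℝ) × E × ℝ,
      (f 0).2.1 = 0 ∧ (f 0).2.2 = 0 ∧
      (∀ n, IterP K c q X₀ B (f n).1 (f n).2.1 (f n).2.2) ∧
      (∀ n t, 0 < t → qmM (f (n + 1)).1 t (f (n + 1)).2.1 (f (n + 1)).2.2
        = qmM (f n).1 (2 * t) (f n).2.1 (f n).2.2) := by
    have hex : ∀ p : {p : (E → ℝ → ℝ) × E × ℝ // IterP K c q X₀ B p.1 p.2.1 p.2.2},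
        ∃ p' : {p : (E → ℝ → ℝ) × E × ℝ // IterP K c q X₀ B p.1 p.2.1 p.2.2},
          ∀ t, 0 < t → qmM p'.1.1 t p'.1.2.1 p'.1.2.2 = qmM p.1.1 (2 * t) p.1.2.1 p.1.2.2 := by
      rintro ⟨⟨V, b, e⟩, hp⟩
      obtain ⟨V', b', e', hp', hq'⟩ := hstep q hmin V b e hp
      exact ⟨⟨⟨V', b', e'⟩, hp'⟩, hq'⟩
    choose g hg using hex
    refine ⟨fun n => (g^[n] ⟨⟨frameM V 0 0 1 v 0, 0, 0⟩, hP0⟩).1, rfl, rfl,
      fun n => (g^[n] _).2, ?_⟩
    intro n t ht
    change qmM (g^[n + 1] _).1.1 t (g^[n + 1] _).1.2.1 (g^[n + 1] _).1.2.2 = _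
    rw [Function.iterate_succ_apply']
    exact hg _ t ht
  obtain ⟨f, hf1, hf2, hf, hfs⟩ := hseq
  have hpow : ∀ n t, 0 < t → qmM (f n).1 t (f n).2.1 (f n).2.2
      = qmM (f 0).1 (2 ^ n * t) (f 0).2.1 (f 0).2.2 := by
    intro n
    induction n with
    | zero => intro t _; rw [pow_zero, one_mul]
    | succ n ih =>
      intro t ht
      rw [hfs n t ht, ih (2 * t) (by linarith)]
      congr 1
      ring
  have hle' : ∀ n (x : E) (z t : ℝ), 0 < t → qmM (f n).1 t x z ≤ q := by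
    intro n x z t ht
    exact base_le hK (hf n).cls (hf n).le x z ht
  obtain ⟨C, hC, hloc⟩ := MCls.dn_loc (E := E) hK
  have htame : Tame K (fun n => (f n).1) := by
    refine ⟨fun n => (hf n).cls, C + |q|, fun n => ⟨?_, ?_⟩⟩
    · change |(f n).1 0 0| ≤ C + |q|
      rw [(hf n).zero, abs_zero]
      positivity
    · obtain ⟨s, hs⟩ := (hf n).ad
      refine ⟨0, s, hs, ?_, ?_⟩
      · rw [norm_zero]
        positivity
      · have h1 := (hloc (f n).1 (hf n).cls 0 0 0 1 s one_pos hs).1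
        have h2 := (hf n).nn 1 one_pos
        have h3 := hle' n 0 0 1 one_pos
        rw [norm_zero] at h1
        have h4 := abs_le.mp h1
        have h5 := le_abs_self q
        have h6 := abs_nonneg q
        rw [abs_le]
        constructor <;> nlinarith
  set l : Ultrafilter ℕ := Ultrafilter.of atTop with hl
  have hlt : (l : Filter ℕ) ≤ atTop := Ultrafilter.of_le atTop
  obtain ⟨U, hU, hconv⟩ := htame.exists_limit hK l
  obtain ⟨b, -, hb⟩ := exists_tendsto_ball l (fun n => (hf n).hb)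
  obtain ⟨e, -, he⟩ := exists_tendsto_real l (fun n => (hf n).he)
  refine ⟨q, U, hU, ?_, ?_, b, e, ?_⟩
  · exact Conv.ext hK htame hconv (x := fun _ => 0) (z := fun _ => 0) (θ := fun _ => 1) one_pos
      tendsto_const_nhds tendsto_const_nhds tendsto_const_nhds
      (Filter.Eventually.of_forall fun n => (hf n).ext)
  · intro x z t ht
    have h1 := Conv.qm hK htame hU hconv ht (tendsto_const_nhds (x := x))
      (tendsto_const_nhds (x := z)) (tendsto_const_nhds (x := t))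
    exact le_of_tendsto h1 (Filter.Eventually.of_forall fun n => hle' n x z t ht)
  · have h1 := Conv.qm hK htame hU hconv one_pos hb he (tendsto_const_nhds (x := (1 : ℝ)))
    have h2 : ∀ t, 0 < t → qmM (f 0).1 t 0 0 ≤ qmM U 1 b e := by
      intro t ht
      apply ge_of_tendsto h1
      obtain ⟨N, hN⟩ := pow_unbounded_of_one_lt t (by norm_num : (1 : ℝ) < 2)
      have hev : ∀ᶠ n in (atTop : Filter ℕ), qmM (f 0).1 t 0 0
          ≤ qmM (f n).1 1 (f n).2.1 (f n).2.2 := by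
        filter_upwards [Filter.eventually_ge_atTop N] with n hn
        rw [hpow n 1 one_pos, hf1, hf2, mul_one]
        apply (hf 0).cls.qm_mono hK ht
        exact hN.le.trans (pow_le_pow_right₀ (by norm_num) hn)
      exact hev.filter_mono hlt
    have h3 := hmin (f 0).1 0 0 1 0 (qmM U 1 b e) (hf 0).cls one_pos (hf 0).ext (hf 0).nn h2
    linarith

end Vale.Agent.P080
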