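import Vale.Agent.P080.MMaster2
import Vale.Agent.P080.MBase

open Metric Set Filter Topology
open scoped RealInnerProductSpace

namespace Vale.Agent.P080

variable {E : Type*} [NormedAddCommGroup E] [InnerProductSpace ℝ E]

theorem master_seq [FiniteDimensional ℝ E] {K c : ℝ} (hK : 1 ≤ K)
    (hB : Bnd K c E) {W : E → ℝ → ℝ} (hW : MCls K W) (hext : Ext c W 0 0 1)
    (hqm : ∀ t, 0 < t → 0 ≤ qmM W t 0 0) (b β g : ℝ) {X : ℝ} (hX : 1 ≤ X)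
    {t : ℕ → ℝ} (ht : ∀ n, 0 < t n) (ht1 : ∀ n, t n ≤ 1) :
    ∃ (x : ℕ → E) (z θ : ℕ → ℝ) (Y : ℕ → E) (C : ℝ), 0 < C ∧
      (∀ n, ‖x n‖ ^ 2 + z n ^ 2 ≤ X ^ 2) ∧ (∀ n, 1 / 2 ≤ θ n ∧ θ n ≤ 2) ∧
      (∀ n, ∀ (x' : E) (z' θ' : ℝ) (Y' : E), ‖x'‖ ^ 2 + z' ^ 2 ≤ X ^ 2 → 1 / 2 ≤ θ' → θ' ≤ 2 →
        ValM (upM W (t n ^ 4)) (dnM W (t n ^ 4)) (t n) c b β g x' z' θ' Y'
          ≤ ValM (upM W (t n ^ 4)) (dnM W (t n ^ 4)) (t n) c b β g (x n) (z n) (θ n) (Y n)) ∧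
      (∀ n, t n * (b * (θ n - 1) - β * (θ n - 1) ^ 2 + g * (‖x n‖ ^ 2 + z n ^ 2))
          - C * t n ^ 2 - c * t n ^ 4
        ≤ (t n + t n ^ 4) * qmM W (t n + t n ^ 4) (x n) (z n)) ∧
      (∀ n, -(C * t n ^ 2) + dnM W (t n + t n ^ 4) (x n) (z n) + c * θ n
          + t n * (b * (θ n - 1) - β * (θ n - 1) ^ 2 + g * (‖x n‖ ^ 2 + z n ^ 2))
        ≤ Ez (fun y => upM W (t n ^ 4) y (z n)) (x n) (θ n)) := by
  have hX0 : 0 ≤ X := by linarith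
  have hsq : ∀ n : ℕ, √(t n ^ 4) = t n ^ 2 := fun n => by
    have : t n ^ 4 = (t n ^ 2) ^ 2 := by ring
    rw [this, Real.sqrt_sq (by positivity)]
  have he : ∀ n : ℕ, 0 < t n ^ 4 := fun n => pow_pos (ht n) 4
  have he1 : ∀ n : ℕ, t n ^ 4 ≤ 1 := fun n => pow_le_one₀ (ht n).le (ht1 n)
  obtain ⟨C₁, hC₁, hlow⟩ := master_lower (c := c) hK hW hext hqm
  obtain ⟨C₂, hC₂, hsm⟩ := hW.small hK X
  have hex : ∀ n : ℕ, ∃ (x : E) (z θ : ℝ) (Y : E), ‖x‖ ^ 2 + z ^ 2 ≤ X ^ 2 ∧ 1 / 2 ≤ θ ∧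
      θ ≤ 2 ∧ ∀ (x' : E) (z' θ' : ℝ) (Y' : E), ‖x'‖ ^ 2 + z' ^ 2 ≤ X ^ 2 → 1 / 2 ≤ θ' → θ' ≤ 2 →
        ValM (upM W (t n ^ 4)) (dnM W (t n ^ 4)) (t n) c b β g x' z' θ' Y'
          ≤ ValM (upM W (t n ^ 4)) (dnM W (t n ^ 4)) (t n) c b β g x z θ Y := by
    intro n
    refine exists_maxVal (R := X + 1) (ht n) hX0 (by linarith [ht1 n])
      (hW.up_continuous hK (he n)) (hW.dn_continuous hK (he n)) ?_ ?_
    · intro δ hδ
      obtain ⟨C, -, hC⟩ := hW.ops_growth hK (X + 1) hδ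
      exact ⟨C, fun A z hz => (hC _ A z (he n) (he1 n) hz).1⟩
    · intro δ hδ
      obtain ⟨C, -, hC⟩ := hW.ops_growth hK (X + 1) hδ
      exact ⟨C, fun A z hz => (hC _ A z (he n) (he1 n) hz).2⟩
  choose x z θ Y hxz hθ1 hθ2 hmax using hex
  have hreg : ∀ n, ‖x n‖ ≤ X ∧ |z n| ≤ X := by
    intro n
    have h := hxz n
    exact ⟨(le_abs_self _).trans (abs_le_of_sq_le_sq (by nlinarith [sq_nonneg (z n)]) hX0),
      abs_le_of_sq_le_sq (by nlinarith [sq_nonneg ‖x n‖]) hX0⟩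
  have hup : ∀ n : ℕ, t n * (b * (θ n - 1) - β * (θ n - 1) ^ 2 + g * (‖x n‖ ^ 2 + z n ^ 2))
        - (C₁ + C₂) * √(t n ^ 4) - c * t n ^ 4
      ≤ (t n + t n ^ 4) * qmM W (t n + t n ^ 4) (x n) (z n) ∧
    -(C₁ * √(t n ^ 4)) + dnM W (t n + t n ^ 4) (x n) (z n) + c * θ n
      + t n * (b * (θ n - 1) - β * (θ n - 1) ^ 2 + g * (‖x n‖ ^ 2 + z n ^ 2))
      ≤ Ez (fun y => upM W (t n ^ 4) y (z n)) (x n) (θ n) := by
    intro n
    obtain ⟨Y₀, hY₀⟩ := hlow (t n) (t n ^ 4) b β g (ht n) (he n) (he1 n)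
    have h1 := hmax n 0 0 1 Y₀ (by simp; positivity) (by norm_num) (by norm_num)
    exact master_upper hK hB hW (ht n) (he n) (he1 n) (show (0 : ℝ) < θ n by linarith [hθ1 n])
      (hsm _ (x n) (z n) (he n) (he1 n) (hreg n).1 (hreg n).2).1 (hY₀.trans h1)
  refine ⟨x, z, θ, Y, C₁ + C₂, by positivity, hxz, fun n => ⟨hθ1 n, hθ2 n⟩, hmax, ?_, ?_⟩
  · intro n
    have := (hup n).1
    rwa [hsq n] at this
  · intro n
    have := (hup n).2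
    rw [hsq n] at this
    have h2 : 0 ≤ C₂ * t n ^ 2 := by positivity
    linarith

theorem qm_continuous [FiniteDimensional ℝ E] {K : ℝ} (hK : 1 ≤ K) {W : E → ℝ → ℝ}
    (hW : MCls K W) {t : ℝ} (ht : 0 < t) {l : Filter ℕ} {x : ℕ → E} {z : ℕ → ℝ} {x₀ : E} {z₀ : ℝ}
    (hx : Tendsto x l (𝓝 x₀)) (hz : Tendsto z l (𝓝 z₀)) :
    Tendsto (fun n => qmM W t (x n) (z n)) l (𝓝 (qmM W t x₀ z₀)) :=
  ((((hW.continuous hK).tendsto (x₀, z₀)).comp (hx.prodMk_nhds hz)).sub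
    (((hW.dn_continuous hK ht).tendsto (x₀, z₀)).comp (hx.prodMk_nhds hz))).div_const t

theorem limit_qm [FiniteDimensional ℝ E] {K c C : ℝ} (hK : 1 ≤ K) {W : E → ℝ → ℝ}
    (hW : MCls K W) {l : Filter ℕ} [NeBot l] {t : ℕ → ℝ} (ht : ∀ n, 0 < t n)
    (ht0 : Tendsto t l (𝓝 0)) {x : ℕ → E} {z Φ : ℕ → ℝ} {x₀ : E} {z₀ Φ₀ : ℝ}
    (hx : Tendsto x l (𝓝 x₀)) (hz : Tendsto z l (𝓝 z₀)) (hΦ : Tendsto Φ l (𝓝 Φ₀))
    (h : ∀ n, t n * Φ n - C * t n ^ 2 - c * t n ^ 4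
      ≤ (t n + t n ^ 4) * qmM W (t n + t n ^ 4) (x n) (z n)) {s : ℝ} (hs : 0 < s) :
    Φ₀ ≤ qmM W s x₀ z₀ := by
  have h1 : Tendsto (fun n => (Φ n - C * t n - c * t n ^ 3) / (1 + t n ^ 3)) l (𝓝 Φ₀) := by
    have e : Φ₀ = (Φ₀ - C * 0 - c * 0 ^ 3) / (1 + 0 ^ 3) := by norm_num
    rw [e]
    exact ((hΦ.sub (ht0.const_mul C)).sub ((ht0.pow 3).const_mul c)).div
      ((ht0.pow 3).const_add 1) (by norm_num)
  have h2 : Tendsto (fun n => t n + t n ^ 4) l (𝓝 0) := by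
    have := ht0.add (ht0.pow 4)
    simpa using this
  refine le_of_tendsto_of_tendsto h1 (qm_continuous hK hW hs hx hz) ?_
  filter_upwards [h2.eventually_lt_const hs] with n hn
  have h3 : 0 < t n + t n ^ 4 := by
    have := ht n
    positivity
  have h4 := hW.qm_mono hK h3 hn.le (x n) (z n)
  refine le_trans ?_ h4
  have h5 := h n
  have h6 : 0 < 1 + t n ^ 3 := by
    have := ht n
    positivity
  rw [div_le_iff₀ h6]
  have h7 : t n * (Φ n - C * t n - c * t n ^ 3)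
      ≤ t n * (qmM W (t n + t n ^ 4) (x n) (z n) * (1 + t n ^ 3)) := by
    have e1 : t n * (Φ n - C * t n - c * t n ^ 3) = t n * Φ n - C * t n ^ 2 - c * t n ^ 4 := by
      ring
    rw [e1]
    refine h5.trans (le_of_eq ?_)
    ring
  exact le_of_mul_le_mul_left h7 (ht n)

theorem limit_ext [FiniteDimensional ℝ E] {K c C : ℝ} (hK : 1 ≤ K) {W : E → ℝ → ℝ}
    (hW : MCls K W) {l : Ultrafilter ℕ} (hl : (l : Filter ℕ) ≤ atTop) {t : ℕ → ℝ}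
    (ht : ∀ n, 0 < t n) (ht1 : ∀ n, t n ≤ 1 / 2) (ht0 : Tendsto t l (𝓝 0)) {X : ℝ}
    {x : ℕ → E} {z θ Φ : ℕ → ℝ} {x₀ : E} {z₀ θ₀ Φ₀ : ℝ} (hθ₀ : 0 < θ₀)
    (hxz : ∀ n, ‖x n‖ ≤ X ∧ |z n| ≤ X)
    (hx : Tendsto x l (𝓝 x₀)) (hz : Tendsto z l (𝓝 z₀)) (hθ : Tendsto θ l (𝓝 θ₀))
    (hΦ : Tendsto Φ l (𝓝 Φ₀))
    (h : ∀ n, -(C * t n ^ 2) + dnM W (t n + t n ^ 4) (x n) (z n) + c * θ n + t n * Φ n
        ≤ Ez (fun y => upM W (t n ^ 4) y (z n)) (x n) (θ n)) : Ext c W x₀ z₀ θ₀ := by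
  have he : ∀ n : ℕ, 0 < t n ^ 4 := fun n => pow_pos (ht n) 4
  have he1 : ∀ n : ℕ, t n ^ 4 ≤ 1 / 2 := fun n => by
    have h1 : t n ^ 4 ≤ (1 / 2) ^ 4 := pow_le_pow_left₀ (ht n).le (ht1 n) 4
    norm_num at h1 ⊢
    linarith
  have hsq : ∀ n : ℕ, √(t n ^ 4) = t n ^ 2 := fun n => by
    have : t n ^ 4 = (t n ^ 2) ^ 2 := by ring
    rw [this, Real.sqrt_sq (by positivity)]
  have hWl : Tendsto (fun n => W (x n) (z n)) l (𝓝 (W x₀ z₀)) :=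
    ((hW.continuous hK).tendsto (x₀, z₀)).comp (hx.prodMk_nhds hz)
  have h2 : Tendsto (fun n => t n + t n ^ 4) l (𝓝 0) := by
    have := ht0.add (ht0.pow 4)
    simpa using this
  have hdn : Tendsto (fun n => dnM W (t n + t n ^ 4) (x n) (z n)) l (𝓝 (W x₀ z₀)) := by
    obtain ⟨C', -, hC'⟩ := hW.small hK X
    have h3 : Tendsto (fun n => C' * √(t n + t n ^ 4)) l (𝓝 0) := by
      have := (h2.sqrt).const_mul C'
      simpa using this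
    have h4 : Tendsto (fun n => dnM W (t n + t n ^ 4) (x n) (z n) - W (x n) (z n)) l (𝓝 0) := by
      refine squeeze_zero_norm (fun n => ?_) h3
      rw [Real.norm_eq_abs]
      exact (hC' _ (x n) (z n) (by have := ht n; positivity) (by linarith [ht1 n, he1 n])
        (hxz n).1 (hxz n).2).2
    have := h4.add hWl
    simpa using this
  have hE : Tendsto (fun n => -(C * t n ^ 2) + dnM W (t n + t n ^ 4) (x n) (z n) + c * θ n
      + t n * Φ n) l (𝓝 (W x₀ z₀ + c * θ₀)) := by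
    have := (((((ht0.pow 2).const_mul C).neg).add hdn).add (hθ.const_mul c)).add (ht0.mul hΦ)
    simpa using this
  intro p
  have hus := Ez_usc (g := fun n y => upM W (t n ^ 4) y (z n)) (g₀ := fun y => W y z₀) hl
    (fun δ hδ => by
      obtain ⟨C, -, hC⟩ := hW.ops_growth hK X hδ
      exact ⟨C, fun n A => (hC _ A (z n) (he n) (by linarith [he1 n]) (hxz n).2).1⟩)
    (fun A A₀ hA => by
      have hWA : Tendsto (fun n => W (A n) (z n)) l (𝓝 (W A₀ z₀)) :=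
        ((hW.continuous hK).tendsto (A₀, z₀)).comp (hA.prodMk_nhds hz)
      obtain ⟨C', -, hC'⟩ := hW.small hK (max X (‖A₀‖ + 1))
      have h3 : Tendsto (fun n => C' * √(t n ^ 4)) l (𝓝 0) := by
        have := (ht0.pow 4).sqrt.const_mul C'
        simpa using this
      have h4 : Tendsto (fun n => upM W (t n ^ 4) (A n) (z n) - W (A n) (z n)) l (𝓝 0) := by
        refine squeeze_zero_norm' ?_ h3
        filter_upwards [hA.norm.eventually_lt_const (show ‖A₀‖ < ‖A₀‖ + 1 by linarith)]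
          with n hn
        rw [Real.norm_eq_abs]
        exact (hC' _ (A n) (z n) (he n) (by linarith [he1 n])
          (hn.le.trans (le_max_right _ _)) ((hxz n).2.trans (le_max_left _ _))).1
      have := h4.add hWA
      simpa using this)
    hθ₀ hx hθ hE h p
  obtain ⟨A, hA⟩ := hus
  exact ⟨A, by linarith⟩

theorem master [FiniteDimensional ℝ E] {K c C' : ℝ} (hK : 1 ≤ K) (hc : 0 ≤ c)
    (hB : Bnd K c E) (hC' : 0 < C') : ∃ X₀ : ℝ, 1 ≤ X₀ ∧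
    ∀ (W : E → ℝ → ℝ) (s ε b : ℝ), MCls K W → Adapted K W 0 0 1 0 s → Ext c W 0 0 1 →
      (∀ t, 0 < t → 0 ≤ qmM W t 0 0) → 0 < ε → ε ≤ C' →
      (∀ (x : E) (z θ w : ℝ), ‖x‖ ^ 2 + z ^ 2 ≤ X₀ ^ 2 → 1 / 2 ≤ θ → θ ≤ 2 → Ext c W x z θ →
        (∀ t, 0 < t → w ≤ qmM W t x z) → w ≤ b * (θ - 1) - ε / 20 * (θ - 1) ^ 2 + 3 * ε) →
      (∀ (x : E) (z θ w : ℝ), ‖x‖ ^ 2 + z ^ 2 ≤ X₀ ^ 2 → (θ = 1 / 2 ∨ θ = 2) → Ext c W x z θ →
        (∀ t, 0 < t → w ≤ qmM W t x z) → w < b * (θ - 1) - ε / 20 * (θ - 1) ^ 2) → False := by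
  obtain ⟨CF, hCF, hfar⟩ := MCls.far (E := E) hK
  obtain ⟨X, hX, hXbig⟩ := exists_large (A := CF) (B := K + 3 * c + 3) (D := C') hCF.le
    (by linarith) hC'.le
  refine ⟨X, hX, ?_⟩
  intro W s ε b hW had hext hqm hε hεC h1 h2
  have hX0 : 0 < X := by linarith
  set g : ℝ := 4 * ε / X ^ 2 with hg
  have hg0 : 0 ≤ g := by positivity
  have hgX : g * X ^ 2 = 4 * ε := by rw [hg]; field_simp
  set t : ℕ → ℝ := fun n => 1 / ((n : ℝ) + 2) with ht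
  have htp : ∀ n, 0 < t n := fun n => by simp only [ht]; positivity
  have ht1 : ∀ n, t n ≤ 1 / 2 := fun n => by
    simp only [ht]
    apply one_div_le_one_div_of_le (by norm_num)
    linarith [Nat.cast_nonneg (α := ℝ) n]
  obtain ⟨x, z, θ, Y, C, hC, hxz, hθ, hmax, hq, hE⟩ := master_seq (b := b) (β := ε / 20) (g := g)
    hK hB hW hext hqm hX htp (fun n => (ht1 n).trans (by norm_num))
  have hreg : ∀ n, ‖x n‖ ≤ X ∧ |z n| ≤ X := by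
    intro n
    have h := hxz n
    exact ⟨(le_abs_self _).trans (abs_le_of_sq_le_sq (by nlinarith [sq_nonneg (z n)]) hX0.le),
      abs_le_of_sq_le_sq (by nlinarith [sq_nonneg ‖x n‖]) hX0.le⟩
  set l : Ultrafilter ℕ := hyperfilter ℕ with hl
  have hlt : (l : Filter ℕ) ≤ atTop := Nat.hyperfilter_le_atTop
  have ht0 : Tendsto t l (𝓝 0) := by
    have h3 : Tendsto (fun n : ℕ => (n : ℝ) + 2) atTop atTop :=
      tendsto_atTop_add_const_right _ _ tendsto_natCast_atTop_atTop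
    have h4 := h3.inv_tendsto_atTop
    refine Tendsto.mono_left ?_ hlt
    refine h4.congr fun n => ?_
    simp [ht]
  obtain ⟨x₀, -, hx₀⟩ := exists_tendsto_of_bdd l (a := x) (R := X)
    (Eventually.of_forall fun n => (hreg n).1)
  obtain ⟨z₀, -, hz₀⟩ := exists_tendsto_of_bdd l (a := z) (R := X)
    (Eventually.of_forall fun n => (hreg n).2)
  obtain ⟨θ₀, -, hθ₀⟩ := exists_tendsto_of_bdd l (a := θ) (R := 2)
    (Eventually.of_forall fun n => by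
      rw [Real.norm_eq_abs]
      exact abs_le.2 ⟨by linarith [(hθ n).1], (hθ n).2⟩)
  have hθ₀1 : 1 / 2 ≤ θ₀ := ge_of_tendsto' hθ₀ fun n => (hθ n).1
  have hθ₀2 : θ₀ ≤ 2 := le_of_tendsto' hθ₀ fun n => (hθ n).2
  have hxz₀ : ‖x₀‖ ^ 2 + z₀ ^ 2 ≤ X ^ 2 :=
    le_of_tendsto' ((hx₀.norm.pow 2).add (hz₀.pow 2)) hxz
  have hΦ : Tendsto (fun n => b * (θ n - 1) - ε / 20 * (θ n - 1) ^ 2
      + g * (‖x n‖ ^ 2 + z n ^ 2)) l
      (𝓝 (b * (θ₀ - 1) - ε / 20 * (θ₀ - 1) ^ 2 + g * (‖x₀‖ ^ 2 + z₀ ^ 2))) :=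
    (((hθ₀.sub_const 1).const_mul b).sub (((hθ₀.sub_const 1).pow 2).const_mul (ε / 20))).add
        (((hx₀.norm.pow 2).add (hz₀.pow 2)).const_mul g)
  have hlim := fun (s : ℝ) (hs : 0 < s) =>
    limit_qm hK hW htp ht0 hx₀ hz₀ hΦ hq hs
  have hextl := limit_ext hK hW hlt htp ht1 ht0 (show (0 : ℝ) < θ₀ by linarith) hreg hx₀ hz₀
    hθ₀ hΦ hE
  have i1 : ‖x₀‖ ^ 2 + z₀ ^ 2 < X ^ 2 := by
    rcases hxz₀.lt_or_eq with h | h
    · exact h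
    · exfalso
      have h3 := h1 x₀ z₀ θ₀ _ hxz₀ hθ₀1 hθ₀2 hextl hlim
      rw [h, hgX] at h3
      linarith
  have hpos : 0 ≤ g * (‖x₀‖ ^ 2 + z₀ ^ 2) := by positivity
  have i2 : 1 / 2 < θ₀ := by
    rcases hθ₀1.lt_or_eq with h | h
    · exact h
    · exfalso
      have h3 := h2 x₀ z₀ θ₀ _ hxz₀ (Or.inl h.symm) hextl hlim
      linarith
  have i3 : θ₀ < 2 := by
    rcases hθ₀2.lt_or_eq with h | h
    · exact h
    · exfalso
      have h3 := h2 x₀ z₀ θ₀ _ hxz₀ (Or.inr h) hextl hlim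
      linarith
  obtain ⟨C₃, hC₃, hsm⟩ := hW.small hK (X + 1)
  have hsm0 : Tendsto (fun n => C₃ * √(t n ^ 4)) l (𝓝 0) := by
    have := (ht0.pow 4).sqrt.const_mul C₃
    simpa using this
  obtain ⟨n, n1, n2, n3, n4⟩ := ((((hx₀.norm.pow 2).add (hz₀.pow 2)).eventually_lt_const i1).and
    ((hθ₀.eventually_const_lt i2).and ((hθ₀.eventually_lt_const i3).and
      (hsm0.eventually_lt_const one_pos)))).exists
  have he : 0 < t n ^ 4 := pow_pos (htp n) 4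
  have he1 : t n ^ 4 ≤ 1 := pow_le_one₀ (htp n).le ((ht1 n).trans (by norm_num))
  obtain ⟨v, σ, hv⟩ := hW.flat (x n) (z n) 1 one_pos
  have hfr := (hfar W hW 0 (x n) 0 v 0 (z n) 1 1 s σ X one_pos one_pos hX (by linarith)
    (by linarith) (by simpa using (hreg n).2) (by simpa using (hreg n).1) had hv).1
  rw [sub_zero] at hfr
  have hib := interior_bound hK hc hB hW he he1 (htp n) hg0 hX0.le n1 n2 n3 (hmax n)
    (fun y hy => ((hsm _ y (z n) he he1 hy ((hreg n).2.trans (by linarith))).1).trans n4.le) hv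
  have h3 : (‖v‖ + (K + 3 * c + 3)) ^ 2 ≤ (CF * (1 + Real.log X) + (K + 3 * c + 3)) ^ 2 :=
    pow_le_pow_left₀ (by positivity) (by linarith) 2
  set Λ := (CF * (1 + Real.log X) + (K + 3 * c + 3)) ^ 2 with hΛ
  have h4 : ε / 20 ≤ 2 * g ^ 2 * X ^ 2 + g * (1 + Λ) :=
    hib.trans (by
      have := mul_le_mul_of_nonneg_left (show 1 + (‖v‖ + (K + 3 * c + 3)) ^ 2 ≤ 1 + Λ by
        linarith) hg0
      linarith)
  have h5 : ε / 20 * X ^ 2 ≤ (2 * g ^ 2 * X ^ 2 + g * (1 + Λ)) * X ^ 2 :=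
    mul_le_mul_of_nonneg_right h4 (by positivity)
  have h6 : (2 * g ^ 2 * X ^ 2 + g * (1 + Λ)) * X ^ 2 = 32 * ε ^ 2 + 4 * ε * (1 + Λ) := by
    have : (2 * g ^ 2 * X ^ 2 + g * (1 + Λ)) * X ^ 2 = 2 * (g * X ^ 2) ^ 2
        + (g * X ^ 2) * (1 + Λ) := by ring
    rw [this, hgX]; ring
  rw [h6] at h5
  have h7 : ε * X ^ 2 ≤ ε * (20 * (32 * C' + 4 * (1 + Λ))) := by
    have : 32 * ε ^ 2 ≤ 32 * ε * C' := by nlinarith
    linarith
  have h8 := le_of_mul_le_mul_left h7 hε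
  linarith

end Vale.Agent.P080
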