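import Vale.Agent.P080.MSep
import Vale.Agent.P080.Compact

open Metric Set Filter Topology
open scoped RealInnerProductSpace

namespace Vale.Agent.P080

variable {E : Type*} [NormedAddCommGroup E] [InnerProductSpace ℝ E]

omit [InnerProductSpace ℝ E] in
theorem norm_sq_le_two (A x : E) : ‖A‖ ^ 2 ≤ 2 * ‖A - x‖ ^ 2 + 2 * ‖x‖ ^ 2 := by
  have h1 : ‖A‖ ≤ ‖A - x‖ + ‖x‖ := by
    have := norm_add_le (A - x) x
    rwa [sub_add_cancel] at this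
  nlinarith [norm_nonneg A, norm_nonneg (A - x), norm_nonneg x, sq_nonneg (‖A - x‖ - ‖x‖)]

theorem quad_bound {d P C θ : ℝ} (hθ : 0 < θ)
    (h : d ^ 2 / (8 * θ) ≤ C + P * d) : d ^ 2 ≤ 16 * θ * (C + 4 * θ * P ^ 2) := by
  rw [div_le_iff₀ (by positivity)] at h
  nlinarith [sq_nonneg (d - 8 * θ * P)]

theorem Ez_usc [FiniteDimensional ℝ E] {l : Ultrafilter ℕ} (hl : (l : Filter ℕ) ≤ atTop)
    {g : ℕ → E → ℝ} {g₀ : E → ℝ}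
    (hgr : ∀ δ > 0, ∃ C : ℝ, ∀ (n : ℕ) (A : E), |g n A| ≤ C + δ * ‖A‖ ^ 2)
    (hcv : ∀ (A : ℕ → E) (A₀ : E), Tendsto A l (𝓝 A₀) →
      Tendsto (fun n => g n (A n)) l (𝓝 (g₀ A₀)))
    {x : ℕ → E} {x₀ : E} {θ : ℕ → ℝ} {θ₀ : ℝ} (hθ₀ : 0 < θ₀) (hx : Tendsto x l (𝓝 x₀))
    (hθ : Tendsto θ l (𝓝 θ₀)) {e : ℕ → ℝ} {e₀ : ℝ} (he : Tendsto e l (𝓝 e₀))
    (hle : ∀ n, e n ≤ Ez (g n) (x n) (θ n)) (p : E) :
    ∃ A : E, e₀ ≤ g₀ A - ⟪p, A - x₀⟫ - ‖A - x₀‖ ^ 2 / (2 * θ₀) := by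
  have h1 : ∀ n : ℕ, ∃ A : E, e n - 1 / ((n : ℝ) + 1)
      < g n A - ⟪p, A - x n⟫ - ‖A - x n‖ ^ 2 / (2 * θ n) := by
    intro n
    by_contra hcon
    push Not at hcon
    have h2 := Ez_le (g := g n) (θ := θ n) (x := x n) ⟨p, hcon⟩
    have h3 : 0 < 1 / ((n : ℝ) + 1) := by positivity
    linarith [hle n]
  choose A hA using h1
  obtain ⟨C, hC⟩ := hgr (1 / (16 * θ₀)) (by positivity)
  have ex : ∀ᶠ n in l, ‖x n‖ ≤ ‖x₀‖ + 1 := by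
    have := hx.norm.eventually_lt_const (show ‖x₀‖ < ‖x₀‖ + 1 by linarith)
    filter_upwards [this] with n hn using hn.le
  have eθ1 : ∀ᶠ n in l, 0 < θ n := hθ.eventually_const_lt hθ₀
  have eθ2 : ∀ᶠ n in l, θ n < 2 * θ₀ := hθ.eventually_lt_const (by linarith)
  have ee : ∀ᶠ n in l, e₀ - 1 < e n := he.eventually_const_lt (by linarith)
  set M := C + 1 / (8 * θ₀) * (‖x₀‖ + 1) ^ 2 - e₀ + 2 with hM
  have hb : ∀ᶠ n in l, ‖A n‖ ≤ √(16 * θ₀ * (M + 4 * θ₀ * ‖p‖ ^ 2)) + (‖x₀‖ + 1) := by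
    filter_upwards [ex, eθ1, eθ2, ee] with n h2 h3 h4 h5
    have h6 := hA n
    have h7 : 1 / ((n : ℝ) + 1) ≤ 1 := by
      rw [div_le_one (by positivity)]
      linarith [Nat.cast_nonneg (α := ℝ) n]
    have h8 := (le_abs_self _).trans (hC n (A n))
    have h9 := norm_sq_le_two (A n) (x n)
    have h10 : ‖x n‖ ^ 2 ≤ (‖x₀‖ + 1) ^ 2 := pow_le_pow_left₀ (norm_nonneg _) h2 2
    have h11 : -⟪p, A n - x n⟫ ≤ ‖p‖ * ‖A n - x n‖ := by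
      have := abs_real_inner_le_norm p (A n - x n)
      linarith [neg_abs_le ⟪p, A n - x n⟫]
    have h12 : ‖A n - x n‖ ^ 2 / (4 * θ₀) ≤ ‖A n - x n‖ ^ 2 / (2 * θ n) :=
      div_le_div_of_nonneg_left (sq_nonneg _) (by positivity) (by linarith)
    have h13 : 1 / (16 * θ₀) * ‖A n‖ ^ 2 ≤ 1 / (8 * θ₀) * ‖A n - x n‖ ^ 2
        + 1 / (8 * θ₀) * (‖x₀‖ + 1) ^ 2 := by
      have : 1 / (16 * θ₀) * ‖A n‖ ^ 2 ≤ 1 / (16 * θ₀) * (2 * ‖A n - x n‖ ^ 2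
          + 2 * (‖x₀‖ + 1) ^ 2) := mul_le_mul_of_nonneg_left (by linarith) (by positivity)
      refine this.trans_eq ?_
      field_simp
      ring
    have h14 : ‖A n - x n‖ ^ 2 / (4 * θ₀) = 2 * (‖A n - x n‖ ^ 2 / (8 * θ₀)) := by
      field_simp; ring
    have h15 : 1 / (8 * θ₀) * ‖A n - x n‖ ^ 2 = ‖A n - x n‖ ^ 2 / (8 * θ₀) := by ring
    have h16 : ‖A n - x n‖ ^ 2 / (8 * θ₀) ≤ M + ‖p‖ * ‖A n - x n‖ := by
      rw [hM]; linarith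
    have h17 := quad_bound hθ₀ h16
    have h18 : ‖A n - x n‖ ≤ √(16 * θ₀ * (M + 4 * θ₀ * ‖p‖ ^ 2)) := Real.le_sqrt_of_sq_le h17
    have h19 : ‖A n‖ ≤ ‖A n - x n‖ + ‖x n‖ := by
      have := norm_add_le (A n - x n) (x n)
      rwa [sub_add_cancel] at this
    linarith
  obtain ⟨A₀, -, hA₀⟩ := exists_tendsto_of_bdd l hb
  refine ⟨A₀, ?_⟩
  have hn0 : Tendsto (fun n : ℕ => 1 / ((n : ℝ) + 1)) l (𝓝 0) :=
    (tendsto_one_div_add_atTop_nhds_zero_nat (𝕜 := ℝ)).mono_left hl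
  have L1 := he.sub hn0
  rw [sub_zero] at L1
  have hd := hA₀.sub hx
  have L2 := ((hcv A A₀ hA₀).sub ((tendsto_const_nhds (x := p)).inner hd)).sub
    ((hd.norm.pow 2).div (hθ.const_mul 2) (by positivity))
  exact le_of_tendsto_of_tendsto' L1 L2 fun n => (hA n).le

noncomputable def ValM (f k : E → ℝ → ℝ) (τ c b β g : ℝ) (x : E) (z θ : ℝ) (Y : E) : ℝ :=
  Ez (fun y => f y z) x θ - k Y (z - τ) - ‖Y - x‖ ^ 2 / (2 * τ) - c * θ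
    - τ * (b * (θ - 1) - β * (θ - 1) ^ 2 + g * (‖x‖ ^ 2 + z ^ 2))

theorem Ez_le_of_growth {g : E → ℝ} {C θ : ℝ} (hC : ∀ A : E, |g A| ≤ C + 1 / 16 * ‖A‖ ^ 2)
    (hθ : 0 < θ) (hθ2 : θ ≤ 2) (x : E) : Ez g x θ ≤ C + 1 / 8 * ‖x‖ ^ 2 := by
  apply Ez_le
  refine ⟨0, fun A => ?_⟩
  rw [inner_zero_left]
  have h1 := (le_abs_self _).trans (hC A)
  have h2 := norm_sq_le_two A x
  have h3 : ‖A - x‖ ^ 2 / 4 ≤ ‖A - x‖ ^ 2 / (2 * θ) :=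
    div_le_div_of_nonneg_left (sq_nonneg _) (by positivity) (by linarith)
  have h4 : 0 ≤ ‖A - x‖ ^ 2 := sq_nonneg _
  linarith

theorem exists_maxVal [FiniteDimensional ℝ E] {f k : E → ℝ → ℝ} {τ c b β g X₀ R : ℝ}
    (hτ : 0 < τ) (hX₀ : 0 ≤ X₀) (hR : X₀ + τ ≤ R)
    (hfc : Continuous fun p : E × ℝ => f p.1 p.2) (hkc : Continuous fun p : E × ℝ => k p.1 p.2)
    (hfg : ∀ δ > 0, ∃ C : ℝ, ∀ (A : E) (z : ℝ), |z| ≤ R → |f A z| ≤ C + δ * ‖A‖ ^ 2)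
    (hkg : ∀ δ > 0, ∃ C : ℝ, ∀ (A : E) (z : ℝ), |z| ≤ R → |k A z| ≤ C + δ * ‖A‖ ^ 2) :
    ∃ (x : E) (z θ : ℝ) (Y : E), ‖x‖ ^ 2 + z ^ 2 ≤ X₀ ^ 2 ∧ 1 / 2 ≤ θ ∧ θ ≤ 2 ∧
      ∀ (x' : E) (z' θ' : ℝ) (Y' : E), ‖x'‖ ^ 2 + z' ^ 2 ≤ X₀ ^ 2 → 1 / 2 ≤ θ' → θ' ≤ 2 →
        ValM f k τ c b β g x' z' θ' Y' ≤ ValM f k τ c b β g x z θ Y := by
  set S : Set ℝ := {v | ∃ (x : E) (z θ : ℝ) (Y : E), ‖x‖ ^ 2 + z ^ 2 ≤ X₀ ^ 2 ∧ 1 / 2 ≤ θ ∧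
    θ ≤ 2 ∧ v = ValM f k τ c b β g x z θ Y} with hS
  obtain ⟨C₁, hC₁⟩ := hfg (1 / 16) (by norm_num)
  obtain ⟨C₂, hC₂⟩ := hkg (1 / (8 * τ)) (by positivity)
  have hreg : ∀ (x : E) (z : ℝ), ‖x‖ ^ 2 + z ^ 2 ≤ X₀ ^ 2 → ‖x‖ ≤ X₀ ∧ |z| ≤ X₀ := by
    intro x z h
    exact ⟨(le_abs_self _).trans (abs_le_of_sq_le_sq (by nlinarith [sq_nonneg z]) hX₀),
      abs_le_of_sq_le_sq (by nlinarith [sq_nonneg ‖x‖]) hX₀⟩
  set M := C₁ + 1 / 8 * X₀ ^ 2 + C₂ + 1 / (4 * τ) * X₀ ^ 2 + 2 * |c|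
    + τ * (|b| + |β| + |g| * X₀ ^ 2) with hM
  have hval : ∀ (x : E) (z θ : ℝ) (Y : E), ‖x‖ ^ 2 + z ^ 2 ≤ X₀ ^ 2 → 1 / 2 ≤ θ → θ ≤ 2 →
      ValM f k τ c b β g x z θ Y + ‖Y - x‖ ^ 2 / (4 * τ) ≤ M := by
    intro x z θ Y hxz hθ1 hθ2
    obtain ⟨hx, hz⟩ := hreg x z hxz
    have hx2 : ‖x‖ ^ 2 ≤ X₀ ^ 2 := by nlinarith [sq_nonneg z]
    have a1 := Ez_le_of_growth (g := fun y => f y z) (fun A => hC₁ A z (by linarith))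
      (by linarith) hθ2 x
    have hzτ : |z - τ| ≤ R := by
      have := abs_sub z τ
      rw [abs_of_pos hτ] at this
      linarith
    have a2 := (neg_abs_le _).trans' (neg_le_neg (hC₂ Y (z - τ) hzτ))
    have a3 := norm_sq_le_two Y x
    have a4 : 1 / (8 * τ) * ‖Y‖ ^ 2 ≤ ‖Y - x‖ ^ 2 / (4 * τ) + 1 / (4 * τ) * X₀ ^ 2 := by
      have : 1 / (8 * τ) * ‖Y‖ ^ 2 ≤ 1 / (8 * τ) * (2 * ‖Y - x‖ ^ 2 + 2 * X₀ ^ 2) :=
        mul_le_mul_of_nonneg_left (by linarith) (by positivity)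
      refine this.trans_eq ?_
      field_simp
      ring
    have a5 : ‖Y - x‖ ^ 2 / (2 * τ) = 2 * (‖Y - x‖ ^ 2 / (4 * τ)) := by field_simp; norm_num
    have a6 : -(c * θ) ≤ 2 * |c| := by
      have h := neg_abs_le c
      have h' := abs_nonneg c
      nlinarith
    have a7 : -(τ * (b * (θ - 1) - β * (θ - 1) ^ 2 + g * (‖x‖ ^ 2 + z ^ 2)))
        ≤ τ * (|b| + |β| + |g| * X₀ ^ 2) := by
      rw [← mul_neg]
      apply mul_le_mul_of_nonneg_left _ hτ.le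
      have b1 : -(b * (θ - 1)) ≤ |b| := by
        have h1 : |θ - 1| ≤ 1 := abs_le.2 ⟨by linarith, by linarith⟩
        have h2 : -(b * (θ - 1)) ≤ |b * (θ - 1)| := neg_le_abs _
        rw [abs_mul] at h2
        nlinarith [abs_nonneg b]
      have b2 : β * (θ - 1) ^ 2 ≤ |β| := by
        have h1 : (θ - 1) ^ 2 ≤ 1 := by nlinarith
        have h2 := le_abs_self β
        nlinarith [sq_nonneg (θ - 1), abs_nonneg β]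
      have b3 : -(g * (‖x‖ ^ 2 + z ^ 2)) ≤ |g| * X₀ ^ 2 := by
        have h0 : 0 ≤ ‖x‖ ^ 2 + z ^ 2 := by positivity
        have h2 := neg_abs_le g
        nlinarith [abs_nonneg g]
      linarith
    have a8 : 1 / 8 * ‖x‖ ^ 2 ≤ 1 / 8 * X₀ ^ 2 := by linarith
    unfold ValM
    rw [hM]
    linarith
  have hbd : BddAbove S := by
    refine ⟨M, ?_⟩
    rintro _ ⟨x, z, θ, Y, h1, h2, h3, rfl⟩
    have := hval x z θ Y h1 h2 h3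
    have h4 : 0 ≤ ‖Y - x‖ ^ 2 / (4 * τ) := by positivity
    linarith
  have hne : S.Nonempty := ⟨_, 0, 0, 1, 0, by simp; positivity, by norm_num, by norm_num, rfl⟩
  obtain ⟨v, -, hv, hvS⟩ := exists_seq_tendsto_sSup hne hbd
  choose x z θ Y hxz hθ1 hθ2 hvv using hvS
  set l : Ultrafilter ℕ := hyperfilter ℕ with hl
  have hlt : (l : Filter ℕ) ≤ atTop := Nat.hyperfilter_le_atTop
  have hv' : Tendsto v l (𝓝 (sSup S)) := hv.mono_left hlt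
  obtain ⟨x₀, -, hx₀⟩ := exists_tendsto_of_bdd l (a := x) (R := X₀)
    (Eventually.of_forall fun n => (hreg _ _ (hxz n)).1)
  obtain ⟨z₀, -, hz₀⟩ := exists_tendsto_of_bdd l (a := z) (R := X₀)
    (Eventually.of_forall fun n => (hreg _ _ (hxz n)).2)
  obtain ⟨θ₀, -, hθ₀⟩ := exists_tendsto_of_bdd l (a := θ) (R := 2)
    (Eventually.of_forall fun n => by
      rw [Real.norm_eq_abs]
      exact abs_le.2 ⟨by linarith [hθ1 n], hθ2 n⟩)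
  have hYb : ∀ᶠ n in l, ‖Y n‖ ≤ √(4 * τ * (M - sSup S + 1)) + X₀ := by
    filter_upwards [hv'.eventually_const_lt (show sSup S - 1 < sSup S by linarith)] with n hn
    have h1 := hval (x n) (z n) (θ n) (Y n) (hxz n) (hθ1 n) (hθ2 n)
    rw [← hvv n] at h1
    have h2 : ‖Y n - x n‖ ^ 2 / (4 * τ) ≤ M - sSup S + 1 := by linarith
    rw [div_le_iff₀ (by positivity)] at h2
    have h3 : ‖Y n - x n‖ ≤ √(4 * τ * (M - sSup S + 1)) := Real.le_sqrt_of_sq_le (by linarith)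
    have h4 : ‖Y n‖ ≤ ‖Y n - x n‖ + ‖x n‖ := by
      have := norm_add_le (Y n - x n) (x n)
      rwa [sub_add_cancel] at this
    linarith [(hreg _ _ (hxz n)).1]
  obtain ⟨Y₀, -, hY₀⟩ := exists_tendsto_of_bdd l hYb
  have hθ₀1 : 1 / 2 ≤ θ₀ := ge_of_tendsto' hθ₀ hθ1
  have hθ₀2 : θ₀ ≤ 2 := le_of_tendsto' hθ₀ hθ2
  have hxz₀ : ‖x₀‖ ^ 2 + z₀ ^ 2 ≤ X₀ ^ 2 :=
    le_of_tendsto' ((hx₀.norm.pow 2).add (hz₀.pow 2)) hxz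
  have hzb : ∀ n, |z n| ≤ R := fun n => by linarith [(hreg _ _ (hxz n)).2]
  have hk : Tendsto (fun n => k (Y n) (z n - τ)) l (𝓝 (k Y₀ (z₀ - τ))) :=
    (hkc.tendsto (Y₀, z₀ - τ)).comp (hY₀.prodMk_nhds (hz₀.sub_const τ))
  have hE : Tendsto (fun n => Ez (fun y => f y (z n)) (x n) (θ n)) l
      (𝓝 (sSup S + k Y₀ (z₀ - τ) + ‖Y₀ - x₀‖ ^ 2 / (2 * τ) + c * θ₀
        + τ * (b * (θ₀ - 1) - β * (θ₀ - 1) ^ 2 + g * (‖x₀‖ ^ 2 + z₀ ^ 2)))) := by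
    have hT := (((hv'.add hk).add (((hY₀.sub hx₀).norm.pow 2).div_const (2 * τ))).add
      (hθ₀.const_mul c)).add ((((hθ₀.sub_const 1).const_mul b).sub
        (((hθ₀.sub_const 1).pow 2).const_mul β)).add
        (((hx₀.norm.pow 2).add (hz₀.pow 2)).const_mul g) |>.const_mul τ)
    refine hT.congr fun n => ?_
    rw [hvv n]
    unfold ValM
    ring
  have hus := Ez_usc (g := fun n y => f y (z n)) (g₀ := fun y => f y z₀) hlt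
    (fun δ hδ => by
      obtain ⟨C, hC⟩ := hfg δ hδ
      exact ⟨C, fun n A => hC A (z n) (hzb n)⟩)
    (fun A A₀ hA => (hfc.tendsto (A₀, z₀)).comp (hA.prodMk_nhds hz₀))
    (by linarith) hx₀ hθ₀ hE (fun n => le_rfl)
  have hz₀R : |z₀| ≤ R := by
    have := (hreg _ _ hxz₀).2
    linarith
  obtain ⟨p, hp⟩ := Ez_attained (g := fun y => f y z₀)
    (hfc.comp (Continuous.prodMk_left z₀))
    (fun δ hδ => by
      obtain ⟨C, hC⟩ := hfg δ hδ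
      exact ⟨C, fun A => hC A z₀ hz₀R⟩) (show (0 : ℝ) < θ₀ by linarith) x₀
  obtain ⟨A, hA⟩ := hus p
  have hfin := hA.trans (hp A)
  refine ⟨x₀, z₀, θ₀, Y₀, hxz₀, hθ₀1, hθ₀2, ?_⟩
  intro x' z' θ' Y' h1 h2 h3
  have h4 : ValM f k τ c b β g x' z' θ' Y' ≤ sSup S := le_csSup hbd ⟨x', z', θ', Y', h1, h2, h3, rfl⟩
  refine h4.trans ?_
  unfold ValM
  linarith

end Vale.Agent.P080
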