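import Vale.Agent.P080.MMaster3

open Metric Set Filter Topology
open scoped RealInnerProductSpace

namespace Vale.Agent.P080

variable {E : Type*} [NormedAddCommGroup E] [InnerProductSpace ℝ E]

theorem exists_large {A B D : ℝ} (hA : 0 ≤ A) (hB : 0 ≤ B) (hD : 0 ≤ D) :
    ∃ X : ℝ, 1 ≤ X ∧ 20 * (32 * D + 4 * (1 + (A * (1 + Real.log X) + B) ^ 2)) < X ^ 2 := by
  set M := 20 * (32 * D + 4 + 4 * (3 * A + B) ^ 2) with hM
  have hM0 : 0 ≤ M := by positivity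
  set u := M + 2 with hu
  have hu1 : 1 ≤ u := by linarith
  have hu0 : 0 < u := by linarith
  refine ⟨u ^ 2, one_le_pow₀ hu1, ?_⟩
  have h1 : Real.log (u ^ 2) ≤ 2 * u := by
    rw [Real.log_pow]
    have := Real.log_le_sub_one_of_pos hu0
    push_cast
    linarith
  have h2 : 0 ≤ Real.log (u ^ 2) := Real.log_nonneg (one_le_pow₀ hu1)
  have h3 : A * (1 + Real.log (u ^ 2)) + B ≤ (3 * A + B) * u := by nlinarith
  have h4 : 0 ≤ A * (1 + Real.log (u ^ 2)) + B := by positivity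
  have h5 : (A * (1 + Real.log (u ^ 2)) + B) ^ 2 ≤ ((3 * A + B) * u) ^ 2 :=
    pow_le_pow_left₀ h4 h3 2
  have h6 : 1 ≤ u ^ 2 := one_le_pow₀ hu1
  have h7 : 20 * (32 * D + 4 * (1 + (A * (1 + Real.log (u ^ 2)) + B) ^ 2)) ≤ M * u ^ 2 := by
    rw [hM]
    have : ((3 * A + B) * u) ^ 2 = (3 * A + B) ^ 2 * u ^ 2 := by ring
    nlinarith
  have h8 : M * u ^ 2 < u ^ 2 * u ^ 2 := by
    have h9 : M < u ^ 2 := by nlinarith
    exact mul_lt_mul_of_pos_right h9 (by positivity)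
  calc _ ≤ M * u ^ 2 := h7
    _ < u ^ 2 * u ^ 2 := h8
    _ = (u ^ 2) ^ 2 := by ring

theorem master_lower [FiniteDimensional ℝ E] {K c : ℝ} (hK : 1 ≤ K) {W : E → ℝ → ℝ}
    (hW : MCls K W) (hext : Ext c W 0 0 1) (hqm : ∀ t, 0 < t → 0 ≤ qmM W t 0 0) :
    ∃ C : ℝ, 0 < C ∧ ∀ (τ e b β g : ℝ), 0 < τ → 0 < e → e ≤ 1 →
      ∃ Y : E, -(C * √e) ≤ ValM (upM W e) (dnM W e) τ c b β g 0 0 1 Y := by
  have hWc : Continuous fun y => W y 0 := (hW.continuous hK).comp (Continuous.prodMk_left 0)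
  obtain ⟨p, hp, ι, hι, lam, a, hl, hs, hx, hcon⟩ := exists_config hWc (hW.subQuad hK 0)
    one_pos (0 : E)
  obtain ⟨C, hC0, hC⟩ := hW.small hK (∑ i, ‖a i‖)
  refine ⟨C, hC0, fun τ e b β g hτ he he1 => ?_⟩
  obtain ⟨B, hB⟩ := hW.exists_dn hK (show 0 < τ + e by linarith) 0 0
  refine ⟨(τ / (τ + e)) • B, ?_⟩
  have hsum : 0 ≤ ∑ i, ‖a i‖ := Finset.sum_nonneg fun i _ => norm_nonneg _
  have h1 := config_le_Ez (hW.up_cont_slice hK he 0) (hW.ops_subQuad hK he he1 0)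
    (one_pos) hl hs hx
  have h2 := config_eq_Ez (g := fun y => W y 0) (θ := 1) hs hx hcon
  have h3 := (ext_iff_Ez hWc (hW.subQuad hK 0) one_pos).1 hext
  have h4 : ∑ i, lam i * (W (a i) 0 - ‖a i - 0‖ ^ 2 / (2 * 1)) - C * √e
      ≤ ∑ i, lam i * (upM W e (a i) 0 - ‖a i - 0‖ ^ 2 / (2 * 1)) := by
    have e1 : C * √e = ∑ i, lam i * (C * √e) := by rw [← Finset.sum_mul, hs, one_mul]
    rw [e1, ← Finset.sum_sub_distrib]
    refine Finset.sum_le_sum fun i _ => ?_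
    rw [← mul_sub]
    apply mul_le_mul_of_nonneg_left _ (hl i)
    have h5 := (hC e (a i) 0 he he1 (Finset.single_le_sum (f := fun i => ‖a i‖)
      (fun i _ => norm_nonneg _) (Finset.mem_univ i)) (by simpa using hsum)).1
    linarith [(abs_le.1 h5).1]
  have h6 : dnM W e ((τ / (τ + e)) • B) (0 - τ) + ‖(τ / (τ + e)) • B - 0‖ ^ 2 / (2 * τ)
      ≤ W 0 0 := by
    have h7 := hW.dn_le hK he B ((τ / (τ + e)) • B) (0 - τ)
    have e1 : B - (τ / (τ + e)) • B = (e / (τ + e)) • B := by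
      have : (e / (τ + e)) = 1 - τ / (τ + e) := by field_simp; ring
      rw [this, sub_smul, one_smul]
    have e2 : (0 : ℝ) - τ - e = 0 - (τ + e) := by ring
    rw [e1, e2, norm_smul, mul_pow, Real.norm_eq_abs, sq_abs] at h7
    rw [sub_zero, norm_smul, mul_pow, Real.norm_eq_abs, sq_abs]
    have h8 := hqm (τ + e) (by linarith)
    unfold qmM at h8
    rw [hB] at h8
    have h9 : 0 ≤ W 0 0 - (W B (0 - (τ + e)) + ‖B - 0‖ ^ 2 / (2 * (τ + e))) := by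
      by_contra hcon
      push Not at hcon
      have := div_neg_of_neg_of_pos hcon (show 0 < τ + e by linarith)
      linarith
    rw [sub_zero] at h9
    have e3 : (e / (τ + e)) ^ 2 * ‖B‖ ^ 2 / (2 * e) + (τ / (τ + e)) ^ 2 * ‖B‖ ^ 2 / (2 * τ)
        = ‖B‖ ^ 2 / (2 * (τ + e)) := by
      field_simp
      ring
    linarith
  have h10 : c * 1 + W 0 0 ≤ Ez (fun y => W y 0) 0 1 := by linarith
  unfold ValM
  rw [norm_zero]
  simp only [sub_self, mul_zero, ne_eq, OfNat.ofNat_ne_zero, not_false_eq_true, zero_pow,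
    add_zero, sub_zero, mul_one]
  simp only [sub_zero, mul_one] at h1 h2 h4 h6 h10
  linarith

theorem master_upper [FiniteDimensional ℝ E] {K c : ℝ} (hK : 1 ≤ K)
    (hB : Bnd K c E) {W : E → ℝ → ℝ} (hW : MCls K W) {τ e b β g θ z : ℝ} {x Y : E}
    (hτ : 0 < τ) (he : 0 < e) (he1 : e ≤ 1) (hθ : 0 < θ) {C C₂ : ℝ}
    (hC₂ : |upM W e x z - W x z| ≤ C₂ * √e)
    (h : -(C * √e) ≤ ValM (upM W e) (dnM W e) τ c b β g x z θ Y) :
    τ * (b * (θ - 1) - β * (θ - 1) ^ 2 + g * (‖x‖ ^ 2 + z ^ 2)) - (C + C₂) * √e - c * e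
      ≤ (τ + e) * qmM W (τ + e) x z ∧
    -(C * √e) + dnM W (τ + e) x z + c * θ
      + τ * (b * (θ - 1) - β * (θ - 1) ^ 2 + g * (‖x‖ ^ 2 + z ^ 2))
      ≤ Ez (fun y => upM W e y z) x θ := by
  have h1 := Ez_up_le hK hB hW he he1 hθ x z
  have h2 := hW.dn_dn_le hK hτ he x Y z
  have h3 := (abs_le.1 hC₂).2
  unfold ValM at h
  constructor
  · unfold qmM
    have e1 : (τ + e) * ((W x z - dnM W (τ + e) x z) / (τ + e)) = W x z - dnM W (τ + e) x z := by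
      field_simp
    rw [e1]
    linarith
  · linarith

end Vale.Agent.P080
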