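import Vale.Agent.P080.MOps

open Metric Set Filter Topology
open scoped RealInnerProductSpace

namespace Vale.Agent.P080

variable {E : Type*} [NormedAddCommGroup E] [InnerProductSpace ℝ E]

theorem MCls.up_add [FiniteDimensional ℝ E] {K : ℝ} (hK : 1 ≤ K) {W : E → ℝ → ℝ}
    (h : MCls K W) {ε s : ℝ} (hs : 0 < s) (hsε : s < ε) (a : E) (t : ℝ) :
    2 * upM W ε a t ≤ upM W (ε + s) a t + upM W (ε - s) a t := by
  have hε : 0 < ε := by linarith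
  have hes : 0 < ε - s := by linarith
  obtain ⟨A, hA⟩ := MCls.exists_up hK h hε a t
  set y := a + ((ε - s) / ε) • (A - a) with hy
  obtain ⟨w, hw⟩ := h.up y A (t + ε - s) s (1 / 2) hs (by norm_num) (by norm_num)
  have e1 : t + ε - s + s = t + ε := by ring
  have e2 : t + ε - s + s / (1 / 2) = t + (ε + s) := by ring
  have e3 : s / (1 / 2) = 2 * s := by ring
  rw [e1, e2, e3] at hw
  have h1 := MCls.le_up hK h hes y a t
  have h2 := MCls.le_up hK h (by linarith : 0 < ε + s) w a t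
  have h3 := kin_le hes (by linarith : 0 < 2 * s) w a y
  have e4 : ε - s + 2 * s = ε + s := by ring
  rw [e4] at h3
  have e5 : t + (ε - s) = t + ε - s := by ring
  rw [e5] at h1
  have e6 : y - a = ((ε - s) / ε) • (A - a) := by rw [hy]; abel
  have e7 : A - y = (s / ε) • (A - a) := by
    have : (A : E) - y = (1 : ℝ) • (A - a) - ((ε - s) / ε) • (A - a) := by
      rw [hy, one_smul]; abel
    rw [this, ← sub_smul]
    congr 1
    field_simp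
    ring
  have e8 : ‖A - a‖ ^ 2 / (2 * ε) = ‖y - a‖ ^ 2 / (2 * (ε - s)) + ‖A - y‖ ^ 2 / (2 * s) := by
    rw [e6, e7, norm_smul, norm_smul, mul_pow, mul_pow, Real.norm_eq_abs, Real.norm_eq_abs,
      sq_abs, sq_abs]
    have hne : ε - s ≠ 0 := hes.ne'
    field_simp
    ring
  rw [hA, e8]
  linarith

theorem MCls.two_up [FiniteDimensional ℝ E] {K : ℝ} (hK : 1 ≤ K) {W : E → ℝ → ℝ}
    (h : MCls K W) {ε : ℝ} (hε : 0 < ε) (a : E) (t : ℝ) :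
    ∃ R : ℝ, ∀ s, 0 < s → s < ε → ∃ ξ : E, ‖ξ‖ ≤ R ∧ ∀ ν : E,
      2 * upM W ε a t ≤ (upM W ε (a + s • ξ) (t + s) - s / 2 * ‖ξ‖ ^ 2)
        + (upM W ε (a - s • ν) (t - s) + s / 2 * ‖ν‖ ^ 2) := by
  obtain ⟨C, hC, hloc⟩ := MCls.up_loc (E := E) hK
  obtain ⟨v₀, s₀, had₀⟩ := h.flat a t (2 * ε) (by linarith)
  refine ⟨‖v₀‖ + 3 * K + C, fun s hs hsε => ?_⟩
  have hes : 0 < ε + s := by linarith
  have hes' : 0 < ε - s := by linarith
  obtain ⟨A, hA⟩ := MCls.exists_up hK h hes a t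
  obtain ⟨v, σ, had⟩ := h.flat a t (ε + s) hes
  have h1 := (hloc W h a v t (ε + s) σ hes had).2 A hA.le
  have h2 := (Adapted.same hK (by linarith : 0 < 2 * ε) (by linarith : 2 * ε / 2 ≤ ε + s)
    (by linarith : ε + s ≤ 2 * ε) had₀ had).1
  set ξ := (1 / (ε + s)) • (A - a) with hξ
  have e1 : A - a = (ε + s) • ξ := by
    rw [hξ, smul_smul, mul_one_div_cancel hes.ne', one_smul]
  refine ⟨ξ, ?_, fun ν => ?_⟩
  · have e2 : A - a - (ε + s) • v = (ε + s) • (ξ - v) := by rw [e1, smul_sub]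
    rw [e2, norm_smul, Real.norm_eq_abs, abs_of_pos hes, mul_comm] at h1
    have h3 : ‖ξ - v‖ ≤ C := le_of_mul_le_mul_right h1 hes
    have e3 : ξ = (ξ - v) + (v₀ - (v₀ - v)) := by abel
    calc ‖ξ‖ = ‖(ξ - v) + (v₀ - (v₀ - v))‖ := by rw [← e3]
      _ ≤ ‖ξ - v‖ + ‖v₀ - (v₀ - v)‖ := norm_add_le _ _
      _ ≤ ‖ξ - v‖ + (‖v₀‖ + ‖v₀ - v‖) := by gcongr; exact norm_sub_le _ _
      _ ≤ ‖v₀‖ + 3 * K + C := by linarith
  · have h3 := MCls.up_add hK h hs hsε a t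
    -- forward point
    have h4 := MCls.le_up hK h hε A (a + s • ξ) (t + s)
    have e4 : A - (a + s • ξ) = ε • ξ := by
      have : A - (a + s • ξ) = (A - a) - s • ξ := by abel
      rw [this, e1, ← sub_smul]
      congr 1
      ring
    have e5 : t + s + ε = t + (ε + s) := by ring
    rw [e4, e5, norm_smul, mul_pow, Real.norm_eq_abs, sq_abs] at h4
    rw [e1, norm_smul, mul_pow, Real.norm_eq_abs, sq_abs] at hA
    have e6 : ε ^ 2 * ‖ξ‖ ^ 2 / (2 * ε) = ε / 2 * ‖ξ‖ ^ 2 := by field_simp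
    have e7 : (ε + s) ^ 2 * ‖ξ‖ ^ 2 / (2 * (ε + s)) = (ε + s) / 2 * ‖ξ‖ ^ 2 := by field_simp
    rw [e6] at h4
    rw [e7] at hA
    -- backward point
    obtain ⟨b, hb⟩ := MCls.exists_up hK h hes' a t
    have h5 := MCls.le_up hK h hε b (a - s • ν) (t - s)
    have h6 := kin_le hs hes' b (a - s • ν) a
    have e8 : s + (ε - s) = ε := by ring
    have e9 : a - (a - s • ν) = s • ν := by abel
    rw [e8, e9, norm_smul, mul_pow, Real.norm_eq_abs, sq_abs] at h6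
    have e10 : s ^ 2 * ‖ν‖ ^ 2 / (2 * s) = s / 2 * ‖ν‖ ^ 2 := by field_simp
    rw [e10] at h6
    have e11 : t - s + ε = t + (ε - s) := by ring
    rw [e11] at h5
    linarith

theorem MCls.two_dn [FiniteDimensional ℝ E] {K : ℝ} (hK : 1 ≤ K) {W : E → ℝ → ℝ}
    (h : MCls K W) {ε : ℝ} (hε : 0 < ε) (a : E) (t : ℝ) :
    ∃ R : ℝ, ∀ s, 0 < s → s < ε → ∃ ξ : E, ‖ξ‖ ≤ R ∧ ∀ ζ : E,
      (dnM W ε (a + s • ζ) (t + s) - s / 2 * ‖ζ‖ ^ 2)
        + (dnM W ε (a - s • ξ) (t - s) + s / 2 * ‖ξ‖ ^ 2) ≤ 2 * dnM W ε a t := by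
  obtain ⟨R, hR⟩ := MCls.two_up hK h.refl hε a (-t)
  refine ⟨R, fun s hs hsε => ?_⟩
  obtain ⟨ξ, hξ, hν⟩ := hR s hs hsε
  refine ⟨-ξ, by rwa [norm_neg], fun ζ => ?_⟩
  have h1 := hν (-ζ)
  have e1 : -t + s = -(t - s) := by ring
  have e2 : -t - s = -(t + s) := by ring
  rw [e1, e2, upM_refl_neg, upM_refl_neg, upM_refl_neg, norm_neg] at h1
  have e3 : a - s • (-ζ) = a + s • ζ := by rw [smul_neg, sub_neg_eq_add]
  have e4 : a - s • (-ξ) = a + s • ξ := by rw [smul_neg, sub_neg_eq_add]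
  rw [e3] at h1
  rw [e4, norm_neg]
  linarith

theorem MCls.q_bound [FiniteDimensional ℝ E] {K : ℝ} (hK : 1 ≤ K) {W : E → ℝ → ℝ}
    (h : MCls K W) : ∃ C : ℝ, 0 < C ∧ ∀ (ε : ℝ) (x : E) (z : ℝ), 0 < ε → ε ≤ 1 →
      |qpM W ε x z| ≤ C * (1 + Real.log ((1 + ‖x‖ + |z|) / ε)) ∧
      |qmM W ε x z| ≤ C * (1 + Real.log ((1 + ‖x‖ + |z|) / ε)) := by
  obtain ⟨C₁, hC₁, hup⟩ := MCls.up_loc (E := E) hK
  obtain ⟨C₂, hC₂, hdn⟩ := MCls.dn_loc (E := E) hK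
  obtain ⟨C, hC, hfar⟩ := MCls.far (E := E) hK
  obtain ⟨v₀, s₀, had₀⟩ := h.flat 0 0 1 one_pos
  set B := 1 + ‖v₀‖ with hB
  have hB1 : 1 ≤ B := by rw [hB]; linarith [norm_nonneg v₀]
  have hlB : 0 ≤ Real.log B := Real.log_nonneg hB1
  have hf0 : 0 ≤ |s₀ + ‖v₀‖ ^ 2 / 2| := abs_nonneg _
  refine ⟨|s₀ + ‖v₀‖ ^ 2 / 2| + C * (1 + Real.log B) + C + C₁ + C₂, by positivity, ?_⟩
  intro ε x z hε hε1
  obtain ⟨v, s, had⟩ := h.flat x z ε hε
  set Y := 1 + ‖x‖ + |z| with hY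
  have hx := norm_nonneg x
  have hz := abs_nonneg z
  have hY1 : 1 ≤ Y := by rw [hY]; linarith
  have hYε : 1 ≤ Y / ε := by
    rw [le_div_iff₀ hε]; linarith
  have hlY : 0 ≤ Real.log (Y / ε) := Real.log_nonneg hYε
  have hA1 : 1 ≤ B * (Y / ε) := by nlinarith
  have hBY : Y ≤ B * Y := by nlinarith
  have hBYε : B * Y ≤ B * (Y / ε) := by
    apply mul_le_mul_of_nonneg_left _ (by linarith)
    rw [le_div_iff₀ hε]
    nlinarith
  have h1 := (hfar W h 0 x v₀ v 0 z 1 ε s₀ s (B * (Y / ε)) one_pos hε hA1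
    (by
      have : B * (Y / ε) * ε = B * Y := by field_simp
      rw [this]; linarith)
    (by linarith)
    (by rw [sub_zero]; linarith)
    (by
      rw [sub_zero, sub_zero]
      calc ‖x - z • v₀‖ ≤ ‖x‖ + ‖z • v₀‖ := norm_sub_le _ _
        _ = ‖x‖ + |z| * ‖v₀‖ := by rw [norm_smul, Real.norm_eq_abs]
        _ ≤ B * Y := by
            rw [hB, hY]
            nlinarith [norm_nonneg v₀, mul_nonneg hx (norm_nonneg v₀)]
        _ ≤ B * (Y / ε) * 1 := by linarith)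
    had₀ had).2
  rw [Real.log_mul (by positivity) (by positivity)] at h1
  have h2 := (hup W h x v z ε s hε had).1
  have h3 := (hdn W h x v z ε s hε had).1
  have h4 : |s + ‖v‖ ^ 2 / 2| ≤ |s₀ + ‖v₀‖ ^ 2 / 2| +
      C * (1 + (Real.log B + Real.log (Y / ε))) := by
    have : s + ‖v‖ ^ 2 / 2 = (s₀ + ‖v₀‖ ^ 2 / 2) +
      ((s + ‖v‖ ^ 2 / 2) - (s₀ + ‖v₀‖ ^ 2 / 2)) := by ring
    rw [this]
    exact (abs_add_le _ _).trans (by linarith)
  have hkey : |s₀ + ‖v₀‖ ^ 2 / 2| + C * (1 + (Real.log B + Real.log (Y / ε))) + C₁ + C₂ ≤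
      (|s₀ + ‖v₀‖ ^ 2 / 2| + C * (1 + Real.log B) + C + C₁ + C₂) * (1 + Real.log (Y / ε)) := by
    have h5 : 0 ≤ (|s₀ + ‖v₀‖ ^ 2 / 2| + C * (1 + Real.log B) + C₁ + C₂) *
        Real.log (Y / ε) := by positivity
    nlinarith
  constructor
  · have : qpM W ε x z = (s + ‖v‖ ^ 2 / 2) + (qpM W ε x z - (s + ‖v‖ ^ 2 / 2)) := by ring
    rw [this]
    exact (abs_add_le _ _).trans (by linarith)
  · have : qmM W ε x z = (s + ‖v‖ ^ 2 / 2) + (qmM W ε x z - (s + ‖v‖ ^ 2 / 2)) := by ring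
    rw [this]
    exact (abs_add_le _ _).trans (by linarith)

theorem MCls.diff_bound [FiniteDimensional ℝ E] {K : ℝ} (hK : 1 ≤ K) {W : E → ℝ → ℝ}
    (h : MCls K W) : ∃ C : ℝ, 0 < C ∧ ∀ (ε : ℝ) (x : E) (z : ℝ), 0 < ε → ε ≤ 1 →
      |upM W ε x z - W x z| ≤ C * √ε * (1 + Real.log (1 + ‖x‖ + |z|)) ∧
      |dnM W ε x z - W x z| ≤ C * √ε * (1 + Real.log (1 + ‖x‖ + |z|)) := by
  obtain ⟨C, hC, hq⟩ := MCls.q_bound hK h
  refine ⟨3 * C, by linarith, fun ε x z hε hε1 => ?_⟩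
  obtain ⟨h1, h2⟩ := hq ε x z hε hε1
  have hx := norm_nonneg x
  have hz := abs_nonneg z
  set Y := 1 + ‖x‖ + |z| with hY
  have hY1 : 1 ≤ Y := by rw [hY]; linarith
  have hlY : 0 ≤ Real.log Y := Real.log_nonneg hY1
  have hsq : 0 < √ε := Real.sqrt_pos.2 hε
  have hsq1 : √ε ≤ 1 := Real.sqrt_le_one.2 hε1
  have hss : √ε * √ε = ε := Real.mul_self_sqrt hε.le
  have hlog : ε * (1 + Real.log (Y / ε)) ≤ 3 * √ε * (1 + Real.log Y) := by
    rw [Real.log_div (by positivity) hε.ne']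
    have h3 : -Real.log ε ≤ 2 / √ε := by
      have h4 : Real.log ε = 2 * Real.log (√ε) := by
        rw [Real.log_sqrt hε.le]; ring
      have h5 : Real.log (1 / √ε) ≤ 1 / √ε - 1 := Real.log_le_sub_one_of_pos (by positivity)
      rw [Real.log_div one_ne_zero hsq.ne', Real.log_one] at h5
      rw [h4]
      have h6 : 2 / √ε = 2 * (1 / √ε) := by ring
      rw [h6]
      linarith
    have h4 : ε * (-Real.log ε) ≤ 2 * √ε := by
      have h5 := mul_le_mul_of_nonneg_left h3 hε.le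
      have h6 : ε * (2 / √ε) = 2 * √ε := by
        calc ε * (2 / √ε) = (√ε * √ε) * (2 / √ε) := by rw [hss]
          _ = 2 * √ε := by field_simp
      linarith
    have h5 : ε * (1 + Real.log Y) ≤ √ε * (1 + Real.log Y) := by
      apply mul_le_mul_of_nonneg_right _ (by linarith)
      nlinarith
    have h6 : 0 ≤ √ε * Real.log Y := by positivity
    nlinarith
  have habs : ∀ q d : ℝ, |q| ≤ C * (1 + Real.log (Y / ε)) → d = ε * q →
      |d| ≤ 3 * C * √ε * (1 + Real.log Y) := by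
    intro q d hq hd
    rw [hd, abs_mul, abs_of_pos hε]
    have h3 := mul_le_mul_of_nonneg_left hq hε.le
    have h4 := mul_le_mul_of_nonneg_left hlog hC.le
    nlinarith
  constructor
  · apply habs _ _ h1
    unfold qpM
    field_simp
  · rw [abs_sub_comm]
    apply habs _ _ h2
    unfold qmM
    field_simp

theorem MCls.small [FiniteDimensional ℝ E] {K : ℝ} (hK : 1 ≤ K) {W : E → ℝ → ℝ}
    (h : MCls K W) (R : ℝ) : ∃ C : ℝ, 0 < C ∧ ∀ (ε : ℝ) (x : E) (z : ℝ), 0 < ε → ε ≤ 1 →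
      ‖x‖ ≤ R → |z| ≤ R →
      |upM W ε x z - W x z| ≤ C * √ε ∧ |dnM W ε x z - W x z| ≤ C * √ε := by
  obtain ⟨C, hC, hd⟩ := MCls.diff_bound hK h
  have hR0 := abs_nonneg R
  have hlR : 0 ≤ Real.log (1 + |R| + |R|) := Real.log_nonneg (by linarith)
  refine ⟨C * (1 + Real.log (1 + |R| + |R|)), by positivity, fun ε x z hε hε1 hx hz => ?_⟩
  obtain ⟨h1, h2⟩ := hd ε x z hε hε1
  have hRR := le_abs_self R
  have h3 : Real.log (1 + ‖x‖ + |z|) ≤ Real.log (1 + |R| + |R|) :=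
    Real.log_le_log (by positivity) (by linarith)
  have h4 : C * √ε * (1 + Real.log (1 + ‖x‖ + |z|)) ≤
      C * (1 + Real.log (1 + |R| + |R|)) * √ε := by
    have h5 : 0 ≤ C * √ε := by positivity
    have h6 := mul_le_mul_of_nonneg_left (add_le_add_right h3 1) h5
    linarith
  exact ⟨h1.trans h4, h2.trans h4⟩

theorem MCls.ops_growth [FiniteDimensional ℝ E] {K : ℝ} (hK : 1 ≤ K) {W : E → ℝ → ℝ}
    (h : MCls K W) (R : ℝ) {δ : ℝ} (hδ : 0 < δ) : ∃ C : ℝ, 0 < C ∧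
      ∀ (ε : ℝ) (x : E) (z : ℝ), 0 < ε → ε ≤ 1 → |z| ≤ R →
      |upM W ε x z| ≤ C + δ * ‖x‖ ^ 2 ∧ |dnM W ε x z| ≤ C + δ * ‖x‖ ^ 2 := by
  obtain ⟨C, hC, hd⟩ := MCls.diff_bound hK h
  obtain ⟨C', hC', hg⟩ := MCls.growth (E := E) hK (show (0 : ℝ) < δ / 8 by linarith)
  obtain ⟨v₀, s₀, had₀⟩ := h.flat 0 0 1 one_pos
  have hR0 := abs_nonneg R
  have hv0 := norm_nonneg v₀
  have hRR := le_abs_self R
  set D := |R| * (1 + ‖v₀‖) with hD
  have hD0 : 0 ≤ D := by positivity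
  refine ⟨|W 0 0| + ‖v₀‖ ^ 2 / δ + |s₀| * |R| + C' + δ / 4 * D ^ 2
    + C * (1 + |R|) + C ^ 2 / δ + 1, by positivity, ?_⟩
  intro ε x z hε hε1 hz
  obtain ⟨h1, h2⟩ := hd ε x z hε hε1
  have hx := norm_nonneg x
  have hz0 := abs_nonneg z
  have hzR : |z| ≤ |R| := hz.trans hRR
  have hsq : 0 < √ε := Real.sqrt_pos.2 hε
  have hsq1 : √ε ≤ 1 := Real.sqrt_le_one.2 hε1
  -- the logarithmic term
  have h3 : C * √ε * (1 + Real.log (1 + ‖x‖ + |z|)) ≤ C * (1 + |R|) + C ^ 2 / δ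
      + δ / 4 * ‖x‖ ^ 2 := by
    have h4 : Real.log (1 + ‖x‖ + |z|) ≤ ‖x‖ + |z| := by
      have := Real.log_le_sub_one_of_pos (show 0 < 1 + ‖x‖ + |z| by positivity)
      linarith
    have h5 : 0 ≤ 1 + Real.log (1 + ‖x‖ + |z|) := by
      have := Real.log_nonneg (show (1 : ℝ) ≤ 1 + ‖x‖ + |z| by linarith)
      linarith
    have h6 : C * √ε * (1 + Real.log (1 + ‖x‖ + |z|)) ≤ C * (1 + Real.log (1 + ‖x‖ + |z|)) := by
      apply mul_le_mul_of_nonneg_right _ h5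
      nlinarith
    have h7 : C * ‖x‖ ≤ C ^ 2 / δ + δ / 4 * ‖x‖ ^ 2 := by
      have h8 : C ^ 2 / δ + δ / 4 * ‖x‖ ^ 2 - C * ‖x‖ = (C - δ / 2 * ‖x‖) ^ 2 / δ := by
        field_simp
        ring
      have h9 : 0 ≤ (C - δ / 2 * ‖x‖) ^ 2 / δ := by positivity
      linarith
    have h8 : C * (1 + Real.log (1 + ‖x‖ + |z|)) ≤ C * (1 + (‖x‖ + |R|)) :=
      mul_le_mul_of_nonneg_left (by linarith) hC.le
    linarith
  -- growth of W
  have h4 : |W x z| ≤ |W 0 0| + ‖v₀‖ ^ 2 / δ + |s₀| * |R| + C' + δ / 4 * D ^ 2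
      + δ / 2 * ‖x‖ ^ 2 := by
    have h5 := hg W h 0 v₀ 0 1 s₀ one_pos had₀ x z
    rw [sub_zero, sub_zero, one_mul, div_one] at h5
    have h6 : |z| + ‖x - z • v₀‖ ≤ ‖x‖ + D := by
      have h7 : ‖x - z • v₀‖ ≤ ‖x‖ + |z| * ‖v₀‖ := by
        calc ‖x - z • v₀‖ ≤ ‖x‖ + ‖z • v₀‖ := norm_sub_le _ _
          _ = ‖x‖ + |z| * ‖v₀‖ := by rw [norm_smul, Real.norm_eq_abs]
      have h8 : |z| * (1 + ‖v₀‖) ≤ D := by
        rw [hD]
        exact mul_le_mul_of_nonneg_right hzR (by linarith)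
      linarith
    have h7 : (|z| + ‖x - z • v₀‖) ^ 2 ≤ 2 * ‖x‖ ^ 2 + 2 * D ^ 2 := by
      have h8 : (|z| + ‖x - z • v₀‖) ^ 2 ≤ (‖x‖ + D) ^ 2 :=
        pow_le_pow_left₀ (by positivity) h6 2
      nlinarith [sq_nonneg (‖x‖ - D)]
    have h8 : δ / 8 * (|z| + ‖x - z • v₀‖) ^ 2 ≤ δ / 4 * ‖x‖ ^ 2 + δ / 4 * D ^ 2 := by
      have := mul_le_mul_of_nonneg_left h7 (show (0 : ℝ) ≤ δ / 8 by linarith)
      linarith
    have h9 : |⟪v₀, x⟫| ≤ ‖v₀‖ ^ 2 / δ + δ / 4 * ‖x‖ ^ 2 := by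
      have h10 := abs_real_inner_le_norm v₀ x
      have h11 : ‖v₀‖ ^ 2 / δ + δ / 4 * ‖x‖ ^ 2 - ‖v₀‖ * ‖x‖ =
          (‖v₀‖ - δ / 2 * ‖x‖) ^ 2 / δ := by
        field_simp
        ring
      have h12 : 0 ≤ (‖v₀‖ - δ / 2 * ‖x‖) ^ 2 / δ := by positivity
      linarith
    have h10 : |s₀ * z| ≤ |s₀| * |R| := by
      rw [abs_mul]
      exact mul_le_mul_of_nonneg_left hzR (abs_nonneg _)
    have e : W x z = W 0 0 + ⟪v₀, x⟫ + s₀ * z +
        (W x z - W 0 0 - ⟪v₀, x⟫ - s₀ * z) := by ring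
    have h11 : |W x z| ≤ |W 0 0| + |⟪v₀, x⟫| + |s₀ * z| +
        |W x z - W 0 0 - ⟪v₀, x⟫ - s₀ * z| := by
      conv_lhs => rw [e]
      refine (abs_add_le _ _).trans ?_
      gcongr
      refine (abs_add_le _ _).trans ?_
      gcongr
      exact abs_add_le _ _
    linarith
  have hfin : ∀ u : ℝ, |u - W x z| ≤ C * √ε * (1 + Real.log (1 + ‖x‖ + |z|)) →
      |u| ≤ |W 0 0| + ‖v₀‖ ^ 2 / δ + |s₀| * |R| + C' + δ / 4 * D ^ 2
        + C * (1 + |R|) + C ^ 2 / δ + 1 + δ * ‖x‖ ^ 2 := by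
    intro u hu
    have h5 : |u| ≤ |W x z| + |u - W x z| := by
      have : u = W x z + (u - W x z) := by ring
      conv_lhs => rw [this]
      exact abs_add_le _ _
    have h6 : 0 ≤ δ / 4 * ‖x‖ ^ 2 := by positivity
    linarith
  exact ⟨hfin _ h1, hfin _ h2⟩

theorem MCls.v_bound {K : ℝ} (hK : 1 ≤ K) {W : E → ℝ → ℝ} (h : MCls K W) {ε : ℝ}
    (hε : 0 < ε) (r : ℝ) : ∃ V : ℝ, ∀ (x : E) (z : ℝ) (v : E) (s : ℝ), ‖x‖ ≤ r → |z| ≤ r →
      Adapted K W x z ε v s → ‖v‖ ≤ V := by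
  obtain ⟨C, hC, hfar⟩ := MCls.far (E := E) hK
  obtain ⟨v₀, s₀, had₀⟩ := h.flat 0 0 ε hε
  have hv0 := norm_nonneg v₀
  have hr0 := abs_nonneg r
  have hrr := le_abs_self r
  set A := 1 + (|r| + |r| * (1 + ‖v₀‖)) / ε with hA
  have hA1 : 1 ≤ A := by
    rw [hA]
    have : 0 ≤ (|r| + |r| * (1 + ‖v₀‖)) / ε := by positivity
    linarith
  have hAε : A * ε = ε + (|r| + |r| * (1 + ‖v₀‖)) := by
    rw [hA]; field_simp
  refine ⟨‖v₀‖ + C * (1 + Real.log A), fun x z v s hx hz had => ?_⟩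
  have h1 := (hfar W h 0 x v₀ v 0 z ε ε s₀ s A hε hε hA1 (by nlinarith) (by nlinarith)
    (by
      rw [sub_zero, hAε]
      nlinarith [mul_nonneg hr0 hv0])
    (by
      rw [sub_zero, sub_zero, hAε]
      calc ‖x - z • v₀‖ ≤ ‖x‖ + ‖z • v₀‖ := norm_sub_le _ _
        _ = ‖x‖ + |z| * ‖v₀‖ := by rw [norm_smul, Real.norm_eq_abs]
        _ ≤ |r| + |r| * ‖v₀‖ := by
            have := mul_le_mul_of_nonneg_right (hz.trans hrr) hv0
            linarith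
        _ ≤ ε + (|r| + |r| * (1 + ‖v₀‖)) := by linarith)
    had₀ had).1
  have e : v = v₀ + (v - v₀) := by abel
  calc ‖v‖ = ‖v₀ + (v - v₀)‖ := by rw [← e]
    _ ≤ ‖v₀‖ + ‖v - v₀‖ := norm_add_le _ _
    _ ≤ ‖v₀‖ + C * (1 + Real.log A) := by linarith

theorem MCls.up_continuous [FiniteDimensional ℝ E] {K : ℝ} (hK : 1 ≤ K) {W : E → ℝ → ℝ}
    (h : MCls K W) {ε : ℝ} (hε : 0 < ε) : Continuous fun p : E × ℝ => upM W ε p.1 p.2 := by
  obtain ⟨C, hC, hloc⟩ := MCls.up_loc (E := E) hK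
  rw [continuous_iff_continuousAt]
  intro p₀
  set r := ‖p₀‖ + 1 with hr
  obtain ⟨V, hV⟩ := MCls.v_bound hK h hε r
  set ρ := r + ε * V + C * ε with hρ
  set F : E × ℝ → E → ℝ := fun p a => W a (p.2 + ε) - ‖a - p.1‖ ^ 2 / (2 * ε) with hF
  have hWc := MCls.continuous hK h
  have hFc : Continuous ↿F := by
    have h1 : Continuous fun q : (E × ℝ) × E => W q.2 (q.1.2 + ε) :=
      hWc.comp (by fun_prop : Continuous fun q : (E × ℝ) × E => (q.2, q.1.2 + ε))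
    have h2 : Continuous fun q : (E × ℝ) × E => ‖q.2 - q.1.1‖ ^ 2 / (2 * ε) := by fun_prop
    exact h1.sub h2
  have hcont := (isCompact_closedBall (0 : E) ρ).continuous_sSup hFc
  refine hcont.continuousAt.congr ?_
  have hnear : ∀ᶠ p : E × ℝ in 𝓝 p₀, ‖p‖ < r := by
    have : Continuous fun p : E × ℝ => ‖p‖ := continuous_norm
    exact this.continuousAt.eventually_lt continuousAt_const (by rw [hr]; linarith)
  filter_upwards [hnear] with p hp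
  have hp1 : ‖p.1‖ ≤ r := (norm_fst_le p).trans hp.le
  have hp2 : |p.2| ≤ r := by
    have := norm_snd_le p
    rw [Real.norm_eq_abs] at this
    exact this.trans hp.le
  obtain ⟨a, ha⟩ := MCls.exists_up hK h hε p.1 p.2
  obtain ⟨v, s, had⟩ := h.flat p.1 p.2 ε hε
  have h1 := (hloc W h p.1 v p.2 ε s hε had).2 a ha.le
  have h2 := hV p.1 p.2 v s hp1 hp2 had
  have hab : a ∈ closedBall (0 : E) ρ := by
    rw [mem_closedBall_zero_iff]
    have e : a = (a - p.1 - ε • v) + (p.1 + ε • v) := by abel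
    calc ‖a‖ = ‖(a - p.1 - ε • v) + (p.1 + ε • v)‖ := by rw [← e]
      _ ≤ ‖a - p.1 - ε • v‖ + ‖p.1 + ε • v‖ := norm_add_le _ _
      _ ≤ ‖a - p.1 - ε • v‖ + (‖p.1‖ + ‖ε • v‖) := by gcongr; exact norm_add_le _ _
      _ = ‖a - p.1 - ε • v‖ + (‖p.1‖ + ε * ‖v‖) := by
          rw [norm_smul, Real.norm_eq_abs, abs_of_pos hε]
      _ ≤ ρ := by
          rw [hρ]
          have := mul_le_mul_of_nonneg_left h2 hε.le
          linarith
  apply le_antisymm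
  · apply csSup_le (Set.Nonempty.image _ ⟨a, hab⟩)
    rintro _ ⟨b, _, rfl⟩
    exact MCls.le_up hK h hε b p.1 p.2
  · rw [ha]
    refine le_csSup ⟨upM W ε p.1 p.2, ?_⟩ ⟨a, hab, rfl⟩
    rintro _ ⟨b, _, rfl⟩
    exact MCls.le_up hK h hε b p.1 p.2

theorem MCls.dn_continuous [FiniteDimensional ℝ E] {K : ℝ} (hK : 1 ≤ K) {W : E → ℝ → ℝ}
    (h : MCls K W) {ε : ℝ} (hε : 0 < ε) : Continuous fun p : E × ℝ => dnM W ε p.1 p.2 := by
  have h1 := (MCls.up_continuous hK h.refl hε).comp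
    (by fun_prop : Continuous fun p : E × ℝ => (p.1, -p.2))
  have h2 := h1.neg
  refine h2.congr fun p => ?_
  change -(upM (Vale.Agent.P080.refl W) ε p.1 (-p.2)) = dnM W ε p.1 p.2
  rw [upM_refl_neg, neg_neg]

end Vale.Agent.P080
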