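import Vale.Agent.P080.MOpsDefs

open Metric Set Filter Topology
open scoped RealInnerProductSpace

namespace Vale.Agent.P080

variable {E : Type*} [NormedAddCommGroup E] [InnerProductSpace ℝ E]

noncomputable def Fun {ι : Type} [Fintype ι] (lam : ι → ℝ) (f k : E → ℝ → ℝ)
    (τ c b β g : ℝ) (a : ι → E) (Y : E) (t z : ℝ) : ℝ :=
  (∑ i, lam i * (f (a i) t - ‖a i - ∑ j, lam j • a j‖ ^ 2 / (2 * z))) - k Y (t - τ)
    - ‖Y - ∑ j, lam j • a j‖ ^ 2 / (2 * τ) - c * z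
    - τ * (b * (z - 1) - β * (z - 1) ^ 2 + g * (‖∑ j, lam j • a j‖ ^ 2 + t ^ 2))

theorem Fun_eq {ι : Type} [Fintype ι] (lam : ι → ℝ) (f k : E → ℝ → ℝ)
    (τ c b β g : ℝ) (a : ι → E) (Y : E) (t z : ℝ) {m : E} (hm : ∑ j, lam j • a j = m) :
    Fun lam f k τ c b β g a Y t z = (∑ i, lam i * f (a i) t)
      - (∑ i, lam i * ‖a i - m‖ ^ 2) / (2 * z) - k Y (t - τ)
      - ‖Y - m‖ ^ 2 / (2 * τ) - c * z
      - τ * (b * (z - 1) - β * (z - 1) ^ 2 + g * (‖m‖ ^ 2 + t ^ 2)) := by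
  unfold Fun
  rw [hm]
  have : ∑ i, lam i * (f (a i) t - ‖a i - m‖ ^ 2 / (2 * z))
      = (∑ i, lam i * f (a i) t) - (∑ i, lam i * ‖a i - m‖ ^ 2) / (2 * z) := by
    rw [Finset.sum_div, ← Finset.sum_sub_distrib]
    refine Finset.sum_congr rfl fun i _ => ?_
    ring
  rw [this]

theorem sum_inner_center {ι : Type} [Fintype ι] {lam : ι → ℝ} (hs : ∑ i, lam i = 1)
    {a : ι → E} {m : E} (hm : ∑ j, lam j • a j = m) (v : E) :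
    ∑ i, lam i * ⟪a i - m, v⟫ = 0 := by
  have h1 : ∑ i, lam i * ⟪a i - m, v⟫ = ⟪∑ i, lam i • (a i - m), v⟫ := by
    rw [sum_inner]
    refine Finset.sum_congr rfl fun i _ => ?_
    rw [real_inner_smul_left]
  have h2 : ∑ i, lam i • (a i - m) = 0 := by
    simp only [smul_sub]
    rw [Finset.sum_sub_distrib, hm, ← Finset.sum_smul, hs, one_smul, sub_self]
  rw [h1, h2, inner_zero_left]

theorem sum_sq_center {ι : Type} [Fintype ι] {lam : ι → ℝ} (hs : ∑ i, lam i = 1)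
    {a : ι → E} {m : E} (hm : ∑ j, lam j • a j = m) :
    ∑ i, lam i * ‖a i‖ ^ 2 = (∑ i, lam i * ‖a i - m‖ ^ 2) + ‖m‖ ^ 2 := by
  have h1 : ∀ i, lam i * ‖a i‖ ^ 2
      = lam i * ‖a i - m‖ ^ 2 + 2 * (lam i * ⟪a i - m, m⟫) + lam i * ‖m‖ ^ 2 := by
    intro i
    have : ‖a i‖ ^ 2 = ‖a i - m‖ ^ 2 + 2 * ⟪a i - m, m⟫ + ‖m‖ ^ 2 := by
      have := norm_add_sq_real (a i - m) m
      rwa [sub_add_cancel] at this
    rw [this]; ring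
  rw [Finset.sum_congr rfl fun i _ => h1 i, Finset.sum_add_distrib, Finset.sum_add_distrib,
    ← Finset.mul_sum, sum_inner_center hs hm, ← Finset.sum_mul, hs]
  ring

theorem sum_sq_move {ι : Type} [Fintype ι] {lam : ι → ℝ}
    {a d : ι → E} {m n : E} (s : ℝ) :
    ∑ i, lam i * ‖(a i + s • d i) - (m + s • n)‖ ^ 2 = (∑ i, lam i * ‖a i - m‖ ^ 2)
      + 2 * s * (∑ i, lam i * ⟪a i - m, d i - n⟫) + s ^ 2 * (∑ i, lam i * ‖d i - n‖ ^ 2) := by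
  have h1 : ∀ i, lam i * ‖(a i + s • d i) - (m + s • n)‖ ^ 2
      = lam i * ‖a i - m‖ ^ 2 + 2 * s * (lam i * ⟪a i - m, d i - n⟫)
        + s ^ 2 * (lam i * ‖d i - n‖ ^ 2) := by
    intro i
    have e : (a i + s • d i) - (m + s • n) = (a i - m) + s • (d i - n) := by
      rw [smul_sub]; abel
    rw [e, norm_add_sq_real, real_inner_smul_right, norm_smul, mul_pow, Real.norm_eq_abs, sq_abs]
    ring
  rw [Finset.sum_congr rfl fun i _ => h1 i, Finset.sum_add_distrib, Finset.sum_add_distrib,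
    ← Finset.mul_sum, ← Finset.mul_sum]

theorem kappa_part {K2 B C s z : ℝ} (hs : 0 < s) (hsz : s < z)
    (h : 0 ≤ K2 / z ^ 2 - 2 * B / z + C) :
    (K2 + 2 * s * B + s ^ 2 * C) / (2 * (z + s)) + K2 * (1 - s / z) ^ 2 / (2 * (z - s)) - K2 / z
      - s / 2 * C + s / 2 * (K2 / z ^ 2) ≤ 0 := by
  have hz : 0 < z := hs.trans hsz
  have hzs : 0 < z + s := by linarith
  have hzs' : 0 < z - s := by linarith
  have e : (K2 + 2 * s * B + s ^ 2 * C) / (2 * (z + s)) + K2 * (1 - s / z) ^ 2 / (2 * (z - s))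
      - K2 / z - s / 2 * C + s / 2 * (K2 / z ^ 2)
      = -(s * z / (2 * (z + s))) * (K2 / z ^ 2 - 2 * B / z + C) := by
    field_simp
    ring
  rw [e]
  have : 0 ≤ s * z / (2 * (z + s)) := by positivity
  nlinarith

theorem tpl_alg {S0 S1 S2 K2 C k0 k1 k2 s t z τ c b β g m2 x2 v2 y2 w2 p1 p2 p3 p4 q1 q2 Z1 Z2
    D A1 A2 : ℝ}
    (hP : 2 * S0 ≤ S1 - s / 2 * (C + x2) + S2 + s / 2 * (K2 / z ^ 2 + v2))
    (P2 : (k1 - s / 2 * y2) + (k2 + s / 2 * w2) ≤ 2 * k0)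
    (M1 : S1 - A1 - k1 - (D - s * (1 / τ * (p1 - p2)) + s * (s / (2 * τ) * Z1))
        - c * (z + s) - τ * (b * (z + s - 1) - β * (z + s - 1) ^ 2
          + g * (m2 + 2 * s * q1 + s ^ 2 * x2 + (t + s) ^ 2))
      ≤ S0 - K2 / z / 2 - k0 - D - c * z
        - τ * (b * (z - 1) - β * (z - 1) ^ 2 + g * (m2 + t ^ 2)))
    (M2 : S2 - A2 - k2 - (D + s * (1 / τ * (p3 - p4)) + s * (s / (2 * τ) * Z2))
        - c * (z - s) - τ * (b * (z - s - 1) - β * (z - s - 1) ^ 2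
          + g * (m2 - 2 * s * q2 + s ^ 2 * v2 + (t - s) ^ 2))
      ≤ S0 - K2 / z / 2 - k0 - D - c * z
        - τ * (b * (z - 1) - β * (z - 1) ^ 2 + g * (m2 + t ^ 2)))
    (kp : A1 + A2 - K2 / z - s / 2 * C + s / 2 * (K2 / z ^ 2) ≤ 0) :
    0 ≤ s * (1 / 2 * (-x2 + v2 + y2 - w2)
      + (1 / τ * (p2 - p4) + 2 * τ * g * (q1 - q2))
      + 1 / τ * (p3 - p1)
      + s / (2 * τ) * (Z1 + Z2)
      + τ * s * (-2 * β + g * (x2 + v2 + 2))) := by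
  linarith

theorem tpl_core {ι : Type} [Fintype ι] {lam : ι → ℝ} (hl : ∀ i, 0 ≤ lam i)
    (hs1 : ∑ i, lam i = 1) {f k : E → ℝ → ℝ} {τ c b β g t z s : ℝ} {a : ι → E} {Y m : E}
    (hm : ∑ j, lam j • a j = m)
    (hτ : 0 < τ) (hs : 0 < s) (hsz : s < z) {ξ : ι → E} {ξb ξ' νb ζ : E}
    (hξb : ∑ j, lam j • ξ j = ξb)
    (P1 : ∀ i, 2 * f (a i) t ≤ (f (a i + s • ξ i) (t + s) - s / 2 * ‖ξ i‖ ^ 2)
        + (f (a i - s • (νb + (1 / z) • (a i - m))) (t - s)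
          + s / 2 * ‖νb + (1 / z) • (a i - m)‖ ^ 2))
    (P2 : (k (Y + s • ζ) (t - τ + s) - s / 2 * ‖ζ‖ ^ 2)
        + (k (Y - s • ξ') (t - τ - s) + s / 2 * ‖ξ'‖ ^ 2) ≤ 2 * k Y (t - τ))
    (M1 : Fun lam f k τ c b β g (fun i => a i + s • ξ i) (Y + s • ζ) (t + s) (z + s)
      ≤ Fun lam f k τ c b β g a Y t z)
    (M2 : Fun lam f k τ c b β g (fun i => a i - s • (νb + (1 / z) • (a i - m))) (Y - s • ξ')
        (t - s) (z - s) ≤ Fun lam f k τ c b β g a Y t z) :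
    0 ≤ 1 / 2 * (-‖ξb‖ ^ 2 + ‖νb‖ ^ 2 + ‖ζ‖ ^ 2 - ‖ξ'‖ ^ 2)
      + ⟪(1 / τ) • (m - Y) + (2 * τ * g) • m, ξb - νb⟫ + ⟪(1 / τ) • (m - Y), ξ' - ζ⟫
      + s / (2 * τ) * (‖ζ - ξb‖ ^ 2 + ‖ξ' - νb‖ ^ 2)
      + τ * s * (-2 * β + g * (‖ξb‖ ^ 2 + ‖νb‖ ^ 2 + 2)) := by
  have hz : 0 < z := hs.trans hsz
  have hκ0 : ∑ i, lam i • (a i - m) = 0 := by
    simp only [smul_sub]
    rw [Finset.sum_sub_distrib, hm, ← Finset.sum_smul, hs1, one_smul, sub_self]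
  have hm1 : ∑ j, lam j • (a j + s • ξ j) = m + s • ξb := by
    simp only [smul_add]
    rw [Finset.sum_add_distrib, hm]
    congr 1
    rw [← hξb, Finset.smul_sum]
    refine Finset.sum_congr rfl fun i _ => ?_
    rw [smul_comm]
  have hν : ∑ j, lam j • (νb + (1 / z) • (a j - m)) = νb := by
    simp only [smul_add]
    rw [Finset.sum_add_distrib, ← Finset.sum_smul, hs1, one_smul]
    have : ∑ j, lam j • (1 / z) • (a j - m) = 0 := by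
      have h : ∀ j, lam j • (1 / z) • (a j - m) = (1 / z) • (lam j • (a j - m)) := fun j =>
        smul_comm _ _ _
      rw [Finset.sum_congr rfl fun i _ => h i, ← Finset.smul_sum, hκ0, smul_zero]
    rw [this, add_zero]
  have hm2 : ∑ j, lam j • (a j - s • (νb + (1 / z) • (a j - m))) = m - s • νb := by
    simp only [smul_sub]
    rw [Finset.sum_sub_distrib, hm]
    congr 1
    conv_rhs => rw [← hν]
    rw [Finset.smul_sum]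
    refine Finset.sum_congr rfl fun i _ => ?_
    rw [smul_comm]
    simp only [smul_sub]
  rw [Fun_eq (hm := hm1), Fun_eq (hm := hm)] at M1
  rw [Fun_eq (hm := hm2), Fun_eq (hm := hm)] at M2
  have R1 := sum_sq_move (lam := lam) (a := a) (d := ξ) (m := m) (n := ξb) s
  have R2' := sum_sq_move (lam := lam) (a := a) (d := fun i => νb + (1 / z) • (a i - m))
    (m := m) (n := νb) (-s)
  simp only [neg_smul, ← sub_eq_add_neg, add_sub_cancel_left] at R2'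
  have e1 : ∑ i, lam i * ⟪a i - m, (1 / z) • (a i - m)⟫
      = (1 / z) * ∑ i, lam i * ‖a i - m‖ ^ 2 := by
    rw [Finset.mul_sum]
    refine Finset.sum_congr rfl fun i _ => ?_
    rw [real_inner_smul_right, real_inner_self_eq_norm_sq]
    ring
  have e2 : ∑ i, lam i * ‖(1 / z) • (a i - m)‖ ^ 2
      = (1 / z) ^ 2 * ∑ i, lam i * ‖a i - m‖ ^ 2 := by
    rw [Finset.mul_sum]
    refine Finset.sum_congr rfl fun i _ => ?_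
    rw [norm_smul, mul_pow, Real.norm_eq_abs, sq_abs]
    ring
  rw [e1, e2] at R2'
  have Q1 := sum_sq_center hs1 hξb
  have Q2 := sum_sq_center hs1 hν
  simp only [add_sub_cancel_left] at Q2
  rw [e2] at Q2
  have hCS : 0 ≤ ∑ i, lam i * ‖(ξ i - ξb) - (1 / z) • (a i - m)‖ ^ 2 :=
    Finset.sum_nonneg fun i _ => mul_nonneg (hl i) (sq_nonneg _)
  have hCS' : ∑ i, lam i * ‖(ξ i - ξb) - (1 / z) • (a i - m)‖ ^ 2
      = (∑ i, lam i * ‖ξ i - ξb‖ ^ 2) - 2 / z * (∑ i, lam i * ⟪a i - m, ξ i - ξb⟫)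
        + (1 / z) ^ 2 * ∑ i, lam i * ‖a i - m‖ ^ 2 := by
    rw [Finset.mul_sum, Finset.mul_sum, ← Finset.sum_sub_distrib, ← Finset.sum_add_distrib]
    refine Finset.sum_congr rfl fun i _ => ?_
    rw [norm_sub_sq_real, real_inner_smul_right, norm_smul, mul_pow, Real.norm_eq_abs, sq_abs,
      real_inner_comm]
    ring
  rw [hCS'] at hCS
  have hP := Finset.sum_le_sum fun i (_ : i ∈ Finset.univ) =>
    mul_le_mul_of_nonneg_left (P1 i) (hl i)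
  have hP' : 2 * (∑ i, lam i * f (a i) t)
      ≤ (∑ i, lam i * f (a i + s • ξ i) (t + s)) - s / 2 * (∑ i, lam i * ‖ξ i‖ ^ 2)
        + (∑ i, lam i * f (a i - s • (νb + (1 / z) • (a i - m))) (t - s))
        + s / 2 * (∑ i, lam i * ‖νb + (1 / z) • (a i - m)‖ ^ 2) := by
    calc 2 * (∑ i, lam i * f (a i) t) = ∑ i, lam i * (2 * f (a i) t) := by
          rw [Finset.mul_sum]
          exact Finset.sum_congr rfl fun i _ => by ring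
      _ ≤ _ := hP
      _ = _ := by
          rw [Finset.mul_sum, Finset.mul_sum, ← Finset.sum_sub_distrib,
            ← Finset.sum_add_distrib, ← Finset.sum_add_distrib]
          exact Finset.sum_congr rfl fun i _ => by ring
  rw [Q1, Q2] at hP'
  rw [R1] at M1
  rw [R2'] at M2
  have t1 : t + s - τ = t - τ + s := by ring
  have t2 : t - s - τ = t - τ - s := by ring
  rw [t1] at M1
  rw [t2] at M2
  have n1 : ‖(Y + s • ζ) - (m + s • ξb)‖ ^ 2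
      = ‖Y - m‖ ^ 2 - 2 * s * ⟪m - Y, ζ - ξb⟫ + s ^ 2 * ‖ζ - ξb‖ ^ 2 := by
    have e : (Y + s • ζ) - (m + s • ξb) = (Y - m) + s • (ζ - ξb) := by rw [smul_sub]; abel
    have e' : Y - m = -(m - Y) := by abel
    rw [e, norm_add_sq_real, real_inner_smul_right, norm_smul, mul_pow, Real.norm_eq_abs, sq_abs]
    rw [e', inner_neg_left]
    ring
  have n2 : ‖(Y - s • ξ') - (m - s • νb)‖ ^ 2
      = ‖Y - m‖ ^ 2 + 2 * s * ⟪m - Y, ξ' - νb⟫ + s ^ 2 * ‖ξ' - νb‖ ^ 2 := by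
    have e : (Y - s • ξ') - (m - s • νb) = (Y - m) - s • (ξ' - νb) := by rw [smul_sub]; abel
    have e' : Y - m = -(m - Y) := by abel
    rw [e, norm_sub_sq_real, real_inner_smul_right, norm_smul, mul_pow, Real.norm_eq_abs, sq_abs]
    rw [e', inner_neg_left]
    ring
  have n3 : ‖m + s • ξb‖ ^ 2 = ‖m‖ ^ 2 + 2 * s * ⟪m, ξb⟫ + s ^ 2 * ‖ξb‖ ^ 2 := by
    rw [norm_add_sq_real, real_inner_smul_right, norm_smul, mul_pow, Real.norm_eq_abs, sq_abs]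
    ring
  have n4 : ‖m - s • νb‖ ^ 2 = ‖m‖ ^ 2 - 2 * s * ⟪m, νb⟫ + s ^ 2 * ‖νb‖ ^ 2 := by
    rw [norm_sub_sq_real, real_inner_smul_right, norm_smul, mul_pow, Real.norm_eq_abs, sq_abs]
    ring
  rw [n1, n3] at M1
  rw [n2, n4] at M2
  set S0 := ∑ i, lam i * f (a i) t with hS0
  set S1 := ∑ i, lam i * f (a i + s • ξ i) (t + s) with hS1
  set S2 := ∑ i, lam i * f (a i - s • (νb + (1 / z) • (a i - m))) (t - s) with hS2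
  set K2 := ∑ i, lam i * ‖a i - m‖ ^ 2 with hK2
  set B := ∑ i, lam i * ⟪a i - m, ξ i - ξb⟫ with hB
  set C := ∑ i, lam i * ‖ξ i - ξb‖ ^ 2 with hC
  have kp := kappa_part (K2 := K2) (B := B) (C := C) hs hsz
    (by
      have : K2 / z ^ 2 - 2 * B / z + C = C - 2 / z * B + (1 / z) ^ 2 * K2 := by ring
      rw [this]; exact hCS)
  have i1 : ⟪(1 / τ) • (m - Y) + (2 * τ * g) • m, ξb - νb⟫
      = 1 / τ * ⟪m - Y, ξb - νb⟫ + 2 * τ * g * (⟪m, ξb⟫ - ⟪m, νb⟫) := by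
    rw [inner_add_left, real_inner_smul_left, real_inner_smul_left, inner_sub_right (𝕜 := ℝ) m]
  have i2 : ⟪(1 / τ) • (m - Y), ξ' - ζ⟫ = 1 / τ * ⟪m - Y, ξ' - ζ⟫ := real_inner_smul_left _ _ _
  rw [i1, i2]
  have j1 : ⟪m - Y, ζ - ξb⟫ = ⟪m - Y, ζ⟫ - ⟪m - Y, ξb⟫ := inner_sub_right _ _ _
  have j2 : ⟪m - Y, ξ' - νb⟫ = ⟪m - Y, ξ'⟫ - ⟪m - Y, νb⟫ := inner_sub_right _ _ _
  have j3 : ⟪m - Y, ξb - νb⟫ = ⟪m - Y, ξb⟫ - ⟪m - Y, νb⟫ := inner_sub_right _ _ _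
  have j4 : ⟪m - Y, ξ' - ζ⟫ = ⟪m - Y, ξ'⟫ - ⟪m - Y, ζ⟫ := inner_sub_right _ _ _
  rw [j1] at M1
  rw [j2] at M2
  rw [j3, j4]
  have key : 0 ≤ s * (1 / 2 * (-‖ξb‖ ^ 2 + ‖νb‖ ^ 2 + ‖ζ‖ ^ 2 - ‖ξ'‖ ^ 2)
      + (1 / τ * (⟪m - Y, ξb⟫ - ⟪m - Y, νb⟫) + 2 * τ * g * (⟪m, ξb⟫ - ⟪m, νb⟫))
      + 1 / τ * (⟪m - Y, ξ'⟫ - ⟪m - Y, ζ⟫)
      + s / (2 * τ) * (‖ζ - ξb‖ ^ 2 + ‖ξ' - νb‖ ^ 2)
      + τ * s * (-2 * β + g * (‖ξb‖ ^ 2 + ‖νb‖ ^ 2 + 2))) := by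
    have g1 : (K2 + 2 * (-s) * (1 / z * K2) + (-s) ^ 2 * ((1 / z) ^ 2 * K2))
        = K2 * (1 - s / z) ^ 2 := by ring
    rw [g1] at M2
    have g2 : (1 / z) ^ 2 * K2 = K2 / z ^ 2 := by ring
    rw [g2] at hP'
    have g3 : K2 / (2 * z) = K2 / z / 2 := by ring
    rw [g3] at M1 M2
    have g4 : (‖Y - m‖ ^ 2 - 2 * s * (⟪m - Y, ζ⟫ - ⟪m - Y, ξb⟫) + s ^ 2 * ‖ζ - ξb‖ ^ 2) / (2 * τ)
        = ‖Y - m‖ ^ 2 / (2 * τ) - s * (1 / τ * (⟪m - Y, ζ⟫ - ⟪m - Y, ξb⟫))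
          + s * (s / (2 * τ) * ‖ζ - ξb‖ ^ 2) := by
      field_simp
    have g5 : (‖Y - m‖ ^ 2 + 2 * s * (⟪m - Y, ξ'⟫ - ⟪m - Y, νb⟫) + s ^ 2 * ‖ξ' - νb‖ ^ 2)
          / (2 * τ)
        = ‖Y - m‖ ^ 2 / (2 * τ) + s * (1 / τ * (⟪m - Y, ξ'⟫ - ⟪m - Y, νb⟫))
          + s * (s / (2 * τ) * ‖ξ' - νb‖ ^ 2) := by
      field_simp
    rw [g4] at M1
    rw [g5] at M2
    exact tpl_alg hP' P2 M1 M2 kp
  exact nonneg_of_mul_nonneg_right key hs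

theorem tplM_seq {ι : Type} [Fintype ι] {lam : ι → ℝ} (hl : ∀ i, 0 ≤ lam i)
    (hs1 : ∑ i, lam i = 1) {f k : E → ℝ → ℝ} {τ c b β g t z R s₀ ρ : ℝ} {a : ι → E} {Y m : E}
    (hm : ∑ j, lam j • a j = m)
    (hτ : 0 < τ) (hg : 0 ≤ g)
    (P1 : ∀ s, 0 < s → s < s₀ → ∀ i, ∃ ξ : E, ‖ξ‖ ≤ R ∧ ∀ ν : E,
      2 * f (a i) t ≤ (f (a i + s • ξ) (t + s) - s / 2 * ‖ξ‖ ^ 2)
        + (f (a i - s • ν) (t - s) + s / 2 * ‖ν‖ ^ 2))
    (P2 : ∀ s, 0 < s → s < s₀ → ∃ ξ : E, ‖ξ‖ ≤ R ∧ ∀ ζ : E,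
      (k (Y + s • ζ) (t - τ + s) - s / 2 * ‖ζ‖ ^ 2)
        + (k (Y - s • ξ) (t - τ - s) + s / 2 * ‖ξ‖ ^ 2) ≤ 2 * k Y (t - τ))
    (Max : ∀ (a' : ι → E) (Y' : E) (t' z' : ℝ), (∀ i, ‖a' i - a i‖ < ρ) → ‖Y' - Y‖ < ρ →
      |t' - t| < ρ → |z' - z| < ρ →
      Fun lam f k τ c b β g a' Y' t' z' ≤ Fun lam f k τ c b β g a Y t z)
    {μ μ' : E} (hμ' : (1 / τ) • (m - Y) = μ') (hμ : μ' + (2 * τ * g) • m = μ)
    {s : ℝ} (hs : 0 < s) (hss : s < s₀) (hsz : s < z)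
    (hsρ : s * (1 + R + ‖μ‖ + ‖μ'‖ + 1 / z * ∑ i, ‖a i - m‖) < ρ) :
    ∃ ξb ξ' : E, ‖ξb - μ‖ ^ 2 + ‖ξ' - μ'‖ ^ 2 ≤ s * (1 / τ * ((‖μ'‖ + R) ^ 2 + (R + ‖μ‖) ^ 2)
        + 2 * τ * (2 * |β| + g * (R ^ 2 + ‖μ‖ ^ 2 + 2))) ∧
      0 ≤ ‖ξ' - ξb‖ ^ 2 / τ + τ * (-2 * β + 2 * g * (‖ξb‖ ^ 2 + 1)) := by
  have hz : 0 < z := hs.trans hsz
  choose ξ hξR hξ using P1 s hs hss
  obtain ⟨ξ', hξ'R, hξ'⟩ := P2 s hs hss
  set ξb := ∑ j, lam j • ξ j with hξb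
  have hR0 : 0 ≤ R := (norm_nonneg _).trans hξ'R
  have hξbR : ‖ξb‖ ≤ R := by
    calc ‖ξb‖ ≤ ∑ j, ‖lam j • ξ j‖ := norm_sum_le _ _
      _ ≤ ∑ j, lam j * R := by
          refine Finset.sum_le_sum fun j _ => ?_
          rw [norm_smul, Real.norm_of_nonneg (hl j)]
          exact mul_le_mul_of_nonneg_left (hξR j) (hl j)
      _ = R := by rw [← Finset.sum_mul, hs1, one_mul]
  set T := 1 + R + ‖μ‖ + ‖μ'‖ + 1 / z * ∑ i, ‖a i - m‖ with hT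
  have hsum0 : 0 ≤ 1 / z * ∑ i, ‖a i - m‖ :=
    mul_nonneg (by positivity) (Finset.sum_nonneg fun i _ => norm_nonneg _)
  have hsR : s * R ≤ s * T := mul_le_mul_of_nonneg_left
    (by rw [hT]; linarith [norm_nonneg μ, norm_nonneg μ']) hs.le
  have hs1T : s ≤ s * T := by
    have : s * 1 ≤ s * T := mul_le_mul_of_nonneg_left
      (by rw [hT]; linarith [norm_nonneg μ, norm_nonneg μ']) hs.le
    linarith
  have core : ∀ νb ζ : E, (‖νb‖ ≤ R ∨ ‖νb‖ ≤ ‖μ‖) → (‖ζ‖ ≤ R ∨ ‖ζ‖ ≤ ‖μ'‖) →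
      0 ≤ 1 / 2 * (-‖ξb‖ ^ 2 + ‖νb‖ ^ 2 + ‖ζ‖ ^ 2 - ‖ξ'‖ ^ 2)
      + ⟪μ, ξb - νb⟫ + ⟪μ', ξ' - ζ⟫
      + s / (2 * τ) * (‖ζ - ξb‖ ^ 2 + ‖ξ' - νb‖ ^ 2)
      + τ * s * (-2 * β + g * (‖ξb‖ ^ 2 + ‖νb‖ ^ 2 + 2)) := by
    intro νb ζ hνb hζ
    have hν2 : ‖νb‖ ≤ R + ‖μ‖ := by
      rcases hνb with h | h <;> linarith [norm_nonneg μ]
    have hζ2 : ‖ζ‖ ≤ R + ‖μ'‖ := by
      rcases hζ with h | h <;> linarith [norm_nonneg μ']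
    have hνi : ∀ i, ‖s • (νb + (1 / z) • (a i - m))‖ < ρ := by
      intro i
      rw [norm_smul, Real.norm_of_nonneg hs.le]
      refine lt_of_le_of_lt (mul_le_mul_of_nonneg_left ?_ hs.le) hsρ
      have h1 : ‖νb + (1 / z) • (a i - m)‖ ≤ ‖νb‖ + 1 / z * ‖a i - m‖ := by
        refine (norm_add_le _ _).trans ?_
        rw [norm_smul, Real.norm_of_nonneg (by positivity)]
      have h2 : 1 / z * ‖a i - m‖ ≤ 1 / z * ∑ i, ‖a i - m‖ :=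
        mul_le_mul_of_nonneg_left (Finset.single_le_sum (f := fun i => ‖a i - m‖)
          (fun i _ => norm_nonneg _) (Finset.mem_univ i)) (by positivity)
      rw [hT]
      linarith [norm_nonneg μ, norm_nonneg μ']
    have hM1 := Max (fun i => a i + s • ξ i) (Y + s • ζ) (t + s) (z + s)
      (fun i => by
        rw [add_sub_cancel_left, norm_smul, Real.norm_of_nonneg hs.le]
        have := mul_le_mul_of_nonneg_left (hξR i) hs.le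
        linarith)
      (by
        rw [add_sub_cancel_left, norm_smul, Real.norm_of_nonneg hs.le]
        refine lt_of_le_of_lt (mul_le_mul_of_nonneg_left ?_ hs.le) hsρ
        rw [hT]
        linarith [norm_nonneg μ, norm_nonneg μ'])
      (by rw [add_sub_cancel_left, abs_of_pos hs]; linarith)
      (by rw [add_sub_cancel_left, abs_of_pos hs]; linarith)
    have hM2 := Max (fun i => a i - s • (νb + (1 / z) • (a i - m))) (Y - s • ξ') (t - s) (z - s)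
      (fun i => by rw [sub_sub_cancel_left, norm_neg]; exact hνi i)
      (by
        rw [sub_sub_cancel_left, norm_neg, norm_smul, Real.norm_of_nonneg hs.le]
        have := mul_le_mul_of_nonneg_left hξ'R hs.le
        linarith)
      (by rw [sub_sub_cancel_left, abs_neg, abs_of_pos hs]; linarith)
      (by rw [sub_sub_cancel_left, abs_neg, abs_of_pos hs]; linarith)
    have h := tpl_core (c := c) (b := b) (β := β) (g := g) hl hs1 hm hτ hs hsz (ξ := ξ) (ξb := ξb)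
      (ξ' := ξ') (νb := νb) (ζ := ζ) hξb.symm (fun i => hξ i _) (hξ' ζ) hM1 hM2
    rwa [hμ', hμ] at h
  refine ⟨ξb, ξ', ?_, ?_⟩
  · have h := core μ μ' (Or.inr le_rfl) (Or.inr le_rfl)
    have e1 : 1 / 2 * (-‖ξb‖ ^ 2 + ‖μ‖ ^ 2 + ‖μ'‖ ^ 2 - ‖ξ'‖ ^ 2) + ⟪μ, ξb - μ⟫ + ⟪μ', ξ' - μ'⟫
        = -(1 / 2) * (‖ξb - μ‖ ^ 2 + ‖ξ' - μ'‖ ^ 2) := by
      rw [norm_sub_sq_real, norm_sub_sq_real, inner_sub_right, inner_sub_right,
        real_inner_self_eq_norm_sq, real_inner_self_eq_norm_sq, real_inner_comm ξb μ,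
        real_inner_comm ξ' μ']
      ring
    rw [e1] at h
    have b1 : ‖μ' - ξb‖ ^ 2 ≤ (‖μ'‖ + R) ^ 2 := by
      apply pow_le_pow_left₀ (norm_nonneg _)
      have := norm_sub_le μ' ξb
      linarith
    have b2 : ‖ξ' - μ‖ ^ 2 ≤ (R + ‖μ‖) ^ 2 := by
      apply pow_le_pow_left₀ (norm_nonneg _)
      have := norm_sub_le ξ' μ
      linarith
    have b3 : ‖ξb‖ ^ 2 ≤ R ^ 2 := pow_le_pow_left₀ (norm_nonneg _) hξbR 2
    have b4 : s / (2 * τ) * (‖μ' - ξb‖ ^ 2 + ‖ξ' - μ‖ ^ 2)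
        ≤ s / (2 * τ) * ((‖μ'‖ + R) ^ 2 + (R + ‖μ‖) ^ 2) :=
      mul_le_mul_of_nonneg_left (by linarith) (by positivity)
    have b5 : g * (‖ξb‖ ^ 2 + ‖μ‖ ^ 2 + 2) ≤ g * (R ^ 2 + ‖μ‖ ^ 2 + 2) :=
      mul_le_mul_of_nonneg_left (by linarith) hg
    have b6 : τ * s * (-2 * β + g * (‖ξb‖ ^ 2 + ‖μ‖ ^ 2 + 2))
        ≤ τ * s * (2 * |β| + g * (R ^ 2 + ‖μ‖ ^ 2 + 2)) :=
      mul_le_mul_of_nonneg_left (by linarith [neg_abs_le β]) (by positivity)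
    have e2 : s * (1 / τ * ((‖μ'‖ + R) ^ 2 + (R + ‖μ‖) ^ 2)
        + 2 * τ * (2 * |β| + g * (R ^ 2 + ‖μ‖ ^ 2 + 2)))
        = 2 * (s / (2 * τ) * ((‖μ'‖ + R) ^ 2 + (R + ‖μ‖) ^ 2))
          + 2 * (τ * s * (2 * |β| + g * (R ^ 2 + ‖μ‖ ^ 2 + 2))) := by
      field_simp
    rw [e2]
    linarith
  · have h := core ξb ξ' (Or.inl hξbR) (Or.inl hξ'R)
    rw [sub_self, sub_self, inner_zero_right, inner_zero_right] at h
    have e : 1 / 2 * (-‖ξb‖ ^ 2 + ‖ξb‖ ^ 2 + ‖ξ'‖ ^ 2 - ‖ξ'‖ ^ 2) + 0 + 0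
        + s / (2 * τ) * (‖ξ' - ξb‖ ^ 2 + ‖ξ' - ξb‖ ^ 2)
        + τ * s * (-2 * β + g * (‖ξb‖ ^ 2 + ‖ξb‖ ^ 2 + 2))
        = s * (‖ξ' - ξb‖ ^ 2 / τ + τ * (-2 * β + 2 * g * (‖ξb‖ ^ 2 + 1))) := by
      field_simp
      ring
    rw [e] at h
    exact nonneg_of_mul_nonneg_right h hs

theorem tplM {ι : Type} [Fintype ι] {lam : ι → ℝ} (hl : ∀ i, 0 ≤ lam i)
    (hs : ∑ i, lam i = 1) {f k : E → ℝ → ℝ} {τ c b β g t z R s₀ ρ : ℝ} {a : ι → E} {Y : E}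
    (hz : 0 < z) (hτ : 0 < τ) (hg : 0 ≤ g) (hs₀ : 0 < s₀) (hρ : 0 < ρ)
    (P1 : ∀ s, 0 < s → s < s₀ → ∀ i, ∃ ξ : E, ‖ξ‖ ≤ R ∧ ∀ ν : E,
      2 * f (a i) t ≤ (f (a i + s • ξ) (t + s) - s / 2 * ‖ξ‖ ^ 2)
        + (f (a i - s • ν) (t - s) + s / 2 * ‖ν‖ ^ 2))
    (P2 : ∀ s, 0 < s → s < s₀ → ∃ ξ : E, ‖ξ‖ ≤ R ∧ ∀ ζ : E,
      (k (Y + s • ζ) (t - τ + s) - s / 2 * ‖ζ‖ ^ 2)
        + (k (Y - s • ξ) (t - τ - s) + s / 2 * ‖ξ‖ ^ 2) ≤ 2 * k Y (t - τ))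
    (Max : ∀ (a' : ι → E) (Y' : E) (t' z' : ℝ), (∀ i, ‖a' i - a i‖ < ρ) → ‖Y' - Y‖ < ρ →
      |t' - t| < ρ → |z' - z| < ρ →
      Fun lam f k τ c b β g a' Y' t' z' ≤ Fun lam f k τ c b β g a Y t z) :
    β ≤ 2 * g ^ 2 * ‖∑ j, lam j • a j‖ ^ 2
      + g * (1 + ‖(1 / τ) • ((∑ j, lam j • a j) - Y) + (2 * τ * g) • ∑ j, lam j • a j‖ ^ 2) := by
  obtain ⟨m, hm⟩ : ∃ m, ∑ j, lam j • a j = m := ⟨_, rfl⟩
  obtain ⟨μ', hμ'⟩ : ∃ μ', (1 / τ) • (m - Y) = μ' := ⟨_, rfl⟩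
  obtain ⟨μ, hμ⟩ : ∃ μ, μ' + (2 * τ * g) • m = μ := ⟨_, rfl⟩
  rw [hm, hμ', hμ]
  have hR0 : 0 ≤ R := by
    obtain ⟨ξ, hξ, -⟩ := P2 (s₀ / 2) (by positivity) (by linarith)
    exact (norm_nonneg _).trans hξ
  set T := 1 + R + ‖μ‖ + ‖μ'‖ + 1 / z * ∑ i, ‖a i - m‖ with hT
  have hsum0 : 0 ≤ 1 / z * ∑ i, ‖a i - m‖ :=
    mul_nonneg (by positivity) (Finset.sum_nonneg fun i _ => norm_nonneg _)
  have hT0 : 0 < T := by rw [hT]; linarith [norm_nonneg μ, norm_nonneg μ']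
  set K := 1 / τ * ((‖μ'‖ + R) ^ 2 + (R + ‖μ‖) ^ 2)
        + 2 * τ * (2 * |β| + g * (R ^ 2 + ‖μ‖ ^ 2 + 2)) with hK
  set s₁ := min (s₀ / 2) (min (z / 2) (ρ / (2 * T))) with hs₁
  have hs₁pos : 0 < s₁ := by
    simp only [hs₁, lt_min_iff]
    refine ⟨by positivity, by positivity, by positivity⟩
  have key : ∀ n : ℕ, ∃ ξb ξ' : E,
      ‖ξb - μ‖ ^ 2 + ‖ξ' - μ'‖ ^ 2 ≤ s₁ * (1 / ((n : ℝ) + 1)) * K ∧
      0 ≤ ‖ξ' - ξb‖ ^ 2 / τ + τ * (-2 * β + 2 * g * (‖ξb‖ ^ 2 + 1)) := by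
    intro n
    have hn1 : 1 / ((n : ℝ) + 1) ≤ 1 := by
      rw [div_le_one (by positivity)]
      linarith [Nat.cast_nonneg (α := ℝ) n]
    have hn0 : 0 < 1 / ((n : ℝ) + 1) := by positivity
    have hsp : 0 < s₁ * (1 / ((n : ℝ) + 1)) := by positivity
    have hs1 : s₁ * (1 / ((n : ℝ) + 1)) ≤ s₁ := by nlinarith
    have b1 : s₁ ≤ s₀ / 2 := min_le_left _ _
    have b2 : s₁ ≤ z / 2 := (min_le_right _ _).trans (min_le_left _ _)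
    have b3 : s₁ ≤ ρ / (2 * T) := (min_le_right _ _).trans (min_le_right _ _)
    rw [le_div_iff₀ (by positivity)] at b3
    have b4 : s₁ * (1 / ((n : ℝ) + 1)) * T ≤ s₁ * T := mul_le_mul_of_nonneg_right hs1 hT0.le
    exact tplM_seq (R := R) (s₀ := s₀) (ρ := ρ) hl hs hm hτ hg P1 P2 Max hμ' hμ hsp
      (by linarith) (by linarith) (by rw [← hT]; linarith)
  choose X C h1 h2 using key
  have hlim0 : Tendsto (fun n : ℕ => s₁ * (1 / ((n : ℝ) + 1)) * K) atTop (𝓝 0) := by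
    have := ((tendsto_one_div_add_atTop_nhds_zero_nat (𝕜 := ℝ)).const_mul s₁).mul_const K
    simpa using this
  have sqz : ∀ (V : ℕ → E) (v : E), (∀ n, ‖V n - v‖ ^ 2 ≤ s₁ * (1 / ((n : ℝ) + 1)) * K) →
      Tendsto V atTop (𝓝 v) := by
    intro V v hV
    rw [tendsto_iff_norm_sub_tendsto_zero]
    have h3 : Tendsto (fun n => ‖V n - v‖ ^ 2) atTop (𝓝 0) :=
      squeeze_zero (fun n => by positivity) hV hlim0
    have h4 := h3.sqrt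
    simpa [Real.sqrt_sq (norm_nonneg _)] using h4
  have lX : Tendsto X atTop (𝓝 μ) := sqz X μ fun n => by
    have := h1 n
    nlinarith [sq_nonneg ‖C n - μ'‖]
  have lC : Tendsto C atTop (𝓝 μ') := sqz C μ' fun n => by
    have := h1 n
    nlinarith [sq_nonneg ‖X n - μ‖]
  have L : Tendsto (fun n => ‖C n - X n‖ ^ 2 / τ + τ * (-2 * β + 2 * g * (‖X n‖ ^ 2 + 1))) atTop
      (𝓝 (‖μ' - μ‖ ^ 2 / τ + τ * (-2 * β + 2 * g * (‖μ‖ ^ 2 + 1)))) :=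
    (((lC.sub lX).norm.pow 2).div_const τ).add
      ((((lX.norm.pow 2).add_const 1).const_mul (2 * g)).const_add (-2 * β) |>.const_mul τ)
  have L0 := ge_of_tendsto' L h2
  have e1 : μ' - μ = -((2 * τ * g) • m) := by rw [← hμ]; abel
  rw [e1, norm_neg, norm_smul, mul_pow, Real.norm_eq_abs, sq_abs] at L0
  have e2 : (2 * τ * g) ^ 2 * ‖m‖ ^ 2 / τ + τ * (-2 * β + 2 * g * (‖μ‖ ^ 2 + 1))
      = τ * (4 * g ^ 2 * ‖m‖ ^ 2 - 2 * β + 2 * g * (‖μ‖ ^ 2 + 1)) := by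
    field_simp
    ring
  rw [e2] at L0
  have L1 := nonneg_of_mul_nonneg_right L0 hτ
  linarith

end Vale.Agent.P080
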