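import Vale.Agent.P080.MMaster1
import Vale.Agent.P080.MTpl
import Vale.Agent.P080.MOps2
import Vale.Agent.P080.MExt

open Metric Set Filter Topology
open scoped RealInnerProductSpace

namespace Vale.Agent.P080

variable {E : Type*} [NormedAddCommGroup E] [InnerProductSpace ℝ E]

theorem eq_zero_of_quad {v : E} {C ρ : ℝ} (hρ : 0 < ρ)
    (h : ∀ y : E, ‖y‖ < ρ → ⟪v, y⟫ ≤ C * ‖y‖ ^ 2) : v = 0 := by
  by_contra hv
  have hn : 0 < ‖v‖ := norm_pos_iff.2 hv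
  set t := min (ρ / (2 * ‖v‖)) (1 / (2 * (|C| + 1))) with ht
  have ht0 : 0 < t := by
    rw [ht, lt_min_iff]
    exact ⟨by positivity, by positivity⟩
  have ht1 : t ≤ ρ / (2 * ‖v‖) := min_le_left _ _
  have ht2 : t ≤ 1 / (2 * (|C| + 1)) := min_le_right _ _
  rw [le_div_iff₀ (by positivity)] at ht1 ht2
  have h1 := h (t • v) (by
    rw [norm_smul, Real.norm_of_nonneg ht0.le]
    nlinarith)
  rw [real_inner_smul_right, real_inner_self_eq_norm_sq, norm_smul, Real.norm_of_nonneg ht0.le,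
    mul_pow] at h1
  have h2 : t * ‖v‖ ^ 2 * (1 - C * t) ≤ 0 := by nlinarith
  have h3 : 0 < t * ‖v‖ ^ 2 := by positivity
  have h4 : C * t ≤ |C| * t := mul_le_mul_of_nonneg_right (le_abs_self C) ht0.le
  have h5 : 1 / 2 ≤ 1 - C * t := by nlinarith
  nlinarith

theorem norm_le_of_inner {v : E} {M : ℝ} (hM : 0 ≤ M) (h : ∀ y : E, ‖y‖ = 1 → ⟪v, y⟫ ≤ M) :
    ‖v‖ ≤ M := by
  by_cases hv : v = 0
  · rw [hv, norm_zero]; exact hM
  · have hn : 0 < ‖v‖ := norm_pos_iff.2 hv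
    have h1 := h (‖v‖⁻¹ • v) (by
      rw [norm_smul, norm_inv, norm_norm]
      exact inv_mul_cancel₀ hn.ne')
    rw [real_inner_smul_right, real_inner_self_eq_norm_sq] at h1
    have : ‖v‖⁻¹ * ‖v‖ ^ 2 = ‖v‖ := by field_simp
    linarith

theorem MCls.ops_subQuad [FiniteDimensional ℝ E] {K : ℝ} (hK : 1 ≤ K) {W : E → ℝ → ℝ}
    (h : MCls K W) {e : ℝ} (he : 0 < e) (he1 : e ≤ 1) (z : ℝ) :
    SubQuad (fun y => upM W e y z) := by
  intro δ hδ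
  obtain ⟨C, -, hC⟩ := h.ops_growth hK |z| hδ
  exact ⟨C, fun A => (hC e A z he he1 le_rfl).1⟩

theorem MCls.up_cont_slice [FiniteDimensional ℝ E] {K : ℝ} (hK : 1 ≤ K) {W : E → ℝ → ℝ}
    (h : MCls K W) {e : ℝ} (he : 0 < e) (z : ℝ) : Continuous (fun y => upM W e y z) :=
  (h.up_continuous hK he).comp (Continuous.prodMk_left z)

theorem norm_sum_center_lt {ι : Type} [Fintype ι] {lam : ι → ℝ} (hl : ∀ i, 0 ≤ lam i)
    (hs : ∑ i, lam i = 1) {a a' : ι → E} {ρ : ℝ} (h : ∀ i, ‖a' i - a i‖ < ρ) :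
    ‖(∑ i, lam i • a' i) - ∑ i, lam i • a i‖ ≤ ρ := by
  rw [← Finset.sum_sub_distrib]
  calc ‖∑ i, (lam i • a' i - lam i • a i)‖ ≤ ∑ i, ‖lam i • a' i - lam i • a i‖ :=
        norm_sum_le _ _
    _ ≤ ∑ i, lam i * ρ := by
        refine Finset.sum_le_sum fun i _ => ?_
        rw [← smul_sub, norm_smul, Real.norm_of_nonneg (hl i)]
        exact mul_le_mul_of_nonneg_left (h i).le (hl i)
    _ = ρ := by rw [← Finset.sum_mul, hs, one_mul]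

theorem exists_radius {x z X θ : ℝ} (hx : 0 ≤ x) (h : x ^ 2 + z ^ 2 < X ^ 2)
    (hθ1 : 1 / 2 < θ) (hθ2 : θ < 2) :
    ∃ ρ : ℝ, 0 < ρ ∧ (∀ x' z' : ℝ, 0 ≤ x' → x' ≤ x + ρ → |z' - z| < ρ → x' ^ 2 + z' ^ 2 ≤ X ^ 2) ∧
      ∀ θ' : ℝ, |θ' - θ| < ρ → 1 / 2 ≤ θ' ∧ θ' ≤ 2 := by
  set ρ := min (min 1 ((X ^ 2 - x ^ 2 - z ^ 2) / (2 * x + 2 * |z| + 2)))
    (min (θ - 1 / 2) (2 - θ)) with hρ
  have hz := abs_nonneg z
  have h0 : 0 < ρ := by
    simp only [hρ, lt_min_iff]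
    refine ⟨⟨one_pos, ?_⟩, by linarith, by linarith⟩
    apply div_pos <;> linarith
  have h1 : ρ ≤ 1 := (min_le_left _ _).trans (min_le_left _ _)
  have h2 : ρ ≤ (X ^ 2 - x ^ 2 - z ^ 2) / (2 * x + 2 * |z| + 2) :=
    (min_le_left _ _).trans (min_le_right _ _)
  have h3 : ρ ≤ θ - 1 / 2 := (min_le_right _ _).trans (min_le_left _ _)
  have h4 : ρ ≤ 2 - θ := (min_le_right _ _).trans (min_le_right _ _)
  rw [le_div_iff₀ (by linarith)] at h2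
  refine ⟨ρ, h0, ?_, ?_⟩
  · intro x' z' hx' hxx hzz
    have h5 : x' ^ 2 ≤ (x + ρ) ^ 2 := pow_le_pow_left₀ hx' hxx 2
    have h6 : |z'| ≤ |z| + ρ := by
      have := abs_add_le (z' - z) z
      rw [sub_add_cancel] at this
      linarith
    have h7 : z' ^ 2 ≤ (|z| + ρ) ^ 2 := by
      rw [← sq_abs z']
      exact pow_le_pow_left₀ (abs_nonneg _) h6 2
    have h8 : |z| ^ 2 = z ^ 2 := sq_abs z
    nlinarith
  · intro θ' hθ'
    rw [abs_lt] at hθ'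
    constructor <;> linarith

theorem interior_mu [FiniteDimensional ℝ E] {K : ℝ} (hK : 1 ≤ K)
    {W : E → ℝ → ℝ} (hW : MCls K W) {e τ c b β g z θ ρ : ℝ} (he : 0 < e)
    (hτ : 0 < τ) (hθ : 0 < θ) (hρ : 0 < ρ)
    {ι : Type} [Fintype ι] {lam : ι → ℝ} {a : ι → E} {x p Y : E} (hl : ∀ i, 0 ≤ lam i)
    (hs : ∑ i, lam i = 1) (hx : ∑ i, lam i • a i = x)
    (hp : ∀ A : E, upM W e A z - ⟪p, A - x⟫ - ‖A - x‖ ^ 2 / (2 * θ)
      ≤ Ez (fun y => upM W e y z) x θ)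
    (hcon : ∀ i, upM W e (a i) z - ⟪p, a i - x⟫ - ‖a i - x‖ ^ 2 / (2 * θ)
      = Ez (fun y => upM W e y z) x θ)
    (Max : ∀ (a' : ι → E) (Y' : E) (t' z' : ℝ), (∀ i, ‖a' i - a i‖ < ρ) → ‖Y' - Y‖ < ρ →
      |t' - z| < ρ → |z' - θ| < ρ →
      Fun lam (upM W e) (dnM W e) τ c b β g a' Y' t' z'
        ≤ Fun lam (upM W e) (dnM W e) τ c b β g a Y z θ) :
    (1 / τ) • (x - Y) + (2 * τ * g) • x = p := by
  have hsemi : ∀ i, ∃ ζ : E, ∀ y : E, upM W e (a i) z + ⟪ζ, y⟫ - ‖y‖ ^ 2 / (2 * e)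
      ≤ upM W e (a i + y) z := fun i => hW.up_semi hK he (a i) z
  choose ζ hζ using hsemi
  set ζb := ∑ i, lam i • ζ i with hζb
  have hlow : ∀ y : E, (∑ i, lam i * upM W e (a i) z) + ⟪ζb, y⟫ - ‖y‖ ^ 2 / (2 * e)
      ≤ ∑ i, lam i * upM W e (a i + y) z := by
    intro y
    have h1 : ⟪ζb, y⟫ = ∑ i, lam i * ⟪ζ i, y⟫ := by
      rw [hζb, sum_inner]
      exact Finset.sum_congr rfl fun i _ => real_inner_smul_left _ _ _
    have h2 : ‖y‖ ^ 2 / (2 * e) = ∑ i, lam i * (‖y‖ ^ 2 / (2 * e)) := by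
      rw [← Finset.sum_mul, hs, one_mul]
    rw [h1, h2, ← Finset.sum_add_distrib, ← Finset.sum_sub_distrib]
    refine Finset.sum_le_sum fun i _ => ?_
    have := mul_le_mul_of_nonneg_left (hζ i y) (hl i)
    refine le_trans (le_of_eq ?_) this
    ring
  have hup : ∀ y : E, ∑ i, lam i * upM W e (a i + y) z
      ≤ (∑ i, lam i * upM W e (a i) z) + ⟪p, y⟫ + ‖y‖ ^ 2 / (2 * θ) := by
    intro y
    have h1 : ∀ i, upM W e (a i + y) z ≤ upM W e (a i) z + ⟪p, y⟫ + ‖y‖ ^ 2 / (2 * θ)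
        + 1 / θ * ⟪a i - x, y⟫ := by
      intro i
      have h2 := hp (a i + y)
      rw [← hcon i] at h2
      have e1 : a i + y - x = (a i - x) + y := by abel
      rw [e1, inner_add_right, norm_add_sq_real] at h2
      have e2 : (‖a i - x‖ ^ 2 + 2 * ⟪a i - x, y⟫ + ‖y‖ ^ 2) / (2 * θ)
          = ‖a i - x‖ ^ 2 / (2 * θ) + 1 / θ * ⟪a i - x, y⟫ + ‖y‖ ^ 2 / (2 * θ) := by
        field_simp
      rw [e2] at h2
      linarith
    have h3 := Finset.sum_le_sum fun i (_ : i ∈ Finset.univ) =>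
      mul_le_mul_of_nonneg_left (h1 i) (hl i)
    refine h3.trans (le_of_eq ?_)
    have h4 : ∀ i, lam i * (upM W e (a i) z + ⟪p, y⟫ + ‖y‖ ^ 2 / (2 * θ)
        + 1 / θ * ⟪a i - x, y⟫) = lam i * upM W e (a i) z
          + lam i * (⟪p, y⟫ + ‖y‖ ^ 2 / (2 * θ)) + 1 / θ * (lam i * ⟪a i - x, y⟫) := by
      intro i; ring
    rw [Finset.sum_congr rfl fun i _ => h4 i, Finset.sum_add_distrib, Finset.sum_add_distrib,
      ← Finset.mul_sum, sum_inner_center hs hx, ← Finset.sum_mul, hs]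
    ring
  have hζp : ζb - p = 0 := by
    apply eq_zero_of_quad (C := 1 / (2 * e) + 1 / (2 * θ)) one_pos
    intro y _
    have h1 := (hlow y).trans (hup y)
    rw [inner_sub_left]
    have e1 : (1 / (2 * e) + 1 / (2 * θ)) * ‖y‖ ^ 2 = ‖y‖ ^ 2 / (2 * e) + ‖y‖ ^ 2 / (2 * θ) := by
      ring
    rw [e1]
    linarith
  have hζp' : ζb = p := sub_eq_zero.1 hζp
  have hfin : p - ((1 / τ) • (x - Y) + (2 * τ * g) • x) = 0 := by
    apply eq_zero_of_quad (C := 1 / (2 * e) + 1 / (2 * τ) + τ * g) hρ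
    intro y hy
    have h1 := Max (fun i => a i + y) Y z θ (fun i => by rw [add_sub_cancel_left]; exact hy)
      (by rw [sub_self, norm_zero]; exact hρ) (by rw [sub_self, abs_zero]; exact hρ)
      (by rw [sub_self, abs_zero]; exact hρ)
    have hm : ∑ j, lam j • (a j + y) = x + y := by
      simp only [smul_add]
      rw [Finset.sum_add_distrib, hx, ← Finset.sum_smul, hs, one_smul]
    rw [Fun_eq (hm := hm), Fun_eq (hm := hx)] at h1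
    simp only [add_sub_add_right_eq_sub] at h1
    have h2 := hlow y
    rw [hζp'] at h2
    have n1 : ‖Y - (x + y)‖ ^ 2 = ‖Y - x‖ ^ 2 + 2 * ⟪x - Y, y⟫ + ‖y‖ ^ 2 := by
      have e1 : Y - (x + y) = (Y - x) - y := by abel
      have e2 : Y - x = -(x - Y) := by abel
      rw [e1, norm_sub_sq_real, e2, inner_neg_left]
      ring
    have n2 : ‖x + y‖ ^ 2 = ‖x‖ ^ 2 + 2 * ⟪x, y⟫ + ‖y‖ ^ 2 := norm_add_sq_real x y
    rw [n1, n2] at h1
    have e3 : (‖Y - x‖ ^ 2 + 2 * ⟪x - Y, y⟫ + ‖y‖ ^ 2) / (2 * τ)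
        = ‖Y - x‖ ^ 2 / (2 * τ) + 1 / τ * ⟪x - Y, y⟫ + 1 / (2 * τ) * ‖y‖ ^ 2 := by
      field_simp
    rw [e3] at h1
    rw [inner_sub_left, inner_add_left, real_inner_smul_left, real_inner_smul_left]
    have e4 : (1 / (2 * e) + 1 / (2 * τ) + τ * g) * ‖y‖ ^ 2
        = ‖y‖ ^ 2 / (2 * e) + 1 / (2 * τ) * ‖y‖ ^ 2 + τ * g * ‖y‖ ^ 2 := by ring
    rw [e4]
    linarith
  exact (sub_eq_zero.1 hfin).symm

theorem contact_bound [FiniteDimensional ℝ E] {K c : ℝ} (hK : 1 ≤ K) (hc : 0 ≤ c)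
    (hB : Bnd K c E) {W : E → ℝ → ℝ} (hW : MCls K W) {e z θ X : ℝ} {x p v : E} {s : ℝ}
    (he : 0 < e) (he1 : e ≤ 1) (hθ1 : 1 / 2 ≤ θ) (hθ2 : θ ≤ 2) (hx : ‖x‖ ≤ X)
    (hsmall : ∀ y : E, ‖y‖ ≤ X + 1 → |upM W e y z - W y z| ≤ 1)
    (had : Adapted K W x z 1 v s)
    (hp : ∀ A : E, upM W e A z - ⟪p, A - x⟫ - ‖A - x‖ ^ 2 / (2 * θ)
      ≤ Ez (fun y => upM W e y z) x θ) : ‖p‖ ≤ ‖v‖ + (K + 3 * c + 3) := by
  have h1 : ‖v - p‖ ≤ K + 3 * c + 3 := by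
    apply norm_le_of_inner (by linarith)
    intro h hh
    have h2 := hp (x + h)
    have h3 := Ez_up_le hK hB hW he he1 (show (0 : ℝ) < θ by linarith) x z
    have h4 := hsmall x (by linarith)
    have h5 := hsmall (x + h) (by
      have := norm_add_le x h
      linarith)
    have h6 := had (x + h) z (by simp) (by simp [hh])
    rw [add_sub_cancel_left] at h2 h6
    rw [sub_self, mul_zero, sub_zero, mul_one] at h6
    rw [hh] at h2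
    rw [inner_sub_left]
    have h7 := abs_le.1 h4
    have h8 := abs_le.1 h5
    have h9 := abs_le.1 h6
    have h10 : (1 : ℝ) ^ 2 / (2 * θ) ≤ 1 := by
      rw [div_le_one (by linarith)]
      linarith
    have h11 : c * (θ + e) ≤ 3 * c := by nlinarith
    linarith [h7.1, h7.2, h8.1, h8.2, h9.1, h9.2]
  have h2 : ‖p‖ ≤ ‖v‖ + ‖v - p‖ := by
    have := norm_sub_le v (v - p)
    rwa [sub_sub_cancel] at this
  linarith

theorem interior_bound [FiniteDimensional ℝ E] {K c : ℝ} (hK : 1 ≤ K) (hc : 0 ≤ c)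
    (hB : Bnd K c E) {W : E → ℝ → ℝ} (hW : MCls K W) {e τ b β g X z θ : ℝ} {x Y v : E} {s : ℝ}
    (he : 0 < e) (he1 : e ≤ 1) (hτ : 0 < τ) (hg : 0 ≤ g) (hX : 0 ≤ X)
    (hint : ‖x‖ ^ 2 + z ^ 2 < X ^ 2) (hθ1 : 1 / 2 < θ) (hθ2 : θ < 2)
    (hmax : ∀ (x' : E) (z' θ' : ℝ) (Y' : E), ‖x'‖ ^ 2 + z' ^ 2 ≤ X ^ 2 → 1 / 2 ≤ θ' → θ' ≤ 2 →
      ValM (upM W e) (dnM W e) τ c b β g x' z' θ' Y'
        ≤ ValM (upM W e) (dnM W e) τ c b β g x z θ Y)
    (hsmall : ∀ y : E, ‖y‖ ≤ X + 1 → |upM W e y z - W y z| ≤ 1)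
    (had : Adapted K W x z 1 v s) :
    β ≤ 2 * g ^ 2 * X ^ 2 + g * (1 + (‖v‖ + (K + 3 * c + 3)) ^ 2) := by
  have hθ0 : (0 : ℝ) < θ := by linarith
  obtain ⟨p, hp, ι, hι, lam, a, hl, hs, hx, hcon⟩ := exists_config
    (hW.up_cont_slice hK he z) (hW.ops_subQuad hK he he1 z) hθ0 x
  obtain ⟨ρ, hρ, hreg, hregθ⟩ := exists_radius (norm_nonneg x) hint hθ1 hθ2
  have hxX : ‖x‖ ≤ X := (le_abs_self _).trans
    (abs_le_of_sq_le_sq (by nlinarith [sq_nonneg z]) hX)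
  have Max : ∀ (a' : ι → E) (Y' : E) (t' z' : ℝ), (∀ i, ‖a' i - a i‖ < ρ) → ‖Y' - Y‖ < ρ →
      |t' - z| < ρ → |z' - θ| < ρ →
      Fun lam (upM W e) (dnM W e) τ c b β g a' Y' t' z'
        ≤ Fun lam (upM W e) (dnM W e) τ c b β g a Y z θ := by
    intro a' Y' t' z' ha' _ ht' hz'
    have h1 := norm_sum_center_lt hl hs ha'
    rw [hx] at h1
    set m' := ∑ i, lam i • a' i with hm'
    have h2 : ‖m'‖ ≤ ‖x‖ + ρ := by
      have := norm_add_le (m' - x) x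
      rw [sub_add_cancel] at this
      linarith
    obtain ⟨h3, h4⟩ := hregθ z' hz'
    have h5 := hmax m' t' z' Y' (hreg _ _ (norm_nonneg _) h2 ht') h3 h4
    have h6 := config_le_Ez (hW.up_cont_slice hK he t') (hW.ops_subQuad hK he he1 t')
      (show (0 : ℝ) < z' by linarith) hl hs hm'.symm
    have h7 := config_eq_Ez (g := fun y => upM W e y z) (θ := θ) hs hx hcon
    unfold ValM at h5
    rw [h7] at h5
    unfold Fun
    rw [hx, ← hm']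
    linarith
  have hR1 : ∀ i, ∃ R : ℝ, ∀ s, 0 < s → s < e → ∃ ξ : E, ‖ξ‖ ≤ R ∧ ∀ ν : E,
      2 * upM W e (a i) z ≤ (upM W e (a i + s • ξ) (z + s) - s / 2 * ‖ξ‖ ^ 2)
        + (upM W e (a i - s • ν) (z - s) + s / 2 * ‖ν‖ ^ 2) := fun i =>
    hW.two_up hK he (a i) z
  choose R hR using hR1
  obtain ⟨R', hR'⟩ := hW.two_dn hK he Y (z - τ)
  have hRle : ∀ i, R i ≤ (∑ j, |R j|) + |R'| := by
    intro i
    have h1 : |R i| ≤ ∑ j, |R j| := Finset.single_le_sum (f := fun j => |R j|)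
      (fun j _ => abs_nonneg _) (Finset.mem_univ i)
    linarith [le_abs_self (R i), abs_nonneg R']
  have hR'le : R' ≤ (∑ j, |R j|) + |R'| := by
    have h1 : 0 ≤ ∑ j, |R j| := Finset.sum_nonneg fun j _ => abs_nonneg _
    linarith [le_abs_self R']
  have hT := tplM (R := (∑ j, |R j|) + |R'|) (s₀ := e) hl hs hθ0 hτ hg he hρ
    (fun s hs0 hse i => by
      obtain ⟨ξ, h1, h2⟩ := hR i s hs0 hse
      exact ⟨ξ, h1.trans (hRle i), h2⟩)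
    (fun s hs0 hse => by
      obtain ⟨ξ, h1, h2⟩ := hR' s hs0 hse
      exact ⟨ξ, h1.trans hR'le, h2⟩) Max
  have hμ := interior_mu hK hW he hτ hθ0 hρ hl hs hx hp hcon Max
  rw [hx, hμ] at hT
  have hpb := contact_bound hK hc hB hW he he1 hθ1.le hθ2.le hxX hsmall had hp
  have h1 : ‖p‖ ^ 2 ≤ (‖v‖ + (K + 3 * c + 3)) ^ 2 := pow_le_pow_left₀ (norm_nonneg _) hpb 2
  have h2 : ‖x‖ ^ 2 ≤ X ^ 2 := pow_le_pow_left₀ (norm_nonneg _) hxX 2
  have h3 : 2 * g ^ 2 * ‖x‖ ^ 2 ≤ 2 * g ^ 2 * X ^ 2 :=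
    mul_le_mul_of_nonneg_left h2 (by positivity)
  have h4 : g * (1 + ‖p‖ ^ 2) ≤ g * (1 + (‖v‖ + (K + 3 * c + 3)) ^ 2) :=
    mul_le_mul_of_nonneg_left (by linarith) hg
  linarith

end Vale.Agent.P080
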