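import Vale.Agent.P080.MAdapt
import Vale.Agent.P080.MFrame

open Metric Set Filter Topology
open scoped RealInnerProductSpace

namespace Vale.Agent.P080

variable {E : Type*} [NormedAddCommGroup E] [InnerProductSpace ℝ E]

/-! ### Auxiliary facts -/

/-- Adapted data of the reflection: `(v, s)` becomes `(-v, s)`. -/
theorem Adapted.refl {K : ℝ} {W : E → ℝ → ℝ} {x : E} {z r : ℝ} {v : E} {s : ℝ}
    (h : Adapted K W x z r v s) : Adapted K (Vale.Agent.P080.refl W) x (-z) r (-v) s := by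
  intro y z' h1 h2
  have h3 : |(-z') - z| ≤ r := by
    rw [show (-z') - z = -(z' - (-z)) by ring, abs_neg]; exact h1
  have h4 : ‖y - x - ((-z') - z) • v‖ ≤ r := by
    have : y - x - ((-z') - z) • v = y - x - (z' - (-z)) • (-v) := by
      rw [smul_neg]; module
    rw [this]; exact h2
  have h5 := h y (-z') h3 h4
  have e : Vale.Agent.P080.refl W y z' - Vale.Agent.P080.refl W x (-z) - ⟪-v, y - x⟫
      - s * (z' - (-z)) = -(W y (-z') - W x z - ⟪v, y - x⟫ - s * ((-z') - z)) := by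
    simp only [Vale.Agent.P080.refl, inner_neg_left, neg_neg]
    ring
  rw [e, abs_neg]
  exact h5

omit [InnerProductSpace ℝ E] in
/-- the three-point inequality for the kinetic energy -/
theorem kin_le {τ ε : ℝ} (hτ : 0 < τ) (hε : 0 < ε) (b x y : E) :
    ‖b - x‖ ^ 2 / (2 * (τ + ε)) ≤ ‖b - y‖ ^ 2 / (2 * ε) + ‖y - x‖ ^ 2 / (2 * τ) := by
  have h1 : ‖b - x‖ ≤ ‖b - y‖ + ‖y - x‖ := by
    have : b - x = (b - y) + (y - x) := by abel
    rw [this]
    exact norm_add_le _ _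
  have h2 : ‖b - x‖ ^ 2 ≤ (‖b - y‖ + ‖y - x‖) ^ 2 :=
    pow_le_pow_left₀ (norm_nonneg _) h1 2
  have h3 : (‖b - y‖ + ‖y - x‖) ^ 2 / (2 * (τ + ε)) ≤
      ‖b - y‖ ^ 2 / (2 * ε) + ‖y - x‖ ^ 2 / (2 * τ) := by
    rw [div_add_div _ _ (by positivity) (by positivity),
      div_le_div_iff₀ (by positivity) (by positivity)]
    nlinarith [sq_nonneg (τ * ‖b - y‖ - ε * ‖y - x‖)]
  exact (div_le_div_of_nonneg_right h2 (by positivity)).trans h3

/-- expansion of the value around the characteristic -/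
theorem MCls.val_le {K : ℝ} (hK : 1 ≤ K) : ∃ C : ℝ, 0 < C ∧
    ∀ W : E → ℝ → ℝ, MCls K W → ∀ (x v : E) (z t s : ℝ), 0 < t → Adapted K W x z t v s →
      ∀ a : E, W a (z + t) - ‖a - x‖ ^ 2 / (2 * t) ≤
        W x z + (s + ‖v‖ ^ 2 / 2 + C) * t - ‖a - x - t • v‖ ^ 2 / (4 * t) := by
  obtain ⟨C, hC, h⟩ := MCls.growth (E := E) hK (show (0 : ℝ) < 1 / 8 by norm_num)
  refine ⟨C + 1 / 4, by linarith, ?_⟩
  intro W hW x v z t s ht had a
  have h1 := h W hW x v z t s ht had a (z + t)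
  have e1 : z + t - z = t := by ring
  rw [e1, abs_of_pos ht] at h1
  set b := a - x - t • v with hb
  have hax : a - x = t • v + b := by rw [hb]; abel
  have h2 := (abs_le.1 h1).2
  rw [hax, inner_add_right, real_inner_smul_right, real_inner_self_eq_norm_sq] at h2
  have e2 : ‖a - x‖ ^ 2 = t ^ 2 * ‖v‖ ^ 2 + 2 * (t * ⟪v, b⟫) + ‖b‖ ^ 2 := by
    rw [hax, norm_add_sq_real, norm_smul, real_inner_smul_left, Real.norm_eq_abs, mul_pow,
      sq_abs]
  have e3 : ‖a - x‖ ^ 2 / (2 * t) = t * ‖v‖ ^ 2 / 2 + ⟪v, b⟫ + ‖b‖ ^ 2 / (2 * t) := by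
    rw [e2]
    field_simp
  have e4 : 1 / 8 * (t + ‖b‖) ^ 2 / t ≤ t / 4 + ‖b‖ ^ 2 / (4 * t) := by
    have : t / 4 + ‖b‖ ^ 2 / (4 * t) - 1 / 8 * (t + ‖b‖) ^ 2 / t = (t - ‖b‖) ^ 2 / (8 * t) := by
      field_simp
      ring
    have h5 : 0 ≤ (t - ‖b‖) ^ 2 / (8 * t) := by positivity
    linarith
  have e5 : ‖b‖ ^ 2 / (2 * t) = 2 * (‖b‖ ^ 2 / (4 * t)) := by
    field_simp
    ring
  rw [e3, e5]
  linarith

theorem MCls.bdd_up {K : ℝ} (hK : 1 ≤ K) {W : E → ℝ → ℝ}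
    (h : MCls K W) {t : ℝ} (ht : 0 < t) (x : E) (z : ℝ) :
    BddAbove (Set.range fun a : E => W a (z + t) - ‖a - x‖ ^ 2 / (2 * t)) := by
  obtain ⟨C, hC, hv⟩ := MCls.val_le (E := E) hK
  obtain ⟨v, s, had⟩ := h.flat x z t ht
  refine ⟨W x z + (s + ‖v‖ ^ 2 / 2 + C) * t, ?_⟩
  rintro _ ⟨a, rfl⟩
  have h1 := hv W h x v z t s ht had a
  have h2 : 0 ≤ ‖a - x - t • v‖ ^ 2 / (4 * t) := by positivity
  simp only
  linarith

/-! ### The statements -/

theorem MCls.le_up [FiniteDimensional ℝ E] {K : ℝ} (hK : 1 ≤ K) {W : E → ℝ → ℝ}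
    (h : MCls K W) {t : ℝ} (ht : 0 < t) (a x : E) (z : ℝ) :
    W a (z + t) - ‖a - x‖ ^ 2 / (2 * t) ≤ upM W t x z :=
  le_csSup (h.bdd_up hK ht x z) ⟨a, rfl⟩

theorem MCls.exists_up [FiniteDimensional ℝ E] {K : ℝ} (hK : 1 ≤ K) {W : E → ℝ → ℝ}
    (h : MCls K W) {t : ℝ} (ht : 0 < t) (x : E) (z : ℝ) :
    ∃ a : E, upM W t x z = W a (z + t) - ‖a - x‖ ^ 2 / (2 * t) := by
  obtain ⟨C, hC, hv⟩ := MCls.val_le (E := E) hK
  obtain ⟨v, s, had⟩ := h.flat x z t ht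
  have hcont : Continuous fun a : E => W a (z + t) - ‖a - x‖ ^ 2 / (2 * t) := by
    have h1 : Continuous fun a : E => W a (z + t) :=
      (MCls.continuous hK h).comp (by fun_prop : Continuous fun a : E => (a, z + t))
    fun_prop
  -- coercivity
  have hev : ∀ᶠ a in cocompact E, W a (z + t) - ‖a - x‖ ^ 2 / (2 * t) ≤
      W x (z + t) - ‖x - x‖ ^ 2 / (2 * t) := by
    set m := W x (z + t) - ‖x - x‖ ^ 2 / (2 * t) with hm
    set A := W x z + (s + ‖v‖ ^ 2 / 2 + C) * t - m with hA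
    have h1 : Tendsto (fun a : E => ‖a‖) (cocompact E) atTop := tendsto_norm_cocompact_atTop
    filter_upwards [h1.eventually_ge_atTop (‖x + t • v‖ + (1 + 4 * t * |A|))] with a ha
    have h2 := hv W h x v z t s ht had a
    have h3 : 1 + 4 * t * |A| ≤ ‖a - x - t • v‖ := by
      have h4 : a = (a - x - t • v) + (x + t • v) := by abel
      have h5 : ‖a‖ ≤ ‖a - x - t • v‖ + ‖x + t • v‖ := by
        conv_lhs => rw [h4]
        exact norm_add_le _ _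
      linarith
    have h4 : 0 ≤ 4 * t * |A| := by positivity
    have h5 : (1 + 4 * t * |A|) ^ 2 ≤ ‖a - x - t • v‖ ^ 2 :=
      pow_le_pow_left₀ (by linarith) h3 2
    have h6 : |A| ≤ ‖a - x - t • v‖ ^ 2 / (4 * t) := by
      rw [le_div_iff₀ (by positivity)]
      nlinarith
    have h7 := le_abs_self A
    linarith
  obtain ⟨a, ha⟩ := hcont.exists_forall_ge' x hev
  refine ⟨a, ?_⟩
  apply IsGreatest.csSup_eq
  refine ⟨⟨a, rfl⟩, ?_⟩
  rintro _ ⟨b, rfl⟩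
  exact ha b

theorem upM_refl_neg (W : E → ℝ → ℝ) (t : ℝ) (x : E) (z : ℝ) :
    upM (Vale.Agent.P080.refl W) t x (-z) = -dnM W t x z := by
  rw [dnM_eq, neg_neg]

theorem MCls.exists_dn [FiniteDimensional ℝ E] {K : ℝ} (hK : 1 ≤ K) {W : E → ℝ → ℝ}
    (h : MCls K W) {t : ℝ} (ht : 0 < t) (x : E) (z : ℝ) :
    ∃ a : E, dnM W t x z = W a (z - t) + ‖a - x‖ ^ 2 / (2 * t) := by
  obtain ⟨a, ha⟩ := MCls.exists_up hK h.refl ht x (-z)
  refine ⟨a, ?_⟩
  rw [dnM_eq, ha]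
  simp only [Vale.Agent.P080.refl]
  have e : -(-z + t) = z - t := by ring
  rw [e]
  ring

theorem MCls.dn_le [FiniteDimensional ℝ E] {K : ℝ} (hK : 1 ≤ K) {W : E → ℝ → ℝ}
    (h : MCls K W) {t : ℝ} (ht : 0 < t) (a x : E) (z : ℝ) :
    dnM W t x z ≤ W a (z - t) + ‖a - x‖ ^ 2 / (2 * t) := by
  have h1 := MCls.le_up hK h.refl ht a x (-z)
  rw [upM_refl_neg] at h1
  simp only [Vale.Agent.P080.refl] at h1
  have e : -(-z + t) = z - t := by ring
  rw [e] at h1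
  linarith

theorem MCls.up_loc [FiniteDimensional ℝ E] {K : ℝ} (hK : 1 ≤ K) : ∃ C : ℝ, 0 < C ∧
    ∀ W : E → ℝ → ℝ, MCls K W → ∀ (x v : E) (z t s : ℝ), 0 < t → Adapted K W x z t v s →
      |qpM W t x z - (s + ‖v‖ ^ 2 / 2)| ≤ C ∧
      ∀ a : E, upM W t x z ≤ W a (z + t) - ‖a - x‖ ^ 2 / (2 * t) → ‖a - x - t • v‖ ≤ C * t := by
  obtain ⟨C, hC, hv⟩ := MCls.val_le (E := E) hK
  refine ⟨2 * (C + 1 + K), by linarith, ?_⟩
  intro W h x v z t s ht had
  -- lower bound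
  have hlow : W x z + (s + ‖v‖ ^ 2 / 2 - K) * t ≤ upM W t x z := by
    have h1 := MCls.le_up hK h ht (x + t • v) x z
    have e1 : x + t • v - x = t • v := by abel
    have e0 : z + t - z = t := by ring
    have h2 := had (x + t • v) (z + t) (by rw [e0, abs_of_pos ht])
      (by rw [e0, e1, sub_self, norm_zero]; exact ht.le)
    rw [e0, e1, real_inner_smul_right, real_inner_self_eq_norm_sq] at h2
    rw [e1, norm_smul, Real.norm_eq_abs, mul_pow, sq_abs] at h1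
    have e2 : t ^ 2 * ‖v‖ ^ 2 / (2 * t) = t * ‖v‖ ^ 2 / 2 := by
      field_simp
    rw [e2] at h1
    have h3 := (abs_le.1 h2).1
    linarith
  have hup : upM W t x z ≤ W x z + (s + ‖v‖ ^ 2 / 2 + C) * t := by
    obtain ⟨a, ha⟩ := MCls.exists_up hK h ht x z
    rw [ha]
    have h1 := hv W h x v z t s ht had a
    have h2 : 0 ≤ ‖a - x - t • v‖ ^ 2 / (4 * t) := by positivity
    linarith
  constructor
  · have e : qpM W t x z - (s + ‖v‖ ^ 2 / 2) =
        (upM W t x z - W x z - (s + ‖v‖ ^ 2 / 2) * t) / t := by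
      unfold qpM
      field_simp
    rw [e, abs_div, abs_of_pos ht, div_le_iff₀ ht, abs_le]
    constructor
    · nlinarith
    · nlinarith
  · intro a ha
    have h1 := hv W h x v z t s ht had a
    have h2 : ‖a - x - t • v‖ ^ 2 / (4 * t) ≤ (C + K) * t := by linarith
    rw [div_le_iff₀ (by positivity)] at h2
    have h3 : ‖a - x - t • v‖ ^ 2 ≤ (2 * (C + 1 + K) * t) ^ 2 := by
      have h4 : (C + K) ≤ (C + 1 + K) ^ 2 := by nlinarith
      have h5 : (2 * (C + 1 + K) * t) ^ 2 = 4 * t ^ 2 * (C + 1 + K) ^ 2 := by ring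
      rw [h5]
      have h6 : (C + K) * t * (4 * t) = 4 * t ^ 2 * (C + K) := by ring
      rw [h6] at h2
      exact h2.trans (mul_le_mul_of_nonneg_left h4 (by positivity))
    exact (pow_le_pow_iff_left₀ (norm_nonneg _) (by positivity) (by norm_num)).1 h3

theorem MCls.dn_loc [FiniteDimensional ℝ E] {K : ℝ} (hK : 1 ≤ K) : ∃ C : ℝ, 0 < C ∧
    ∀ W : E → ℝ → ℝ, MCls K W → ∀ (x v : E) (z t s : ℝ), 0 < t → Adapted K W x z t v s →
      |qmM W t x z - (s + ‖v‖ ^ 2 / 2)| ≤ C ∧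
      ∀ a : E, W a (z - t) + ‖a - x‖ ^ 2 / (2 * t) ≤ dnM W t x z → ‖a - x + t • v‖ ≤ C * t := by
  obtain ⟨C, hC, hup⟩ := MCls.up_loc (E := E) hK
  refine ⟨C, hC, ?_⟩
  intro W h x v z t s ht had
  obtain ⟨h1, h2⟩ := hup (Vale.Agent.P080.refl W) h.refl x (-v) (-z) t s ht had.refl
  constructor
  · rw [qmM_eq]
    rwa [norm_neg] at h1
  · intro a ha
    have h3 := h2 a (by
      rw [upM_refl_neg]
      simp only [Vale.Agent.P080.refl]
      have e : -(-z + t) = z - t := by ring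
      rw [e]
      linarith)
    rwa [smul_neg, sub_neg_eq_add] at h3

theorem MCls.qp_mono [FiniteDimensional ℝ E] {K : ℝ} (hK : 1 ≤ K) {W : E → ℝ → ℝ}
    (h : MCls K W) {t t' : ℝ} (ht : 0 < t) (htt : t ≤ t') (x : E) (z : ℝ) :
    qpM W t x z ≤ qpM W t' x z := by
  have ht' : 0 < t' := by linarith
  obtain ⟨a, ha⟩ := MCls.exists_up hK h ht x z
  obtain ⟨w, hw⟩ := h.up x a z t (t / t') ht (by positivity) ((div_le_one ht').2 htt)
  have e1 : t / (t / t') = t' := by field_simp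
  rw [e1] at hw
  have h1 := MCls.le_up hK h ht' w x z
  have hl : 0 < t / t' := by positivity
  have h2 : upM W t x z - W x z ≤ t / t' * (upM W t' x z - W x z) := by
    rw [ha]
    have h3 := mul_le_mul_of_nonneg_left h1 hl.le
    linarith
  unfold qpM
  rw [div_le_iff₀ ht]
  have e2 : (upM W t' x z - W x z) / t' * t = t / t' * (upM W t' x z - W x z) := by ring
  rw [e2]
  exact h2

theorem MCls.qm_mono [FiniteDimensional ℝ E] {K : ℝ} (hK : 1 ≤ K) {W : E → ℝ → ℝ}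
    (h : MCls K W) {t t' : ℝ} (ht : 0 < t) (htt : t ≤ t') (x : E) (z : ℝ) :
    qmM W t x z ≤ qmM W t' x z := by
  rw [qmM_eq, qmM_eq]
  exact MCls.qp_mono hK h.refl ht htt x (-z)

theorem MCls.up_semi [FiniteDimensional ℝ E] {K : ℝ} (hK : 1 ≤ K) {W : E → ℝ → ℝ}
    (h : MCls K W) {ε : ℝ} (hε : 0 < ε) (x : E) (z : ℝ) :
    ∃ ζ : E, ∀ y : E, upM W ε x z + ⟪ζ, y⟫ - ‖y‖ ^ 2 / (2 * ε) ≤ upM W ε (x + y) z := by
  obtain ⟨A, hA⟩ := MCls.exists_up hK h hε x z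
  refine ⟨(1 / ε) • (A - x), fun y => ?_⟩
  have h1 := MCls.le_up hK h hε A (x + y) z
  refine le_trans (le_of_eq ?_) h1
  rw [hA, real_inner_smul_left]
  have e1 : A - (x + y) = (A - x) - y := by abel
  rw [e1, norm_sub_sq_real (A - x) y]
  field_simp
  ring

theorem MCls.dn_dn_le [FiniteDimensional ℝ E] {K : ℝ} (hK : 1 ≤ K) {W : E → ℝ → ℝ}
    (h : MCls K W) {τ ε : ℝ} (hτ : 0 < τ) (hε : 0 < ε) (x y : E) (z : ℝ) :
    dnM W (τ + ε) x z ≤ dnM W ε y (z - τ) + ‖y - x‖ ^ 2 / (2 * τ) := by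
  obtain ⟨b, hb⟩ := MCls.exists_dn hK h hε y (z - τ)
  have h1 := MCls.dn_le hK h (add_pos hτ hε) b x z
  have h2 := kin_le hτ hε b x y
  have e : z - (τ + ε) = z - τ - ε := by ring
  rw [e] at h1
  rw [hb]
  linarith

end Vale.Agent.P080
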