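import Vale.Agent.P080.MDefs

open Metric Set Filter Topology
open scoped RealInnerProductSpace

namespace Vale.Agent.P080

variable {E : Type*} [NormedAddCommGroup E] [InnerProductSpace ℝ E]

noncomputable def upM (W : E → ℝ → ℝ) (t : ℝ) (x : E) (z : ℝ) : ℝ :=
  sSup (Set.range fun a : E => W a (z + t) - ‖a - x‖ ^ 2 / (2 * t))

noncomputable def dnM (W : E → ℝ → ℝ) (t : ℝ) (x : E) (z : ℝ) : ℝ :=
  sInf (Set.range fun a : E => W a (z - t) + ‖a - x‖ ^ 2 / (2 * t))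

noncomputable def qpM (W : E → ℝ → ℝ) (t : ℝ) (x : E) (z : ℝ) : ℝ :=
  (upM W t x z - W x z) / t

noncomputable def qmM (W : E → ℝ → ℝ) (t : ℝ) (x : E) (z : ℝ) : ℝ :=
  (W x z - dnM W t x z) / t

noncomputable def frameM (W : E → ℝ → ℝ) (x₀ : E) (z₀ r : ℝ) (v : E) (a : ℝ) : E → ℝ → ℝ :=
  fun y z => (W (x₀ + r • y + (r * z) • v) (z₀ + r * z) - W x₀ z₀) / r - ⟪v, y⟫
    - (‖v‖ ^ 2 / 2 + a) * z

def NormM (K : ℝ) (W : E → ℝ → ℝ) : Prop :=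
  MCls K W ∧ W 0 0 = 0 ∧ Adapted K W 0 0 1 0 0

def Ext (c : ℝ) (W : E → ℝ → ℝ) (x : E) (z θ : ℝ) : Prop :=
  ∀ p : E, ∃ A : E, c * θ ≤ W A z - W x z - ⟪p, A - x⟫ - ‖A - x‖ ^ 2 / (2 * θ)

def ExtLe (c : ℝ) (W : E → ℝ → ℝ) (x : E) (z θ : ℝ) : Prop :=
  ∃ p : E, ∀ A : E, W A z - W x z - ⟪p, A - x⟫ - ‖A - x‖ ^ 2 / (2 * θ) ≤ c * θ

def Bnd (K c : ℝ) (E : Type*) [NormedAddCommGroup E] [InnerProductSpace ℝ E] : Prop :=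
  ∀ W : E → ℝ → ℝ, MCls K W → ∀ (x : E) (z θ : ℝ), 0 < θ → ExtLe c W x z θ

noncomputable def Ez (g : E → ℝ) (x : E) (θ : ℝ) : ℝ :=
  sInf {e | ∃ p : E, ∀ A : E, g A - ⟪p, A - x⟫ - ‖A - x‖ ^ 2 / (2 * θ) ≤ e}

def SubQuad (g : E → ℝ) : Prop :=
  ∀ δ > 0, ∃ C : ℝ, ∀ A : E, |g A| ≤ C + δ * ‖A‖ ^ 2

end Vale.Agent.P080
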