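import Vale.Agent.P080.Barrier

open Metric Set Filter Topology
open scoped RealInnerProductSpace

namespace Vale.Agent.P080

variable {d : ℕ}

theorem HasSlope.neg {u : Eu d → ℝ} {Ω : Set (Eu d)} {x : Eu d} {S : ℝ}
    (h : HasSlope u Ω x S) : HasSlope (fun y => -u y) Ω x S := by
  refine ⟨h.nonneg, ?_, ?_, ?_⟩
  · intro r hr hrΩ
    obtain ⟨z, hz, hz'⟩ := h.down r hr hrΩ
    exact ⟨z, hz, by linarith⟩
  · intro r hr hrΩ
    obtain ⟨z, hz, hz'⟩ := h.up r hr hrΩ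
    exact ⟨z, hz, by linarith⟩
  · intro η hη
    obtain ⟨δ, hδ, hlip⟩ := h.lip η hη
    refine ⟨δ, hδ, ?_⟩
    intro a ha b hb
    have := hlip b hb a ha
    rw [norm_sub_rev] at this
    linarith

theorem touch_cases {u : Eu d → ℝ} {U : Set (Eu d)} {x : Eu d} {ρ r : ℝ} (hρ : 0 < ρ)
    (h : TouchedByBall u U x ρ) (hU : closedBall x r ⊆ U) :
    ∃ ν : Eu d, ‖ν‖ = 1 ∧
      ((∀ w, ‖w‖ ≤ r → ‖w‖ ^ 2 + 2 * ρ * ⟪ν, w⟫ < 0 → u (x + w) ≤ u x) ∨
      (∀ w, ‖w‖ ≤ r → ‖w‖ ^ 2 + 2 * ρ * ⟪ν, w⟫ < 0 → u x ≤ u (x + w))) := by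
  obtain ⟨c, hc, h⟩ := h
  rw [dist_eq_norm] at hc
  have hmem : ∀ w : Eu d, ‖w‖ ≤ r → ‖w‖ ^ 2 + 2 * ρ * ⟪ρ⁻¹ • (x - c), w⟫ < 0 →
      x + w ∈ ball c ρ ∩ U := by
    intro w hw hw2
    constructor
    · rw [mem_ball, dist_eq_norm]
      have h1 : x + w - c = (x - c) + w := by abel
      rw [← pow_lt_pow_iff_left₀ (norm_nonneg _) hρ.le two_ne_zero, h1, norm_add_sq_real, hc]
      rw [inner_smul_left] at hw2
      have h2 : 2 * ρ * ((starRingEnd ℝ) ρ⁻¹ * ⟪x - c, w⟫) = 2 * ⟪x - c, w⟫ := by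
        simp
        field_simp
      rw [h2] at hw2
      linarith
    · apply hU
      rw [mem_closedBall, dist_eq_norm, add_sub_cancel_left]
      exact hw
  refine ⟨ρ⁻¹ • (x - c), ?_, ?_⟩
  · rw [norm_smul, hc, norm_inv, Real.norm_of_nonneg hρ.le]
    field_simp
  · rcases h with h | h
    · left
      intro w hw hw2
      exact h _ (hmem w hw hw2)
    · right
      intro w hw hw2
      exact h _ (hmem w hw hw2)

theorem hasFDerivAt_of_bound {u : Eu d → ℝ} {x p : Eu d}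
    (h : ∀ c : ℝ, 0 < c → ∃ δ : ℝ, 0 < δ ∧ ∀ w : Eu d, ‖w‖ < δ →
      |u (x + w) - u x - ⟪p, w⟫| ≤ c * ‖w‖) :
    HasFDerivAt u (innerSL ℝ p) x := by
  rw [hasFDerivAt_iff_isLittleO_nhds_zero, Asymptotics.isLittleO_iff]
  intro c hc
  obtain ⟨δ, hδ, hb⟩ := h c hc
  filter_upwards [ball_mem_nhds (0 : Eu d) hδ] with w hw
  rw [mem_ball_zero_iff] at hw
  simpa using hb w hw

theorem diff_of_touch_below {u : Eu d → ℝ} {Ω : Set (Eu d)} {x ν : Eu d} {S ρ r₁ : ℝ}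
    (h : HasSlope u Ω x S) (hΩ : IsOpen Ω) (hx : x ∈ Ω) (hν : ‖ν‖ = 1) (hρ : 0 < ρ)
    (hr₁ : 0 < r₁)
    (hb : ∀ w, ‖w‖ ≤ r₁ → ‖w‖ ^ 2 + 2 * ρ * ⟪ν, w⟫ < 0 → u (x + w) ≤ u x) :
    HasFDerivAt u (innerSL ℝ (S • ν)) x := by
  apply hasFDerivAt_of_bound
  intro c hc
  rcases h.nonneg.eq_or_lt with hS | hS
  · obtain ⟨δ, hδ, hlip⟩ := h.lip c hc
    refine ⟨δ, hδ, ?_⟩
    intro w hw
    rw [← hS] at hlip ⊢
    have h1 := hlip (x + w) (by rwa [add_sub_cancel_left]) x (by simpa using hδ)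
    have h2 := hlip x (by simpa using hδ) (x + w) (by rwa [add_sub_cancel_left])
    rw [add_sub_cancel_left] at h1
    rw [sub_add_cancel_left, norm_neg] at h2
    rw [zero_smul, inner_zero_left, abs_le]
    constructor <;> linarith
  · set t := min 1 (c / (2 * S)) with ht
    have htpos : 0 < t := by
      simp only [ht, lt_min_iff]
      exact ⟨one_pos, by positivity⟩
    have ht1 : t ≤ 1 := min_le_left _ _
    have ht2 : 2 * S * t ≤ c := by
      have : t ≤ c / (2 * S) := min_le_right _ _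
      rw [le_div_iff₀ (by positivity)] at this
      linarith
    have hε : 0 < t ^ 2 / 6 := by positivity
    obtain ⟨r₀, hr₀, hflat⟩ := h.flat hΩ hx hS hε
    refine ⟨min r₀ (min r₁ ρ), by positivity, ?_⟩
    intro w hw
    have hw1 : ‖w‖ < r₀ := hw.trans_le (min_le_left _ _)
    have hw2 : ‖w‖ < r₁ := hw.trans_le ((min_le_right _ _).trans (min_le_left _ _))
    have hw3 : ‖w‖ < ρ := hw.trans_le ((min_le_right _ _).trans (min_le_right _ _))
    rcases (norm_nonneg w).eq_or_lt with hw0 | hw0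
    · have : w = 0 := norm_eq_zero.1 hw0.symm
      subst this
      simp
    · obtain ⟨-, e, he, he', hfl⟩ := hflat ‖w‖ hw0 hw1.le
      have hdir := dir_lemma hS he hν hw0 (by linarith) hfl
        (fun v hv hv2 => hb v (by linarith) hv2)
      have hen := norm_sub_le_sqrt hε.le he he' hν hdir
      have h6 : 6 * (t ^ 2 / 6) = t ^ 2 := by ring
      rw [h6, Real.sqrt_sq htpos.le] at hen
      have h1 := hfl w le_rfl
      have h2 : |⟪e - ν, w⟫| ≤ t * ‖w‖ :=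
        (abs_real_inner_le_norm _ _).trans (mul_le_mul_of_nonneg_right hen (norm_nonneg _))
      rw [inner_sub_left] at h2
      have h3 : ⟪S • ν, w⟫ = S * ⟪ν, w⟫ := by simp [inner_smul_left]
      rw [h3]
      have h4 : u (x + w) - u x - S * ⟪ν, w⟫
          = (u (x + w) - u x - S * ⟪e, w⟫) + S * (⟪e, w⟫ - ⟪ν, w⟫) := by ring
      rw [h4]
      have h5 : |S * (⟪e, w⟫ - ⟪ν, w⟫)| ≤ S * (t * ‖w‖) := by
        rw [abs_mul, abs_of_pos hS]
        exact mul_le_mul_of_nonneg_left h2 hS.le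
      have h7 : t ^ 2 / 6 * S * ‖w‖ ≤ S * (t * ‖w‖) := by
        have : t ^ 2 / 6 ≤ t := by nlinarith
        have := mul_le_mul_of_nonneg_right this (mul_nonneg hS.le hw0.le)
        linarith
      have h8 := mul_le_mul_of_nonneg_right ht2 hw0.le
      calc |u (x + w) - u x - S * ⟪e, w⟫ + S * (⟪e, w⟫ - ⟪ν, w⟫)|
          ≤ |u (x + w) - u x - S * ⟪e, w⟫| + |S * (⟪e, w⟫ - ⟪ν, w⟫)| := abs_add_le _ _
        _ ≤ t ^ 2 / 6 * S * ‖w‖ + S * (t * ‖w‖) := add_le_add h1 h5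
        _ ≤ c * ‖w‖ := by linarith

theorem touched_diff {u : Eu d → ℝ} {Ω U : Set (Eu d)} (hu : IsInfinityHarmonicOn u Ω)
    (hΩ : IsOpen Ω) {x : Eu d} (hx : x ∈ Ω) {ρ : ℝ} (hρ : 0 < ρ) (hU : U ∈ 𝓝 x)
    (h : TouchedByBall u U x ρ) : ∃ p : Eu d, HasFDerivAt u (innerSL ℝ p) x := by
  obtain ⟨S, hS⟩ := exists_hasSlope hu hΩ hx
  obtain ⟨r, hr, hrU⟩ := nhds_basis_closedBall.mem_iff.1 hU
  obtain ⟨ν, hν, hb | hb⟩ := touch_cases hρ h hrU
  · exact ⟨_, diff_of_touch_below hS hΩ hx hν hρ hr hb⟩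
  · have h1 := diff_of_touch_below hS.neg hΩ hx hν hρ hr
      (fun w hw hw2 => by linarith [hb w hw hw2])
    refine ⟨-(S • ν), ?_⟩
    have h2 := h1.neg
    rw [← map_neg] at h2
    have e : (-fun y => -u y) = u := by
      funext y
      simp
    rwa [e] at h2

theorem grad_close_below {u : Eu d → ℝ} {Ω : Set (Eu d)} (hu : IsInfinityHarmonicOn u Ω)
    {x₀ x e ν p : Eu d} {S δ R ρ : ℝ} (hS : 0 < S) (hδ : 0 < δ) (hδ' : δ ≤ 1 / 20)
    (hR : 0 < R) (hRΩ : closedBall x₀ R ⊆ Ω) (he : ‖e‖ ≤ 1) (he' : 1 - δ ^ 2 / 100 ≤ ‖e‖)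
    (hflat : ∀ w, ‖w‖ ≤ R → |u (x₀ + w) - u x₀ - S * ⟪e, w⟫| ≤ δ ^ 2 / 100 * S * R)
    (hx : ‖x - x₀‖ ≤ R / 2) (hρ : R ≤ 8 * δ * ρ) (hp : HasFDerivAt u (innerSL ℝ p) x)
    (hpn : ‖p‖ ≤ S + S * δ) (hν : ‖ν‖ = 1)
    (hb : ∀ w, ‖w‖ ≤ R / 2 → ‖w‖ ^ 2 + 2 * ρ * ⟪ν, w⟫ < 0 → u (x + w) ≤ u x) :
    ‖p - S • e‖ ≤ 4 * S * √δ := by
  have hr : 0 < R / 2 := by linarith
  have hρ0 : 0 < ρ := by
    by_contra h
    push Not at h
    nlinarith
  have hballx : closedBall x (R / 2) ⊆ closedBall x₀ R := by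
    apply closedBall_subset_closedBall'
    rw [dist_eq_norm]
    linarith
  have hflat2 : ∀ w, ‖w‖ ≤ R / 2 →
      |u (x + w) - u x - S * ⟪e, w⟫| ≤ (4 * (δ ^ 2 / 100)) * S * (R / 2) := by
    intro w hw
    have h1 := hflat (x - x₀) (by linarith)
    have h2 := hflat (x - x₀ + w) (by linarith [norm_add_le (x - x₀) w])
    rw [add_sub_cancel] at h1
    rw [← add_assoc, add_sub_cancel, inner_add_right] at h2
    rw [abs_le] at h1 h2 ⊢
    constructor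
    · linarith [h1.1, h1.2, h2.1, h2.2]
    · linarith [h1.1, h1.2, h2.1, h2.2]
  have hδ2 : 0 < δ ^ 2 / 100 := by positivity
  have hdir := dir_lemma hS he hν hr (by nlinarith) hflat2 hb
  have hen := norm_sub_le_sqrt (by positivity) he (by linarith) hν hdir
  have hen' : ‖e - ν‖ ≤ δ / 2 := by
    refine hen.trans ?_
    rw [show δ / 2 = √((δ / 2) ^ 2) from (Real.sqrt_sq (by positivity)).symm]
    apply Real.sqrt_le_sqrt
    nlinarith
  have hup : ∀ w, ‖w‖ ≤ R / 2 → u (x + w) ≤ u x + S * (⟪ν, w⟫ + δ * (R / 2)) := by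
    intro w hw
    have h1 := (abs_le.1 (hflat2 w hw)).2
    have h2 : ⟪e - ν, w⟫ ≤ δ / 2 * (R / 2) :=
      (real_inner_le_norm _ _).trans (mul_le_mul hen' hw (norm_nonneg _) (by positivity))
    rw [inner_sub_left] at h2
    have h3 := mul_le_mul_of_nonneg_left h2 hS.le
    have h4 : 4 * (δ ^ 2 / 100) * S * (R / 2) ≤ δ / 2 * S * (R / 2) := by
      have h5 : 4 * (δ ^ 2 / 100) ≤ δ / 2 := by nlinarith
      exact mul_le_mul_of_nonneg_right (mul_le_mul_of_nonneg_right h5 hS.le) hr.le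
    linarith
  have hbar := barrier hu hS hν hδ hδ' hr (hballx.trans hRΩ) (by linarith) hup hb
  have hpν : (1 - 5 / 2 * δ) * S ≤ ⟪p, ν⟫ := by
    refine le_of_forall_pos_le_add fun c hc => ?_
    rw [hasFDerivAt_iff_isLittleO_nhds_zero, Asymptotics.isLittleO_iff] at hp
    obtain ⟨t, ht, hball⟩ := Metric.eventually_nhds_iff_ball.1 (hp hc)
    set τ := min (t / 2) (R / 2 / 2) with hτ
    have hτpos : 0 < τ := by
      simp only [hτ, lt_min_iff]
      exact ⟨by linarith, by linarith⟩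
    have hτt : τ < t := by
      have : τ ≤ t / 2 := min_le_left _ _
      linarith
    have hτr : τ ≤ R / 2 / 2 := min_le_right _ _
    have hnw : ‖-(τ • ν)‖ = τ := by
      rw [norm_neg, norm_smul, hν, mul_one, Real.norm_of_nonneg hτpos.le]
    have h1 := hball (-(τ • ν)) (by rw [mem_ball_zero_iff, hnw]; exact hτt)
    rw [hnw, innerSL_apply_apply, inner_neg_right, inner_smul_right, Real.norm_eq_abs,
      ← sub_eq_add_neg] at h1
    have h2 := hbar τ hτpos.le hτr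
    have h3 := (abs_le.1 h1).1
    have h4 : (1 - 5 / 2 * δ) * S * τ ≤ (⟪p, ν⟫ + c) * τ := by linarith
    exact le_of_mul_le_mul_right h4 hτpos
  have hpS : ‖p - S • ν‖ ≤ S * √(8 * δ) := by
    have h1 : ‖p - S • ν‖ ^ 2 ≤ S ^ 2 * (8 * δ) := by
      rw [norm_sub_sq_real, inner_smul_right, norm_smul, hν, mul_one, Real.norm_of_nonneg hS.le]
      have h2 : ‖p‖ ^ 2 ≤ (S + S * δ) ^ 2 := pow_le_pow_left₀ (norm_nonneg _) hpn 2
      have h3 := mul_le_mul_of_nonneg_left hpν hS.le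
      have h4 : 0 ≤ S ^ 2 * (δ * (1 - δ)) := by
        have : 0 ≤ 1 - δ := by linarith
        positivity
      nlinarith
    have h2 : ‖p - S • ν‖ ≤ √(S ^ 2 * (8 * δ)) := Real.le_sqrt_of_sq_le h1
    rwa [Real.sqrt_mul (sq_nonneg S), Real.sqrt_sq hS.le] at h2
  have h8 : √(8 * δ) ≤ 3 * √δ := by
    rw [show (3 : ℝ) * √δ = √(9 * δ) by
      rw [Real.sqrt_mul (by norm_num)]
      rw [show (9 : ℝ) = 3 ^ 2 by norm_num, Real.sqrt_sq (by norm_num)]]
    exact Real.sqrt_le_sqrt (by linarith)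
  have h9 : δ / 2 ≤ √δ := by
    apply Real.le_sqrt_of_sq_le
    nlinarith
  calc ‖p - S • e‖ = ‖(p - S • ν) + S • (ν - e)‖ := by
        congr 1
        rw [smul_sub]
        abel
    _ ≤ ‖p - S • ν‖ + ‖S • (ν - e)‖ := norm_add_le _ _
    _ = ‖p - S • ν‖ + S * ‖e - ν‖ := by
        rw [norm_smul, Real.norm_of_nonneg hS.le, norm_sub_rev ν e]
    _ ≤ S * (3 * √δ) + S * √δ :=
        add_le_add (hpS.trans (mul_le_mul_of_nonneg_left h8 hS.le))
          (mul_le_mul_of_nonneg_left (hen'.trans h9) hS.le)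
    _ = 4 * S * √δ := by ring

theorem grad_close {u : Eu d → ℝ} {Ω U : Set (Eu d)} (hu : IsInfinityHarmonicOn u Ω)
    {x₀ x e p : Eu d} {S δ R ρ : ℝ} (hS : 0 < S) (hδ : 0 < δ) (hδ' : δ ≤ 1 / 20)
    (hR : 0 < R) (hRΩ : closedBall x₀ R ⊆ Ω) (he : ‖e‖ ≤ 1) (he' : 1 - δ ^ 2 / 100 ≤ ‖e‖)
    (hflat : ∀ w, ‖w‖ ≤ R → |u (x₀ + w) - u x₀ - S * ⟪e, w⟫| ≤ δ ^ 2 / 100 * S * R)
    (hx : ‖x - x₀‖ ≤ R / 2) (hρ : R ≤ 8 * δ * ρ) (hp : HasFDerivAt u (innerSL ℝ p) x)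
    (hpn : ‖p‖ ≤ S + S * δ) (hU : closedBall x₀ R ⊆ U) (ht : TouchedByBall u U x ρ) :
    ‖p - S • e‖ ≤ 4 * S * √δ := by
  have hρ0 : 0 < ρ := by
    by_contra h
    push Not at h
    nlinarith
  have hballx : closedBall x (R / 2) ⊆ closedBall x₀ R := by
    apply closedBall_subset_closedBall'
    rw [dist_eq_norm]
    linarith
  obtain ⟨ν, hν, hb | hb⟩ := touch_cases hρ0 ht (hballx.trans hU)
  · exact grad_close_below hu hS hδ hδ' hR hRΩ he he' hflat hx hρ hp hpn hν hb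
  · have hp' : HasFDerivAt (fun y => -u y) (innerSL ℝ (-p)) x := by
      rw [map_neg]
      exact hp.neg
    have h := grad_close_below (e := -e) hu.neg hS hδ hδ' hR hRΩ (by rwa [norm_neg])
      (by rwa [norm_neg]) ?_ hx hρ hp' (by rwa [norm_neg]) hν
      (fun w hw hw2 => by linarith [hb w hw hw2])
    · rw [smul_neg, neg_sub_neg, norm_sub_rev] at h
      exact h
    · intro w hw
      have h1 := hflat w hw
      rw [inner_neg_left]
      rw [← abs_neg] at h1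
      have h2 : -(u (x₀ + w) - u x₀ - S * ⟪e, w⟫) = -u (x₀ + w) - -u x₀ - S * -⟪e, w⟫ := by
        ring
      rwa [h2] at h1

theorem norm_le_of_lip {u : Eu d → ℝ} {x p : Eu d} {L : ℝ} (hL : 0 ≤ L)
    (hp : HasFDerivAt u (innerSL ℝ p) x) {δ : ℝ} (hδ : 0 < δ)
    (hlip : ∀ a, ‖a - x‖ < δ → |u a - u x| ≤ L * ‖a - x‖) : ‖p‖ ≤ L := by
  have h := norm_fderiv_le_of_lip' ℝ (f := u) (x₀ := x) hL (by
    filter_upwards [ball_mem_nhds x hδ] with a ha
    rw [mem_ball, dist_eq_norm] at ha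
    exact hlip a ha)
  rw [hp.fderiv] at h
  simpa using h

theorem HasSlope.norm_le {u : Eu d → ℝ} {Ω : Set (Eu d)} {x₀ : Eu d} {S : ℝ}
    (h : HasSlope u Ω x₀ S) {η : ℝ} (hη : 0 < η) : ∃ δ : ℝ, 0 < δ ∧
      ∀ x p : Eu d, ‖x - x₀‖ < δ → HasFDerivAt u (innerSL ℝ p) x → ‖p‖ ≤ S + η := by
  obtain ⟨δ, hδ, hlip⟩ := h.lip η hη
  refine ⟨δ, hδ, ?_⟩
  intro x p hx hp
  have hS := h.nonneg
  refine norm_le_of_lip (by linarith) hp (sub_pos.2 hx) ?_
  intro a ha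
  have ha' : ‖a - x₀‖ < δ := by
    have h1 : a - x₀ = (a - x) + (x - x₀) := by abel
    have h2 := norm_add_le (a - x) (x - x₀)
    rw [← h1] at h2
    linarith
  rw [abs_le]
  have h1 := hlip a ha' x hx
  have h2 := hlip x hx a ha'
  rw [norm_sub_rev] at h2
  constructor <;> linarith

theorem norm_sub_smul_le {u : Eu d → ℝ} {x₀ e p : Eu d} {S ε R : ℝ} (hR : 0 < R)
    (hflat : ∀ w, ‖w‖ ≤ R → |u (x₀ + w) - u x₀ - S * ⟪e, w⟫| ≤ ε * R)
    (hp : ∀ w, ‖w‖ ≤ R → |u (x₀ + w) - u x₀ - ⟪p, w⟫| ≤ ε * R) :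
    ‖p - S • e‖ ≤ 2 * ε := by
  have hε : 0 ≤ ε := by
    have h1 := (abs_nonneg _).trans (hflat 0 (by simpa using hR.le))
    by_contra h
    push Not at h
    nlinarith
  rcases (norm_nonneg (p - S • e)).eq_or_lt with h0 | h0
  · rw [← h0]; positivity
  · set v := p - S • e with hv
    set w : Eu d := (R / ‖v‖) • v with hw
    have hwn : ‖w‖ = R := by
      rw [hw, norm_smul, Real.norm_of_nonneg (by positivity)]
      field_simp
    have h1 := (abs_le.1 (hflat w hwn.le)).2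
    have h2 := (abs_le.1 (hp w hwn.le)).1
    have h3 : ⟪v, w⟫ = R * ‖v‖ := by
      rw [hw, inner_smul_right, real_inner_self_eq_norm_sq]
      field_simp
    have h4 : ⟪v, w⟫ = ⟪p, w⟫ - S * ⟪e, w⟫ := by
      rw [hv, inner_sub_left, inner_smul_left]
      simp
    have h5 : ‖v‖ * R ≤ (2 * ε) * R := by linarith
    exact le_of_mul_le_mul_right h5 hR

theorem exists_innerSL_eq (L : Eu d →L[ℝ] ℝ) : ∃ p : Eu d, innerSL ℝ p = L := by
  refine ⟨(InnerProductSpace.toDual ℝ (Eu d)).symm L, ?_⟩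
  ext v
  simp [InnerProductSpace.toDual_symm_apply]

theorem pointwise_criterion {u : Eu d → ℝ} {Ω : Set (Eu d)} (hu : IsInfinityHarmonicOn u Ω)
    (hΩ : IsOpen Ω) {x₀ : Eu d} (hx₀ : x₀ ∈ Ω) (hd : DifferentiableAt ℝ u x₀)
    (ht : ∀ C : ℝ, 0 < C → ∃ r : ℝ, 0 < r ∧
      ∀ x ∈ ball x₀ r, TouchedByBall u (ball x₀ r) x (C * dist x x₀)) :
    ContinuousAt (fderiv ℝ u) x₀ := by
  obtain ⟨S, hS⟩ := exists_hasSlope hu hΩ hx₀
  obtain ⟨p₀, hp₀⟩ := exists_innerSL_eq (fderiv ℝ u x₀)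
  have hp₀' : HasFDerivAt u (innerSL ℝ p₀) x₀ := by rw [hp₀]; exact hd.hasFDerivAt
  rw [Metric.continuousAt_iff]
  intro ε hε
  have hred : ∀ x : Eu d, ∀ L : Eu d →L[ℝ] ℝ, (∃ p : Eu d, innerSL ℝ p = L ∧ ‖p - p₀‖ < ε) →
      dist L (fderiv ℝ u x₀) < ε := by
    rintro x L ⟨p, hp, hpp⟩
    rw [← hp, ← hp₀, dist_eq_norm, ← map_sub, innerSL_apply_norm]
    exact hpp
  rcases hS.nonneg.eq_or_lt with hS0 | hS0
  · obtain ⟨δ, hδ, hn⟩ := hS.norm_le (show 0 < ε / 3 by positivity)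
    rw [← hS0] at hn
    refine ⟨δ, hδ, ?_⟩
    intro x hx
    rw [dist_eq_norm] at hx
    apply hred x
    have h0 := hn x₀ p₀ (by simpa using hδ) hp₀'
    by_cases hdx : DifferentiableAt ℝ u x
    · obtain ⟨p, hp⟩ := exists_innerSL_eq (fderiv ℝ u x)
      have hp' : HasFDerivAt u (innerSL ℝ p) x := by rw [hp]; exact hdx.hasFDerivAt
      have h1 := hn x p hx hp'
      refine ⟨p, hp, ?_⟩
      have := norm_sub_le p p₀
      linarith
    · refine ⟨0, by rw [fderiv_zero_of_not_differentiableAt hdx, map_zero], ?_⟩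
      rw [zero_sub, norm_neg]
      linarith
  · set δ := min (1 / 20) ((ε / (6 * S)) ^ 2) with hδdef
    have hδ : 0 < δ := by
      simp only [hδdef, lt_min_iff]
      exact ⟨by norm_num, by positivity⟩
    have hδ' : δ ≤ 1 / 20 := min_le_left _ _
    have hδε : √δ ≤ ε / (6 * S) := by
      rw [show ε / (6 * S) = √((ε / (6 * S)) ^ 2) from (Real.sqrt_sq (by positivity)).symm]
      exact Real.sqrt_le_sqrt (min_le_right _ _)
    have hδε' : 6 * S * √δ ≤ ε := by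
      rw [le_div_iff₀ (by positivity)] at hδε
      linarith
    have hsδ : 0 < √δ := Real.sqrt_pos.2 hδ
    have hsδ2 : δ ^ 2 ≤ √δ := by
      apply Real.le_sqrt_of_sq_le
      have h1 : δ ^ 2 ≤ 1 := by nlinarith
      nlinarith
    obtain ⟨r₀, hr₀, hflat⟩ := hS.flat hΩ hx₀ hS0 (show 0 < δ ^ 2 / 100 by positivity)
    obtain ⟨δ₁, hδ₁, hn⟩ := hS.norm_le (show 0 < S * δ by positivity)
    obtain ⟨r₁, hr₁, htouch⟩ := ht (1 / (4 * δ)) (by positivity)
    have hdiff := hp₀'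
    rw [hasFDerivAt_iff_isLittleO_nhds_zero, Asymptotics.isLittleO_iff] at hdiff
    obtain ⟨r₂, hr₂, hlin⟩ := Metric.eventually_nhds_iff_ball.1
      (hdiff (show 0 < δ ^ 2 / 100 * S by positivity))
    refine ⟨min (min (r₀ / 2) δ₁) (min (r₁ / 2) (r₂ / 2)), by positivity, ?_⟩
    intro x hx
    have hxn : dist x x₀ = ‖x - x₀‖ := dist_eq_norm _ _
    have hx1 : ‖x - x₀‖ < r₀ / 2 := by
      rw [← hxn]; exact hx.trans_le ((min_le_left _ _).trans (min_le_left _ _))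
    have hx2 : ‖x - x₀‖ < δ₁ := by
      rw [← hxn]; exact hx.trans_le ((min_le_left _ _).trans (min_le_right _ _))
    have hx3 : ‖x - x₀‖ < r₁ / 2 := by
      rw [← hxn]; exact hx.trans_le ((min_le_right _ _).trans (min_le_left _ _))
    have hx4 : ‖x - x₀‖ < r₂ / 2 := by
      rw [← hxn]; exact hx.trans_le ((min_le_right _ _).trans (min_le_right _ _))
    apply hred x
    by_cases hxx : x = x₀
    · rw [hxx]
      exact ⟨p₀, hp₀, by simpa using hε⟩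
    have hpos : 0 < ‖x - x₀‖ := norm_pos_iff.2 (sub_ne_zero.2 hxx)
    set R := 2 * ‖x - x₀‖ with hRdef
    have hR : 0 < R := by positivity
    obtain ⟨hRΩ, e, he, he', hfl⟩ := hflat R hR (by linarith)
    have hR1 : closedBall x₀ R ⊆ ball x₀ r₁ := closedBall_subset_ball (by linarith)
    have hxb : x ∈ ball x₀ r₁ := by
      rw [mem_ball, hxn]; linarith
    have hxΩ : x ∈ Ω := hRΩ (by rw [mem_closedBall, hxn]; linarith)
    have htx := htouch x hxb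
    rw [hxn] at htx
    obtain ⟨p, hp⟩ := touched_diff hu hΩ hxΩ (by positivity) (isOpen_ball.mem_nhds hxb) htx
    refine ⟨p, hp.fderiv.symm, ?_⟩
    have hpn := hn x p hx2 hp
    have hRρ : R ≤ 8 * δ * (1 / (4 * δ) * ‖x - x₀‖) := by
      have : 8 * δ * (1 / (4 * δ) * ‖x - x₀‖) = R := by
        rw [hRdef]; field_simp; norm_num
      linarith
    have h1 := grad_close hu hS0 hδ hδ' hR hRΩ he he' hfl (by linarith) hRρ hp hpn hR1 htx
    have h2 : ‖p₀ - S • e‖ ≤ 2 * (δ ^ 2 / 100 * S) := by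
      refine norm_sub_smul_le hR hfl ?_
      intro w hw
      have h3 := hlin w (by rw [mem_ball_zero_iff]; linarith)
      rw [innerSL_apply_apply, Real.norm_eq_abs] at h3
      refine h3.trans ?_
      exact mul_le_mul_of_nonneg_left hw (by positivity)
    have h3 : p - p₀ = (p - S • e) - (p₀ - S • e) := by abel
    rw [h3]
    have h4 := norm_sub_le (p - S • e) (p₀ - S • e)
    have h5 : δ ^ 2 * S ≤ √δ * S := mul_le_mul_of_nonneg_right hsδ2 hS0.le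
    have h6 : 0 < S * √δ := by positivity
    linarith

end Vale.Agent.P080
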