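import Mathlib

open Metric Set Filter Topology
open scoped RealInnerProductSpace

namespace Vale.Agent.P080

variable {E : Type*} [NormedAddCommGroup E] [InnerProductSpace ℝ E]

def Lip1 (V : E → ℝ) : Prop := ∀ x y, V x - V y ≤ ‖x - y‖

noncomputable def supc (s : ℝ) (V : E → ℝ) (x : E) : ℝ := ⨆ y, (V y - ‖y - x‖ ^ 2 / (2 * s))

noncomputable def infc (s : ℝ) (V : E → ℝ) (x : E) : ℝ := -supc s (fun y => -V y) x

structure Cls (u : E → ℝ) : Prop where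
  lip : Lip1 u
  up : ∀ y z : E, ∀ t : ℝ, 0 < t → t ≤ 1 →
    ∃ w, t * ‖w - y‖ ≤ ‖z - y‖ ∧ u z ≤ (1 - t) * u y + t * u w
  dn : ∀ y z : E, ∀ t : ℝ, 0 < t → t ≤ 1 →
    ∃ w, t * ‖w - y‖ ≤ ‖z - y‖ ∧ (1 - t) * u y + t * u w ≤ u z

end Vale.Agent.P080
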