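import Vale.Agent.P080.Ops

open Metric Set Filter Topology
open scoped RealInnerProductSpace

namespace Vale.Agent.P080

variable {E : Type*} [NormedAddCommGroup E] [InnerProductSpace ℝ E]

omit [InnerProductSpace ℝ E] in
theorem Lip1.neg {V : E → ℝ} (hV : Lip1 V) : Lip1 (fun y => -V y) := by
  intro x y
  have := hV y x
  rw [norm_sub_rev] at this
  linarith

omit [InnerProductSpace ℝ E] in
theorem Lip1.continuous {V : E → ℝ} (hV : Lip1 V) : Continuous V := by
  have : LipschitzWith 1 V := by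
    refine LipschitzWith.of_dist_le_mul fun x y => ?_
    rw [Real.dist_eq, dist_eq_norm, NNReal.coe_one, one_mul, abs_le]
    constructor
    · have := hV y x
      rw [norm_sub_rev] at this
      linarith
    · exact hV x y
  exact this.continuous

omit [InnerProductSpace ℝ E] in
theorem Lip1.sub_le {V : E → ℝ} (hV : Lip1 V) {s : ℝ} (hs : 0 < s) (x y : E) :
    V y - ‖y - x‖ ^ 2 / (2 * s) ≤ V x + s / 2 := by
  have h1 := hV y x
  have h2 : ‖y - x‖ - ‖y - x‖ ^ 2 / (2 * s) ≤ s / 2 := by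
    have h3 : 0 ≤ (‖y - x‖ - s) ^ 2 / (2 * s) := by positivity
    have h4 : (‖y - x‖ - s) ^ 2 / (2 * s) = ‖y - x‖ ^ 2 / (2 * s) - ‖y - x‖ + s / 2 := by
      field_simp
      ring
    linarith
  linarith

omit [InnerProductSpace ℝ E] in
theorem Lip1.bdd {V : E → ℝ} (hV : Lip1 V) {s : ℝ} (hs : 0 < s) (x : E) :
    BddAbove (range fun y => V y - ‖y - x‖ ^ 2 / (2 * s)) := by
  refine ⟨V x + s / 2, ?_⟩
  rintro _ ⟨y, rfl⟩
  exact hV.sub_le hs x y

omit [InnerProductSpace ℝ E] in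
theorem Lip1.le_supc {V : E → ℝ} (hV : Lip1 V) {s : ℝ} (hs : 0 < s) (x y : E) :
    V y - ‖y - x‖ ^ 2 / (2 * s) ≤ supc s V x := le_ciSup (hV.bdd hs x) y

omit [InnerProductSpace ℝ E] in
theorem Lip1.self_le_supc {V : E → ℝ} (hV : Lip1 V) {s : ℝ} (hs : 0 < s) (x : E) :
    V x ≤ supc s V x := by
  have := hV.le_supc hs x x
  simpa using this

omit [InnerProductSpace ℝ E] in
theorem Lip1.supc_le {V : E → ℝ} (hV : Lip1 V) {s : ℝ} (hs : 0 < s) (x : E) :
    supc s V x ≤ V x + s / 2 := ciSup_le fun y => hV.sub_le hs x y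

omit [InnerProductSpace ℝ E] in
theorem Lip1.infc_le_self {V : E → ℝ} (hV : Lip1 V) {s : ℝ} (hs : 0 < s) (x : E) :
    infc s V x ≤ V x := by
  have := hV.neg.self_le_supc hs x
  unfold infc
  linarith

omit [InnerProductSpace ℝ E] in
theorem Lip1.le_infc {V : E → ℝ} (hV : Lip1 V) {s : ℝ} (hs : 0 < s) (x : E) :
    V x - s / 2 ≤ infc s V x := by
  have := hV.neg.supc_le hs x
  unfold infc
  linarith

omit [InnerProductSpace ℝ E] in
theorem Lip1.infc_le {V : E → ℝ} (hV : Lip1 V) {s : ℝ} (hs : 0 < s) (x y : E) :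
    infc s V x ≤ V y + ‖y - x‖ ^ 2 / (2 * s) := by
  have := hV.neg.le_supc hs x y
  unfold infc
  linarith

theorem Lip1.exists_supc [FiniteDimensional ℝ E] {V : E → ℝ} (hV : Lip1 V) {s : ℝ} (hs : 0 < s)
    (x : E) : ∃ ξ : E, ‖ξ‖ ≤ s ∧ supc s V x = V (x + ξ) - ‖ξ‖ ^ 2 / (2 * s) := by
  have hVc := hV.continuous
  obtain ⟨y, hy, hmax⟩ := (isCompact_closedBall x (2 * s)).exists_isMaxOn
    ⟨x, mem_closedBall_self (by positivity)⟩
    (show ContinuousOn (fun y => V y - ‖y - x‖ ^ 2 / (2 * s)) _ by fun_prop)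
  rw [mem_closedBall, dist_eq_norm] at hy
  have hglob : ∀ z, V z - ‖z - x‖ ^ 2 / (2 * s) ≤ V y - ‖y - x‖ ^ 2 / (2 * s) := by
    intro z
    by_cases hz : ‖z - x‖ ≤ 2 * s
    · exact hmax (by rwa [mem_closedBall, dist_eq_norm])
    · push Not at hz
      have h1 : V x - ‖x - x‖ ^ 2 / (2 * s) ≤ V y - ‖y - x‖ ^ 2 / (2 * s) :=
        hmax (mem_closedBall_self (by positivity))
      have h2 := hV z x
      have h3 : ‖z - x‖ ≤ ‖z - x‖ ^ 2 / (2 * s) := by
        rw [le_div_iff₀ (by positivity)]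
        nlinarith [norm_nonneg (z - x)]
      rw [sub_self, norm_zero] at h1
      have h4 : (0 : ℝ) ^ 2 / (2 * s) = 0 := by simp
      rw [h4] at h1
      linarith
  have hs2 : ‖y - x‖ ≤ s := by
    by_contra hcon
    push Not at hcon
    have hyx : 0 < ‖y - x‖ := by linarith
    set r := 1 - s / ‖y - x‖ with hr
    have hr0 : 0 < r := by
      rw [hr]
      have : s / ‖y - x‖ < 1 := by rwa [div_lt_one hyx]
      linarith
    have hrn : r * ‖y - x‖ = ‖y - x‖ - s := by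
      rw [hr]; field_simp
    have h1 := hglob (y - r • (y - x))
    have h2 := hV y (y - r • (y - x))
    rw [sub_sub_cancel, norm_smul, Real.norm_of_nonneg hr0.le, hrn] at h2
    have e1 : y - r • (y - x) - x = (1 - r) • (y - x) := by module
    have hr1 : 0 ≤ 1 - r := by rw [hr]; simp; positivity
    rw [e1, norm_smul, Real.norm_of_nonneg hr1] at h1
    have e2 : (1 - r) * ‖y - x‖ = s := by linarith
    rw [e2] at h1
    have h3 : ‖y - x‖ ^ 2 / (2 * s) ≤ s ^ 2 / (2 * s) + (‖y - x‖ - s) := by linarith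
    have h4 : s ^ 2 / (2 * s) + (‖y - x‖ - s) < ‖y - x‖ ^ 2 / (2 * s) := by
      rw [div_add' _ _ _ (by positivity), div_lt_div_iff_of_pos_right (by positivity)]
      nlinarith
    linarith
  refine ⟨y - x, hs2, ?_⟩
  rw [add_sub_cancel]
  exact le_antisymm (ciSup_le hglob) (hV.le_supc hs x y)

theorem Lip1.exists_infc [FiniteDimensional ℝ E] {V : E → ℝ} (hV : Lip1 V) {s : ℝ} (hs : 0 < s)
    (x : E) : ∃ ξ : E, ‖ξ‖ ≤ s ∧ infc s V x = V (x - ξ) + ‖ξ‖ ^ 2 / (2 * s) := by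
  obtain ⟨ξ, h1, h2⟩ := hV.neg.exists_supc hs x
  refine ⟨-ξ, by rwa [norm_neg], ?_⟩
  unfold infc
  rw [h2, sub_neg_eq_add, norm_neg]
  ring

omit [InnerProductSpace ℝ E] in
theorem Lip1.lip_supc {V : E → ℝ} (hV : Lip1 V) {s : ℝ} (hs : 0 < s) : Lip1 (supc s V) := by
  intro x y
  have : supc s V x ≤ supc s V y + ‖x - y‖ := by
    refine ciSup_le fun z => ?_
    have h1 := hV.le_supc hs y (z - x + y)
    have h2 := hV z (z - x + y)
    have e1 : z - (z - x + y) = x - y := by abel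
    have e2 : z - x + y - y = z - x := by abel
    rw [e1] at h2
    rw [e2] at h1
    linarith
  linarith

omit [InnerProductSpace ℝ E] in
theorem Lip1.lip_infc {V : E → ℝ} (hV : Lip1 V) {s : ℝ} (hs : 0 < s) : Lip1 (infc s V) := by
  have := (hV.neg.lip_supc hs).neg
  exact this

theorem semigroup_le {V : E → ℝ} (hV : Lip1 V) {s t : ℝ} (hs : 0 < s) (ht : 0 < t) (x : E) :
    supc (s + t) V x ≤ supc s (supc t V) x := by
  refine ciSup_le fun z => ?_
  set y := x + (s / (s + t)) • (z - x) with hy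
  have h1 := (hV.lip_supc ht).le_supc hs x y
  have h2 := hV.le_supc ht y z
  have e1 : y - x = (s / (s + t)) • (z - x) := by rw [hy]; abel
  have e2 : z - y = (t / (s + t)) • (z - x) := by
    have : t / (s + t) = 1 - s / (s + t) := by field_simp; ring
    rw [hy, this]
    module
  rw [e1, norm_smul, Real.norm_of_nonneg (by positivity)] at h1
  rw [e2, norm_smul, Real.norm_of_nonneg (by positivity)] at h2
  have e3 : (s / (s + t) * ‖z - x‖) ^ 2 / (2 * s) + (t / (s + t) * ‖z - x‖) ^ 2 / (2 * t)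
      = ‖z - x‖ ^ 2 / (2 * (s + t)) := by
    field_simp
  linarith

omit [InnerProductSpace ℝ E] in
theorem semigroup_ge {V : E → ℝ} (hV : Lip1 V) {s t : ℝ} (hs : 0 < s) (ht : 0 < t) (x : E) :
    supc s (supc t V) x ≤ supc (s + t) V x := by
  refine ciSup_le fun y => ?_
  have h0 : supc t V y ≤ supc (s + t) V x + ‖y - x‖ ^ 2 / (2 * s) := by
    refine ciSup_le fun z => ?_
    have h1 := hV.le_supc (show 0 < s + t by positivity) x z
    have h2 : ‖z - x‖ ≤ ‖z - y‖ + ‖y - x‖ := norm_sub_le_norm_sub_add_norm_sub z y x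
    have h3 : ‖z - x‖ ^ 2 ≤ (‖z - y‖ + ‖y - x‖) ^ 2 :=
      pow_le_pow_left₀ (norm_nonneg _) h2 2
    have h4 : ‖z - x‖ ^ 2 / (2 * (s + t)) ≤ ‖z - y‖ ^ 2 / (2 * t) + ‖y - x‖ ^ 2 / (2 * s) := by
      have h5 : (‖z - y‖ + ‖y - x‖) ^ 2 / (2 * (s + t))
          ≤ ‖z - y‖ ^ 2 / (2 * t) + ‖y - x‖ ^ 2 / (2 * s) := by
        set a := ‖z - y‖
        set b := ‖y - x‖
        have h6 : a ^ 2 / (2 * t) + b ^ 2 / (2 * s) - (a + b) ^ 2 / (2 * (s + t))
            = (s * a - t * b) ^ 2 / (2 * s * t * (s + t)) := by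
          field_simp
          ring
        have h7 : 0 ≤ (s * a - t * b) ^ 2 / (2 * s * t * (s + t)) := by positivity
        linarith
      refine le_trans ?_ h5
      exact div_le_div_of_nonneg_right h3 (by positivity)
    linarith
  linarith

omit [InnerProductSpace ℝ E] in
theorem supc_mono {V W : E → ℝ} (hW : Lip1 W) {s : ℝ} (hs : 0 < s) (h : ∀ y, V y ≤ W y) (x : E) :
    supc s V x ≤ supc s W x := by
  refine ciSup_le fun z => ?_
  have := hW.le_supc hs x z
  linarith [h z]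

theorem le_infc_supc [FiniteDimensional ℝ E] {V : E → ℝ} (hV : Lip1 V) {s : ℝ} (hs : 0 < s)
    (x : E) : V x ≤ infc s (supc s V) x := by
  obtain ⟨ξ, -, hξ⟩ := (hV.lip_supc hs).exists_infc hs x
  have := hV.le_supc hs (x - ξ) x
  rw [sub_sub_cancel] at this
  linarith

omit [InnerProductSpace ℝ E] in
theorem Cls.neg {u : E → ℝ} (hu : Cls u) : Cls (fun y => -u y) where
  lip := hu.lip.neg
  up := by
    intro y z t ht ht1
    obtain ⟨w, h1, h2⟩ := hu.dn y z t ht ht1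
    exact ⟨w, h1, by linarith⟩
  dn := by
    intro y z t ht ht1
    obtain ⟨w, h1, h2⟩ := hu.up y z t ht ht1
    exact ⟨w, h1, by linarith⟩

theorem Cls.two_supc_le [FiniteDimensional ℝ E] {u : E → ℝ} (hu : Cls u) {ε s : ℝ} (hs : 0 < s)
    (hsε : s < ε) (x : E) :
    2 * supc ε u x ≤ supc s (supc ε u) x + infc s (supc ε u) x := by
  have hε : 0 < ε := hs.trans hsε
  have hεs : 0 < ε - s := by linarith
  obtain ⟨ξ, -, hξ⟩ := hu.lip.exists_supc hε x
  set y := x + (1 - s / ε) • ξ with hy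
  obtain ⟨w, hw1, hw2⟩ := hu.up y (x + ξ) (1 / 2) (by norm_num) (by norm_num)
  have e1 : x + ξ - y = (s / ε) • ξ := by rw [hy]; module
  rw [e1, norm_smul, Real.norm_of_nonneg (by positivity)] at hw1
  have hse : 0 < 1 - s / ε := by
    have : s / ε < 1 := by rwa [div_lt_one hε]
    linarith
  have h1 := hu.lip.le_supc hεs x y
  have e2 : y - x = (1 - s / ε) • ξ := by rw [hy]; abel
  rw [e2, norm_smul, Real.norm_of_nonneg hse.le] at h1
  have h2 := hu.lip.le_supc (show 0 < s + ε by positivity) x w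
  have h3 : ‖w - x‖ ≤ (1 + s / ε) * ‖ξ‖ := by
    have a1 := norm_sub_le_norm_sub_add_norm_sub w y x
    rw [e2, norm_smul, Real.norm_of_nonneg hse.le] at a1
    linarith
  have h4 : ‖w - x‖ ^ 2 ≤ ((1 + s / ε) * ‖ξ‖) ^ 2 := pow_le_pow_left₀ (norm_nonneg _) h3 2
  have h5 : ‖w - x‖ ^ 2 / (2 * (s + ε)) ≤ ((1 + s / ε) * ‖ξ‖) ^ 2 / (2 * (s + ε)) :=
    div_le_div_of_nonneg_right h4 (by positivity)
  have e3 : ((1 + s / ε) * ‖ξ‖) ^ 2 / (2 * (s + ε)) + ((1 - s / ε) * ‖ξ‖) ^ 2 / (2 * (ε - s))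
      = 2 * (‖ξ‖ ^ 2 / (2 * ε)) := by
    have : ε - s ≠ 0 := hεs.ne'
    field_simp
    ring
  have h6 : 2 * supc ε u x ≤ supc (s + ε) u x + supc (ε - s) u x := by
    rw [hξ]
    linarith
  have h7 := semigroup_le hu.lip hs hε x
  have h8 := le_infc_supc (hu.lip.lip_supc hεs) hs x
  have h9 : infc s (supc s (supc (ε - s) u)) x ≤ infc s (supc ε u) x := by
    obtain ⟨ζ, -, hζ⟩ := (hu.lip.lip_supc hε).exists_infc hs x
    have a1 := ((hu.lip.lip_supc hεs).lip_supc hs).infc_le hs x (x - ζ)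
    have a2 := semigroup_ge hu.lip hs hεs (x - ζ)
    rw [sub_sub_cancel_left, norm_neg] at a1
    rw [add_sub_cancel] at a2
    linarith
  linarith

theorem Cls.le_two_infc [FiniteDimensional ℝ E] {u : E → ℝ} (hu : Cls u) {ε s : ℝ} (hs : 0 < s)
    (hsε : s < ε) (x : E) :
    supc s (infc ε u) x + infc s (infc ε u) x ≤ 2 * infc ε u x := by
  have h := hu.neg.two_supc_le hs hsε x
  have e1 : supc ε (fun y => -u y) = fun y => -infc ε u y := by
    funext y
    unfold infc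
    ring
  rw [e1] at h
  have e2 : infc s (fun y => -infc ε u y) x = -supc s (infc ε u) x := by
    unfold infc
    simp
  have e3 : supc s (fun y => -infc ε u y) x = -infc s (infc ε u) x := by
    rw [infc]
    simp
  rw [e2, e3] at h
  linarith

theorem Cls.quot_infc_mono [FiniteDimensional ℝ E] {u : E → ℝ} (hu : Cls u) {s t : ℝ}
    (hs : 0 < s) (hst : s ≤ t) (x : E) :
    (u x - infc s u x) / s ≤ (u x - infc t u x) / t := by
  have ht : 0 < t := hs.trans_le hst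
  obtain ⟨ξ, -, hξ⟩ := hu.lip.exists_infc hs x
  obtain ⟨w, hw1, hw2⟩ := hu.dn x (x - ξ) (s / t) (by positivity) ((div_le_one ht).2 hst)
  have h1 := hu.lip.infc_le ht x w
  rw [sub_sub_cancel_left, norm_neg] at hw1
  have h2 : ‖w - x‖ ≤ t / s * ‖ξ‖ := by
    have : t / s * (s / t * ‖w - x‖) ≤ t / s * ‖ξ‖ :=
      mul_le_mul_of_nonneg_left hw1 (by positivity)
    have e : t / s * (s / t * ‖w - x‖) = ‖w - x‖ := by field_simp
    linarith
  have h3 : ‖w - x‖ ^ 2 / (2 * t) ≤ (t / s * ‖ξ‖) ^ 2 / (2 * t) :=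
    div_le_div_of_nonneg_right (pow_le_pow_left₀ (norm_nonneg _) h2 2) (by positivity)
  have e3 : s / t * ((t / s * ‖ξ‖) ^ 2 / (2 * t)) = ‖ξ‖ ^ 2 / (2 * s) := by
    field_simp
  have h4 : s / t * (u x - infc t u x) ≥ u x - infc s u x := by
    have a1 : s / t * infc t u x ≤ s / t * (u w + (t / s * ‖ξ‖) ^ 2 / (2 * t)) :=
      mul_le_mul_of_nonneg_left (by linarith) (by positivity)
    rw [hξ]
    linarith
  rw [div_le_iff₀ hs]
  have e4 : (u x - infc t u x) / t * s = s / t * (u x - infc t u x) := by ring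
  rw [e4]
  exact h4

end Vale.Agent.P080
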