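import Vale.Agent.P080.Cone

open Metric Set Filter Topology
open scoped RealInnerProductSpace

namespace Vale.Agent.P080

variable {d : ℕ}

structure HasSlope (u : Eu d → ℝ) (Ω : Set (Eu d)) (x : Eu d) (S : ℝ) : Prop where
  nonneg : 0 ≤ S
  up : ∀ r : ℝ, 0 < r → closedBall x r ⊆ Ω → ∃ y, ‖y - x‖ ≤ r ∧ u x + S * r ≤ u y
  down : ∀ r : ℝ, 0 < r → closedBall x r ⊆ Ω → ∃ z, ‖z - x‖ ≤ r ∧ u z ≤ u x - S * r
  lip : ∀ η : ℝ, 0 < η → ∃ δ : ℝ, 0 < δ ∧ ∀ a, ‖a - x‖ < δ → ∀ b, ‖b - x‖ < δ →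
    u a - u b ≤ (S + η) * ‖a - b‖

theorem exists_upper_slope {u : Eu d → ℝ} {Ω : Set (Eu d)} (hu : IsInfinityHarmonicOn u Ω)
    (hΩ : IsOpen Ω) {x : Eu d} (hx : x ∈ Ω) :
    ∃ S : ℝ, 0 ≤ S ∧
      (∀ r : ℝ, 0 < r → closedBall x r ⊆ Ω → ∃ y, ‖y - x‖ ≤ r ∧ u x + S * r ≤ u y) ∧
      (∀ L r : ℝ, 0 < r → closedBall x r ⊆ Ω → (∀ y ∈ closedBall x r, u y ≤ u x + L * r) →
        S ≤ L) ∧
      (∀ η : ℝ, 0 < η → ∃ δ : ℝ, 0 < δ ∧ ∀ a, ‖a - x‖ < δ → ∀ b, ‖b - x‖ < δ →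
        u a - u b ≤ (S + η) * ‖a - b‖) := by
  set T : Set ℝ := {L | ∃ r : ℝ, 0 < r ∧ closedBall x r ⊆ Ω ∧
    ∀ y ∈ closedBall x r, u y ≤ u x + L * r} with hT
  have hTlow : ∀ L ∈ T, (0 : ℝ) ≤ L := by
    rintro L ⟨r, hr, -, h⟩
    have := h x (mem_closedBall_self hr.le)
    by_contra hL
    push Not at hL
    nlinarith
  have hbdd : BddBelow T := ⟨0, fun L hL => hTlow L hL⟩
  obtain ⟨r₀, hr₀, hr₀Ω⟩ := nhds_basis_closedBall.mem_iff.1 (hΩ.mem_nhds hx)
  have hmem : ∀ r : ℝ, 0 < r → closedBall x r ⊆ Ω → ∃ y ∈ closedBall x r,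
      (∀ z ∈ closedBall x r, u z ≤ u y) ∧ (u y - u x) / r ∈ T := by
    intro r hr hrΩ
    obtain ⟨y, hy, hmax⟩ := (isCompact_closedBall x r).exists_isMaxOn
      ⟨x, mem_closedBall_self hr.le⟩ (hu.1.mono hrΩ)
    refine ⟨y, hy, fun z hz => hmax hz, r, hr, hrΩ, ?_⟩
    intro z hz
    have h1 : u z ≤ u y := hmax hz
    have h2 : (u y - u x) / r * r = u y - u x := by field_simp
    linarith
  have hne : T.Nonempty := by
    obtain ⟨y, -, -, hy⟩ := hmem r₀ hr₀ hr₀Ω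
    exact ⟨_, hy⟩
  refine ⟨sInf T, le_csInf hne hTlow, ?_, ?_, ?_⟩
  · intro r hr hrΩ
    obtain ⟨y, hy, -, hyT⟩ := hmem r hr hrΩ
    refine ⟨y, by rwa [mem_closedBall, dist_eq_norm] at hy, ?_⟩
    have h1 : sInf T ≤ (u y - u x) / r := csInf_le hbdd hyT
    rw [le_div_iff₀ hr] at h1
    linarith
  · intro L r hr hrΩ h
    exact csInf_le hbdd ⟨r, hr, hrΩ, h⟩
  · intro η hη
    set S := sInf T with hS
    have hS0 : 0 ≤ S := le_csInf hne hTlow
    obtain ⟨L, ⟨r, hr, hrΩ, hL⟩, hLS⟩ := exists_lt_of_csInf_lt hne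
      (show sInf T < S + η / 2 by linarith)
    have hcont : ContinuousAt u x := hu.1.continuousAt (hΩ.mem_nhds hx)
    obtain ⟨δ₁, hδ₁, hδ₁'⟩ := Metric.continuousAt_iff.1 hcont (η / 4 * r) (by positivity)
    set δ := min δ₁ (min (r / 3) (η / 4 * r / (S + η))) with hδ
    have hδpos : 0 < δ := by
      have : 0 < η / 4 * r / (S + η) := by positivity
      simp only [hδ, lt_min_iff]
      exact ⟨hδ₁, by linarith, this⟩
    have hδ1 : δ ≤ δ₁ := min_le_left _ _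
    have hδ2 : δ ≤ r / 3 := (min_le_right _ _).trans (min_le_left _ _)
    have hδ3 : (S + η) * δ ≤ η / 4 * r := by
      have : δ ≤ η / 4 * r / (S + η) := (min_le_right _ _).trans (min_le_right _ _)
      rw [le_div_iff₀ (by linarith)] at this
      linarith
    refine ⟨δ, hδpos, ?_⟩
    intro b hb a ha
    have hrδ : 0 < r - δ := by linarith
    have hsub : closedBall a (r - δ) ⊆ closedBall x r := by
      apply closedBall_subset_closedBall'
      rw [dist_eq_norm]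
      linarith
    have hba : ‖b - a‖ ≤ r - δ := by
      have : ‖b - a‖ ≤ ‖b - x‖ + ‖a - x‖ := by
        have := norm_sub_le (b - x) (a - x)
        simpa using this
      linarith
    have h1 := cone_upper (M := u x + L * r) hu hrδ (hsub.trans hrΩ)
      (fun z hz => hL z (hsub hz)) b (by rwa [mem_closedBall, dist_eq_norm])
    have h2 : |u a - u x| < η / 4 * r := by
      have := @hδ₁' a (by rw [dist_eq_norm]; linarith)
      rwa [Real.dist_eq] at this
    have h3 : (u x + L * r - u a) / (r - δ) ≤ S + η := by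
      rw [div_le_iff₀ hrδ]
      have := (abs_lt.1 h2).1
      nlinarith
    have h4 := mul_le_mul_of_nonneg_right h3 (norm_nonneg (b - a))
    linarith

theorem exists_hasSlope {u : Eu d → ℝ} {Ω : Set (Eu d)} (hu : IsInfinityHarmonicOn u Ω)
    (hΩ : IsOpen Ω) {x : Eu d} (hx : x ∈ Ω) : ∃ S : ℝ, HasSlope u Ω x S := by
  obtain ⟨S, hS0, hSup, hSmin, hSlip⟩ := exists_upper_slope hu hΩ hx
  obtain ⟨S', hS0', hSup', hSmin', hSlip'⟩ := exists_upper_slope hu.neg hΩ hx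
  obtain ⟨r₀, hr₀, hr₀Ω⟩ := nhds_basis_closedBall.mem_iff.1 (hΩ.mem_nhds hx)
  have h1 : S' ≤ S := by
    refine le_of_forall_pos_le_add fun η hη => ?_
    obtain ⟨δ, hδ, hlip⟩ := hSlip η hη
    have hr : 0 < min (δ / 2) r₀ := by positivity
    refine hSmin' (S + η) (min (δ / 2) r₀) hr
      ((closedBall_subset_closedBall (min_le_right _ _)).trans hr₀Ω) ?_
    intro y hy
    rw [mem_closedBall, dist_eq_norm] at hy
    have hy' : ‖y - x‖ < δ := by
      have := min_le_left (δ / 2) r₀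
      linarith
    have := hlip x (by simpa using hδ) y hy'
    rw [norm_sub_rev] at this
    have h2 : (S + η) * ‖y - x‖ ≤ (S + η) * min (δ / 2) r₀ :=
      mul_le_mul_of_nonneg_left hy (by linarith)
    linarith
  have h2 : S ≤ S' := by
    refine le_of_forall_pos_le_add fun η hη => ?_
    obtain ⟨δ, hδ, hlip⟩ := hSlip' η hη
    have hr : 0 < min (δ / 2) r₀ := by positivity
    refine hSmin (S' + η) (min (δ / 2) r₀) hr
      ((closedBall_subset_closedBall (min_le_right _ _)).trans hr₀Ω) ?_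
    intro y hy
    rw [mem_closedBall, dist_eq_norm] at hy
    have hy' : ‖y - x‖ < δ := by
      have := min_le_left (δ / 2) r₀
      linarith
    have := hlip x (by simpa using hδ) y hy'
    rw [norm_sub_rev] at this
    have h2 : (S' + η) * ‖y - x‖ ≤ (S' + η) * min (δ / 2) r₀ :=
      mul_le_mul_of_nonneg_left hy (by linarith)
    linarith
  have e : S' = S := le_antisymm h1 h2
  subst e
  refine ⟨S', hS0, hSup, ?_, hSlip⟩
  intro r hr hrΩ
  obtain ⟨z, hz, hz'⟩ := hSup' r hr hrΩ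
  exact ⟨z, hz, by linarith⟩

end Vale.Agent.P080
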